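import Vale.Agent.P161E.Basic

/-! General probability tools.
`freeze`: `indepFun_iff_map_prod_eq_prod_map_map`, `integral_map`, `integral_prod_symm`.
`indep_update`: from `iIndepFun_infinitePi` and `indep_iSup_of_disjoint` (or `iIndepFun.finsets`);
alternatively compare both sides on boxes.
`condExp_comp'`: `ae_eq_condExp_of_forall_setIntegral_eq`, every `G`-set `s` is `Tm ⁻¹' (S ⁻¹' s)`.
`dv_le`: expand `f - Z = (f - P[f|G]) + (P[f|G] - Z)`; the cross term vanishes (`orth`). -/

namespace Vale.Agent.P161E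

open MeasureTheory ProbabilityTheory Function

variable {Ω : Type} {G : MeasurableSpace Ω} [m0 : MeasurableSpace Ω] {P : Measure Ω}
  [IsProbabilityMeasure P] {f Z : Ω → ℝ}

omit m0 in
lemma BM.mono {m m' : MeasurableSpace Ω} (h : BM m f) (hm : m ≤ m') : BM m' f :=
  ⟨h.meas.mono hm le_rfl, h.bdd⟩

omit m0 in
lemma BM.const (c : ℝ) : BM G fun _ => c :=
  ⟨measurable_const, |c|, fun _ => le_rfl⟩

omit m0 in
lemma BM.add (h : BM G f) (h' : BM G Z) : BM G fun ω => f ω + Z ω := by
  obtain ⟨C, hC⟩ := h.bdd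
  obtain ⟨D, hD⟩ := h'.bdd
  exact ⟨h.meas.add h'.meas, C + D, fun ω => (abs_add_le _ _).trans (add_le_add (hC ω) (hD ω))⟩

omit m0 in
lemma BM.sub (h : BM G f) (h' : BM G Z) : BM G fun ω => f ω - Z ω := by
  obtain ⟨C, hC⟩ := h.bdd
  obtain ⟨D, hD⟩ := h'.bdd
  exact ⟨h.meas.sub h'.meas, C + D, fun ω => (abs_sub _ _).trans (add_le_add (hC ω) (hD ω))⟩

omit m0 in
lemma BM.mul (h : BM G f) (h' : BM G Z) : BM G fun ω => f ω * Z ω := by
  obtain ⟨C, hC⟩ := h.bdd
  obtain ⟨D, hD⟩ := h'.bdd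
  refine ⟨h.meas.mul h'.meas, C * D, fun ω => ?_⟩
  rw [abs_mul]
  exact mul_le_mul (hC ω) (hD ω) (abs_nonneg _) ((abs_nonneg _).trans (hC ω))

omit m0 in
lemma BM.pow (h : BM G f) (n : ℕ) : BM G fun ω => f ω ^ n := by
  obtain ⟨C, hC⟩ := h.bdd
  refine ⟨h.meas.pow_const n, C ^ n, fun ω => ?_⟩
  rw [abs_pow]
  exact pow_le_pow_left₀ (abs_nonneg _) (hC ω) n

omit m0 in
lemma BM.abs (h : BM G f) : BM G fun ω => |f ω| := by
  obtain ⟨C, hC⟩ := h.bdd
  exact ⟨continuous_abs.measurable.comp h.meas, C, fun ω => by rw [abs_abs]; exact hC ω⟩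

omit m0 in
lemma BM.sum {ι : Type*} (s : Finset ι) {F : ι → Ω → ℝ} (h : ∀ i ∈ s, BM G (F i)) :
    BM G fun ω => ∑ i ∈ s, F i ω := by
  classical
  induction s using Finset.induction_on with
  | empty => simpa using BM.const (G := G) 0
  | insert a s ha ih =>
    simp only [Finset.sum_insert ha]
    exact (h a (Finset.mem_insert_self a s)).add
      (ih fun i hi => h i (Finset.mem_insert_of_mem hi))

omit m0 in
lemma BM.comp {Ω' : Type} {m' : MeasurableSpace Ω'} (h : BM G f) {Tm : Ω' → Ω}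
    (hT : Measurable[m', G] Tm) : BM m' fun ω => f (Tm ω) := by
  obtain ⟨C, hC⟩ := h.bdd
  exact ⟨h.meas.comp hT, C, fun ω => hC _⟩

omit m0 in
lemma BM.cont (h : BM G f) {φ : ℝ → ℝ} (hφ : Continuous φ) : BM G fun ω => φ (f ω) := by
  obtain ⟨C, hC⟩ := h.bdd
  obtain ⟨D, hD⟩ := (isCompact_Icc (a := -C) (b := C)).exists_bound_of_continuousOn
    hφ.continuousOn
  exact ⟨hφ.measurable.comp h.meas, D, fun ω => hD _ (abs_le.1 (hC ω))⟩

lemma BM.integrable (h : BM m0 f) : Integrable f P := by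
  obtain ⟨C, hC⟩ := h.bdd
  exact Integrable.of_bound h.meas.aestronglyMeasurable C (ae_of_all _ hC)

lemma freeze {E E' : Type} [MeasurableSpace E] [MeasurableSpace E'] {X : Ω → E} {Y : Ω → E'}
    (hX : Measurable X) (hY : Measurable Y) (h : IndepFun X Y P) {F : E × E' → ℝ}
    (hF : BM inferInstance F) :
    ∫ ω, F (X ω, Y ω) ∂P = ∫ ω, (∫ ω', F (X ω', Y ω) ∂P) ∂P := by
  have hmap := h.map_prod_eq_prod_map_map hX.aemeasurable hY.aemeasurable
  have : IsProbabilityMeasure (P.map X) := Measure.isProbabilityMeasure_map hX.aemeasurable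
  have : IsProbabilityMeasure (P.map Y) := Measure.isProbabilityMeasure_map hY.aemeasurable
  have h1 : ∫ ω, F (X ω, Y ω) ∂P = ∫ p, F p ∂(P.map fun ω => (X ω, Y ω)) :=
    (integral_map (hX.prodMk hY).aemeasurable hF.meas.aestronglyMeasurable).symm
  have hint : Integrable F ((P.map X).prod (P.map Y)) := by
    obtain ⟨C, hC⟩ := hF.bdd
    exact Integrable.of_bound hF.meas.aestronglyMeasurable C (ae_of_all _ hC)
  rw [h1, hmap, integral_prod_symm F hint, integral_map hY.aemeasurable
    hF.meas.stronglyMeasurable.integral_prod_left'.aestronglyMeasurable]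
  refine integral_congr_ae (ae_of_all _ fun ω => ?_)
  exact integral_map hX.aemeasurable
    (hF.meas.comp (measurable_id.prodMk measurable_const)).aestronglyMeasurable

lemma indep_update {ι : Type} [DecidableEq ι] (a : ι) (u : unitInterval) :
    IndepFun (fun τ : ι → unitInterval => τ a) (fun τ => update τ a u) (iid ι) := by
  have h0 : iIndepFun (fun (i : ι) (τ : ι → unitInterval) => τ i) (iid ι) :=
    iIndepFun_infinitePi (P := fun _ : ι => (volume : Measure unitInterval))
      (X := fun _ x => x) fun _ => measurable_id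
  have h1 := indep_iSup_of_disjoint (fun i => (measurable_pi_apply i).comap_le) h0.iIndep
    (S := {a}) (T := {a}ᶜ) disjoint_compl_right
  rw [IndepFun_iff_Indep]
  refine indep_of_indep_of_le_right (indep_of_indep_of_le_left h1 ?_) ?_
  · exact le_iSup₂_of_le a rfl le_rfl
  · refine Measurable.comap_le ?_
    refine @measurable_pi_lambda _ _ _ (_) _ _ fun i => ?_
    by_cases hi : i = a
    · subst hi
      simp only [update_self]
      exact measurable_const
    · simp only [update_of_ne hi]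
      exact Measurable.mono (comap_measurable _) (le_iSup₂_of_le i hi le_rfl) le_rfl

/-- Integrating out one uniform coordinate. -/
lemma integral_coord {ι : Type} [DecidableEq ι] (a : ι) {F : unitInterval × (ι → unitInterval) → ℝ}
    (hF : BM inferInstance F) (hu : ∀ u u' τ, F (u, update τ a u') = F (u, τ)) :
    ∫ τ, F (τ a, τ) ∂iid ι = ∫ τ, (∫ u, F (u, τ)) ∂iid ι := by
  have h1 := freeze (measurable_pi_apply a) (measurable_update_left (a := a) (x := 0))
    (indep_update a 0) hF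
  simp only [hu] at h1
  rw [h1]
  refine integral_congr_ae (ae_of_all _ fun τ => ?_)
  have h2 : (iid ι).map (fun τ => τ a) = volume :=
    Measure.infinitePi_map_eval (fun _ : ι => (volume : Measure unitInterval)) a
  have h3 := integral_map (μ := iid ι) (measurable_pi_apply a).aemeasurable
    (f := fun u => F (u, τ))
    (hF.meas.comp (measurable_id.prodMk measurable_const)).aestronglyMeasurable
  rw [h2] at h3
  exact h3.symm

/-- A bounded version of the conditional expectation. -/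
lemma exists_condExp (hG : G ≤ m0) {a b : ℝ} (hf : Measurable f) (hab : ∀ ω, a ≤ f ω ∧ f ω ≤ b) :
    ∃ g : Ω → ℝ, Measurable[G] g ∧ (∀ ω, a ≤ g ω ∧ g ω ≤ b) ∧ g =ᵐ[P] P[f|G] := by
  obtain ⟨ω0⟩ : Nonempty Ω := nonempty_of_isProbabilityMeasure P
  have hle : a ≤ b := (hab ω0).1.trans (hab ω0).2
  have hint : Integrable f P := BM.integrable ⟨hf, max |a| |b|, fun ω =>
    abs_le_max_abs_abs (hab ω).1 (hab ω).2⟩
  refine ⟨fun ω => max a (min b ((P[f|G]) ω)), ?_, fun ω => ⟨le_max_left _ _,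
    max_le hle (min_le_left _ _)⟩, ?_⟩
  · exact measurable_const.max (measurable_const.min stronglyMeasurable_condExp.measurable)
  · have h1 := condExp_mono (m := G) (integrable_const a) hint (ae_of_all _ fun ω => (hab ω).1)
    have h2 := condExp_mono (m := G) hint (integrable_const b) (ae_of_all _ fun ω => (hab ω).2)
    rw [condExp_const hG] at h1 h2
    filter_upwards [h1, h2] with ω h1 h2
    rw [min_eq_right h2, max_eq_right h1]

lemma condExp_comp' (hG : G ≤ m0) {Tm S : Ω → Ω} (hT : MeasurePreserving Tm P P)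
    (hTG : Measurable[G, G] Tm) (hSG : Measurable[G, G] S) (h1 : ∀ ω, S (Tm ω) = ω)
    (hf : Integrable f P) : P[fun ω => f (Tm ω)|G] =ᵐ[P] fun ω => (P[f|G]) (Tm ω) := by
  have key : ∀ {g : Ω → ℝ}, Integrable g P → ∀ s, MeasurableSet[G] s →
      ∫ ω in s, g (Tm ω) ∂P = ∫ ω in S ⁻¹' s, g ω ∂P := by
    intro g hg s hs
    have h2 := setIntegral_map (μ := P) (g := Tm) (f := g) (hG _ (hSG hs))
      (by rw [hT.map_eq]; exact hg.aestronglyMeasurable) hT.measurable.aemeasurable
    rw [hT.map_eq] at h2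
    rw [h2]
    congr 2
    ext ω
    simp [h1]
  refine (ae_eq_condExp_of_forall_setIntegral_eq hG (hT.integrable_comp_of_integrable hf)
    (fun s _ _ => (hT.integrable_comp_of_integrable integrable_condExp).integrableOn)
    (fun s hs _ => ?_) ?_).symm
  · simp only [Function.comp_apply]
    rw [key integrable_condExp s hs, key hf s hs, setIntegral_condExp hG hf (hSG hs)]
  · exact (stronglyMeasurable_condExp.comp_measurable hTG).aestronglyMeasurable

lemma orth (hG : G ≤ m0) (hf : BM m0 f) (hZ : BM G Z) :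
    ∫ ω, f ω * Z ω ∂P = ∫ ω, (P[f|G]) ω * Z ω ∂P := by
  have h1 := condExp_mul_of_stronglyMeasurable_right (μ := P) (f := f)
    hZ.meas.stronglyMeasurable (hf.mul (hZ.mono hG)).integrable hf.integrable
  have h2 := integral_condExp (μ := P) (f := f * Z) hG
  exact h2.symm.trans (integral_congr_ae h1)

lemma dv_nonneg : 0 ≤ dv P G f := integral_nonneg fun _ => sq_nonneg _

lemma dv_le (hG : G ≤ m0) (hf : BM m0 f) (hZ : BM G Z) :
    dv P G f ≤ ∫ ω, (f ω - Z ω) ^ 2 ∂P := by
  obtain ⟨C, hC⟩ := hf.bdd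
  obtain ⟨g, hgm, hgb, hg⟩ := exists_condExp (P := P) hG hf.meas fun ω => abs_le.1 (hC ω)
  have hgG : BM G g := ⟨hgm, C, fun ω => abs_le.2 (hgb ω)⟩
  have hg0 : BM m0 g := hgG.mono hG
  have hZ0 : BM m0 Z := hZ.mono hG
  have e1 : dv P G f = ∫ ω, (f ω - g ω) ^ 2 ∂P := by
    refine integral_congr_ae ?_
    filter_upwards [hg] with ω hω
    rw [hω]
  have e2 : ∫ ω, f ω * (g ω - Z ω) ∂P = ∫ ω, g ω * (g ω - Z ω) ∂P := by
    rw [orth hG hf (hgG.sub hZ)]
    refine integral_congr_ae ?_
    filter_upwards [hg] with ω hω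
    rw [hω]
  have i1 : Integrable (fun ω => (f ω - g ω) ^ 2) P := ((hf.sub hg0).pow 2).integrable
  have i2 : Integrable (fun ω => f ω * (g ω - Z ω)) P := (hf.mul (hg0.sub hZ0)).integrable
  have i3 : Integrable (fun ω => g ω * (g ω - Z ω)) P := (hg0.mul (hg0.sub hZ0)).integrable
  have i4 : Integrable (fun ω => 2 * (f ω * (g ω - Z ω) - g ω * (g ω - Z ω))) P :=
    (i2.sub i3).const_mul 2
  have e3 : ∫ ω, ((f ω - g ω) ^ 2 + 2 * (f ω * (g ω - Z ω) - g ω * (g ω - Z ω))) ∂P
      = ∫ ω, (f ω - g ω) ^ 2 ∂P := by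
    rw [integral_add i1 i4, integral_const_mul, integral_sub i2 i3, e2]
    ring
  rw [e1, ← e3]
  refine integral_mono (i1.add i4) ((hf.sub hZ0).pow 2).integrable
    fun ω => ?_
  have := sq_nonneg (g ω - Z ω)
  simp only
  nlinarith

lemma dv_comp (hG : G ≤ m0) {Tm S : Ω → Ω} (hT : MeasurePreserving Tm P P)
    (hTG : Measurable[G, G] Tm) (hSG : Measurable[G, G] S) (h1 : ∀ ω, S (Tm ω) = ω)
    (hf : BM m0 f) : dv P G (fun ω => f (Tm ω)) = dv P G f := by
  have h2 := condExp_comp' hG hT hTG hSG h1 hf.integrable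
  have hm : AEStronglyMeasurable (fun ω => (f ω - (P[f|G]) ω) ^ 2) (P.map Tm) :=
    ((hf.meas.sub (stronglyMeasurable_condExp.mono hG).measurable).pow_const 2).aestronglyMeasurable
  have h3 := integral_map hT.measurable.aemeasurable hm
  rw [hT.map_eq] at h3
  unfold dv
  rw [h3]
  refine integral_congr_ae ?_
  filter_upwards [h2] with ω hω
  rw [hω]

lemma ae_eq_of_dv (hf : BM m0 f) (h : dv P G f ≤ 0) : f =ᵐ[P] P[f|G] := by
  obtain ⟨C, hC⟩ := hf.bdd
  have hb : ∀ᵐ ω ∂P, |(P[f|G]) ω| ≤ C := ae_bdd_abs_condExp_of_ae_bdd_abs (ae_of_all _ hC)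
  have hm : AEStronglyMeasurable (fun ω => f ω - (P[f|G]) ω) P :=
    hf.meas.aestronglyMeasurable.sub integrable_condExp.aestronglyMeasurable
  have hint : Integrable (fun ω => (f ω - (P[f|G]) ω) ^ 2) P := by
    refine Integrable.of_bound (hm.pow 2) ((C + C) ^ 2) ?_
    filter_upwards [hb] with ω hω
    rw [Real.norm_eq_abs, abs_pow]
    exact pow_le_pow_left₀ (abs_nonneg _) ((abs_sub _ _).trans (add_le_add (hC ω) hω)) 2
  have h0 : ∫ ω, (f ω - (P[f|G]) ω) ^ 2 ∂P = 0 := le_antisymm h dv_nonneg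
  rw [integral_eq_zero_iff_of_nonneg (fun ω => sq_nonneg _) hint] at h0
  filter_upwards [h0] with ω hω
  have : (f ω - (P[f|G]) ω) ^ 2 = 0 := hω
  exact sub_eq_zero.1 (pow_eq_zero_iff two_ne_zero |>.1 this)

/-- Tail of a conditional expectation: `P[f|G] ≤ l + P[(f - l)₊|G]` and Markov. -/
lemma tail_condExp (hG : G ≤ m0) (hf : Measurable f) {C l t : ℝ} (h : ∀ ω, 0 ≤ f ω ∧ f ω ≤ C)
    (hl : 0 ≤ l) (ht : 0 < t) :
    P.real {ω | l + t < (P[f|G]) ω} ≤ C / t * P.real {ω | l < f ω} := by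
  obtain ⟨ω0⟩ : Nonempty Ω := nonempty_of_isProbabilityMeasure P
  have hC : 0 ≤ C := (h ω0).1.trans (h ω0).2
  have hs : MeasurableSet {ω | l < f ω} := measurableSet_lt measurable_const hf
  set k : Ω → ℝ := {ω | l < f ω}.indicator fun _ => C with hk
  have hki : Integrable k P := (integrable_const C).indicator hs
  have hfi : Integrable f P := BM.integrable ⟨hf, C, fun ω =>
    abs_le.2 ⟨by linarith [(h ω).1], (h ω).2⟩⟩
  have hle : f ≤ᵐ[P] (fun _ => l) + k := by
    refine ae_of_all _ fun ω => ?_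
    by_cases hω : l < f ω
    · have : k ω = C := Set.indicator_of_mem (s := {ω | l < f ω}) hω _
      simp only [Pi.add_apply, this]
      linarith [(h ω).2]
    · have : k ω = 0 := Set.indicator_of_notMem (s := {ω | l < f ω}) hω _
      simp only [Pi.add_apply, this]
      linarith [not_lt.1 hω]
  have h1 := condExp_mono (m := G) hfi ((integrable_const l).add hki) hle
  have h2 := condExp_add (integrable_const l) hki G
  rw [condExp_const hG] at h2
  have h3 : 0 ≤ᵐ[P] P[k|G] :=
    condExp_nonneg (ae_of_all _ fun ω => Set.indicator_nonneg (fun _ _ => hC) ω)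
  have h4 := mul_meas_ge_le_integral_of_nonneg h3 integrable_condExp t
  rw [integral_condExp hG, hk, integral_indicator hs, setIntegral_const, smul_eq_mul] at h4
  have h5 : P.real {ω | l + t < (P[f|G]) ω} ≤ P.real {ω | t ≤ (P[k|G]) ω} := by
    refine ENNReal.toReal_mono (measure_ne_top _ _) (measure_mono_ae ?_)
    filter_upwards [h1, h2] with ω h1 h2 hω
    have e : l + t < (P[f|G]) ω := hω
    rw [h2] at h1
    simp only [Pi.add_apply] at h1
    change t ≤ (P[k|G]) ω
    linarith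
  rw [div_mul_eq_mul_div, le_div_iff₀ ht]
  rw [← hk] at h4
  nlinarith

/-- Splitting an integral according to a threshold. -/
lemma integral_mul_le {g : Ω → ℝ} (hf : BM m0 f) (hg : BM m0 g) {C D l : ℝ} (hl : 0 ≤ l)
    (h : ∀ ω, 0 ≤ f ω ∧ f ω ≤ C) (h' : ∀ ω, 0 ≤ g ω ∧ g ω ≤ D) :
    ∫ ω, f ω * g ω ∂P ≤ l * ∫ ω, f ω ∂P + C * D * P.real {ω | l < g ω} := by
  have hs : MeasurableSet {ω | l < g ω} := measurableSet_lt measurable_const hg.meas
  set k : Ω → ℝ := {ω | l < g ω}.indicator fun _ => C * D with hk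
  have hki : Integrable k P := (integrable_const _).indicator hs
  have e : ∫ ω, (l * f ω + k ω) ∂P = l * ∫ ω, f ω ∂P + C * D * P.real {ω | l < g ω} := by
    rw [integral_add (hf.integrable.const_mul l) hki, integral_const_mul, hk,
      integral_indicator hs, setIntegral_const, smul_eq_mul]
    ring
  rw [← e]
  refine integral_mono (hf.mul hg).integrable ((hf.integrable.const_mul l).add hki) fun ω => ?_
  have h1 := h ω
  have h2 := h' ω
  by_cases hω : l < g ω
  · have : k ω = C * D := Set.indicator_of_mem (s := {ω | l < g ω}) hω _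
    simp only [this]
    have := mul_le_mul h1.2 h2.2 h2.1 (h1.1.trans h1.2)
    nlinarith [mul_nonneg hl h1.1]
  · have : k ω = 0 := Set.indicator_of_notMem (s := {ω | l < g ω}) hω _
    simp only [this]
    nlinarith [mul_le_mul_of_nonneg_left (not_lt.1 hω) h1.1]

/-- Conditional Jensen for the exponential (`ConvexOn.map_condExp_le_univ`). -/
lemma exp_condExp_le (hG : G ≤ m0) (hf : BM m0 f) :
    ∀ᵐ ω ∂P, Real.exp ((P[f|G]) ω) ≤ (P[fun ω => Real.exp (f ω)|G]) ω :=
  convexOn_exp.map_condExp_le_univ hG Real.continuous_exp.lowerSemicontinuous hf.integrable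
    (hf.cont Real.continuous_exp).integrable

end Vale.Agent.P161E
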