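import Vale.Agent.P161E.BP
import Vale.Agent.P161E.Tools

/-! Abstract setting for the rate estimate: a measure preserving action with an involution. -/

namespace Vale.Agent.P161E

open MeasureTheory Finset

/-- A measure preserving right action of the tree group, tempered on even functions. -/
structure Act (d : ℕ) {Ω : Type} {m0 : MeasurableSpace Ω} (P : Measure Ω) where
  sh : V d → Ω → Ω
  io : Ω → Ω
  mp : ∀ x, MeasurePreserving (sh x) P P
  sh_one : ∀ ω, sh 1 ω = ω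
  sh_mul : ∀ x y ω, sh y (sh x ω) = sh (x * y) ω
  mpi : MeasurePreserving io P P
  io_io : ∀ ω, io (io ω) = ω
  io_sh : ∀ x ω, sh x (io ω) = io (sh x ω)
  temp : ∀ f : Ω → ℝ, BM m0 f → (∀ ω, f (io ω) = f ω) → ∫ ω, f ω ∂P = 0 →
    ∀ (k : ℕ) (Q : Finset (V d)), Q ⊆ sph d k →
      ∫ ω, (∑ q ∈ Q, f (sh q ω)) ^ 2 ∂P ≤ NN d k * ∫ ω, f ω ^ 2 ∂P

variable {d : ℕ} {Ω : Type} {m0 : MeasurableSpace Ω} {P : Measure Ω}

/-- The equivariant edge function with values `e c` at the edges `(1, c)`. -/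
def Act.ext (A : Act d P) (e : Fin d → Ω → ℝ) (ω : Ω) : V d → Fin d → ℝ :=
  fun x c => e c (A.sh x ω)

/-- A family of edge functions with values in `[0, 1]`. -/
def Unit01 (m : MeasurableSpace Ω) (f : Fin d → Ω → ℝ) : Prop :=
  ∀ c, Measurable[m] (f c) ∧ ∀ ω, 0 ≤ f c ω ∧ f c ω ≤ 1

/-- `Γ` dominates the forward and backward sums of squared path products. -/
structure Act.Dom (A : Act d P) (θ : ℝ) (K : ℕ) (f : Fin d → Ω → ℝ) (Γ : Ω → ℝ) : Prop where
  meas : Measurable Γ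
  nonneg : ∀ ω, 0 ≤ Γ ω
  even : ∀ ω, Γ (A.io ω) = Γ ω
  fwd : ∀ᵐ ω ∂P, Gsum θ K (fun w => pprod (A.ext f ω) 1 w.1) ≤ Γ ω
  bwd : ∀ᵐ ω ∂P, Gsum θ K (fun w => pprod (A.ext f ω) w w⁻¹.1) ≤ Γ ω

/-- Cavity fields and a sub-sigma-algebra. -/
structure Sys (A : Act d P) (θ R : ℝ) where
  G : MeasurableSpace Ω
  h : Fin d → Ω → ℝ
  H : Ω → ℝ
  hG : G ≤ m0
  shG : ∀ x, Measurable[G, G] (A.sh x)
  ioG : Measurable[G, G] A.io
  mh : ∀ c, Measurable[m0] (h c)
  mH : Measurable[m0] H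
  h_io : ∀ c ω, h c (A.io ω) = -h c ω
  H_io : ∀ ω, H (A.io ω) = -H ω
  bh : ∀ c ω, |h c ω| ≤ R
  bH : ∀ ω, |H ω| ≤ R
  rel : ∀ᵐ ω ∂P, ∀ c, H ω = h c (A.sh (step c 1) ω) + msg θ (h c ω)

variable {A : Act d P} {θ R : ℝ}

/-- Magnetization at the root. -/
noncomputable def Sys.m (S : Sys A θ R) (ω : Ω) : ℝ := Real.tanh (S.H ω)

/-- Decay factor of an edge at the root. -/
noncomputable def Sys.f (S : Sys A θ R) (c : Fin d) (ω : Ω) : ℝ := phi θ (S.h c ω)

/-- Logarithm of the decay factor. -/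
noncomputable def Sys.la (S : Sys A θ R) (c : Fin d) (ω : Ω) : ℝ := lph θ (Real.tanh (S.h c ω))

/-- Decay factor of the path from the root to `w`. -/
noncomputable def Sys.r (S : Sys A θ R) (w : V d) (ω : Ω) : ℝ := pprod (A.ext S.f ω) 1 w.1

/-- Covariance of the root and `w`. -/
noncomputable def Sys.cv (S : Sys A θ R) (w : V d) (ω : Ω) : ℝ :=
  (1 - S.m ω ^ 2) * θ ^ len w * S.r w ω

/-- Mean conditional variance of the magnetization. -/
noncomputable def Sys.D (S : Sys A θ R) : ℝ := dv P S.G S.m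

lemma Act.ext_sh (A : Act d P) (e : Fin d → Ω → ℝ) (x : V d) (ω : Ω) :
    A.ext e (A.sh x ω) = fun y c => A.ext e ω (x * y) c := by
  funext y c; simp only [Act.ext, A.sh_mul]

lemma Act.pprod_sh (A : Act d P) (e : Fin d → Ω → ℝ) (x y : V d) (l : List (Fin d)) (ω : Ω) :
    pprod (A.ext e (A.sh x ω)) y l = pprod (A.ext e ω) (x * y) l := by
  rw [A.ext_sh, pprod_mul]

lemma Act.psum_sh (A : Act d P) (e : Fin d → Ω → ℝ) (x y : V d) (l : List (Fin d)) (ω : Ω) :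
    psum (A.ext e (A.sh x ω)) y l = psum (A.ext e ω) (x * y) l := by
  rw [A.ext_sh, psum_mul]

lemma Act.ext_io (A : Act d P) {e : Fin d → Ω → ℝ} (he : ∀ c ω, e c (A.io ω) = e c ω) (ω : Ω) :
    A.ext e (A.io ω) = A.ext e ω := by
  funext y c; simp only [Act.ext, A.io_sh, he]

lemma Act.sh_inv (A : Act d P) (x : V d) (ω : Ω) : A.sh x⁻¹ (A.sh x ω) = ω := by
  rw [A.sh_mul, mul_inv_cancel, A.sh_one]

lemma Act.sh_inv' (A : Act d P) (x : V d) (ω : Ω) : A.sh x (A.sh x⁻¹ ω) = ω := by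
  rw [A.sh_mul, inv_mul_cancel, A.sh_one]

lemma Act.integral_sh (A : Act d P) (x : V d) {F : Ω → ℝ} (hF : Measurable F) :
    ∫ ω, F (A.sh x ω) ∂P = ∫ ω, F ω ∂P := by
  rw [← integral_map (A.mp x).measurable.aemeasurable hF.aestronglyMeasurable, (A.mp x).map_eq]

lemma Act.ae_sh (A : Act d P) {p : Ω → Prop} (h : ∀ᵐ ω ∂P, p ω) : ∀ᵐ ω ∂P, ∀ x, p (A.sh x ω) :=
  ae_all_iff.2 fun x => (A.mp x).quasiMeasurePreserving.ae h

lemma Act.measurable_pprod (A : Act d P) {G : MeasurableSpace Ω}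
    (hG : ∀ x, Measurable[G, G] (A.sh x)) {e : Fin d → Ω → ℝ} (he : ∀ c, Measurable[G] (e c))
    (x : V d) (l : List (Fin d)) : Measurable[G] fun ω => pprod (A.ext e ω) x l := by
  induction l with
  | nil => exact measurable_const
  | cons c l ih => exact ih.mul ((he c).comp (hG _))

lemma Act.measurable_psum (A : Act d P) {G : MeasurableSpace Ω}
    (hG : ∀ x, Measurable[G, G] (A.sh x)) {e : Fin d → Ω → ℝ} (he : ∀ c, Measurable[G] (e c))
    (x : V d) (l : List (Fin d)) : Measurable[G] fun ω => psum (A.ext e ω) x l := by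
  induction l with
  | nil => exact measurable_const
  | cons c l ih => exact ih.add ((he c).comp (hG _))

lemma Act.pprod_mem (A : Act d P) {f : Fin d → Ω → ℝ} (hf : Unit01 m0 f) (x : V d)
    (l : List (Fin d)) (ω : Ω) : 0 ≤ pprod (A.ext f ω) x l ∧ pprod (A.ext f ω) x l ≤ 1 :=
  Vale.Agent.P161E.pprod_mem (fun _ c => (hf c).2 _) x l

lemma abs_psum_le {f : V d → Fin d → ℝ} {L : ℝ} (h : ∀ y c, |f y c| ≤ L) (x : V d)
    (l : List (Fin d)) : |psum f x l| ≤ l.length * L := by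
  induction l with
  | nil => simp [psum]
  | cons c l ih =>
    have := h (walk x l) c
    have h2 := abs_add_le (psum f x l) (f (walk x l) c)
    simp only [psum, List.length_cons, Nat.cast_add, Nat.cast_one]
    linarith

lemma Sys.unit01 (S : Sys A θ R) (h : Hyp d θ) : Unit01 m0 S.f := fun c =>
  ⟨measurable_phi.comp (S.mh c), fun _ => ⟨(phi_pos h _).le, phi_le_one h _⟩⟩

lemma Sys.f_io (S : Sys A θ R) (c : Fin d) (ω : Ω) : S.f c (A.io ω) = S.f c ω := by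
  simp only [Sys.f, S.h_io, phi_neg]

lemma Sys.la_io (S : Sys A θ R) (c : Fin d) (ω : Ω) : S.la c (A.io ω) = S.la c ω := by
  simp only [Sys.la, S.h_io, Real.tanh_neg, lph, neg_sq]

lemma Sys.m_BM (S : Sys A θ R) : BM m0 S.m :=
  ⟨continuous_tanh'.measurable.comp S.mH, 1, fun _ =>
    abs_le.2 ⟨(Real.neg_one_lt_tanh _).le, (Real.tanh_lt_one _).le⟩⟩

end Vale.Agent.P161E
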