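import Vale.Agent.P161E.Basic

/-! One-variable algebra.  Note `Hyp d θ` gives `θ ^ 2 ≤ 1 / 2`.
`abs_msg_le`: `artanh (θ t) ≤ θ artanh t` for `0 ≤ t < 1`, termwise from
`Real.hasSum_log_sub_log_of_abs_lt_one` (or convexity), and `artanh (tanh h) = h`.
`edge_id`: with `u = tanh a`, `v = tanh a'` both sides are `(1-u²)(1-v²)/(1+θ u v)²`.
`colip`: put `m = (v+θu)/(1+θuv)`, `n = (u+θv)/(1+θuv)`, `w = (1-θ²)/(1+θuv) ≥ 1/4`,
`P = n-θm = u w`, `Q = m-θn = v w`, `w² - (1-θ²) w + θ P Q = 0`.  For two points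
`(w-w')(w+w'-(1-θ²)) = -θ(PQ-P'Q')` and `w+w'-(1-θ²) ≥ (1-θ²)²/4`; so `u = P / w` is a Lipschitz
function of `(m, n)` on the image set; extend by `LipschitzOnWith.extend_real`.
`lph_lip`: `lph θ t = log (1-t²) - log (1-θ²t²)`, `|log x - log y| ≤ |x-y| / min x y`. -/

namespace Vale.Agent.P161E

open Filter Real

variable {d : ℕ} {θ : ℝ}

lemma Hyp.sq_le (h : Hyp d θ) : θ ^ 2 ≤ 1 / 2 := by
  have h3 : (3 : ℝ) ≤ d := by exact_mod_cast h.hd
  have := h.h1
  nlinarith [sq_nonneg θ]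

lemma Hyp.le (h : Hyp d θ) : θ ≤ 3 / 4 := by
  have := h.sq_le
  nlinarith [h.h0]

lemma sg_sq (b : Bool) : sg b ^ 2 = 1 := by cases b <;> simp [sg]

lemma sg_not (b : Bool) : sg (!b) = -sg b := by cases b <;> simp [sg]

lemma abs_sg (b : Bool) : |sg b| = 1 := by cases b <;> simp [sg]

lemma sg_beq (a b : Bool) : sg (a == b) = sg a * sg b := by cases a <;> cases b <;> simp [sg]

lemma tanh_add' (a b : ℝ) : tanh (a + b) = (tanh a + tanh b) / (1 + tanh a * tanh b) := by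
  have ha := (cosh_pos a).ne'
  have hb := (cosh_pos b).ne'
  have hab := (cosh_pos (a + b)).ne'
  rw [cosh_add] at hab
  rw [tanh_eq_sinh_div_cosh, tanh_eq_sinh_div_cosh, tanh_eq_sinh_div_cosh, sinh_add, cosh_add]
  have : 1 + sinh a / cosh a * (sinh b / cosh b) = (cosh a * cosh b + sinh a * sinh b) /
      (cosh a * cosh b) := by field_simp
  rw [this]
  field_simp

lemma tanh_mem (a : ℝ) : tanh a ∈ Set.Ioo (-1 : ℝ) 1 := ⟨neg_one_lt_tanh a, tanh_lt_one a⟩

lemma hasSum_artanh {x : ℝ} (h : |x| < 1) :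
    HasSum (fun k : ℕ => (2 : ℝ) * (1 / (2 * k + 1)) * x ^ (2 * k + 1)) (2 * artanh x) := by
  have h1 := abs_lt.1 h
  have := hasSum_log_sub_log_of_abs_lt_one h
  rw [artanh_eq_half_log ⟨h1.1.le, h1.2.le⟩, log_div (by linarith) (by linarith)]
  convert this using 1
  ring

lemma tanh_mono {a b : ℝ} (h : a ≤ b) : tanh a ≤ tanh b := by
  rw [← artanh_le_artanh_iff (tanh_mem a) (tanh_mem b), artanh_tanh, artanh_tanh]
  exact h

lemma tanh_nonneg' {a : ℝ} (h : 0 ≤ a) : 0 ≤ tanh a := by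
  simpa using tanh_mono h

lemma abs_tanh' (a : ℝ) : |tanh a| = tanh |a| := by
  rcases le_total 0 a with h | h
  · rw [abs_of_nonneg h, abs_of_nonneg (tanh_nonneg' h)]
  · have : tanh a ≤ 0 := by simpa using tanh_mono h
    rw [abs_of_nonpos h, abs_of_nonpos this, tanh_neg]

lemma le_artanh {x : ℝ} (h0 : 0 ≤ x) (h1 : x < 1) : x ≤ artanh x := by
  have hs := hasSum_artanh (x := x) (by rwa [abs_of_nonneg h0])
  have := le_hasSum hs 0 (fun k _ => by positivity)
  simp at this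
  linarith

lemma abs_tanh_le (a : ℝ) : |tanh a| ≤ |a| := by
  rw [abs_tanh']
  have := le_artanh (tanh_nonneg' (abs_nonneg a)) (tanh_lt_one _)
  rwa [artanh_tanh] at this

lemma tanh_sq_mono {a b : ℝ} (h : |a| ≤ |b|) : tanh a ^ 2 ≤ tanh b ^ 2 := by
  rw [sq_le_sq, abs_tanh', abs_tanh']
  exact tanh_mono h

lemma continuous_tanh' : Continuous tanh := by
  have : tanh = fun x => sinh x / cosh x := funext tanh_eq_sinh_div_cosh
  rw [this]
  exact continuous_sinh.div continuous_cosh fun x => (cosh_pos x).ne'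

lemma artanh_neg' (x : ℝ) : artanh (-x) = -artanh x := by
  have : (1 + -x) / (1 - -x) = ((1 + x) / (1 - x))⁻¹ := by
    rw [inv_div]; congr 1; ring
  rw [artanh, artanh, this, sqrt_inv, log_inv]

lemma abs_artanh' (x : ℝ) : |artanh x| = artanh |x| := by
  rcases le_total 0 x with h | h
  · rw [abs_of_nonneg h, abs_of_nonneg (artanh_nonneg h)]
  · rw [abs_of_nonpos h, abs_of_nonpos (artanh_nonpos h), artanh_neg']

lemma abs_artanh_le {x : ℝ} (h : |x| ≤ 1 / 2) : |artanh x| ≤ 2 * |x| := by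
  rw [abs_artanh']
  have h0 := abs_nonneg x
  generalize |x| = y at h h0
  rw [artanh_eq_half_log ⟨by linarith, by linarith⟩]
  have h1 : 0 < 1 - y := by linarith
  have h2 := log_le_sub_one_of_pos (x := (1 + y) / (1 - y)) (div_pos (by linarith) h1)
  have h3 : (1 + y) / (1 - y) ≤ 1 + 4 * y := by
    rw [div_le_iff₀ h1]; nlinarith
  linarith

lemma measurable_artanh : Measurable artanh := by
  unfold artanh
  fun_prop

/-- The likelihood of an observation in exponential form. -/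
lemma exp_artanh_sg {x : ℝ} (h : |x| < 1) (b : Bool) :
    exp (artanh x * sg b) * √(1 - x ^ 2) = 1 + x * sg b := by
  have h1 := abs_lt.1 h
  have hs : √(1 - x ^ 2) ≠ 0 := (sqrt_pos.2 (by nlinarith)).ne'
  cases b
  · simp only [sg, Bool.false_eq_true, if_false, mul_neg, mul_one]
    rw [← cosh_sub_sinh, cosh_artanh h1, sinh_artanh h1]
    field_simp
    ring
  · simp only [sg, if_true, mul_one]
    rw [← cosh_add_sinh, cosh_artanh h1, sinh_artanh h1]
    field_simp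

lemma abs_mul_tanh_le (h : Hyp d θ) (a : ℝ) : |θ * tanh a| ≤ 3 / 4 := by
  rw [abs_mul, abs_of_nonneg h.h0]
  have := (abs_tanh_lt_one a).le
  nlinarith [h.le, h.h0, abs_nonneg (tanh a)]

lemma mul_tanh_mem (h : Hyp d θ) (a : ℝ) : θ * tanh a ∈ Set.Ioo (-1 : ℝ) 1 := by
  have := abs_le.1 (abs_mul_tanh_le h a)
  constructor <;> linarith [this.1, this.2]

lemma tanh_msg (h : Hyp d θ) (a : ℝ) : tanh (msg θ a) = θ * tanh a :=
  tanh_artanh (mul_tanh_mem h a)

lemma msg_neg (a : ℝ) : msg θ (-a) = -msg θ a := by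
  rw [msg, msg, tanh_neg, mul_neg, artanh_neg']

@[simp] lemma msg_zero : msg θ 0 = 0 := by simp [msg]

lemma msg_sg (b : Bool) (a : ℝ) : msg θ (sg b * a) = sg b * msg θ a := by cases b <;> simp [sg, msg_neg]

lemma abs_msg_le (h : Hyp d θ) (a : ℝ) : |msg θ a| ≤ θ * |a| := by
  have h0 := h.h0
  have h1 : θ ≤ 1 := by linarith [h.le]
  rw [msg, abs_artanh', abs_mul, abs_of_nonneg h0, abs_tanh']
  have ht0 := tanh_nonneg' (abs_nonneg a)
  have ht1 := tanh_lt_one |a|
  have e : θ * |a| = θ * artanh (tanh |a|) := by rw [artanh_tanh]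
  rw [e]
  generalize tanh |a| = t at ht0 ht1
  have s1 := hasSum_artanh (x := θ * t) (by rw [abs_of_nonneg (by positivity)]; nlinarith)
  have s2 := (hasSum_artanh (x := t) (by rwa [abs_of_nonneg ht0])).mul_left θ
  have := hasSum_le (fun k => ?_) s1 s2
  · linarith
  · have hp : θ ^ (2 * k) ≤ 1 := pow_le_one₀ h0 h1
    have hq : 0 ≤ (2 : ℝ) * (1 / (2 * k + 1)) * t ^ (2 * k + 1) * θ := by positivity
    calc (2 : ℝ) * (1 / (2 * k + 1)) * (θ * t) ^ (2 * k + 1)
        = ((2 : ℝ) * (1 / (2 * k + 1)) * t ^ (2 * k + 1) * θ) * θ ^ (2 * k) := by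
          rw [mul_pow, pow_succ θ]; ring
      _ ≤ ((2 : ℝ) * (1 / (2 * k + 1)) * t ^ (2 * k + 1) * θ) * 1 :=
          mul_le_mul_of_nonneg_left hp hq
      _ = _ := by ring

lemma abs_msg_le_one (h : Hyp d θ) (a : ℝ) : |msg θ a| ≤ 1 := by
  rw [msg, abs_artanh']
  have h1 := abs_mul_tanh_le h a
  have h0 := abs_nonneg (θ * tanh a)
  refine (artanh_le_artanh (by linarith) (by norm_num) h1).trans ?_
  rw [artanh_eq_half_log ⟨by norm_num, by norm_num⟩]
  have : log ((1 + 3 / 4) / (1 - 3 / 4)) ≤ 2 := by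
    rw [log_le_iff_le_exp (by norm_num)]
    have h2 := exp_one_gt_d9
    have h3 : exp 2 = exp 1 * exp 1 := by rw [← exp_add]; norm_num
    rw [h3]
    nlinarith
  linarith

lemma msg_nonneg (h : Hyp d θ) {a : ℝ} (ha : 0 ≤ a) : 0 ≤ msg θ a :=
  artanh_nonneg (mul_nonneg h.h0 (tanh_nonneg' ha))

lemma continuous_msg (h : Hyp d θ) : Continuous (msg θ) := by
  unfold msg artanh
  have hc : Continuous fun a => θ * tanh a := continuous_const.mul continuous_tanh'
  refine Continuous.log (Continuous.sqrt ((continuous_const.add hc).div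
    (continuous_const.sub hc) fun a => ?_)) fun a => ?_
  · have := (mul_tanh_mem h a).2
    linarith
  · have := mul_tanh_mem h a
    exact (sqrt_pos.2 (div_pos (by linarith [this.1]) (by linarith [this.2]))).ne'

lemma measurable_msg : Measurable (msg θ) :=
  measurable_artanh.comp (measurable_const.mul continuous_tanh'.measurable)

lemma exp_msg (h : Hyp d θ) (a : ℝ) :
    exp (2 * msg θ a) * ((1 + θ) * exp (-a) + (1 - θ) * exp a) =
      (1 + θ) * exp a + (1 - θ) * exp (-a) := by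
  have hm := mul_tanh_mem h a
  have h1 : exp (2 * msg θ a) = (1 + θ * tanh a) / (1 - θ * tanh a) := by
    rw [two_mul, exp_add, msg, exp_artanh hm, mul_self_sqrt]
    exact (div_pos (by linarith [hm.1]) (by linarith [hm.2])).le
  have h2 : 1 - θ * tanh a ≠ 0 := by linarith [hm.2]
  have h3 : tanh a * (exp a + exp (-a)) = exp a - exp (-a) := by
    rw [tanh_eq]
    have : exp a + exp (-a) ≠ 0 := by positivity
    field_simp
  rw [h1, div_mul_eq_mul_div, div_eq_iff h2]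
  linear_combination (2 * θ) * h3

lemma den_pos (h : Hyp d θ) (a : ℝ) : 0 < 1 - θ ^ 2 * tanh a ^ 2 := by
  have := tanh_sq_lt_one a
  nlinarith [h.sq_le, sq_nonneg θ, sq_nonneg (tanh a)]

lemma phi_pos (h : Hyp d θ) (a : ℝ) : 0 < phi θ a :=
  div_pos (by linarith [tanh_sq_lt_one a]) (den_pos h a)

lemma phi_le_one (h : Hyp d θ) (a : ℝ) : phi θ a ≤ 1 := by
  rw [phi, div_le_one (den_pos h a)]
  nlinarith [h.sq_le, sq_nonneg (tanh a)]

lemma phi_le (h : Hyp d θ) (a : ℝ) : phi θ a ≤ 1 - tanh a ^ 2 / 2 := by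
  rw [phi, div_le_iff₀ (den_pos h a)]
  nlinarith [h.sq_le, sq_nonneg (tanh a), mul_nonneg (sq_nonneg θ) (sq_nonneg (tanh a ^ 2))]

lemma phi_neg (a : ℝ) : phi θ (-a) = phi θ a := by simp [phi]

lemma phi_sg (b : Bool) (a : ℝ) : phi θ (sg b * a) = phi θ a := by cases b <;> simp [sg, phi_neg]

lemma continuous_phi (h : Hyp d θ) : Continuous (phi θ) := by
  unfold phi
  exact (continuous_const.sub (continuous_tanh'.pow 2)).div
    (continuous_const.sub (continuous_const.mul (continuous_tanh'.pow 2)))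
    fun a => (den_pos h a).ne'

lemma measurable_phi : Measurable (phi θ) := by
  unfold phi
  have := continuous_tanh'.measurable
  fun_prop

lemma exp_lph (h : Hyp d θ) (a : ℝ) : exp (lph θ (tanh a)) = phi θ a :=
  exp_log (phi_pos h a)

lemma measurable_lph : Measurable (lph θ) := by
  unfold lph
  fun_prop

lemma abs_log_sub_le {x y m : ℝ} (hm : 0 < m) (hx : m ≤ x) (hy : m ≤ y) :
    |log x - log y| ≤ |x - y| / m := by
  have key : ∀ x y : ℝ, m ≤ x → m ≤ y → log x - log y ≤ |x - y| / m := by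
    intro x y hx hy
    have hx0 : 0 < x := by linarith
    have hy0 : 0 < y := by linarith
    rw [← log_div hx0.ne' hy0.ne']
    refine (log_le_sub_one_of_pos (div_pos hx0 hy0)).trans ?_
    have : x / y - 1 = (x - y) / y := by field_simp
    rw [this]
    calc (x - y) / y ≤ |x - y| / y := div_le_div_of_nonneg_right (le_abs_self _) hy0.le
      _ ≤ |x - y| / m := div_le_div_of_nonneg_left (abs_nonneg _) hm hy
  rw [abs_le]
  refine ⟨?_, key x y hx hy⟩
  have := key y x hy hx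
  rw [abs_sub_comm] at this
  linarith

lemma lph_lip (R : ℝ) : ∃ L : ℝ, 0 ≤ L ∧ ∀ θ : ℝ, θ ^ 2 ≤ 1 / 2 → ∀ s t : ℝ, |s| ≤ tanh R →
    |t| ≤ tanh R → |lph θ s - lph θ t| ≤ L * (|s| + |t|) * |s - t| ∧ |lph θ s| ≤ L := by
  have hm : 0 < 1 - tanh R ^ 2 := by linarith [tanh_sq_lt_one R]
  have key : ∀ θ : ℝ, θ ^ 2 ≤ 1 / 2 → ∀ s t : ℝ, |s| ≤ tanh R → |t| ≤ tanh R →
      |lph θ s - lph θ t| ≤ (1 / (1 - tanh R ^ 2) + 1) * (|s| + |t|) * |s - t| := by
    intro θ hθ s t hs ht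
    have hs2 : s ^ 2 ≤ tanh R ^ 2 := by
      rw [← sq_abs s]; exact pow_le_pow_left₀ (abs_nonneg _) hs 2
    have ht2 : t ^ 2 ≤ tanh R ^ 2 := by
      rw [← sq_abs t]; exact pow_le_pow_left₀ (abs_nonneg _) ht 2
    have hs3 : 1 / 2 ≤ 1 - θ ^ 2 * s ^ 2 := by nlinarith [sq_nonneg θ, sq_nonneg s]
    have ht3 : 1 / 2 ≤ 1 - θ ^ 2 * t ^ 2 := by nlinarith [sq_nonneg θ, sq_nonneg t]
    have a1 := abs_log_sub_le (x := 1 - s ^ 2) (y := 1 - t ^ 2) hm (by linarith) (by linarith)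
    have a2 := abs_log_sub_le (m := 1 / 2) (by norm_num) hs3 ht3
    have e1 : |1 - s ^ 2 - (1 - t ^ 2)| = |s + t| * |s - t| := by
      rw [← abs_mul, ← abs_neg]; congr 1; ring
    have e2 : |1 - θ ^ 2 * s ^ 2 - (1 - θ ^ 2 * t ^ 2)| = θ ^ 2 * (|s + t| * |s - t|) := by
      have e : 1 - θ ^ 2 * s ^ 2 - (1 - θ ^ 2 * t ^ 2) = -(θ ^ 2 * ((s + t) * (s - t))) := by ring
      rw [e, abs_neg, abs_mul, abs_mul, abs_of_nonneg (sq_nonneg θ)]
    rw [e1] at a1
    rw [e2] at a2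
    have b1 : |s + t| * |s - t| ≤ (|s| + |t|) * |s - t| :=
      mul_le_mul_of_nonneg_right (abs_add_le _ _) (abs_nonneg _)
    have b0 : 0 ≤ |s + t| * |s - t| := by positivity
    have e3 : lph θ s - lph θ t = (log (1 - s ^ 2) - log (1 - t ^ 2)) -
        (log (1 - θ ^ 2 * s ^ 2) - log (1 - θ ^ 2 * t ^ 2)) := by
      rw [lph, lph, log_div (by linarith) (by linarith), log_div (by linarith) (by linarith)]
      ring
    rw [e3]
    refine (abs_sub _ _).trans ?_
    have c1 : |s + t| * |s - t| / (1 - tanh R ^ 2) ≤ (|s| + |t|) * |s - t| / (1 - tanh R ^ 2) :=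
      div_le_div_of_nonneg_right b1 hm.le
    have c2 : θ ^ 2 * (|s + t| * |s - t|) / (1 / 2) ≤ (|s| + |t|) * |s - t| := by
      rw [div_le_iff₀ (by norm_num)]
      nlinarith
    have e4 : (1 / (1 - tanh R ^ 2) + 1) * (|s| + |t|) * |s - t| =
        (|s| + |t|) * |s - t| / (1 - tanh R ^ 2) + (|s| + |t|) * |s - t| := by ring
    rw [e4]
    linarith
  have hL : 0 ≤ 1 / (1 - tanh R ^ 2) + 1 := by positivity
  refine ⟨_, hL, fun θ hθ s t hs ht => ⟨key θ hθ s t hs ht, ?_⟩⟩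
  have h0 := key θ hθ s 0 hs (by simpa using (abs_nonneg s).trans hs)
  have e0 : lph θ 0 = 0 := by simp [lph]
  rw [e0, sub_zero, abs_zero, add_zero, sub_zero] at h0
  have hs1 : |s| ≤ 1 := hs.trans (tanh_lt_one R).le
  have : |s| * |s| ≤ 1 := mul_le_one₀ hs1 (abs_nonneg _) hs1
  nlinarith

lemma den2_pos (h : Hyp d θ) (a a' : ℝ) : 0 < 1 + tanh a' * (θ * tanh a) := by
  have h1 := abs_mul_tanh_le h a
  have h2 := (abs_tanh_lt_one a').le
  have : |tanh a' * (θ * tanh a)| ≤ 3 / 4 := by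
    rw [abs_mul]
    nlinarith [abs_nonneg (tanh a'), abs_nonneg (θ * tanh a)]
  linarith [(abs_le.1 this).1]

lemma edge_id (h : Hyp d θ) (a a' : ℝ) :
    (1 - tanh (a' + msg θ a) ^ 2) * phi θ a = (1 - tanh (a + msg θ a') ^ 2) * phi θ a' := by
  rw [tanh_add', tanh_add', tanh_msg h, tanh_msg h, phi, phi]
  have h1 := (den2_pos h a a').ne'
  have h2 := (den2_pos h a' a).ne'
  have h3 := (den_pos h a).ne'
  have h4 := (den_pos h a').ne'
  have e : 1 + tanh a * (θ * tanh a') = 1 + tanh a' * (θ * tanh a) := by ring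
  rw [e]
  generalize tanh a = u at *
  generalize tanh a' = v at *
  have e1 : 1 - ((v + θ * u) / (1 + v * (θ * u))) ^ 2 =
      (1 - v ^ 2) * (1 - θ ^ 2 * u ^ 2) / (1 + v * (θ * u)) ^ 2 := by
    rw [div_pow, one_sub_div (pow_ne_zero 2 h1)]
    congr 1
    ring
  have e2 : 1 - ((u + θ * v) / (1 + v * (θ * u))) ^ 2 =
      (1 - u ^ 2) * (1 - θ ^ 2 * v ^ 2) / (1 + v * (θ * u)) ^ 2 := by
    rw [div_pow, one_sub_div (pow_ne_zero 2 h1)]
    congr 1
    ring
  rw [e1, e2]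
  generalize 1 + v * (θ * u) = D at *
  generalize 1 - θ ^ 2 * u ^ 2 = A at *
  generalize 1 - θ ^ 2 * v ^ 2 = B at *
  field_simp

lemma colip_aux (h0 : 0 ≤ θ) (h1 : θ ≤ 3 / 4) {u v w u' v' w' δ : ℝ} (hu : |u| ≤ 1) (hv : |v| ≤ 1)
    (hu' : |u'| ≤ 1) (hv' : |v'| ≤ 1) (hw : w * (1 + v * (θ * u)) = 1 - θ ^ 2)
    (hw' : w' * (1 + v' * (θ * u')) = 1 - θ ^ 2) (hP : |u * w - u' * w'| ≤ 2 * δ)
    (hQ : |v * w - v' * w'| ≤ 2 * δ) : |u - u'| ≤ 10000 * δ := by
  have hδ : 0 ≤ δ := by linarith [abs_nonneg (u * w - u' * w')]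
  have bd : ∀ u v w : ℝ, |u| ≤ 1 → |v| ≤ 1 → w * (1 + v * (θ * u)) = 1 - θ ^ 2 →
      1 - θ ≤ w ∧ w ≤ 1 + θ := by
    intro u v w hu hv hw
    have huv : |v * u| ≤ 1 := by rw [abs_mul]; exact mul_le_one₀ hv (abs_nonneg _) hu
    have h2 := abs_le.1 huv
    have hD1 : 1 - θ ≤ 1 + v * (θ * u) := by nlinarith
    have hD2 : 1 + v * (θ * u) ≤ 1 + θ := by nlinarith
    have hD : 0 < 1 + v * (θ * u) := by linarith
    constructor
    · refine le_of_mul_le_mul_right ?_ hD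
      rw [hw]; nlinarith
    · refine le_of_mul_le_mul_right ?_ hD
      rw [hw]; nlinarith
  obtain ⟨a1, a2⟩ := bd u v w hu hv hw
  obtain ⟨b1, b2⟩ := bd u' v' w' hu' hv' hw'
  have e1 : (w - w') * (w + w' - (1 - θ ^ 2)) =
      -θ * ((u * w) * (v * w - v' * w') + (v' * w') * (u * w - u' * w')) := by
    linear_combination w * hw - w' * hw'
  have g1 : 1 / 16 ≤ w + w' - (1 - θ ^ 2) := by nlinarith
  have p1 : |u * w| ≤ 2 := by
    rw [abs_mul, abs_of_nonneg (by linarith : 0 ≤ w)]; nlinarith [abs_nonneg u]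
  have p2 : |v' * w'| ≤ 2 := by
    rw [abs_mul, abs_of_nonneg (by linarith : 0 ≤ w')]; nlinarith [abs_nonneg v']
  have p3 : |(u * w) * (v * w - v' * w') + (v' * w') * (u * w - u' * w')| ≤ 8 * δ := by
    refine (abs_add_le _ _).trans ?_
    rw [abs_mul (u * w), abs_mul (v' * w')]
    have q1 := mul_le_mul p1 hQ (abs_nonneg _) (by norm_num)
    have q2 := mul_le_mul p2 hP (abs_nonneg _) (by norm_num)
    linarith
  have p4 : |w - w'| * (w + w' - (1 - θ ^ 2)) ≤ 8 * δ := by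
    rw [← abs_of_nonneg (by linarith : 0 ≤ w + w' - (1 - θ ^ 2)), ← abs_mul, e1, abs_mul, abs_neg,
      abs_of_nonneg h0]
    nlinarith [abs_nonneg ((u * w) * (v * w - v' * w') + (v' * w') * (u * w - u' * w'))]
  have p5 : |w - w'| ≤ 128 * δ := by nlinarith [abs_nonneg (w - w')]
  have e2 : (u - u') * w = (u * w - u' * w') - u' * (w - w') := by ring
  have p6 : |u - u'| * w ≤ 130 * δ := by
    rw [← abs_of_nonneg (by linarith : 0 ≤ w), ← abs_mul, e2]
    refine (abs_sub _ _).trans ?_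
    rw [abs_mul u']
    nlinarith [abs_nonneg (w - w'), abs_nonneg u']
  nlinarith [abs_nonneg (u - u')]

lemma colip_key (h : Hyp d θ) (a a' b b' : ℝ) : |tanh a - tanh b| ≤
    10000 * dist (tanh (a' + msg θ a), tanh (a + msg θ a'))
      (tanh (b' + msg θ b), tanh (b + msg θ b')) := by
  have h0 := h.h0
  have h1 := h.le
  have id1 : ∀ a a' : ℝ, tanh a * ((1 - θ ^ 2) / (1 + tanh a' * (θ * tanh a))) =
      tanh (a + msg θ a') - θ * tanh (a' + msg θ a) := by
    intro a a'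
    rw [tanh_add', tanh_add', tanh_msg h, tanh_msg h]
    have h2 := (den2_pos h a a').ne'
    have e : 1 + tanh a * (θ * tanh a') = 1 + tanh a' * (θ * tanh a) := by ring
    rw [e]
    field_simp
    ring
  have id2 : ∀ a a' : ℝ, tanh a' * ((1 - θ ^ 2) / (1 + tanh a' * (θ * tanh a))) =
      tanh (a' + msg θ a) - θ * tanh (a + msg θ a') := by
    intro a a'
    have e : 1 + tanh a' * (θ * tanh a) = 1 + tanh a * (θ * tanh a') := by ring
    rw [e, id1]
  set δ := dist (tanh (a' + msg θ a), tanh (a + msg θ a'))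
      (tanh (b' + msg θ b), tanh (b + msg θ b')) with hδ
  have d1 : |tanh (a' + msg θ a) - tanh (b' + msg θ b)| ≤ δ := by
    rw [hδ, Prod.dist_eq, ← Real.dist_eq]; exact le_max_left _ _
  have d2 : |tanh (a + msg θ a') - tanh (b + msg θ b')| ≤ δ := by
    rw [hδ, Prod.dist_eq, ← Real.dist_eq]; exact le_max_right _ _
  have aux : ∀ x y x' y' : ℝ, |x - x'| ≤ δ → |y - y'| ≤ δ →
      |x - θ * y - (x' - θ * y')| ≤ 2 * δ := by
    intro x y x' y' hx hy
    have e : x - θ * y - (x' - θ * y') = (x - x') - θ * (y - y') := by ring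
    rw [e]
    refine (abs_sub _ _).trans ?_
    rw [abs_mul, abs_of_nonneg h0]
    nlinarith [abs_nonneg (y - y')]
  refine colip_aux h0 h1 (v := tanh a') (v' := tanh b')
    (w := (1 - θ ^ 2) / (1 + tanh a' * (θ * tanh a)))
    (w' := (1 - θ ^ 2) / (1 + tanh b' * (θ * tanh b))) (abs_tanh_lt_one _).le
    (abs_tanh_lt_one _).le (abs_tanh_lt_one _).le (abs_tanh_lt_one _).le
    (div_mul_cancel₀ _ (den2_pos h a a').ne') (div_mul_cancel₀ _ (den2_pos h b b').ne') ?_ ?_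
  · rw [id1, id1]; exact aux _ _ _ _ d2 d1
  · rw [id2, id2]; exact aux _ _ _ _ d1 d2

lemma colip (h : Hyp d θ) : ∃ Ψ : ℝ × ℝ → ℝ, LipschitzWith 10000 Ψ ∧
    ∀ a a' : ℝ, Ψ (tanh (a' + msg θ a), tanh (a + msg θ a')) = tanh a := by
  let F : ℝ × ℝ → ℝ × ℝ := fun p => (tanh (p.2 + msg θ p.1), tanh (p.1 + msg θ p.2))
  have key : ∀ p q : ℝ × ℝ, |tanh p.1 - tanh q.1| ≤ 10000 * dist (F p) (F q) :=
    fun p q => colip_key h p.1 p.2 q.1 q.2
  have hL : LipschitzOnWith 10000 (fun z => tanh (Function.invFun F z).1) (Set.range F) := by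
    refine LipschitzOnWith.of_dist_le_mul fun x hx y hy => ?_
    have := key (Function.invFun F x) (Function.invFun F y)
    rw [Function.invFun_eq hx, Function.invFun_eq hy] at this
    simpa [Real.dist_eq] using this
  obtain ⟨g, hg, he⟩ := hL.extend_real
  refine ⟨g, hg, fun a a' => ?_⟩
  have h1 := he (Set.mem_range_self (f := F) (a, a'))
  have h2 := key (Function.invFun F (F (a, a'))) (a, a')
  rw [Function.invFun_eq (f := F) ⟨(a, a'), rfl⟩, dist_self, mul_zero] at h2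
  have h3 := sub_eq_zero.1 (abs_nonpos_iff.1 h2)
  exact h1.symm.trans h3

lemma mid_neg (a : ℕ → ℝ) : mid (fun n => -a n) = -mid a := by
  simp only [mid, neg_neg]
  ring

lemma mid_sg (b : Bool) (a : ℕ → ℝ) : mid (fun n => sg b * a n) = sg b * mid a := by
  cases b
  · simpa [sg] using mid_neg a
  · simp [sg]

lemma mid_eq {a : ℕ → ℝ} {l : ℝ} (h : Tendsto a atTop (nhds l)) : mid a = l := by
  rw [mid, h.limsup_eq, h.neg.limsup_eq]
  ring

lemma abs_mid_le {a : ℕ → ℝ} {B : ℝ} (h : ∀ n, |a n| ≤ B) : |mid a| ≤ B := by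
  have key : ∀ a : ℕ → ℝ, (∀ n, |a n| ≤ B) → |limsup a atTop| ≤ B := by
    intro a h
    have hb : IsBoundedUnder (· ≤ ·) atTop a := isBoundedUnder_of ⟨B, fun n => (abs_le.1 (h n)).2⟩
    have hc : IsBoundedUnder (· ≥ ·) atTop a :=
      isBoundedUnder_of ⟨-B, fun n => (abs_le.1 (h n)).1⟩
    rw [abs_le]
    constructor
    · exact le_limsup_of_frequently_le (Frequently.of_forall fun n => (abs_le.1 (h n)).1) hb
    · exact limsup_le_of_le hc.isCoboundedUnder_le
        (Eventually.of_forall fun n => (abs_le.1 (h n)).2)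
  have h1 := abs_le.1 (key a h)
  have h2 := abs_le.1 (key (fun n => -a n) fun n => by simpa using h n)
  rw [mid, abs_le]
  constructor <;> linarith [h1.1, h1.2, h2.1, h2.2]

lemma measurable_mid {Ω : Type*} [MeasurableSpace Ω] {a : ℕ → Ω → ℝ} (h : ∀ n, Measurable (a n)) :
    Measurable fun ω => mid fun n => a n ω := by
  unfold mid
  exact ((Measurable.limsup h).sub (Measurable.limsup fun n => (h n).neg)).div_const 2

end Vale.Agent.P161E
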