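import Vale.Agent.P161E.Tree
import Vale.Agent.P161E.Alg

/-! Deterministic facts on belief propagation.  All by induction on the depth `n` (generalizing the
edge) or on the list, using `Alg` and `Tree`.  `hh_aut`: use `aut_perm g (step c x)`; the colour
`c` is sent to `c'` since `g (step c (step c x)) = g x = step c' (step c' (g x))`. -/

namespace Vale.Agent.P161E

open Filter Finset Real

variable {d : ℕ} {θ B : ℝ} {X X' : V d → ℝ}

lemma abs_sum_msg_le (h : Hyp d θ) (s : Finset (Fin d)) (a : Fin d → ℝ) :
    |∑ c ∈ s, msg θ (a c)| ≤ d := by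
  refine (abs_sum_le_sum_abs _ _).trans ?_
  refine (sum_le_card_nsmul s _ 1 fun c _ => abs_msg_le_one h _).trans ?_
  have : s.card ≤ d := by simpa using card_le_univ s
  simpa using this

lemma abs_hh_le (h : Hyp d θ) (hX : ∀ v, |X v| ≤ B) (n : ℕ) (x : V d) (c : Fin d) :
    |hh θ X n x c| ≤ B + d := by
  cases n with
  | zero =>
    have := (abs_nonneg _).trans (hX x)
    simp only [hh, abs_zero]
    positivity
  | succ n => exact (abs_add_le _ _).trans (add_le_add (hX _) (abs_sum_msg_le h _ _))

lemma abs_hI_le (h : Hyp d θ) (hX : ∀ v, |X v| ≤ B) (x : V d) (c : Fin d) :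
    |hI θ X x c| ≤ B + d := abs_mid_le fun n => abs_hh_le h hX n x c

lemma abs_HI_le (h : Hyp d θ) (hX : ∀ v, |X v| ≤ B) (x : V d) : |HI θ X x| ≤ B + d :=
  (abs_add_le _ _).trans (add_le_add (hX _) (abs_sum_msg_le h _ _))

lemma abs_mag_le (x : V d) : |mag θ X x| ≤ 1 := (abs_tanh_lt_one _).le

lemma rr_mem (h : Hyp d θ) (x : V d) (l : List (Fin d)) : 0 ≤ rr θ X x l ∧ rr θ X x l ≤ 1 :=
  pprod_mem (fun _ _ => ⟨(phi_pos h _).le, phi_le_one h _⟩) x l

lemma cov_mem (h : Hyp d θ) (x w : V d) :
    0 ≤ cov θ X x w ∧ cov θ X x w ≤ θ ^ len w * rr θ X x w.1 := by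
  have h1 := (rr_mem (X := X) h x w.1).1
  have h2 : 0 ≤ θ ^ len w * rr θ X x w.1 := mul_nonneg (pow_nonneg h.h0 _) h1
  have h3 : mag θ X x ^ 2 ≤ 1 := (tanh_sq_lt_one _).le
  have h4 := sq_nonneg (mag θ X x)
  unfold cov
  rw [mul_assoc]
  constructor <;> nlinarith

lemma abs_cov_le (h : Hyp d θ) (x w : V d) : |cov θ X x w| ≤ 1 := by
  have h1 := cov_mem (X := X) h x w
  have h2 := rr_mem (X := X) h x w.1
  have h3 : θ ^ len w ≤ 1 := pow_le_one₀ h.h0 (by linarith [h.le])
  rw [abs_of_nonneg h1.1]
  exact h1.2.trans (mul_le_one₀ h3 h2.1 h2.2)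

lemma hh_neg (n : ℕ) (x : V d) (c : Fin d) : hh θ (fun v => -X v) n x c = -hh θ X n x c := by
  induction n generalizing x c with
  | zero => simp [hh]
  | succ n ih =>
    simp only [hh, ih, msg_neg, sum_neg_distrib]
    ring

lemma hI_neg (x : V d) (c : Fin d) : hI θ (fun v => -X v) x c = -hI θ X x c := by
  simp only [hI, hh_neg, mid_neg]

lemma HI_neg (x : V d) : HI θ (fun v => -X v) x = -HI θ X x := by
  simp only [HI, hI_neg, msg_neg, sum_neg_distrib]
  ring

lemma mag_neg (x : V d) : mag θ (fun v => -X v) x = -mag θ X x := by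
  simp only [mag, HI_neg, tanh_neg]

lemma hh_aut (g : tree d ≃g tree d) (n : ℕ) {x : V d} {c c' : Fin d}
    (hc : g (step c x) = step c' (g x)) : hh θ (fun v => X (g v)) n x c = hh θ X n (g x) c' := by
  induction n generalizing x c c' with
  | zero => rfl
  | succ n ih =>
    obtain ⟨p, hp⟩ := aut_perm g (step c x)
    have hcc : p c = c' := by
      have h1 := hp c
      rw [step_step, hc] at h1
      refine step_colour (x := step c' (g x)) ?_
      rw [← h1, step_step]
    simp only [hh]
    rw [hc]
    congr 1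
    refine sum_equiv p (fun e => ?_) (fun e _ => ?_)
    · simp [← hcc]
    · rw [ih (hp e), hc]

lemma hI_aut (g : tree d ≃g tree d) {x : V d} {c c' : Fin d}
    (hc : g (step c x) = step c' (g x)) : hI θ (fun v => X (g v)) x c = hI θ X (g x) c' := by
  simp only [hI, hh_aut g _ hc]

lemma HI_aut (g : tree d ≃g tree d) (x : V d) : HI θ (fun v => X (g v)) x = HI θ X (g x) := by
  obtain ⟨p, hp⟩ := aut_perm g x
  simp only [HI]
  congr 1
  refine sum_equiv p (fun e => by simp) (fun e _ => ?_)
  rw [hI_aut g (hp e)]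

lemma mag_aut (g : tree d ≃g tree d) (x : V d) :
    mag θ (fun v => X (g v)) x = mag θ X (g x) := by
  simp only [mag, HI_aut]

lemma hh_lmul (y : V d) (n : ℕ) (x : V d) (c : Fin d) :
    hh θ (fun v => X (y * v)) n x c = hh θ X n (y * x) c :=
  hh_aut (lmul y) n (mul_step y x c)

lemma hI_lmul (y x : V d) (c : Fin d) : hI θ (fun v => X (y * v)) x c = hI θ X (y * x) c :=
  hI_aut (lmul y) (mul_step y x c)

lemma rr_lmul (y x : V d) (l : List (Fin d)) :
    rr θ (fun v => X (y * v)) x l = rr θ X (y * x) l := by
  simp only [rr, hI_lmul, pprod_mul]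

lemma continuous_hh (h : Hyp d θ) (n : ℕ) (x : V d) (c : Fin d) :
    Continuous fun X : V d → ℝ => hh θ X n x c := by
  induction n generalizing x c with
  | zero => exact continuous_const
  | succ n ih =>
    exact (continuous_apply _).add
      (continuous_finsetSum _ fun c' _ => (continuous_msg h).comp (ih _ _))

lemma measurable_hh (n : ℕ) (x : V d) (c : Fin d) :
    Measurable fun X : V d → ℝ => hh θ X n x c := by
  induction n generalizing x c with
  | zero => exact measurable_const
  | succ n ih =>
    exact (measurable_pi_apply _).add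
      (Finset.measurable_fun_sum _ fun c' _ => measurable_msg.comp (ih _ _))

lemma measurable_hI (x : V d) (c : Fin d) : Measurable fun X : V d → ℝ => hI θ X x c :=
  measurable_mid fun n => measurable_hh n x c

lemma measurable_HI (x : V d) : Measurable fun X : V d → ℝ => HI θ X x :=
  (measurable_pi_apply _).add
    (Finset.measurable_fun_sum _ fun c _ => measurable_msg.comp (measurable_hI x c))

lemma measurable_mag (x : V d) : Measurable fun X : V d → ℝ => mag θ X x :=
  continuous_tanh'.measurable.comp (measurable_HI x)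

lemma measurable_rr (x : V d) (l : List (Fin d)) :
    Measurable fun X : V d → ℝ => rr θ X x l := by
  induction l with
  | nil => exact measurable_const
  | cons c l ih => exact ih.mul (measurable_phi.comp (measurable_hI _ c))

lemma measurable_cov (x w : V d) : Measurable fun X : V d → ℝ => cov θ X x w :=
  ((measurable_const.sub ((measurable_mag x).pow_const 2)).mul measurable_const).mul
    (measurable_rr x w.1)

/-- Locality: a descending cavity field only depends on the field in the subtree. -/
lemma hh_local (n : ℕ) {x : V d} {c : Fin d} (hc : c ∈ kids x)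
    (hX : ∀ v : V d, (step c x).1 <:+ v.1 → X v = X' v) : hh θ X n x c = hh θ X' n x c := by
  induction n generalizing x c with
  | zero => rfl
  | succ n ih =>
    simp only [hh]
    rw [hX _ (List.suffix_refl _)]
    congr 1
    refine sum_congr rfl fun e he => ?_
    have he' : e ∈ kids (step c x) := by rwa [kids_step hc]
    rw [ih he' fun v hv => hX v ?_]
    refine List.IsSuffix.trans ?_ hv
    rw [step_kid he']
    exact List.suffix_cons _ _

lemma hh_zero (n : ℕ) (x : V d) (c : Fin d) : hh θ (fun _ : V d => (0 : ℝ)) n x c = 0 := by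
  induction n generalizing x c with
  | zero => rfl
  | succ n ih => simp [hh, ih, msg]

lemma Conv.rec' (h : Hyp d θ) (hX : Conv θ X) (x : V d) (c : Fin d) :
    hI θ X x c = X (step c x) + ∑ c' ∈ univ.erase c, msg θ (hI θ X (step c x) c') := by
  have h1 := (tendsto_add_atTop_iff_nat 1).2 (hX x c)
  refine tendsto_nhds_unique h1 ?_
  exact tendsto_const_nhds.add (tendsto_finsetSum _ fun c' _ =>
    ((continuous_msg h).tendsto _).comp (hX _ c'))

lemma Conv.rel (h : Hyp d θ) (hX : Conv θ X) (x : V d) (c : Fin d) :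
    HI θ X x = hI θ X (step c x) c + msg θ (hI θ X x c) := by
  rw [hX.rec' h (step c x) c, step_step, HI, add_assoc, sum_erase_add _ _ (mem_univ c)]

lemma Conv.tendsto_root (h : Hyp d θ) (hX : Conv θ X) (x : V d) :
    Tendsto (fun n => X x + ∑ c, msg θ (hh θ X n x c)) atTop (nhds (HI θ X x)) :=
  tendsto_const_nhds.add (tendsto_finsetSum _ fun c _ =>
    ((continuous_msg h).tendsto _).comp (hX x c))

lemma Conv.tendsto_rn (h : Hyp d θ) (hX : Conv θ X) (x : V d) (l : List (Fin d)) :
    Tendsto (fun n => rn θ X x n l) atTop (nhds (rr θ X x l)) := by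
  induction l with
  | nil => exact tendsto_const_nhds
  | cons c l ih =>
    exact ((tendsto_add_atTop_iff_nat 1).2 ih).mul (((continuous_phi h).tendsto _).comp (hX _ c))

/-- Forward and backward products along a path (iterate `edge_id`). -/
lemma path_id (h : Hyp d θ) {f : V d → Fin d → ℝ} {F : V d → ℝ}
    (hrel : ∀ x c, F x = f (step c x) c + msg θ (f x c)) (x : V d) (l : List (Fin d)) :
    (1 - tanh (F x) ^ 2) * pprod (fun y c => phi θ (f y c)) x l =
      (1 - tanh (F (walk x l)) ^ 2) * pprod (fun y c => phi θ (f y c)) (walk x l) l.reverse := by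
  induction l with
  | nil => rfl
  | cons c l ih =>
    have e := edge_id h (f (walk x l) c) (f (step c (walk x l)) c)
    have e2 := hrel (step c (walk x l)) c
    rw [step_step] at e2
    rw [← hrel, ← e2] at e
    rw [List.reverse_cons, pprod_append]
    simp only [pprod, walk_cons, walk_nil, step_step, one_mul]
    rw [← mul_assoc, ih, ← mul_assoc, ← e]
    ring

end Vale.Agent.P161E
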