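import Vale.Agent.P161E.Defs

/-! Group structure of the tree, belief propagation, the probability space. -/

namespace Vale.Agent.P161E

open MeasureTheory Filter Finset

variable {d : ℕ}

instance (ι : Type) : IsProbabilityMeasure (iid ι) := by unfold iid; infer_instance

/-- The neighbour of `x` along the edge of colour `c`. -/
def step (c : Fin d) (x : V d) : V d :=
  if h : x.1.head? = some c then ⟨x.1.tail, x.2.tail⟩
  else ⟨c :: x.1, List.isChain_cons.2 ⟨fun y hy e => h (by subst e; exact hy), x.2⟩⟩

lemma step_of_eq {c : Fin d} {x : V d} (h : x.1.head? = some c) : (step c x).1 = x.1.tail := by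
  simp [step, h]

lemma step_of_ne {c : Fin d} {x : V d} (h : x.1.head? ≠ some c) : (step c x).1 = c :: x.1 := by
  simp [step, h]

@[simp] lemma step_step (c : Fin d) (x : V d) : step c (step c x) = x := by
  apply Subtype.ext
  by_cases h : x.1.head? = some c
  · obtain ⟨l, hl⟩ := x
    cases l with
    | nil => simp at h
    | cons a t =>
      simp only [List.head?_cons, Option.some.injEq] at h
      subst h
      have h1 : (step a ⟨a :: t, hl⟩).1 = t := step_of_eq rfl
      have h2 : (step a ⟨a :: t, hl⟩).1.head? ≠ some a := by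
        rw [h1]; intro h3; exact (List.isChain_cons.1 hl).1 a h3 rfl
      rw [step_of_ne h2, h1]
  · have h1 := step_of_ne h
    rw [step_of_eq (by rw [h1]; rfl), h1]; rfl

/-- Follow the letters of `l` (the LAST letter of the list first, the head last) from `x`. -/
def walk (x : V d) (l : List (Fin d)) : V d := l.foldr step x

@[simp] lemma walk_nil (x : V d) : walk x [] = x := rfl
@[simp] lemma walk_cons (x : V d) (c : Fin d) (l : List (Fin d)) :
    walk x (c :: l) = step c (walk x l) := rfl
lemma walk_append (x : V d) (s p : List (Fin d)) : walk x (s ++ p) = walk (walk x p) s := by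
  simp [walk]

lemma walk_step (x y : V d) (c : Fin d) : walk x (step c y).1 = step c (walk x y.1) := by
  by_cases h : y.1.head? = some c
  · obtain ⟨l, hl⟩ := y
    cases l with
    | nil => simp at h
    | cons a t =>
      simp only [List.head?_cons, Option.some.injEq] at h
      subst h
      rw [step_of_eq rfl]; simp
  · rw [step_of_ne h]; rfl

lemma walk_walk (x y : V d) (l : List (Fin d)) : walk x (walk y l).1 = walk (walk x y.1) l := by
  induction l with
  | nil => rfl
  | cons c l ih => simp [walk_step, ih]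

lemma walk_reverse (x : V d) (l : List (Fin d)) : walk (walk x l) l.reverse = x := by
  induction l generalizing x with
  | nil => rfl
  | cons c l ih => simp [walk_append, ih]

/-- The root. -/
def root (d : ℕ) : V d := ⟨[], List.isChain_nil⟩

lemma walk_root (x : V d) : walk (root d) x.1 = x := by
  obtain ⟨l, hl⟩ := x
  induction l with
  | nil => rfl
  | cons c l ih =>
    have h := ih hl.tail
    simp only [walk_cons] at h ⊢
    rw [h]
    apply Subtype.ext
    exact step_of_ne fun h3 => (List.isChain_cons.1 hl).1 c h3 rfl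

instance : Group (V d) where
  mul x w := walk x w.1
  one := root d
  inv x := ⟨x.1.reverse, List.isChain_reverse.2 (x.2.imp fun _ _ h => h.symm)⟩
  mul_assoc x y z := (walk_walk x y z.1).symm
  one_mul := walk_root
  mul_one _ := rfl
  inv_mul_cancel x := by
    have h := walk_reverse (root d) x.1.reverse
    rw [List.reverse_reverse] at h
    have h2 := walk_root (⟨x.1.reverse, List.isChain_reverse.2 (x.2.imp fun _ _ h => h.symm)⟩ : V d)
    exact (congrArg (fun y => walk y x.1) h2).symm.trans h

lemma mul_def (x w : V d) : x * w = walk x w.1 := rfl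
@[simp] lemma one_val : (1 : V d).1 = [] := rfl
@[simp] lemma inv_val (x : V d) : (x⁻¹ : V d).1 = x.1.reverse := rfl
lemma walk_one (x : V d) : walk 1 x.1 = x := walk_root x
lemma mul_step (x y : V d) (c : Fin d) : x * step c y = step c (x * y) := walk_step x y c
lemma mul_walk (x y : V d) (l : List (Fin d)) : x * walk y l = walk (x * y) l := walk_walk x y l

/-- Distance from the root. -/
def len (x : V d) : ℕ := x.1.length

/-- The colours of the edges from `z` to its children. -/
def kids (z : V d) : Finset (Fin d) := univ.filter fun c => z.1.head? ≠ some c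

/-- The sphere of radius `k` around the root. -/
def sph (d : ℕ) : ℕ → Finset (V d)
  | 0 => {1}
  | k + 1 => (sph d k).biUnion fun z => (kids z).image fun c => step c z

/-- The ball of radius `K` around the root. -/
def ball (d K : ℕ) : Finset (V d) := (range (K + 1)).biUnion (sph d)

/-- The parent of a vertex (the root is its own parent). -/
def par (x : V d) : V d := ⟨x.1.tail, x.2.tail⟩

lemma adj_iff {x y : V d} : (tree d).Adj x y ↔ ∃ c, y = step c x := by
  constructor
  · rintro (⟨c, h⟩ | ⟨c, h⟩)
    · refine ⟨c, Subtype.ext ?_⟩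
      rw [h, step_of_ne]
      intro h3
      have := y.2
      rw [h] at this
      exact (List.isChain_cons.1 this).1 c h3 rfl
    · refine ⟨c, Subtype.ext ?_⟩
      rw [step_of_eq (by rw [h]; rfl), h]; rfl
  · rintro ⟨c, rfl⟩
    by_cases h : x.1.head? = some c
    · right
      refine ⟨c, ?_⟩
      rw [step_of_eq h]
      exact (List.cons_head?_tail h).symm
    · exact Or.inl ⟨c, step_of_ne h⟩

/-- Left multiplication as an automorphism of the tree. -/
def lmul (x : V d) : tree d ≃g tree d where
  toEquiv := Equiv.mulLeft x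
  map_rel_iff' := by
    intro a b
    simp only [Equiv.coe_mulLeft, adj_iff, ← mul_step, mul_left_cancel_iff]

@[simp] lemma lmul_apply (x y : V d) : lmul x y = x * y := rfl

/-- Standing assumptions. -/
structure Hyp (d : ℕ) (θ : ℝ) : Prop where
  hd : 3 ≤ d
  h0 : 0 ≤ θ
  h1 : ((d : ℝ) - 1) * θ ^ 2 ≤ 1

/-- An odd, measurable choice of the limit of a sequence. -/
noncomputable def mid (a : ℕ → ℝ) : ℝ := (limsup a atTop - limsup (fun n => -a n) atTop) / 2

/-- The message sent through an edge by a cavity field. -/
noncomputable def msg (θ h : ℝ) : ℝ := Real.artanh (θ * Real.tanh h)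

/-- The derivative of the message divided by `θ`. -/
noncomputable def phi (θ h : ℝ) : ℝ := (1 - Real.tanh h ^ 2) / (1 - θ ^ 2 * Real.tanh h ^ 2)

/-- Cavity field at `step c x` seen from `x`, computed to depth `n`, in the external field `X`. -/
noncomputable def hh (θ : ℝ) (X : V d → ℝ) : ℕ → V d → Fin d → ℝ
  | 0, _, _ => 0
  | n + 1, x, c => X (step c x) + ∑ c' ∈ univ.erase c, msg θ (hh θ X n (step c x) c')

/-- Infinite-volume cavity field. -/
noncomputable def hI (θ : ℝ) (X : V d → ℝ) (x : V d) (c : Fin d) : ℝ := mid fun n => hh θ X n x c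

/-- Infinite-volume total field. -/
noncomputable def HI (θ : ℝ) (X : V d → ℝ) (x : V d) : ℝ := X x + ∑ c, msg θ (hI θ X x c)

/-- Posterior magnetization. -/
noncomputable def mag (θ : ℝ) (X : V d → ℝ) (x : V d) : ℝ := Real.tanh (HI θ X x)

/-- Product of an edge function along the path from `x` following `l`. -/
def pprod (f : V d → Fin d → ℝ) (x : V d) : List (Fin d) → ℝ
  | [] => 1
  | c :: l => pprod f x l * f (walk x l) c

/-- Sum of an edge function along the path from `x` following `l`. -/
def psum (f : V d → Fin d → ℝ) (x : V d) : List (Fin d) → ℝ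
  | [] => 0
  | c :: l => psum f x l + f (walk x l) c

/-- Normalized decay factor along a path. -/
noncomputable def rr (θ : ℝ) (X : V d → ℝ) (x : V d) (l : List (Fin d)) : ℝ :=
  pprod (fun y c => phi θ (hI θ X y c)) x l

/-- Posterior covariance of the spins at `x` and `x * w`. -/
noncomputable def cov (θ : ℝ) (X : V d → ℝ) (x w : V d) : ℝ :=
  (1 - mag θ X x ^ 2) * θ ^ len w * rr θ X x w.1

/-- Finite-depth decay factor; the last vertex of the path has depth `n`. -/
noncomputable def rn (θ : ℝ) (X : V d → ℝ) (x : V d) : ℕ → List (Fin d) → ℝ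
  | _, [] => 1
  | n, c :: l => rn θ X x (n + 1) l * phi θ (hh θ X n (walk x l) c)

/-- All finite-depth cavity fields converge. -/
def Conv (θ : ℝ) (X : V d → ℝ) : Prop :=
  ∀ x c, Tendsto (fun n => hh θ X n x c) atTop (nhds (hI θ X x c))

/-- Distribution function of the density `(1 + α y) / 2` on `[-1, 1]`. -/
noncomputable def cdf (α y : ℝ) : ℝ := (y + 1) / 2 + α * (y ^ 2 - 1) / 4

/-- Its inverse. -/
noncomputable def qf (α u : ℝ) : ℝ := (4 * u - 2 + α) / (1 + √((1 - α) ^ 2 + 4 * α * u))

/-- The normalized jump as a function of the innovation. -/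
noncomputable def psi (α u : ℝ) : ℝ := qf α u / (1 + α * qf α u)

/-- Strength of the observations of sweep `j`. -/
noncomputable def dl (j : ℤ) : ℝ := min (1 / 2) ((2 : ℝ) ^ j / 2)

/-- Law of the edge variables (and of the spin at the root). -/
noncomputable def coin (p : ℝ) : Measure Bool :=
  ENNReal.ofReal (max 0 (min 1 p)) • Measure.dirac true +
    ENNReal.ofReal (1 - max 0 (min 1 p)) • Measure.dirac false

instance (p : ℝ) : IsProbabilityMeasure (coin p) := ⟨by
  have h0 : (0 : ℝ) ≤ max 0 (min 1 p) := le_max_left _ _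
  have h1 : max 0 (min 1 p) ≤ (1 : ℝ) := max_le zero_le_one (min_le_left _ _)
  simp only [coin, Measure.coe_add, Measure.coe_smul, Pi.add_apply, Pi.smul_apply, measure_univ,
    smul_eq_mul, mul_one]
  rw [← ENNReal.ofReal_add h0 (by linarith)]; simp⟩

/-- Spins from edge variables. -/
def spinL (e : V d → Bool) : (l : List (Fin d)) → l.IsChain (· ≠ ·) → Bool
  | [], h => e ⟨[], h⟩
  | c :: l, h => (e ⟨c :: l, h⟩ == spinL e l h.tail)

/-- Spins from edge variables. -/
def spin (e : V d → Bool) (v : V d) : Bool := spinL e v.1 v.2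

lemma measurable_spin : Measurable (spin (d := d)) := by
  refine measurable_pi_lambda _ fun v => ?_
  obtain ⟨l, hl⟩ := v
  change Measurable fun e => spinL e l hl
  induction l with
  | nil => exact measurable_pi_apply _
  | cons c l ih =>
    exact (measurable_of_countable fun p : Bool × Bool => p.1 == p.2).comp
      ((measurable_pi_apply _).prodMk (ih hl.tail))

/-- Edge variables from spins. -/
def eps (σ : V d → Bool) (v : V d) : Bool := if v = 1 then σ 1 else (σ v == σ (par v))

/-- The free Ising measure. -/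
noncomputable def ising (d : ℕ) (θ : ℝ) : Measure (V d → Bool) :=
  (Measure.infinitePi fun v : V d => coin (if v = 1 then 1 / 2 else (1 + θ) / 2)).map spin

instance (θ : ℝ) : IsProbabilityMeasure (ising d θ) :=
  Measure.isProbabilityMeasure_map measurable_spin.aemeasurable

/-- Indices of observations. -/
abbrev Ix (d : ℕ) : Type := V d × ℤ

/-- Families of uniform variables indexed by observations. -/
abbrev T (d : ℕ) : Type := Ix d → unitInterval

/-- Spins and observation noise. -/
abbrev O1 (d : ℕ) : Type := (V d → Bool) × T d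

/-- Times, spins and noise. -/
abbrev Om (d : ℕ) : Type := T d × O1 d

noncomputable def P1 (d : ℕ) (θ : ℝ) : Measure (O1 d) := (ising d θ).prod (iid (Ix d))

noncomputable def PP (d : ℕ) (θ : ℝ) : Measure (Om d) := (iid (Ix d)).prod (P1 d θ)

instance (θ : ℝ) : IsProbabilityMeasure (P1 d θ) := by unfold P1; infer_instance
instance (θ : ℝ) : IsProbabilityMeasure (PP d θ) := by unfold PP; infer_instance

/-- The observation with index `a`. -/
noncomputable def YY (a : Ix d) (η : O1 d) : ℝ := sg (η.1 a.1) * qf (dl a.2) (η.2 a)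

open Classical in
/-- The observations with index in `I`. -/
noncomputable def obs (I : Set (Ix d)) (η : O1 d) : Ix d → ℝ :=
  fun a => if a ∈ I then YY a η else 0

/-- External field produced by observations. -/
noncomputable def fld (y : Ix d → ℝ) (v : V d) : ℝ :=
  mid fun n => ∑ i ∈ Icc (-(n : ℤ)) n, Real.artanh (dl i * y (v, i))

/-- External field produced by the observations in `I`. -/
noncomputable def XI (I : Set (Ix d)) (η : O1 d) : V d → ℝ := fld (obs I η)

/-- The sigma-algebra of the observations in `I`. -/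
noncomputable abbrev FI (I : Set (Ix d)) : MeasurableSpace (O1 d) := MeasurableSpace.comap (obs I) inferInstance

/-- `I` only contains observations of sweeps at most `J`. -/
def Upto (J : ℤ) (I : Set (Ix d)) : Prop := ∀ a ∈ I, a.2 ≤ J

/-- Uniform bound for the external field after sweep `J`. -/
noncomputable def BB (J : ℤ) : ℝ := 4 * dl J + max (J : ℝ) 0

/-- Mean square magnetization at `x` given the observations in `I`. -/
noncomputable def qq (θ : ℝ) (I : Set (Ix d)) (x : V d) : ℝ :=
  ∫ η, mag θ (XI I η) x ^ 2 ∂P1 d θ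

/-- Observations made before time `cut v` of sweep `j`. -/
def idx (j : ℤ) (cut : V d → ℝ) (τ : T d) : Set (Ix d) :=
  {a | (a.2 < j ∧ (τ a : ℝ) < 1 / 2) ∨ (a.2 = j ∧ (τ a : ℝ) < cut a.1)}

/-- The field at a cut. -/
noncomputable def Xc (j : ℤ) (cut : V d → ℝ) (ω : Om d) : V d → ℝ := XI (idx j cut ω.1) ω.2

/-- Admissible cuts. -/
def Cut (cut : V d → ℝ) : Prop := ∀ v, 0 ≤ cut v ∧ cut v ≤ 1 / 2

/-- The innovations. -/
noncomputable def UU (θ : ℝ) (ω : Om d) (a : Ix d) : unitInterval :=
  if (ω.1 a : ℝ) < 1 / 2 then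
    Set.projIcc 0 1 zero_le_one
      (cdf (dl a.2 * mag θ (Xc a.2 (fun _ => (ω.1 a : ℝ)) ω) a.1) (YY a ω.2))
  else ω.2.2 a

open Classical in
/-- Times and innovations revealed before time `t` of sweep `j`. -/
noncomputable def Th (θ : ℝ) (j : ℤ) (t : ℝ) (ω : Om d) : Ix d → unitInterval × unitInterval :=
  fun a => if a ∈ idx j (fun _ => t) ω.1 then (ω.1 a, UU θ ω a) else (1, 0)

/-- The sigma-algebra of the innovations. -/
noncomputable abbrev GG (θ : ℝ) (j : ℤ) (t : ℝ) : MeasurableSpace (Om d) :=
  MeasurableSpace.comap (Th θ j t) inferInstance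

/-- Mean conditional variance. -/
noncomputable def dv {Ω : Type} [MeasurableSpace Ω] (P : Measure Ω) (G : MeasurableSpace Ω)
    (f : Ω → ℝ) : ℝ := ∫ ω, (f ω - (P[f|G]) ω) ^ 2 ∂P

/-- The quantity shown to vanish. -/
noncomputable def DD (d : ℕ) (θ : ℝ) (j : ℤ) (t : ℝ) : ℝ :=
  dv (PP d θ) (GG θ j t) fun ω => mag θ (Xc j (fun _ => t) ω) 1

/-- Mean square magnetization at a cut. -/
noncomputable def QQ (θ : ℝ) (j : ℤ) (cut : V d → ℝ) (x : V d) : ℝ :=
  ∫ ω, mag θ (Xc j cut ω) x ^ 2 ∂PP d θ

/-- Pull-back of families indexed by observations. -/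
def pbT {α : Type} (g : tree d ≃g tree d) (τ : Ix d → α) : Ix d → α := fun a => τ (g a.1, a.2)

/-- Pull-back on spins and noise. -/
def pb1 (g : tree d ≃g tree d) (η : O1 d) : O1 d := (fun v => η.1 (g v), pbT g η.2)

/-- Pull-back on the whole space. -/
def pb (g : tree d ≃g tree d) (ω : Om d) : Om d := (pbT g ω.1, pb1 g ω.2)

/-- Global spin flip. -/
def flip (ω : Om d) : Om d := (ω.1, (fun v => !ω.2.1 v, ω.2.2))

/-- Gap parameter of sweep `j`. -/
noncomputable def gap (d : ℕ) (j : ℤ) : ℝ := dl (j - 1) / (200 * d)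

/-- Bound in the temperedness inequality. -/
noncomputable def NN (d j : ℕ) : ℝ := 4 * ((j : ℝ) + 1) ^ 2 * ((d : ℝ) - 1) ^ j

/-- Gibbs expectation in the field `X` restricted to the ball of radius `n`. -/
noncomputable def gib (θ : ℝ) (n : ℕ) (X : V d → ℝ) (H : (V d → Bool) → ℝ) : ℝ :=
  (∫ σ, H σ * Real.exp (∑ v ∈ ball d n, X v * sg (σ v)) ∂ising d θ) /
    ∫ σ, Real.exp (∑ v ∈ ball d n, X v * sg (σ v)) ∂ising d θ

/-- The logarithm of the decay factor as a function of the cavity magnetization. -/
noncomputable def lph (θ t : ℝ) : ℝ := Real.log ((1 - t ^ 2) / (1 - θ ^ 2 * t ^ 2))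

/-- `f` is a bounded measurable function. -/
structure BM {Ω : Type} (m : MeasurableSpace Ω) (f : Ω → ℝ) : Prop where
  meas : Measurable[m] f
  bdd : ∃ C, ∀ ω, |f ω| ≤ C

/-- Truncated sum of squared normalized covariances. -/
noncomputable def Gsum (θ : ℝ) (K : ℕ) (ρ : V d → ℝ) : ℝ :=
  ∑ w ∈ ball d K, θ ^ (2 * len w) * ρ w ^ 2

end Vale.Agent.P161E
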