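import Vale.Agent.P161E.Tree
import Vale.Agent.P161E.Alg

/-! The free Ising measure.
`eps (spin e) = e` and `spin (eps σ) = σ`, so the edge variables are independent under `ising`.
`isFree`: induction on `D.card`.  If `D = {v}`: `sg (σ v) = ` product of the `sg (eps ·)` along the
word, and flipping `eps 1` shows probability `1/2` (or use `ising_flip`).  Otherwise take `v ∈ D` of
maximal length; it is not the root, its only neighbour in `D` is `par v` (connectedness),
`D.erase v` is connected, the event splits as (event of `D.erase v`) ∩ `{eps σ v = (η v == η (par v))}`,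
and the first event only depends on `eps σ u` for `u ≠ v` (suffixes of words of `D.erase v`).
`unique`: cylinders over balls form a pi-system generating the product sigma-algebra
(every coordinate event is a finite union of such cylinders), balls are connected.
`ising_aut`: the pushforward also satisfies `IsFreeIsing` (reindex `D` by `g`), apply `unique`.
`ising_flip` : likewise, or directly from the product structure. -/

namespace Vale.Agent.P161E

open MeasureTheory ProbabilityTheory

variable {d : ℕ} {θ : ℝ}

lemma spin_one (e : V d → Bool) : spin e 1 = e 1 := rfl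

lemma spin_ne {v : V d} (h : v ≠ 1) (e : V d → Bool) :
    spin e v = (e v == spin e (par v)) := by
  obtain ⟨l, hl⟩ := v
  cases l with
  | nil => exact absurd rfl h
  | cons c l => rfl

lemma len_par {v : V d} (h : v ≠ 1) : len v = len (par v) + 1 := by
  obtain ⟨l, hl⟩ := v
  cases l with
  | nil => exact absurd rfl h
  | cons c l => rfl

lemma par_suffix (v : V d) : (par v).1 <:+ v.1 := List.tail_suffix _

lemma par_induction {P : V d → Prop} (h1 : P 1) (hs : ∀ v, v ≠ 1 → P (par v) → P v) (v : V d) :
    P v := by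
  obtain ⟨l, hl⟩ := v
  induction l with
  | nil => exact h1
  | cons c l ih => exact hs _ (fun h => by simpa using congrArg Subtype.val h) (ih hl.tail)

lemma eps_spin (e : V d → Bool) : eps (spin e) = e := by
  funext v
  by_cases h : v = 1
  · subst h; simp [eps, spin_one]
  · simp only [eps, h, if_false]
    rw [spin_ne h]
    cases e v <;> cases spin e (par v) <;> rfl

lemma spin_eps (σ : V d → Bool) : spin (eps σ) = σ := by
  funext v
  induction v using par_induction with
  | h1 => simp [eps, spin_one]
  | hs v h ih =>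
    rw [spin_ne h, ih]
    simp only [eps, h, if_false]
    cases σ v <;> cases σ (par v) <;> rfl

lemma measurable_eps : Measurable (eps (d := d)) := by
  refine measurable_pi_lambda _ fun v => ?_
  by_cases h : v = 1
  · simp only [eps, h, if_true]; exact measurable_pi_apply _
  · simp only [eps, h, if_false]
    exact Measurable.comp (g := fun p : Bool × Bool => p.1 == p.2)
      (f := fun σ : V d → Bool => (σ v, σ (par v))) Measurable.of_discrete
      ((measurable_pi_apply v).prodMk (measurable_pi_apply (par v)))

lemma measurable_eps_apply (v : V d) : Measurable fun σ : V d → Bool => eps σ v :=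
  (measurable_pi_apply v).comp measurable_eps

lemma sg_eps {v : V d} (h : v ≠ 1) (σ : V d → Bool) :
    sg (eps σ v) = sg (σ v) * sg (σ (par v)) := by
  simp only [eps, h, if_false, sg_beq]

lemma map_eps : (ising d θ).map eps =
    Measure.infinitePi fun v : V d => coin (if v = 1 then 1 / 2 else (1 + θ) / 2) := by
  rw [ising, Measure.map_map measurable_eps measurable_spin]
  have : (eps ∘ spin : (V d → Bool) → V d → Bool) = id := funext eps_spin
  rw [this, Measure.map_id]

lemma map_eps_apply (v : V d) : (ising d θ).map (fun σ => eps σ v) =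
    coin (if v = 1 then 1 / 2 else (1 + θ) / 2) := by
  have h := Measure.infinitePi_map_eval
    (fun v : V d => coin (if v = 1 then 1 / 2 else (1 + θ) / 2)) v
  rw [← map_eps, Measure.map_map (measurable_pi_apply v) measurable_eps] at h
  exact h

lemma iIndep_eps : iIndepFun (fun (v : V d) (σ : V d → Bool) => eps σ v) (ising d θ) := by
  rw [iIndepFun_iff_map_fun_eq_infinitePi_map measurable_eps_apply]
  simp only [map_eps_apply]
  exact map_eps

/-- Functions of disjoint finite families of edge variables are independent. -/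
lemma indep_of_dep {α β : Type} [MeasurableSpace α] [MeasurableSpace β] {S T : Finset (V d)}
    (hd : Disjoint S T) {F : (V d → Bool) → α} {G : (V d → Bool) → β}
    (hF : ∀ e e', (∀ u ∈ S, e u = e' u) → F e = F e')
    (hG : ∀ e e', (∀ u ∈ T, e u = e' u) → G e = G e') :
    IndepFun (fun σ => F (eps σ)) (fun σ => G (eps σ)) (ising d θ) := by
  classical
  have h := (iIndep_eps (d := d) (θ := θ)).indepFun_finset S T hd measurable_eps_apply
  have h2 := h.comp
    (φ := fun y : S → Bool => F fun u => if hu : u ∈ S then y ⟨u, hu⟩ else false)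
    (ψ := fun y : T → Bool => G fun u => if hu : u ∈ T then y ⟨u, hu⟩ else false)
    Measurable.of_discrete Measurable.of_discrete
  have e1 : (fun σ => F (eps σ)) = (fun y : S → Bool =>
      F fun u => if hu : u ∈ S then y ⟨u, hu⟩ else false) ∘ fun a (i : S) => eps a i :=
    funext fun σ => hF _ _ fun u hu => by simp [hu]
  have e2 : (fun σ => G (eps σ)) = (fun y : T → Bool =>
      G fun u => if hu : u ∈ T then y ⟨u, hu⟩ else false) ∘ fun a (i : T) => eps a i :=
    funext fun σ => hG _ _ fun u hu => by simp [hu]
  rw [e1, e2]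
  exact h2

lemma measurable_of_dep {α : Type} [MeasurableSpace α] {S : Finset (V d)}
    {F : (V d → Bool) → α} (hF : ∀ e e', (∀ u ∈ S, e u = e' u) → F e = F e') : Measurable F := by
  classical
  have e1 : F = (fun y : S → Bool =>
      F fun u => if hu : u ∈ S then y ⟨u, hu⟩ else false) ∘ fun a (i : S) => a i :=
    funext fun σ => hF _ _ fun u hu => by simp [hu]
  rw [e1]
  exact Measurable.of_discrete.comp (measurable_pi_lambda _ fun i => measurable_pi_apply _)

lemma spin_congr {e e' : V d → Bool} {v : V d} (h : ∀ u : V d, u.1 <:+ v.1 → e u = e' u) :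
    spin e v = spin e' v := by
  induction v using par_induction with
  | h1 => exact h 1 (List.suffix_refl _)
  | hs v hv ih =>
    rw [spin_ne hv, spin_ne hv, h v (List.suffix_refl _),
      ih fun u hu => h u (hu.trans (par_suffix v))]

lemma coin_true {p : ℝ} (h0 : 0 ≤ p) (h1 : p ≤ 1) : coin p {true} = ENNReal.ofReal p := by
  simp [coin, min_eq_right h1, max_eq_right h0]

lemma coin_false {p : ℝ} (h0 : 0 ≤ p) (h1 : p ≤ 1) : coin p {false} = ENNReal.ofReal (1 - p) := by
  simp [coin, min_eq_right h1, max_eq_right h0]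

lemma integral_coin {p : ℝ} (h0 : 0 ≤ p) (h1 : p ≤ 1) (f : Bool → ℝ) :
    ∫ b, f b ∂coin p = p * f true + (1 - p) * f false := by
  rw [integral_fintype Integrable.of_finite, Fintype.sum_bool]
  simp only [Measure.real, coin_true h0 h1, coin_false h0 h1, smul_eq_mul]
  rw [ENNReal.toReal_ofReal h0, ENNReal.toReal_ofReal (by linarith)]

lemma integral_eps' (v : V d) (f : Bool → ℝ) :
    ∫ σ, f (eps σ v) ∂ising d θ = ∫ b, f b ∂coin (if v = 1 then 1 / 2 else (1 + θ) / 2) := by
  rw [← map_eps_apply (θ := θ) v, integral_map (measurable_eps_apply v).aemeasurable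
    (Measurable.of_discrete (f := f)).aestronglyMeasurable]

lemma integral_eps (h0 : 0 ≤ θ) (h1 : θ ≤ 1) {v : V d} (h : v ≠ 1) (f : Bool → ℝ) :
    ∫ σ, f (eps σ v) ∂ising d θ = (1 + θ) / 2 * f true + (1 - θ) / 2 * f false := by
  rw [integral_eps', if_neg h, integral_coin (by linarith) (by linarith)]
  ring

lemma integral_root (f : Bool → ℝ) :
    ∫ σ, f (σ 1) ∂ising d θ = 1 / 2 * f true + 1 / 2 * f false := by
  have h := integral_eps' (d := d) (θ := θ) 1 f
  simp only [eps, if_true] at h
  rw [h, integral_coin (by norm_num) (by norm_num)]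
  ring

lemma coin_half_not : (coin (1 / 2)).map not = coin (1 / 2) := by
  refine Measure.ext_of_singleton fun b => ?_
  rw [Measure.map_apply Measurable.of_discrete (measurableSet_singleton _)]
  have h1 := coin_true (p := 1 / 2) (by norm_num) (by norm_num)
  have h2 := coin_false (p := 1 / 2) (by norm_num) (by norm_num)
  have h3 : (1 - 1 / 2 : ℝ) = 1 / 2 := by norm_num
  rw [h3] at h2
  cases b
  · have : not ⁻¹' {false} = {true} := by ext b; cases b <;> simp
    rw [this, h1, h2]
  · have : not ⁻¹' {true} = {false} := by ext b; cases b <;> simp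
    rw [this, h1, h2]

theorem ising_flip :
    MeasurePreserving (fun (σ : V d → Bool) v => !σ v) (ising d θ) (ising d θ) := by
  have hm : Measurable fun (σ : V d → Bool) v => !σ v :=
    measurable_pi_lambda _ fun v =>
      (Measurable.of_discrete (f := not)).comp (measurable_pi_apply v)
  refine ⟨hm, ?_⟩
  let f : V d → Bool → Bool := fun v b => if v = 1 then !b else b
  have hf : ∀ v, Measurable (f v) := fun v => Measurable.of_discrete
  have hfm : Measurable fun (e : V d → Bool) v => f v (e v) :=
    measurable_pi_lambda _ fun v => (hf v).comp (measurable_pi_apply v)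
  have key : ((fun (σ : V d → Bool) v => !σ v) ∘ spin) = spin ∘ fun e v => f v (e v) := by
    funext e v
    simp only [Function.comp]
    induction v using par_induction with
    | h1 => simp [spin_one, f]
    | hs v h ih =>
      rw [spin_ne h, spin_ne h, ← ih]
      simp only [f, h, if_false]
      cases e v <;> cases spin e (par v) <;> rfl
  rw [ising, Measure.map_map hm measurable_spin, key, ← Measure.map_map measurable_spin hfm,
    Measure.infinitePi_map_pi _ hf]
  have : (fun v : V d => (coin (if v = 1 then 1 / 2 else (1 + θ) / 2)).map (f v)) =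
      fun v : V d => coin (if v = 1 then 1 / 2 else (1 + θ) / 2) := by
    funext v
    by_cases h : v = 1
    · simp only [f, h, if_true]; exact coin_half_not
    · simp only [f, h, if_false]; exact Measure.map_id
  rw [this]

lemma ising_spin (v : V d) (b : Bool) :
    ising d θ {σ | σ v = b} = ENNReal.ofReal (1 / 2) := by
  have hm : ∀ b : Bool, MeasurableSet {σ : V d → Bool | σ v = b} := fun b =>
    show MeasurableSet ((fun σ : V d → Bool => σ v) ⁻¹' {b}) from
      measurable_pi_apply v (measurableSet_singleton b)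
  have h1 : ising d θ {σ | σ v = !b} = ising d θ {σ | σ v = b} := by
    rw [← (ising_flip (d := d) (θ := θ)).measure_preimage (hm b).nullMeasurableSet]
    congr 1
    ext σ
    simp only [Set.mem_ofPred_eq, Set.mem_preimage]
    cases σ v <;> cases b <;> simp
  have h2 : {σ : V d → Bool | σ v = !b} = {σ | σ v = b}ᶜ := by
    ext σ
    simp only [Set.mem_ofPred_eq, Set.mem_compl_iff]
    cases σ v <;> cases b <;> simp
  rw [h2] at h1
  have h3 := measure_add_measure_compl (μ := ising d θ) (hm b)
  rw [h1, measure_univ] at h3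
  have hfin : ising d θ {σ | σ v = b} ≠ ⊤ := measure_ne_top _ _
  rw [← ENNReal.ofReal_toReal hfin]
  congr 1
  have h4 := congrArg ENNReal.toReal h3
  rw [ENNReal.toReal_add hfin hfin] at h4
  simp only [ENNReal.toReal_one] at h4
  linarith

lemma adj_par {x y : V d} (h : (tree d).Adj x y) :
    (y ≠ 1 ∧ par y = x) ∨ (x ≠ 1 ∧ par x = y) := by
  rcases h with ⟨c, h⟩ | ⟨c, h⟩
  · refine Or.inl ⟨fun h1 => ?_, Subtype.ext ?_⟩
    · rw [h1] at h; simp at h
    · simp [par, h]
  · refine Or.inr ⟨fun h1 => ?_, Subtype.ext ?_⟩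
    · rw [h1] at h; simp at h
    · simp [par, h]

lemma adj_of_ne {v : V d} (h : v ≠ 1) : (tree d).Adj v (par v) := by
  obtain ⟨l, hl⟩ := v
  cases l with
  | nil => exact absurd rfl h
  | cons c l => exact Or.inr ⟨c, rfl⟩

lemma eq_or_suffix_par {u v : V d} (h : v.1 <:+ u.1) : u = v ∨ v.1 <:+ (par u).1 := by
  obtain ⟨l, hl⟩ := u
  cases l with
  | nil => exact Or.inl (Subtype.ext (List.suffix_nil.1 h).symm)
  | cons c l =>
    rcases List.suffix_cons_iff.1 h with h | h
    · exact Or.inl (Subtype.ext h.symm)
    · exact Or.inr h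

lemma par_mem {D : Finset (V d)} (hD : ((tree d).induce (D : Set (V d))).Connected) {r : V d}
    (hr : r ∈ D) (hmin : ∀ v ∈ D, len r ≤ len v) {v : V d} (hv : v ∈ D) (hne : v ≠ r) :
    v ≠ 1 ∧ par v ∈ D := by
  have h1 : v ≠ 1 := by
    rintro rfl
    exact hne (len_eq_zero.1 (Nat.le_zero.1 (hmin 1 hv))).symm
  refine ⟨h1, ?_⟩
  by_contra hp
  have key : ∀ (a b : (D : Set (V d))) (_ : ((tree d).induce (D : Set (V d))).Walk a b),
      v.1 <:+ a.1.1 → v.1 <:+ b.1.1 := by
    intro a b w
    induction w with
    | nil => exact id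
    | @cons a b c hab w ih =>
      intro ha
      apply ih
      rcases adj_par (show (tree d).Adj a.1 b.1 from hab) with ⟨-, h⟩ | ⟨-, h⟩
      · exact ha.trans (h ▸ par_suffix b.1)
      · rcases eq_or_suffix_par ha with h2 | h2
        · exact absurd (by rw [← h2, h]; exact b.2) hp
        · rwa [h] at h2
  obtain ⟨w⟩ := hD.preconnected ⟨v, hv⟩ ⟨r, hr⟩
  have h2 := key _ _ w (List.suffix_refl _)
  exact hne (Subtype.ext (h2.eq_of_length_le (hmin v hv)))

open Classical in
lemma edges_eq {D : Finset (V d)} {r : V d} (hmin : ∀ v ∈ D, len r ≤ len v)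
    (hp : ∀ v ∈ D, v ≠ r → v ≠ 1 ∧ par v ∈ D) :
    D.sym2.filter (· ∈ (tree d).edgeSet) = (D.erase r).image fun v => s(v, par v) := by
  ext e
  induction e using Sym2.ind with
  | h x y =>
    simp only [Finset.mem_filter, Finset.mk_mem_sym2_iff, SimpleGraph.mem_edgeSet,
      Finset.mem_image, Finset.mem_erase]
    constructor
    · rintro ⟨⟨hx, hy⟩, h⟩
      rcases adj_par h with ⟨h1, h2⟩ | ⟨h1, h2⟩
      · refine ⟨y, ⟨?_, hy⟩, by rw [h2, Sym2.eq_swap]⟩
        rintro rfl
        have := hmin x hx
        rw [len_par h1, h2] at this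
        omega
      · refine ⟨x, ⟨?_, hx⟩, by rw [h2]⟩
        rintro rfl
        have := hmin y hy
        rw [len_par h1, h2] at this
        omega
    · rintro ⟨v, ⟨hne, hv⟩, h⟩
      obtain ⟨h1, h2⟩ := hp v hv hne
      rcases Sym2.eq_iff.1 h with ⟨rfl, rfl⟩ | ⟨rfl, rfl⟩
      · exact ⟨⟨hv, h2⟩, adj_of_ne h1⟩
      · exact ⟨⟨h2, hv⟩, (adj_of_ne h1).symm⟩

lemma coin_edge (h0 : 0 ≤ θ) (h1 : θ ≤ 1) (a b : Bool) :
    coin ((1 + θ) / 2) {a == b} = ENNReal.ofReal ((1 + θ * sg a * sg b) / 2) := by
  have e1 := coin_true (p := (1 + θ) / 2) (by linarith) (by linarith)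
  have e2 := coin_false (p := (1 + θ) / 2) (by linarith) (by linarith)
  cases a <;> cases b
  · simpa [sg] using e1
  · refine e2.trans (congrArg _ ?_); simp [sg]; ring
  · refine e2.trans (congrArg _ ?_); simp [sg]; ring
  · simpa [sg] using e1

theorem isFree (h0 : 0 ≤ θ) (h1 : θ ≤ 1) : IsFreeIsing (tree d) θ (ising d θ) := by
  classical
  refine ⟨inferInstance, fun D hD η => ?_⟩
  obtain ⟨⟨v0, hv0⟩⟩ := hD.nonempty
  obtain ⟨r, hr, hmin⟩ := D.exists_min_image len ⟨v0, hv0⟩
  have hp : ∀ v ∈ D, v ≠ r → v ≠ 1 ∧ par v ∈ D := fun v hv hne => par_mem hD hr hmin hv hne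
  have hinj : Set.InjOn (fun v : V d => s(v, par v)) (D.erase r : Finset (V d)) := by
    intro a ha b hb hab
    obtain ⟨ha1, ha2⟩ := Finset.mem_erase.1 ha
    obtain ⟨hb1, hb2⟩ := Finset.mem_erase.1 hb
    rcases Sym2.eq_iff.1 hab with ⟨h, -⟩ | ⟨h, h'⟩
    · exact h
    · have e1 := len_par (hp a ha2 ha1).1
      have e2 := len_par (hp b hb2 hb1).1
      rw [h'] at e1
      rw [← h] at e2
      omega
  have hev : {σ : V d → Bool | ∀ v ∈ D, σ v = η v} =
      (fun σ => spin (eps σ) r) ⁻¹' {η r} ∩
        (fun σ => decide (∀ v ∈ D.erase r, eps σ v = (η v == η (par v)))) ⁻¹' {true} := by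
    ext σ
    simp only [Set.mem_ofPred_eq, Set.mem_inter_iff, Set.mem_preimage, Set.mem_singleton_iff,
      spin_eps, decide_eq_true_eq]
    constructor
    · intro h
      refine ⟨h r hr, fun v hv => ?_⟩
      obtain ⟨hv1, hv2⟩ := Finset.mem_erase.1 hv
      obtain ⟨h1, h2⟩ := hp v hv2 hv1
      simp only [eps, h1, if_false, h v hv2, h _ h2]
    · rintro ⟨ha, hb⟩ v
      induction v using par_induction with
      | h1 =>
        intro hv
        by_cases h : (1 : V d) = r
        · rw [h]; exact ha
        · exact absurd rfl (hp 1 hv h).1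
      | hs v h ih =>
        intro hv
        by_cases hvr : v = r
        · rw [hvr]; exact ha
        · have e1 := hb v (Finset.mem_erase.2 ⟨hvr, hv⟩)
          simp only [eps, h, if_false, ih (hp v hv hvr).2] at e1
          revert e1
          cases σ v <;> cases η v <;> cases η (par v) <;> simp
  have hind := indep_of_dep (θ := θ) (S := ball d (len r) \ D.erase r) (T := D.erase r)
    Finset.sdiff_disjoint (F := fun e => spin e r)
    (G := fun e => decide (∀ v ∈ D.erase r, e v = (η v == η (par v))))
    (fun e e' h => spin_congr fun u hu => h u (Finset.mem_sdiff.2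
      ⟨mem_ball.2 hu.length_le, fun hu2 => (Finset.mem_erase.1 hu2).1
        (Subtype.ext (hu.eq_of_length_le (hmin u (Finset.mem_erase.1 hu2).2)))⟩))
    (fun e e' h => by
      rw [decide_eq_decide]
      exact forall₂_congr fun v hv => by rw [h v hv])
  rw [hev, hind.measure_inter_preimage_eq_mul _ _ (measurableSet_singleton _)
    (measurableSet_singleton _)]
  have e1 : (fun σ : V d → Bool => spin (eps σ) r) ⁻¹' {η r} = {σ | σ r = η r} := by
    ext σ; simp [spin_eps]
  have e2 : (fun σ : V d → Bool => decide (∀ v ∈ D.erase r, eps σ v = (η v == η (par v)))) ⁻¹'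
      {true} = ⋂ v ∈ D.erase r, (fun σ : V d → Bool => eps σ v) ⁻¹' {η v == η (par v)} := by
    ext σ; simp
  rw [e1, e2, ising_spin, (iIndep_eps (d := d) (θ := θ)).measure_inter_preimage_eq_mul _
    fun v _ => measurableSet_singleton _]
  have e3 := edges_eq hmin hp
  rw [ENNReal.ofReal_mul (by norm_num)]
  refine congrArg _ ?_
  rw [Finset.filter_congr_decidable, e3, Finset.prod_image hinj, ENNReal.ofReal_prod_of_nonneg]
  · refine Finset.prod_congr rfl fun v hv => ?_
    obtain ⟨hv1, hv2⟩ := Finset.mem_erase.1 hv
    rw [← Measure.map_apply (measurable_eps_apply v)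
      (measurableSet_singleton _), map_eps_apply, if_neg (hp v hv2 hv1).1, coin_edge h0 h1]
    rfl
  · intro v _
    change 0 ≤ (1 + θ * sg (η v) * sg (η (par v))) / 2
    cases η v <;> cases η (par v) <;> simp [sg] <;> linarith

lemma ball_connected (n : ℕ) : ((tree d).induce (ball d n : Set (V d))).Connected := by
  have h1 : (1 : V d) ∈ ball d n := mem_ball.2 (Nat.zero_le _)
  rw [SimpleGraph.connected_iff_exists_forall_reachable]
  refine ⟨⟨1, h1⟩, ?_⟩
  rintro ⟨v, hv⟩
  induction v using par_induction with
  | h1 => exact SimpleGraph.Reachable.refl _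
  | hs v h ih =>
    have h2 : par v ∈ ball d n := mem_ball.2 (by
      have := mem_ball.1 hv
      rw [len_par h] at this
      omega)
    exact (ih h2).trans (SimpleGraph.Adj.reachable
      (show ((tree d).induce (ball d n : Set (V d))).Adj ⟨par v, h2⟩ ⟨v, hv⟩ from
        (adj_of_ne h).symm))

theorem unique {μ ν : Measure (V d → Bool)} (hμ : IsFreeIsing (tree d) θ μ)
    (hν : IsFreeIsing (tree d) θ ν) : μ = ν := by
  classical
  have := hμ.1
  have := hν.1
  have hb : ∀ n, μ.map (ball d n).restrict = ν.map (ball d n).restrict := by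
    intro n
    refine Measure.ext_of_singleton fun y => ?_
    rw [Measure.map_apply (Finset.measurable_restrict _) (measurableSet_singleton _),
      Measure.map_apply (Finset.measurable_restrict _) (measurableSet_singleton _)]
    have e : (ball d n).restrict ⁻¹' ({y} : Set (ball d n → Bool)) = {σ : V d → Bool | ∀ v ∈ ball d n,
        σ v = (fun u => if hu : u ∈ ball d n then y ⟨u, hu⟩ else false) v} := by
      ext σ
      simp only [Set.mem_preimage, Set.mem_singleton_iff, Set.mem_ofPred_eq]
      constructor
      · rintro rfl v hv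
        simp [hv]
      · intro h
        funext v
        simpa [v.2] using h v.1 v.2
    rw [e, hμ.2 _ (ball_connected n), hν.2 _ (ball_connected n)]
  have h1 : IsProjectiveLimit μ fun I : Finset (V d) => μ.map I.restrict := fun _ => rfl
  have h2 : IsProjectiveLimit ν fun I : Finset (V d) => μ.map I.restrict := by
    intro I
    have hI : I ⊆ ball d (I.sup len) := fun v hv => mem_ball.2 (Finset.le_sup (f := len) hv)
    show ν.map I.restrict = μ.map I.restrict
    rw [← Finset.restrict₂_comp_restrict hI, ← Measure.map_map (Finset.measurable_restrict₂ _)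
      (Finset.measurable_restrict _), ← Measure.map_map (Finset.measurable_restrict₂ _)
      (Finset.measurable_restrict _), hb]
  exact h1.unique h2

theorem ising_aut (h0 : 0 ≤ θ) (h1 : θ ≤ 1) (g : tree d ≃g tree d) :
    MeasurePreserving (fun (σ : V d → Bool) v => σ (g v)) (ising d θ) (ising d θ) := by
  classical
  have hm : Measurable fun (σ : V d → Bool) v => σ (g v) :=
    measurable_pi_lambda _ fun v => measurable_pi_apply _
  refine ⟨hm, unique ⟨Measure.isProbabilityMeasure_map hm.aemeasurable, fun D hD η => ?_⟩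
    (isFree h0 h1)⟩
  have hms : MeasurableSet {σ : V d → Bool | ∀ v ∈ D, σ v = η v} := by
    have : {σ : V d → Bool | ∀ v ∈ D, σ v = η v} = ⋂ v ∈ D, (fun σ => σ v) ⁻¹' {η v} := by
      ext σ; simp
    rw [this]
    exact Finset.measurableSet_biInter _ fun v _ =>
      measurable_pi_apply v (measurableSet_singleton _)
  rw [Measure.map_apply hm hms]
  have e : (fun (σ : V d → Bool) v => σ (g v)) ⁻¹' {σ : V d → Bool | ∀ v ∈ D, σ v = η v} =
      {σ : V d → Bool | ∀ v ∈ D.image g, σ v = (fun u => η (g.symm u)) v} := by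
    ext σ
    simp only [Set.mem_preimage, Set.mem_ofPred_eq, Finset.forall_mem_image,
      RelIso.symm_apply_apply]
  have hD' : ((tree d).induce (D.image g : Finset (V d))).Connected := by
    refine hD.map (G := (tree d).induce (D : Set (V d)))
      ⟨fun v => ⟨g v.1, Finset.mem_coe.2 (Finset.mem_image_of_mem _ v.2)⟩,
        fun {a b} hab => g.map_rel_iff.2 hab⟩ ?_
    rintro ⟨u, hu⟩
    obtain ⟨v, hv, rfl⟩ := Finset.mem_image.1 (Finset.mem_coe.1 hu)
    exact ⟨⟨v, hv⟩, rfl⟩
  rw [e, (isFree h0 h1).2 _ hD']
  refine congrArg _ (congrArg _ ?_)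
  refine Finset.prod_nbij' (Sym2.map g.symm) (Sym2.map g) ?_ ?_ ?_ ?_ ?_
  · intro e
    induction e using Sym2.ind with
    | h x y =>
      simp only [Finset.mem_filter, Finset.mk_mem_sym2_iff, SimpleGraph.mem_edgeSet,
        Finset.mem_image, Sym2.map_mk]
      rintro ⟨⟨⟨a, ha, rfl⟩, b, hb, rfl⟩, h⟩
      simpa [ha, hb] using g.map_rel_iff.1 h
  · intro e
    induction e using Sym2.ind with
    | h x y =>
      simp only [Finset.mem_filter, Finset.mk_mem_sym2_iff, SimpleGraph.mem_edgeSet,
        Finset.mem_image, Sym2.map_mk]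
      rintro ⟨⟨ha, hb⟩, h⟩
      exact ⟨⟨⟨x, ha, rfl⟩, y, hb, rfl⟩, g.map_rel_iff.2 h⟩
  · intro e _
    induction e using Sym2.ind with
    | h x y => simp
  · intro e _
    induction e using Sym2.ind with
    | h x y => simp
  · intro e _
    induction e using Sym2.ind with
    | h x y => rfl

theorem two_point (h0 : 0 ≤ θ) (h1 : θ ≤ 1) (w : V d) :
    ∫ σ, sg (σ 1) * sg (σ w) ∂ising d θ = θ ^ len w := by
  classical
  induction w using par_induction with
  | h1 => simp [← sq, sg_sq]
  | hs v h ih =>
    have hlen := len_par h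
    have hF : ∀ e e' : V d → Bool, (∀ u ∈ ball d (len (par v)), e u = e' u) →
        sg (spin e 1) * sg (spin e (par v)) = sg (spin e' 1) * sg (spin e' (par v)) := by
      intro e e' he
      rw [spin_congr (v := 1) fun u hu => he u (mem_ball.2 (hu.length_le.trans (Nat.zero_le _))),
        spin_congr (v := par v) fun u hu => he u (mem_ball.2 hu.length_le)]
    have hG : ∀ e e' : V d → Bool, (∀ u ∈ ({v} : Finset (V d)), e u = e' u) →
        sg (e v) = sg (e' v) := fun e e' he => by rw [he v (Finset.mem_singleton_self _)]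
    have hind := indep_of_dep (θ := θ) (S := ball d (len (par v))) (T := {v})
      (Finset.disjoint_singleton_right.2 fun hv => by have := mem_ball.1 hv; omega) hF hG
    have h2 := hind.integral_fun_mul_eq_mul_integral
      ((measurable_of_dep hF).comp measurable_eps).aestronglyMeasurable
      ((measurable_of_dep hG).comp measurable_eps).aestronglyMeasurable
    simp only [spin_eps] at h2
    rw [ih, integral_eps h0 h1 h sg] at h2
    have e : ∀ σ : V d → Bool, sg (σ 1) * sg (σ v) =
        sg (σ 1) * sg (σ (par v)) * sg (eps σ v) := fun σ => by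
      rw [sg_eps h]
      linear_combination (-(sg (σ 1) * sg (σ v))) * sg_sq (σ (par v))
    simp only [e]
    rw [h2, hlen, pow_succ]
    simp only [sg, if_true, Bool.false_eq_true, if_false]
    ring

lemma measurable_pbT0 {α : Type} [MeasurableSpace α] (g : tree d ≃g tree d) :
    Measurable (pbT (α := α) g) := measurable_pi_lambda _ fun _ => measurable_pi_apply _

theorem iid_pbT (g : tree d ≃g tree d) : MeasurePreserving (pbT g) (iid (Ix d)) (iid (Ix d)) := by
  refine ⟨measurable_pbT0 g, ?_⟩
  exact Measure.map_infinitePi_infinitePi_of_inj (P := fun _ : Ix d => (volume : Measure unitInterval))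
    (f := fun a : Ix d => (g a.1, a.2)) fun a b hab => by
      simp only [Prod.mk.injEq] at hab
      exact Prod.ext (g.injective hab.1) hab.2

theorem P1_pb1 (h : Hyp d θ) (g : tree d ≃g tree d) :
    MeasurePreserving (pb1 g) (P1 d θ) (P1 d θ) :=
  (ising_aut h.h0 (h.le.trans (by norm_num)) g).prod (iid_pbT g)

theorem PP_pb (h : Hyp d θ) (g : tree d ≃g tree d) :
    MeasurePreserving (pb g) (PP d θ) (PP d θ) :=
  (iid_pbT g).prod (P1_pb1 h g)

theorem PP_flip : MeasurePreserving flip (PP d θ) (PP d θ) :=
  (MeasurePreserving.id (iid (Ix d))).prod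
    ((ising_flip (d := d) (θ := θ)).prod (MeasurePreserving.id (iid (Ix d))))

end Vale.Agent.P161E
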