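import Vale.Agent.P161E.Temper
import Vale.Agent.P161E.Ising

/-! Above the threshold the free state is not a factor of IID.
Apply `temper` on `V d → unitInterval` with `sh x U = fun v => U (x * v)` (`infinitePi_map_piCongrLeft` or
`Measure.eq_infinitePi`), `E R = ⨆ v with len v ≤ R, comap (· v)` (independence from `iIndepFun_infinitePi`,
`indep_iSup_of_disjoint`, `len_le_mul`), `f U = sg (Φ U 1)` (mean zero by `integral_root`).  Equivariance for
`(lmul x).symm` gives `f (sh x U) = sg (Φ U x)` a.e.  By `two_point` and Cauchy-Schwarz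
`(card (sph k) θ^k)² ≤ NN d k`, so `(b θ²)^k ≤ 4 (k+1)²` for all `k` (`card_sph_ge`), hence `b θ² ≤ 1`. -/

namespace Vale.Agent.P161E

open MeasureTheory ProbabilityTheory Filter

variable {d : ℕ} {θ : ℝ}

lemma measurable_sg_apply (v : V d) : Measurable fun σ : V d → Bool => sg (σ v) :=
  (Measurable.of_discrete (f := sg)).comp (measurable_pi_apply v)

lemma fiid_moment (hd : 3 ≤ d) (hF : IsFIID (tree d) (ising d θ)) (k : ℕ) :
    ∫ σ, (∑ q ∈ sph d k, sg (σ q)) ^ 2 ∂ising d θ ≤ NN d k := by
  obtain ⟨Φ, hΦ, hmap, heq⟩ := hF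
  have hint : ∀ F : (V d → Bool) → ℝ, Measurable F →
      ∫ σ, F σ ∂ising d θ = ∫ U, F (Φ U) ∂iid (V d) := fun F hF => by
    rw [← hmap, integral_map hΦ.aemeasurable hF.aestronglyMeasurable]
  let m : V d → MeasurableSpace (V d → unitInterval) := fun v =>
    MeasurableSpace.comap (fun U => U v) inferInstance
  have hmle : ∀ v, m v ≤ MeasurableSpace.pi := fun v => (measurable_pi_apply v).comap_le
  have hind : iIndep m (iid (V d)) :=
    (iIndepFun_infinitePi (P := fun _ : V d => (volume : Measure unitInterval))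
      (X := fun _ u => u) fun _ => measurable_id).iIndep
  have hle : MeasurableSpace.pi ≤ ⨆ R : ℕ, ⨆ v ∈ {v : V d | len v ≤ R}, m v :=
    iSup_le fun v => le_iSup_of_le (len v) (le_iSup₂_of_le v (le_refl (len v)) le_rfl)
  have key := temper (P := iid (V d)) hd (sh := fun x U v => U (x * v))
    (fun x => ⟨measurable_pi_lambda _ fun v => measurable_pi_apply _,
      Measure.map_infinitePi_infinitePi_of_inj
        (P := fun _ : V d => (volume : Measure unitInterval)) (f := fun v => x * v)
        (mul_right_injective x)⟩)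
    (fun U => by simp) (fun x y U => by simp [mul_assoc])
    (E := fun R => ⨆ v ∈ {v : V d | len v ≤ R}, m v)
    (fun R R' hR => biSup_mono fun v hv => le_trans hv hR)
    (fun R => iSup₂_le fun v _ => hmle v)
    (fun R x hx => by
      refine indep_of_indep_of_le_right (indep_iSup_of_disjoint hmle hind
        (T := {v : V d | R < len v}) (Set.disjoint_left.2 fun v hv hv' =>
          absurd (show len v ≤ R from hv) (not_le.2 hv'))) ?_
      rw [MeasurableSpace.comap_iSup]
      refine iSup_le fun v => ?_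
      rw [MeasurableSpace.comap_iSup]
      refine iSup_le fun hv => ?_
      have h1 := len_le_mul x v
      have h2 : len v ≤ R := hv
      refine le_iSup₂_of_le (x * v) (show R < len (x * v) by omega) ?_
      rw [MeasurableSpace.comap_comp]
      exact le_rfl)
    (f := fun U => sg (Φ U 1))
    ⟨((measurable_sg_apply 1).comp hΦ).mono hle le_rfl, 1, fun U => (abs_sg _).le⟩
    (by rw [← hint _ (measurable_sg_apply 1), integral_root]; simp [sg])
    (Finset.Subset.refl (sph d k))
  simp only [sg_sq, integral_const, probReal_univ, smul_eq_mul, mul_one] at key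
  rw [hint _ ((Finset.measurable_sum _ fun q _ => measurable_sg_apply q).pow_const 2)]
  refine le_trans (le_of_eq (integral_congr_ae ?_)) key
  filter_upwards [ae_all_iff.2 fun x : V d => heq (lmul x).symm] with U hU
  refine congrArg (· ^ 2) (Finset.sum_congr rfl fun q _ => ?_)
  have h := congrFun (hU q) 1
  simp only [RelIso.symm_symm, lmul_apply, mul_one] at h
  rw [h]

theorem converse (hd : 3 ≤ d) (h0 : 0 ≤ θ) (h1 : θ ≤ 1) (hF : IsFIID (tree d) (ising d θ)) :
    ((d : ℝ) - 1) * θ ^ 2 ≤ 1 := by
  have hb : (0 : ℝ) < (d : ℝ) - 1 := by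
    have : (3 : ℝ) ≤ d := by exact_mod_cast hd
    linarith
  have hk : ∀ k : ℕ, (((d : ℝ) - 1) * θ ^ 2) ^ k ≤ 4 * ((k : ℝ) + 1) ^ 2 := by
    intro k
    have hm := fiid_moment hd hF k
    have hs : ∀ v : V d, BM inferInstance fun σ : V d → Bool => sg (σ v) := fun v =>
      ⟨measurable_sg_apply v, 1, fun _ => (abs_sg _).le⟩
    have hS := BM.sum (sph d k) fun q _ => hs q
    have e1 : ∫ σ, sg (σ 1) * ∑ q ∈ sph d k, sg (σ q) ∂ising d θ = (sph d k).card * θ ^ k := by
      simp only [Finset.mul_sum]
      rw [integral_finsetSum _ fun q _ => ((hs 1).mul (hs q)).integrable,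
        Finset.sum_congr rfl fun q hq => (two_point h0 h1 q).trans (by rw [mem_sph.1 hq])]
      simp
    generalize ha : ((sph d k).card : ℝ) * θ ^ k = a at e1
    have e2 : ∫ σ, 2 * a * (sg (σ 1) * ∑ q ∈ sph d k, sg (σ q)) ∂ising d θ ≤
        ∫ σ, ((∑ q ∈ sph d k, sg (σ q)) ^ 2 + a ^ 2) ∂ising d θ := by
      refine integral_mono ((BM.const _).mul ((hs 1).mul hS)).integrable
        ((hS.pow 2).add (BM.const _)).integrable fun σ => ?_
      have := sg_sq (σ 1)
      nlinarith [sq_nonneg ((∑ q ∈ sph d k, sg (σ q)) - a * sg (σ 1))]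
    rw [integral_const_mul, e1, integral_add (hS.pow 2).integrable (integrable_const _)] at e2
    simp only [integral_const, probReal_univ, smul_eq_mul, one_mul] at e2
    have e3 : a ^ 2 ≤ NN d k := by nlinarith
    have e4 : ((d : ℝ) - 1) ^ k * θ ^ k ≤ a := by
      rw [← ha]
      exact mul_le_mul_of_nonneg_right (card_sph_ge hd k) (pow_nonneg h0 k)
    have e5 : (((d : ℝ) - 1) ^ k * θ ^ k) ^ 2 ≤ NN d k :=
      (pow_le_pow_left₀ (by positivity) e4 2).trans e3
    refine le_of_mul_le_mul_right ?_ (pow_pos hb k)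
    refine le_trans (le_of_eq ?_) e5
    rw [mul_pow, ← pow_mul, mul_comm 2 k, pow_mul]
    ring
  by_contra hr
  rw [not_le] at hr
  generalize ((d : ℝ) - 1) * θ ^ 2 = r at hr hk
  have hr0 : 0 < r := by linarith
  have ht := (tendsto_pow_const_div_const_pow_of_one_lt 2 hr).comp (tendsto_add_atTop_nat 1)
  have hge : 1 / (4 * r) ≤ 0 := ge_of_tendsto' ht fun k => by
    simp only [Function.comp, Nat.cast_add, Nat.cast_one]
    rw [div_le_div_iff₀ (by positivity) (by positivity), pow_succ]
    nlinarith [mul_le_mul_of_nonneg_right (hk k) hr0.le]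
  have : 0 < 1 / (4 * r) := by positivity
  linarith

end Vale.Agent.P161E
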