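import Vale.Agent.P161E.Env

/-! Upper bounds for the aligned fields.  Put `b = d - 1`.
`qv_le'` (non-root, induction on `n`): if `b B ≥ 1` trivial.  Otherwise each message has
`qv = θ² q ≤ p := B` (as `θ² b ≤ 1`, `q ≤ b B`, precisely `θ² q ≤ q / b ≤ B`); two messages together
have `qv ≤ p₁ + p₂ - p₁ p₂ ≤ 2 B - B²` (`qv_add_le'`, `tanh_msg`, `θ² ≤ 1/2`), the site has
`qv ≤ B²`, the other `b - 2` messages add at most `B` each (`qv_add_le`): total `b B`.
Order the sum as (two messages) + site + others; one may use commutativity and `Env.indepFun`.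
`mgf_le`: let `N n λ = sup_{z ≠ 1} E cosh (λ ah n z)`.  By independence and `mgf_msg`,
`E exp (± λ ah (n+1) z) ≤ exp (λ B) * ∏_c E cosh ((λ+1) θ ah n (zc))`.  With `t = b^(-1/2) ≥ θ`,
`t ≤ 3/4`, prove by induction on `n` for all `z ≠ 1`, `λ ≥ 0`:
`log E cosh (λ ah n z) ≤ C B (λ + 4)²`-type bound: for `λ ≤ 8` use `|ah| ≤ 1 + d`,
`cosh (λ x) ≤ 1 + C' tanh² x` and `qv_le'`; for `λ > 8` use the recursion with the ansatz
`K(λ) = B (C₁ (λ - a)² ...)`; e.g. with `λ* = t/(1-t) ≤ 3`, `μ = λ - λ*` is multiplied by `t`,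
and `F(μ) = C₁ μ² - C₂ μ` satisfies `μ + 3 + b F(t μ) ≤ F(μ)` when `C₂ (√b - 1) μ ≥ μ + 3`. -/

namespace Vale.Agent.P161E

open MeasureTheory ProbabilityTheory Real

variable {d : ℕ} {θ B : ℝ} {Ω : Type} [m0 : MeasurableSpace Ω] {P : Measure Ω}
  [IsProbabilityMeasure P]

namespace EstAAux

variable (E : Env d θ B P)

/-- The message sent by the child of colour `c`. -/
noncomputable def M (n : ℕ) (z : V d) (c : Fin d) (ω : Ω) : ℝ :=
  sg (E.e (step c z) ω) * msg θ (E.ah n (step c z) ω)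

include E in
lemma B_nonneg : 0 ≤ B := by
  obtain ⟨ω⟩ : Nonempty Ω := nonempty_of_isProbabilityMeasure P
  exact (abs_nonneg _).trans (E.bd 1 ω)

lemma M_meas (n : ℕ) (z : V d) (c : Fin d) :
    Measurable[E.alg (insert (Sum.inl (step c z)) (desc (step c z)))] (M E n z c) := by
  refine Measurable.mul (E.e_meas (Set.mem_insert _ _)) ?_
  exact measurable_msg.comp
    ((E.ah_meas n (step c z)).mono (E.alg_mono (Set.subset_insert _ _)) le_rfl)

lemma M_BM (h : Hyp d θ) (n : ℕ) (z : V d) (c : Fin d) : BM m0 (M E n z c) := by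
  refine ⟨(M_meas E n z c).mono (E.alg_le _) le_rfl, 1, fun ω => ?_⟩
  rw [M, abs_mul, abs_sg, one_mul]
  exact abs_msg_le_one h _

lemma M_nish (h : Hyp d θ) (n : ℕ) {z : V d} {c : Fin d} (hc : c ∈ kids z) :
    Nish P (M E n z c) :=
  Nish.msg h (E.ah_nish h n _) (E.ah_BM h n _) (E.edge _ (step_ne_one hc))
    (E.e_indep (E.ah_meas n _))

lemma M_qv (h : Hyp d θ) (n : ℕ) (z : V d) (c : Fin d)
    (hq : qv P (E.ah n (step c z)) ≤ ((d : ℝ) - 1) * B) : qv P (M E n z c) ≤ B := by
  have h1 : qv P (M E n z c) = θ ^ 2 * qv P (E.ah n (step c z)) := qv_msg h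
  have h2 := mul_le_mul_of_nonneg_left hq (sq_nonneg θ)
  have h3 := mul_le_mul_of_nonneg_right h.h1 (B_nonneg E)
  rw [h1]
  nlinarith

omit [IsProbabilityMeasure P] in
lemma M_tanh (h : Hyp d θ) (n : ℕ) (z : V d) (c : Fin d) (ω : Ω) :
    tanh (M E n z c ω) ^ 2 ≤ 1 / 2 := by
  rw [M, ← msg_sg, tanh_msg h, mul_pow]
  have h1 := tanh_sq_lt_one (sg (E.e (step c z) ω) * E.ah n (step c z) ω)
  have h2 := h.sq_le
  nlinarith [sq_nonneg θ, sq_nonneg (tanh (sg (E.e (step c z) ω) * E.ah n (step c z) ω))]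

omit [IsProbabilityMeasure P] in
lemma s_BM (z : V d) : BM m0 (E.s z) := ⟨E.ms z, B, E.bd z⟩

lemma s_qv (z : V d) : qv P (E.s z) ≤ B ^ 2 := by
  have h1 : qv P (E.s z) ≤ ∫ _ : Ω, B ^ 2 ∂P := by
    refine integral_mono (((s_BM E z).cont continuous_tanh').pow 2).integrable
      (integrable_const _) fun ω => ?_
    have h2 := (abs_tanh_le (E.s z ω)).trans (E.bd z ω)
    exact sq_le_sq' (abs_le.1 h2).1 (abs_le.1 h2).2
  simpa using h1

omit [IsProbabilityMeasure P] in
lemma part_insert (n : ℕ) (z : V d) {S : Finset (Fin d)} {c : Fin d} (hc : c ∉ S) :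
    E.part n z (insert c S) = fun ω => E.part n z S ω + M E n z c ω := by
  funext ω
  simp only [Env.part, M, Finset.sum_insert hc]
  ring

lemma part_qv (h : Hyp d θ) (n : ℕ) {z : V d} (hq : ∀ c ∈ kids z, qv P (M E n z c) ≤ B)
    {S : Finset (Fin d)} (hS : S ⊆ kids z) (U : Finset (Fin d)) (hU : U ⊆ kids z)
    (hd : Disjoint U S) : qv P (E.part n z (U ∪ S)) ≤ qv P (E.part n z S) + U.card * B := by
  induction U using Finset.induction_on with
  | empty => simp
  | insert c U hc ih =>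
    have hck : c ∈ kids z := hU (Finset.mem_insert_self _ _)
    have hU' : U ⊆ kids z := (Finset.subset_insert _ _).trans hU
    rw [Finset.disjoint_insert_left] at hd
    have hcU : c ∉ U ∪ S := by simp [hc, hd.1]
    have hUS : U ∪ S ⊆ kids z := Finset.union_subset hU' hS
    rw [Finset.insert_union, part_insert E n z hcU, Finset.card_insert_of_notMem hc]
    have h1 := qv_add_le (E.part_nish h n hUS) (M_nish E h n hck) (E.part_BM h n z _)
      (M_BM E h n z c) (E.part_indep n hUS hck hcU (M_meas E n z c))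
    have h2 := ih hU' hd.2
    have h3 := hq c hck
    push_cast
    linarith

lemma inr_notMem {z : V d} {c : Fin d} (hc : c ∈ kids z) :
    Sum.inr z ∉ insert (Sum.inl (step c z)) (desc (step c z)) := by
  rintro (h | h)
  · cases h
  · have h1 : (step c z).1 <:+ z.1 := h
    have h2 := h1.length_le
    rw [step_kid hc] at h2
    simp at h2

lemma pair_qv (h : Hyp d θ) (hB : B ≤ 1) (n : ℕ) {z : V d} {c c' : Fin d} (hc : c ∈ kids z)
    (hc' : c' ∈ kids z) (hne : c ≠ c') (hq : qv P (M E n z c) ≤ B) (hq' : qv P (M E n z c') ≤ B) :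
    qv P (E.part n z {c, c'}) ≤ 2 * B := by
  have hi : IndepFun (M E n z c) (M E n z c') P :=
    E.indepFun (desc_disjoint (by rw [len_step_kid hc, len_step_kid hc'])
      fun e => hne (step_colour e)) (M_meas E n z c) (M_meas E n z c')
  have h1 := qv_add_le' (M_nish E h n hc) (M_nish E h n hc') (M_BM E h n z c) (M_BM E h n z c') hi
    (M_tanh E h n z c) (M_tanh E h n z c')
  have hi2 : IndepFun (fun ω => M E n z c ω + M E n z c' ω) (E.s z) P := by
    refine E.indepFun (S := insert (Sum.inl (step c z)) (desc (step c z)) ∪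
      insert (Sum.inl (step c' z)) (desc (step c' z))) (S' := {Sum.inr z}) ?_ ?_
      (E.s_meas (Set.mem_singleton _))
    · rw [Set.disjoint_singleton_right]
      rintro (e | e)
      · exact inr_notMem hc e
      · exact inr_notMem hc' e
    · exact ((M_meas E n z c).mono (E.alg_mono Set.subset_union_left) le_rfl).add
        ((M_meas E n z c').mono (E.alg_mono Set.subset_union_right) le_rfl)
  have h2 := qv_add_le (((M_nish E h n hc).add (M_nish E h n hc') (M_BM E h n z c)
    (M_BM E h n z c') hi)) (E.nish z) ((M_BM E h n z c).add (M_BM E h n z c')) (s_BM E z) hi2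
  have e : E.part n z {c, c'} = fun ω => (M E n z c ω + M E n z c' ω) + E.s z ω := by
    funext ω
    simp only [Env.part, M, Finset.sum_pair hne]
    ring
  rw [e]
  have h3 := s_qv E z
  have h4 : (1 - B) * (1 - B) ≤ (1 - qv P (M E n z c)) * (1 - qv P (M E n z c')) :=
    mul_le_mul (by linarith) (by linarith) (by linarith) (by linarith)
  nlinarith

lemma exp_part (h : Hyp d θ) (n : ℕ) {z : V d} (l K : ℝ)
    (hK : ∀ c ∈ kids z, ∫ ω, exp (l * M E n z c ω) ∂P ≤ K) (S : Finset (Fin d))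
    (hS : S ⊆ kids z) : ∫ ω, exp (l * E.part n z S ω) ∂P ≤ exp (|l| * B) * K ^ S.card := by
  have hce : Continuous fun x : ℝ => exp (l * x) := by fun_prop
  induction S using Finset.induction_on with
  | empty =>
    have h1 : ∫ ω, exp (l * E.part n z ∅ ω) ∂P ≤ ∫ _ : Ω, exp (|l| * B) ∂P := by
      refine integral_mono ((E.part_BM h n z ∅).cont hce).integrable (integrable_const _)
        fun ω => exp_le_exp.2 ?_
      simp only [Env.part, Finset.sum_empty, add_zero]
      refine (le_abs_self _).trans ?_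
      rw [abs_mul]
      exact mul_le_mul_of_nonneg_left (E.bd z ω) (abs_nonneg _)
    simpa using h1
  | insert c S hc ih =>
    have hck : c ∈ kids z := hS (Finset.mem_insert_self _ _)
    have hS' : S ⊆ kids z := (Finset.subset_insert _ _).trans hS
    rw [part_insert E n z hc, Finset.card_insert_of_notMem hc]
    have hi := (E.part_indep n hS' hck hc (M_meas E n z c)).comp hce.measurable hce.measurable
    have h1 := hi.integral_fun_mul_eq_mul_integral
      ((E.part_BM h n z S).cont hce).meas.aestronglyMeasurable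
      ((M_BM E h n z c).cont hce).meas.aestronglyMeasurable
    simp only [Function.comp_apply] at h1
    simp only [mul_add, exp_add]
    rw [h1, pow_succ, ← mul_assoc]
    have h2 : 0 ≤ ∫ ω, exp (l * E.part n z S ω) ∂P := integral_nonneg fun _ => (exp_pos _).le
    exact mul_le_mul (ih hS') (hK c hck) (integral_nonneg fun _ => (exp_pos _).le)
      (h2.trans (ih hS'))

lemma cosh_step (h : Hyp d θ) (n : ℕ) {z : V d} (hz : z ≠ 1) {l l' K : ℝ} (hl : 0 ≤ l)
    (hl' : (l + 1) * θ ≤ l') (hK : ∀ c ∈ kids z, ∫ ω, cosh (l' * E.ah n (step c z) ω) ∂P ≤ K) :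
    ∫ ω, cosh (l * E.ah (n + 1) z ω) ∂P ≤ exp (l * B) * K ^ (d - 1) := by
  have key : ∀ m : ℝ, |m| = l → ∫ ω, exp (m * E.ah (n + 1) z ω) ∂P ≤ exp (l * B) * K ^ (d - 1) := by
    intro m hm
    have h1 := exp_part E h n m K (fun c hc => ?_) (kids z) subset_rfl
    · rw [hm, card_kids hz] at h1
      exact h1
    · refine (mgf_msg h (E.ah_nish h n _) (E.ah_BM h n _) (E.edge _ (step_ne_one hc))
        (E.e_indep (E.ah_meas n _)) m).trans (le_trans ?_ (hK c hc))
      refine integral_mono ((E.ah_BM h n _).cont (φ := fun x => cosh ((|m| + 1) * θ * x))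
        (by fun_prop)).integrable ((E.ah_BM h n _).cont (φ := fun x => cosh (l' * x))
        (by fun_prop)).integrable fun ω => cosh_le_cosh.2 ?_
      have h0 : 0 ≤ (l + 1) * θ := mul_nonneg (by linarith) h.h0
      rw [abs_mul, abs_mul l', hm, abs_of_nonneg h0, abs_of_nonneg (h0.trans hl')]
      exact mul_le_mul_of_nonneg_right hl' (abs_nonneg _)
  have h1 := key l (abs_of_nonneg hl)
  have h2 := key (-l) (by rw [abs_neg, abs_of_nonneg hl])
  have i1 := ((E.ah_BM h (n + 1) z).cont (φ := fun x => exp (l * x)) (by fun_prop)).integrable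
    (P := P)
  have i2 := ((E.ah_BM h (n + 1) z).cont (φ := fun x => exp (-l * x)) (by fun_prop)).integrable
    (P := P)
  have e : ∫ ω, cosh (l * E.ah (n + 1) z ω) ∂P = ((∫ ω, exp (l * E.ah (n + 1) z ω) ∂P) +
      ∫ ω, exp (-l * E.ah (n + 1) z ω) ∂P) / 2 := by
    rw [← integral_add i1 i2, ← integral_div]
    simp only [cosh_eq, neg_mul]
  rw [e]
  linarith

lemma cosh_le (L R : ℝ) : ∃ K : ℝ, 0 ≤ K ∧ ∀ l x : ℝ, |l| ≤ L → |x| ≤ R →
    cosh (l * x) ≤ 1 + K * tanh x ^ 2 := by
  refine ⟨L ^ 2 / 2 * exp (L ^ 2 * R ^ 2 / 2) * cosh R ^ 2, by positivity, fun l x hl hx => ?_⟩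
  have h1 := cosh_le_exp_half_sq (l * x)
  have hl2 : l ^ 2 ≤ L ^ 2 := sq_le_sq' (abs_le.1 hl).1 (abs_le.1 hl).2
  have hx2 : x ^ 2 ≤ R ^ 2 := sq_le_sq' (abs_le.1 hx).1 (abs_le.1 hx).2
  set u := (l * x) ^ 2 / 2 with hu
  have hu0 : 0 ≤ u := by positivity
  have hu1 : u ≤ L ^ 2 * x ^ 2 / 2 := by
    rw [hu, mul_pow]
    nlinarith [sq_nonneg x]
  have hu2 : u ≤ L ^ 2 * R ^ 2 / 2 := by nlinarith [sq_nonneg L]
  have h2 : exp u ≤ 1 + u * exp u := by
    have h3 := add_one_le_exp (-u)
    have h4 : exp (-u) * exp u = 1 := by rw [← exp_add]; simp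
    nlinarith [exp_pos u]
  have h5 : x ^ 2 ≤ sinh x ^ 2 := by
    rw [sq_le_sq, abs_sinh]
    exact self_le_sinh_iff.2 (abs_nonneg x)
  have h6 : sinh x = tanh x * cosh x := by
    rw [tanh_eq_sinh_div_cosh, div_mul_cancel₀ _ (cosh_pos x).ne']
  have h7 : cosh x ^ 2 ≤ cosh R ^ 2 := by
    have := cosh_le_cosh.2 (hx.trans (le_abs_self R))
    exact pow_le_pow_left₀ (cosh_pos x).le this 2
  have h8 : x ^ 2 ≤ cosh R ^ 2 * tanh x ^ 2 := by
    rw [h6, mul_pow] at h5
    nlinarith [sq_nonneg (tanh x)]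
  have h9 : u * exp u ≤ (L ^ 2 * (cosh R ^ 2 * tanh x ^ 2) / 2) * exp (L ^ 2 * R ^ 2 / 2) := by
    refine mul_le_mul ?_ (exp_le_exp.2 hu2) (exp_pos _).le (by positivity)
    nlinarith [sq_nonneg L]
  linarith

end EstAAux

open EstAAux

lemma Env.qv_le' (E : Env d θ B P) (h : Hyp d θ) (n : ℕ) {z : V d} (hz : z ≠ 1) :
    qv P (E.ah n z) ≤ ((d : ℝ) - 1) * B := by
  have h3 : (3 : ℝ) ≤ d := by exact_mod_cast h.hd
  have hB0 := B_nonneg E
  induction n generalizing z with
  | zero =>
    have : qv P (E.ah 0 z) = 0 := by simp [qv, Env.ah]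
    rw [this]
    exact mul_nonneg (by linarith) hB0
  | succ n ih =>
    rcases le_total 1 B with hB | hB
    · have := (qv_mem (P := P) (E.ah_BM h (n + 1) z).meas).2
      nlinarith
    have hq : ∀ c ∈ kids z, qv P (M E n z c) ≤ B := fun c hc =>
      M_qv E h n z c (ih (step_ne_one hc))
    have hcard := card_kids hz
    have hd := h.hd
    obtain ⟨c, hc, c', hc', hne⟩ := Finset.one_lt_card.1 (show 1 < (kids z).card by omega)
    have hS : ({c, c'} : Finset (Fin d)) ⊆ kids z := by
      intro x hx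
      simp only [Finset.mem_insert, Finset.mem_singleton] at hx
      rcases hx with rfl | rfl <;> assumption
    have h1 := part_qv E h n hq hS (kids z \ {c, c'}) Finset.sdiff_subset Finset.sdiff_disjoint
    have h2 := pair_qv E h hB n hc hc' hne (hq c hc) (hq c' hc')
    rw [Finset.sdiff_union_of_subset hS, Finset.card_sdiff_of_subset hS, hcard,
      Finset.card_pair hne] at h1
    have h4 : ((d - 1 - 2 : ℕ) : ℝ) = d - 3 := by
      rw [Nat.sub_sub, Nat.cast_sub hd]; norm_num
    rw [h4] at h1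
    have e : E.ah (n + 1) z = E.part n z (kids z) := rfl
    rw [e]
    linarith

theorem Env.qv_le (E : Env d θ B P) (h : Hyp d θ) (hB : B ≤ 1) (n : ℕ) (z : V d) :
    qv P (E.ah n z) ≤ ((d : ℝ) + 1) * B := by
  have hB0 := B_nonneg E
  cases n with
  | zero =>
    have : qv P (E.ah 0 z) = 0 := by simp [qv, Env.ah]
    rw [this]
    positivity
  | succ n =>
    have hq : ∀ c ∈ kids z, qv P (M E n z c) ≤ B := fun c hc =>
      M_qv E h n z c (E.qv_le' h n (step_ne_one hc))
    have h1 := part_qv E h n hq (Finset.empty_subset _) (kids z) subset_rfl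
      (Finset.disjoint_empty_right _)
    rw [Finset.union_empty] at h1
    have e0 : E.part n z ∅ = E.s z := by
      funext ω
      simp [Env.part]
    have h2 := s_qv E z
    have h3 : ((kids z).card : ℝ) ≤ d := by
      have := Finset.card_le_univ (kids z)
      rw [Fintype.card_fin] at this
      exact_mod_cast this
    have e : E.ah (n + 1) z = E.part n z (kids z) := rfl
    rw [e]
    rw [e0] at h1
    nlinarith

theorem mgf_le (d : ℕ) : ∃ C : ℝ, 1 ≤ C ∧ ∀ (θ B : ℝ) (Ω : Type) [MeasurableSpace Ω] (P : Measure Ω)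
    [IsProbabilityMeasure P] (E : Env d θ B P), Hyp d θ → B ≤ 1 → ∀ (n : ℕ) (z : V d), z ≠ 1 →
    ∀ l : ℝ, 1 ≤ l → ∫ ω, cosh (l * E.ah n z ω) ∂P ≤ exp (C * B * l ^ 2) := by
  obtain ⟨K, hK0, hK⟩ := cosh_le (10 * d) (1 + d)
  have hd0 : (0 : ℝ) ≤ d := Nat.cast_nonneg d
  have hKd : 0 ≤ K * d := mul_nonneg hK0 hd0
  refine ⟨1 + K * d, by linarith, ?_⟩
  intro θ B Ω _ P _ E h hB
  have hB0 := B_nonneg E
  have h3 : (3 : ℝ) ≤ d := by exact_mod_cast h.hd
  set A := 1 + K * d with hA
  have hA1 : 1 ≤ A := by linarith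
  have small : ∀ (n : ℕ) (z : V d), z ≠ 1 → ∀ l : ℝ, 0 ≤ l → l ≤ 10 * d →
      ∫ ω, cosh (l * E.ah n z ω) ∂P ≤ exp (A * B) := by
    intro n z hz l hl hl'
    have i2 := (((E.ah_BM h n z).cont continuous_tanh').pow 2).integrable (P := P)
    have h1 : ∫ ω, cosh (l * E.ah n z ω) ∂P ≤ ∫ ω, (1 + K * tanh (E.ah n z ω) ^ 2) ∂P := by
      refine integral_mono ((E.ah_BM h n _).cont (φ := fun x => cosh (l * x))
        (by fun_prop)).integrable ((integrable_const _).add (i2.const_mul K)) fun ω => ?_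
      exact hK _ _ (by rwa [abs_of_nonneg hl]) ((E.abs_ah_le h n z ω).trans (by linarith))
    rw [integral_add (integrable_const _) (i2.const_mul K), integral_const_mul] at h1
    have h2 : ∫ ω, tanh (E.ah n z ω) ^ 2 ∂P ≤ ((d : ℝ) - 1) * B := E.qv_le' h n hz
    have h4 := mul_le_mul_of_nonneg_left h2 hK0
    have h5 := add_one_le_exp (A * B)
    have h6 := mul_nonneg hK0 hB0
    simp only [integral_const, probReal_univ, smul_eq_mul, mul_one] at h1
    nlinarith
  set s := √((d : ℝ) - 1) with hs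
  have hs2 : s ^ 2 = d - 1 := sq_sqrt (by linarith)
  have hs0 : 0 ≤ s := sqrt_nonneg _
  have hs1 : 4 / 3 ≤ s := by
    refine (pow_le_pow_iff_left₀ (by norm_num) hs0 two_ne_zero).1 ?_
    linarith
  have hsd : s ≤ d := by nlinarith
  have hθ : θ * s ≤ 1 := by
    refine (pow_le_pow_iff_left₀ (mul_nonneg h.h0 hs0) zero_le_one two_ne_zero).1 ?_
    have := h.h1
    rw [mul_pow, hs2]
    linarith
  have big : ∀ (n : ℕ) (z : V d), z ≠ 1 → ∀ l : ℝ, 10 ≤ l →
      ∫ ω, cosh (l * E.ah n z ω) ∂P ≤ exp (B * (A * (l * (l - 9)))) := by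
    intro n
    induction n with
    | zero =>
      intro z _ l hl
      have : 0 ≤ B * (A * (l * (l - 9))) :=
        mul_nonneg hB0 (mul_nonneg (by linarith) (mul_nonneg (by linarith) (by linarith)))
      simpa [Env.ah] using this
    | succ n ih =>
      intro z hz l hl
      rcases le_total l (10 * d) with hl' | hl'
      · refine (small _ z hz l (by linarith) hl').trans (exp_le_exp.2 ?_)
        have h1 : 1 ≤ l * (l - 9) := by nlinarith
        have h2 : 0 ≤ A * B := mul_nonneg (by linarith) hB0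
        nlinarith
      · have hsp : 0 < s := by linarith
        have h1 : 10 ≤ (l + 1) / s := by
          rw [le_div_iff₀ hsp]
          linarith
        have h2 : (l + 1) * θ ≤ (l + 1) / s := by
          rw [le_div_iff₀ hsp]
          nlinarith
        refine (cosh_step E h n hz (by linarith) h2 fun c hc =>
          ih _ (step_ne_one hc) _ h1).trans ?_
        rw [← exp_nat_mul, ← exp_add, exp_le_exp, Nat.cast_sub (by linarith [h.hd]), Nat.cast_one,
          ← hs2]
        have e : s ^ 2 * (B * (A * ((l + 1) / s * ((l + 1) / s - 9)))) =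
            B * (A * ((l + 1) * ((l + 1) - 9 * s))) := by
          field_simp
        rw [e]
        have h4 : l + A * ((l + 1) * ((l + 1) - 9 * s)) ≤ A * (l * (l - 9)) := by
          have h5 : (l + 1) * ((l + 1) - 9 * s) ≤ l * (l - 9) - l := by nlinarith
          have h6 := mul_le_mul_of_nonneg_left h5 (show 0 ≤ A by linarith)
          nlinarith
        have h7 := mul_le_mul_of_nonneg_left h4 hB0
        linarith
  intro n z hz l hl
  have h2 : 0 ≤ A * B := mul_nonneg (by linarith) hB0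
  rcases le_total l 10 with hl' | hl'
  · refine (small n z hz l (by linarith) (by linarith)).trans (exp_le_exp.2 ?_)
    have : 1 ≤ l ^ 2 := by nlinarith
    nlinarith
  · refine (big n z hz l hl').trans (exp_le_exp.2 ?_)
    have : l * (l - 9) ≤ l ^ 2 := by nlinarith
    nlinarith

end Vale.Agent.P161E
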