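import Vale.Agent.P161E.Env

/-! The nonlinear gap.  Put `b = d - 1`, `r = √q0 ≤ 1/2`.
`qv_ge`: assume `b θ² ≥ 1 - r/3`.  Show by induction on `n` that `qv (ah n z) ≥ min (n q0 / 3) (r / 3) =: L n`
for all `z ≠ 1`.  With `p = θ² L n ≤ 1/2`, induction on `S ⊆ kids z` of size `k` gives
`qv (part n z S) ≥ Q k` where `Q 0 = q0`, `Q (k+1) = Q k (1 - 2p) + p ≤ 1/2` (if the true value exceeds
`1/2` use `qv_add_ge_left`, otherwise `qv_add_ge` and monotonicity), and
`Q k ≥ q0 (1 - 2 k p) + k p - k² p²`; with `b p ∈ [(1 - r/3) L, L]`, `L ≤ r/3` this is `≥ L + q0/3`.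
`path_le`: peel off the FIRST vertex `y₁ = step c₁ z` of the path (write the list as `l ++ [c₁]`,
`ar z n (l ++ [c]) = phi (ah (n + l.length) (step c z)) * ar (step c z) n l`).  Let `c₂` be the next
colour (any element of `kids y₁` if `l = []`), `y₂ = step c₂ y₁`.  Then
`ah (m+1) y₁ = part m y₁ (kids y₁ \ {c₂}) + sg (e y₂) * msg (ah m y₂)`; the pair `(part, sg (e y₂))` is
independent of the pair `(ah m y₂, ar y₁ n l)`, which is `alg (desc y₂)`-measurable, so `freeze` and
`gap_step` give the factor `1 - qv part / 16`, and `qv part ≥ θ² qv (ah m y₃)` for another child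
(`b ≥ 2`, `qv_add_ge_left`, `qv_msg`).  If `b θ² ≤ 1 - r/3` use only `phi ≤ 1`.  In both cases
`b θ² (1 - qv part / 16) ≤ 1 - r / (60 d) ≤ exp (- r / (60 d))`. -/

namespace Vale.Agent.P161E

open MeasureTheory ProbabilityTheory Real

variable {d : ℕ} {θ B : ℝ} {Ω : Type} [m0 : MeasurableSpace Ω] {P : Measure Ω}
  [IsProbabilityMeasure P]

lemma Env.qv_insert (E : Env d θ B P) (h : Hyp d θ) (n : ℕ) {z : V d} {S : Finset (Fin d)}
    (hS : S ⊆ kids z) {c : Fin d} (hc : c ∈ kids z) (hcS : c ∉ S) :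
    qv P (E.part n z S) ≤ qv P (E.part n z (insert c S)) ∧
      θ ^ 2 * qv P (E.ah n (step c z)) ≤ qv P (E.part n z (insert c S)) ∧
      qv P (E.part n z S) + θ ^ 2 * qv P (E.ah n (step c z)) -
        2 * qv P (E.part n z S) * (θ ^ 2 * qv P (E.ah n (step c z))) ≤
        qv P (E.part n z (insert c S)) := by
  have e1 : E.part n z (insert c S) = fun ω => E.part n z S ω +
      sg (E.e (step c z) ω) * msg θ (E.ah n (step c z) ω) := by
    funext ω
    simp only [Env.part, Finset.sum_insert hcS]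
    ring
  have e2 : E.part n z (insert c S) = fun ω =>
      sg (E.e (step c z) ω) * msg θ (E.ah n (step c z) ω) + E.part n z S ω :=
    e1.trans (funext fun ω => add_comm _ _)
  have hm : Measurable[E.alg (insert (Sum.inl (step c z)) (desc (step c z)))] fun ω =>
      sg (E.e (step c z) ω) * msg θ (E.ah n (step c z) ω) :=
    (E.e_meas (Set.mem_insert _ _)).mul (measurable_msg.comp
      ((E.ah_meas n _).mono (E.alg_mono (Set.subset_insert _ _)) le_rfl))
  have hi := E.part_indep n hS hc hcS hm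
  have hN := (E.ah_nish h n (step c z)).msg h (E.ah_BM h n _) (E.edge _ (step_ne_one hc))
    (E.e_indep (E.ah_meas n _))
  have hB : BM m0 fun ω => sg (E.e (step c z) ω) * msg θ (E.ah n (step c z) ω) :=
    BM.mul ⟨(E.e_meas (Set.mem_univ _)).mono (E.alg_le _) le_rfl, 1, fun ω => (abs_sg _).le⟩
      ((E.ah_BM h n _).cont (continuous_msg h))
  have hP := E.part_nish h n hS
  have hPB := E.part_BM h n z S
  rw [← qv_msg (e := E.e (step c z)) h]
  exact ⟨e1 ▸ qv_add_ge_left hP hN hPB hB hi, e2 ▸ qv_add_ge_left hN hP hB hPB hi.symm,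
    e1 ▸ qv_add_ge hP hN hPB hB hi⟩

lemma Env.qv_part_ge (E : Env d θ B P) (h : Hyp d θ) {q0 p : ℝ} (h0 : 0 ≤ q0) (h1 : q0 ≤ 1 / 4)
    (hq : ∀ v, q0 ≤ qv P (E.s v)) (hp0 : 0 ≤ p) (hp1 : p ≤ 1 / 2) {n : ℕ} {z : V d}
    (hp : ∀ c ∈ kids z, p ≤ θ ^ 2 * qv P (E.ah n (step c z))) (S : Finset (Fin d))
    (hS : S ⊆ kids z) :
    q0 * (1 - 2 * (S.card * p)) + S.card * p - (S.card * p) ^ 2 ≤ qv P (E.part n z S) := by
  induction S using Finset.induction_on with
  | empty =>
    have : E.part n z ∅ = E.s z := funext fun ω => by simp [Env.part]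
    simpa [this] using hq z
  | insert c S hcS ih =>
    have hS' := (Finset.subset_insert c S).trans hS
    have hc := hS (Finset.mem_insert_self c S)
    obtain ⟨a1, -, a3⟩ := E.qv_insert h n hS' hc hcS
    have a4 := ih hS'
    have a5 := hp c hc
    rw [Finset.card_insert_of_notMem hcS, Nat.cast_succ, add_mul, one_mul]
    have hx : 0 ≤ S.card * p := by positivity
    generalize S.card * p = x at *
    rcases le_total (1 / 2) (qv P (E.part n z S)) with e | e
    · nlinarith [sq_nonneg (x + p - 1 / 2), mul_nonneg h0 (add_nonneg hx hp0)]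
    · have a6 := mul_le_mul_of_nonneg_right a5 (by linarith : 0 ≤ 1 - 2 * qv P (E.part n z S))
      have a7 := mul_le_mul_of_nonneg_right a4 (by linarith : 0 ≤ 1 - 2 * p)
      nlinarith [mul_nonneg h0 (mul_nonneg hx hp0), mul_nonneg (sq_nonneg x) hp0, sq_nonneg p]

lemma Env.qv_ge (E : Env d θ B P) (h : Hyp d θ) {q0 : ℝ} (h0 : 0 < q0) (h1 : q0 ≤ 1 / 4)
    (hq : ∀ v, q0 ≤ qv P (E.s v)) (hθ : 1 - √q0 / 3 ≤ ((d : ℝ) - 1) * θ ^ 2) (n : ℕ) {z : V d}
    (hz : z ≠ 1) : min (n * q0 / 3) (√q0 / 3) ≤ qv P (E.ah n z) := by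
  have hr0 := sqrt_nonneg q0
  have hr2 := sq_sqrt h0.le
  have hr1 : √q0 ≤ 1 / 2 := by nlinarith
  induction n generalizing z with
  | zero => exact (min_le_left _ _).trans (by simpa using (qv_mem (E.ah_BM h 0 z).meas).1)
  | succ n ih =>
    have hL0 : 0 ≤ min (n * q0 / 3) (√q0 / 3) := by positivity
    have hL1 : min (n * q0 / 3) (√q0 / 3) ≤ √q0 / 3 := min_le_right _ _
    have hL2 : min ((n + 1 : ℕ) * q0 / 3) (√q0 / 3) ≤ min (n * q0 / 3) (√q0 / 3) + q0 / 3 := by
      rw [← min_add_add_right]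
      exact min_le_min (by push_cast; linarith) (by linarith)
    have key := E.qv_part_ge h h0.le h1 hq (p := θ ^ 2 * min (n * q0 / 3) (√q0 / 3))
      (by positivity) (by nlinarith [h.sq_le]) (fun c hc => mul_le_mul_of_nonneg_left
        (ih (step_ne_one hc)) (sq_nonneg θ)) (kids z) le_rfl
    rw [card_kids hz, Nat.cast_sub (by have := h.hd; omega), Nat.cast_one,
      ← mul_assoc ((d : ℝ) - 1)] at key
    refine hL2.trans (le_trans ?_ key)
    have x1 := mul_le_mul_of_nonneg_right hθ hL0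
    have x2 := mul_le_mul_of_nonneg_right h.h1 hL0
    have x0 : 0 ≤ ((d : ℝ) - 1) * θ ^ 2 * min (n * q0 / 3) (√q0 / 3) :=
      le_trans (mul_nonneg (by linarith) hL0) x1
    generalize min (n * q0 / 3) (√q0 / 3) = L at *
    generalize ((d : ℝ) - 1) * θ ^ 2 * L = x at *
    have x3 : x ≤ √q0 / 3 := by linarith
    have x4 := pow_le_pow_left₀ x0 x3 2
    have x5 := mul_le_mul_of_nonneg_left hL1 hr0
    have x6 := mul_le_mul_of_nonneg_left (x3.trans (by linarith : √q0 / 3 ≤ 1 / 6)) h0.le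
    nlinarith

omit [IsProbabilityMeasure P] in
lemma Env.ar_concat (E : Env d θ B P) (z : V d) (c : Fin d) (l : List (Fin d)) (n : ℕ) (ω : Ω) :
    E.ar z n (l ++ [c]) ω = phi θ (E.ah (n + l.length) (step c z) ω) * E.ar (step c z) n l ω := by
  induction l generalizing n with
  | nil => simp [Env.ar]
  | cons a l ih =>
    rw [List.cons_append, Env.ar, Env.ar, ih, ← List.cons_append, walk_append, List.length_cons,
      mul_assoc, add_assoc, add_comm 1]
    rfl

omit [IsProbabilityMeasure P] in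
lemma Env.ar_mem (E : Env d θ B P) (h : Hyp d θ) (z : V d) (l : List (Fin d)) (n : ℕ) (ω : Ω) :
    0 ≤ E.ar z n l ω ∧ E.ar z n l ω ≤ 1 := by
  induction l generalizing n with
  | nil => simp [Env.ar]
  | cons a l ih =>
    exact ⟨mul_nonneg (ih _).1 (phi_pos h _).le,
      mul_le_one₀ (ih _).2 (phi_pos h _).le (phi_le_one h _)⟩

lemma chain_concat {z : V d} {c : Fin d} {l : List (Fin d)}
    (hl : (l ++ [c] ++ z.1).IsChain (· ≠ ·)) :
    c ∈ kids z ∧ (l ++ (step c z).1).IsChain (· ≠ ·) := by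
  rw [List.append_assoc, List.singleton_append] at hl
  have hc : c ∈ kids z := by
    simp only [kids, Finset.mem_filter, Finset.mem_univ, true_and]
    exact fun e => (List.isChain_cons.1 hl.right_of_append).1 c e rfl
  exact ⟨hc, by rwa [step_kid hc]⟩

lemma Env.ar_meas (E : Env d θ B P) (n : ℕ) (l : List (Fin d)) : ∀ z : V d,
    (l ++ z.1).IsChain (· ≠ ·) → Measurable[E.alg (desc z)] (E.ar z n l) := by
  induction l using List.reverseRecOn with
  | nil => exact fun z _ => measurable_const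
  | append_singleton l c ih =>
    intro z hl
    obtain ⟨hc, hl'⟩ := chain_concat hl
    rw [funext (E.ar_concat z c l n)]
    exact ((measurable_phi.comp (E.ah_meas _ _)).mul (ih _ hl')).mono
      (E.alg_mono ((Set.subset_insert _ _).trans (desc_step hc))) le_rfl

lemma Env.gap_mul (E : Env d θ B P) (h : Hyp d θ) (m : ℕ) {y : V d} {c : Fin d} (hc : c ∈ kids y)
    {g : Ω → ℝ} (hg : Measurable[E.alg (desc (step c y))] g) (hg1 : ∀ ω, g ω ^ 2 ≤ 1) :
    ∫ ω, (phi θ (E.ah (m + 1) y ω) * g ω) ^ 2 ∂P ≤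
      (1 - qv P (E.part m y ((kids y).erase c)) / 16) * ∫ ω, g ω ^ 2 ∂P := by
  have hS := Finset.erase_subset c (kids y)
  have hd : ∀ a ∈ (kids y).erase c, insert (Sum.inl (step a y)) (desc (step a y)) ⊆
      (desc (step c y))ᶜ := by
    intro a ha
    refine (Set.disjoint_of_subset_right (Set.subset_insert _ _) (desc_disjoint ?_ fun e =>
      Finset.ne_of_mem_erase ha (step_colour e))).subset_compl_right
    rw [len_step_kid hc, len_step_kid (hS ha)]
  have m1 : Measurable[E.alg (desc (step c y))ᶜ] (E.part m y ((kids y).erase c)) := by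
    refine (E.s_meas fun hy => ?_).add (Finset.measurable_fun_sum _ fun a ha =>
      (E.e_meas (hd a ha (Set.mem_insert _ _))).mul (measurable_msg.comp ((E.ah_meas m _).mono
        (E.alg_mono ((Set.subset_insert _ _).trans (hd a ha))) le_rfl)))
    have := List.IsSuffix.length_le hy
    rw [step_kid hc] at this
    simp at this
  have m2 : Measurable[E.alg (desc (step c y))ᶜ] fun ω => sg (E.e (step c y) ω) :=
    E.e_meas fun hy => hy.2 rfl
  have mX := m1.prodMk m2
  have mY := (E.ah_meas m (step c y)).prodMk hg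
  have hφ : ∀ a, 0 ≤ phi θ a ^ 2 ∧ phi θ a ^ 2 ≤ 1 := fun a =>
    ⟨sq_nonneg _, pow_le_one₀ (phi_pos h a).le (phi_le_one h a)⟩
  have hF : BM inferInstance fun p : (ℝ × ℝ) × ℝ × ℝ =>
      phi θ (p.1.1 + p.1.2 * msg θ p.2.1) ^ 2 * min (p.2.2 ^ 2) 1 := by
    refine ⟨((measurable_phi.comp (measurable_fst.fst.add (measurable_fst.snd.mul
      (measurable_msg.comp measurable_snd.fst)))).pow_const 2).mul
      ((measurable_snd.snd.pow_const 2).min measurable_const), 1, fun p => ?_⟩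
    have h0 : 0 ≤ min (p.2.2 ^ 2) 1 := by positivity
    rw [abs_of_nonneg (mul_nonneg (hφ _).1 h0)]
    exact mul_le_one₀ (hφ _).2 h0 (min_le_right _ _)
  have key := freeze (mX.mono (E.alg_le _) le_rfl) (mY.mono (E.alg_le _) le_rfl)
    (E.indepFun disjoint_compl_left mX mY) hF
  simp only [min_eq_left (hg1 _), integral_mul_const] at key
  have e1 : ∀ ω, E.ah (m + 1) y ω = E.part m y ((kids y).erase c) ω +
      sg (E.e (step c y) ω) * msg θ (E.ah m (step c y) ω) := fun ω => by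
    rw [Env.ah, Env.part, add_assoc, Finset.sum_erase_add _ _ hc]
  simp only [e1, mul_pow]
  rw [key, ← integral_const_mul]
  refine integral_mono_of_nonneg (ae_of_all _ fun ω =>
    mul_nonneg (integral_nonneg fun _ => sq_nonneg _) (sq_nonneg _))
    (Integrable.const_mul (BM.integrable ⟨(hg.mono (E.alg_le _) le_rfl).pow_const 2, 1,
      fun ω => by rw [abs_of_nonneg (sq_nonneg _)]; exact hg1 ω⟩) _) (ae_of_all _ fun ω => ?_)
  exact mul_le_mul_of_nonneg_right (gap_step h (E.part_BM h m y _) (E.edge _ (step_ne_one hc))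
    (E.part_indep m hS hc (Finset.notMem_erase c _) (E.e_meas (Set.mem_insert _ _))).symm _)
    (sq_nonneg _)

lemma Env.gap_factor (E : Env d θ B P) (h : Hyp d θ) {q0 : ℝ} (h0 : 0 < q0) (h1 : q0 ≤ 1 / 4)
    (hq : ∀ v, q0 ≤ qv P (E.s v)) {m : ℕ} (hm : 1 / √q0 ≤ m) {y : V d} (hy : y ≠ 1) {c : Fin d}
    (hc : c ∈ kids y) : ((d : ℝ) - 1) * θ ^ 2 * (1 - qv P (E.part m y ((kids y).erase c)) / 16) ≤
      exp (-(√q0 / (60 * d))) := by
  have hr0 := sqrt_pos.2 h0
  have hr2 := sq_sqrt h0.le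
  have hr1 : √q0 ≤ 1 / 2 := by nlinarith
  have h3 : (3 : ℝ) ≤ d := by exact_mod_cast h.hd
  obtain ⟨q1, q2⟩ := qv_mem (P := P) (E.part_BM h m y ((kids y).erase c)).meas
  have b0 : 0 ≤ ((d : ℝ) - 1) * θ ^ 2 := mul_nonneg (by linarith) (sq_nonneg θ)
  refine le_trans ?_ (add_one_le_exp _)
  rcases le_total (1 - √q0 / 3) (((d : ℝ) - 1) * θ ^ 2) with hθ | hθ
  · obtain ⟨a, ha⟩ : ((kids y).erase c).Nonempty := by
      rw [← Finset.card_pos, Finset.card_erase_of_mem hc, card_kids hy]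
      have := h.hd
      omega
    have ha' := Finset.erase_subset c (kids y) ha
    have k1 := (E.qv_insert h m ((Finset.erase_subset a _).trans (Finset.erase_subset c _)) ha'
      (Finset.notMem_erase a _)).2.1
    rw [Finset.insert_erase ha] at k1
    have k2 := E.qv_ge h h0 h1 hq hθ m (step_ne_one ha')
    rw [div_le_iff₀ hr0] at hm
    rw [min_eq_right (by nlinarith)] at k2
    have k3 : √q0 / (60 * d) ≤ θ ^ 2 * (√q0 / 3) / 16 := by
      rw [div_le_iff₀ (by positivity)]
      nlinarith [mul_le_mul_of_nonneg_right (by nlinarith [sq_nonneg θ] : 5 / 6 ≤ d * θ ^ 2) hr0.le]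
    have k4 := mul_le_mul_of_nonneg_left k2 (sq_nonneg θ)
    have k5 := mul_le_mul_of_nonneg_right h.h1
      (by linarith : 0 ≤ 1 - qv P (E.part m y ((kids y).erase c)) / 16)
    linarith
  · have k3 : √q0 / (60 * d) ≤ √q0 / 3 := by gcongr; linarith
    nlinarith [mul_nonneg b0 q1]

theorem Env.path_le (E : Env d θ B P) (h : Hyp d θ) {q0 : ℝ} (h0 : 0 < q0) (h1 : q0 ≤ 1 / 4)
    (hq : ∀ v, q0 ≤ qv P (E.s v)) {n : ℕ} (hn : 1 / √q0 + 1 ≤ n) (z : V d) (l : List (Fin d))
    (hl : (l ++ z.1).IsChain (· ≠ ·)) :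
    (((d : ℝ) - 1) * θ ^ 2) ^ l.length * ∫ ω, E.ar z n l ω ^ 2 ∂P ≤
      exp (-(√q0 / (60 * d)) * l.length) := by
  have h3 : (3 : ℝ) ≤ d := by exact_mod_cast h.hd
  have b0 : 0 ≤ ((d : ℝ) - 1) * θ ^ 2 := mul_nonneg (by linarith) (sq_nonneg θ)
  have hr : 0 ≤ 1 / √q0 := by positivity
  obtain ⟨n, rfl⟩ : ∃ k, n = k + 1 := ⟨n - 1, by
    have : (1 : ℝ) ≤ n := by linarith
    have : 1 ≤ n := by exact_mod_cast this
    omega⟩
  induction l using List.reverseRecOn generalizing z with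
  | nil => simp [Env.ar]
  | append_singleton l c ih =>
    obtain ⟨hc, hl'⟩ := chain_concat hl
    obtain ⟨a, ha, hm⟩ : ∃ a ∈ kids (step c z),
        Measurable[E.alg (desc (step a (step c z)))] (E.ar (step c z) (n + 1) l) := by
      rcases List.eq_nil_or_concat' l with rfl | ⟨l', a, rfl⟩
      · obtain ⟨a, ha⟩ : (kids (step c z)).Nonempty := by
          rw [← Finset.card_pos, card_kids (step_ne_one hc)]
          have := h.hd
          omega
        exact ⟨a, ha, measurable_const⟩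
      · obtain ⟨ha, hl''⟩ := chain_concat hl'
        refine ⟨a, ha, ?_⟩
        rw [funext (E.ar_concat _ a l' _)]
        exact (measurable_phi.comp (E.ah_meas _ _)).mul (E.ar_meas _ _ _ hl'')
    have k1 := E.gap_mul h (n + l.length) ha hm fun ω =>
      pow_le_one₀ (E.ar_mem h _ _ _ ω).1 (E.ar_mem h _ _ _ ω).2
    have k2 := E.gap_factor h h0 h1 hq (m := n + l.length)
      (by push_cast at hn ⊢; linarith [Nat.cast_nonneg (α := ℝ) l.length]) (step_ne_one hc) ha
    have k3 := ih _ hl'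
    have k4 : 0 ≤ (((d : ℝ) - 1) * θ ^ 2) ^ l.length * ∫ ω, E.ar (step c z) (n + 1) l ω ^ 2 ∂P :=
      mul_nonneg (pow_nonneg b0 _) (integral_nonneg fun _ => sq_nonneg _)
    simp only [E.ar_concat, List.length_append, List.length_singleton, add_right_comm n 1]
    rw [Nat.cast_succ, mul_add, mul_one, exp_add, pow_succ]
    refine (mul_le_mul_of_nonneg_left k1 (mul_nonneg (pow_nonneg b0 _) b0)).trans ?_
    exact le_trans (le_of_eq (by ring)) ((mul_le_mul_of_nonneg_left k2 k4).trans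
      (mul_le_mul_of_nonneg_right k3 (exp_pos _).le))

end Vale.Agent.P161E
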