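import Vale.Agent.P161E.Env

/-! Doubly exponential tail of the sum of squared covariances.  Put `b = d - 1`.
For `z` and `l` let `γ l z = ∑ over words s with (s ++ z) reduced, |s| = l, of θ^(2l) (pprod φ' z s)²`,
`φ' y c = φ (step c y)`; define it recursively or as a sum over `(sph (m + l)).filter (z suffix)`.
For `z ≠ 1`: `0 ≤ γ ≤ 1` (there are `b^l` words, `b θ² ≤ 1`), `E γ l z ≤ exp (-g l)`, and `γ l z` is
`alg (desc z)`-measurable.  For `k > m ≥ 1` the level sum is at most `θ^(2m) ∑_{z ∈ sph m} γ (k-m) z`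
(`pprod_append`, `pprod_mem`); the `γ (k-m) z`, `z ∈ sph m`, are independent (`Env.iIndepFun`,
`desc_disjoint`), so by Hoeffding (`hasSubgaussianMGF_of_mem_Icc`, `measure_sum_ge_le_of_iIndepFun`)
the sum exceeds `card (sph m) (exp (-g (k-m)) + 1/K)` with probability at most
`exp (-2 card / K²) ≤ exp (-2^m / K²)` (`card_sph_ge`).  Levels `k ≤ m` give at most `3/2` each
(`sph_weight`), `∑_{l ≥ 1} exp (-g l) ≤ 1/g`; union bound over `k ≤ K`.  (`m = 0`: the bound
`K * exp (-1/K²)`; either handle directly or note that `sph 0 = {1}` needs the factor `3/2`.) -/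

namespace Vale.Agent.P161E

open MeasureTheory ProbabilityTheory Real

variable {d : ℕ} {θ B : ℝ} {Ω : Type} [m0 : MeasurableSpace Ω] {P : Measure Ω}
  [IsProbabilityMeasure P]

/-- Descending words of length `l` below `z`. -/
def wds (z : V d) : ℕ → Finset (List (Fin d))
  | 0 => {[]}
  | l + 1 => (wds z l).biUnion fun s => (kids (walk z s)).image fun c => c :: s

lemma sum_wds_succ {M : Type*} [AddCommMonoid M] (z : V d) (l : ℕ) (G : List (Fin d) → M) :
    ∑ s ∈ wds z (l + 1), G s = ∑ s ∈ wds z l, ∑ c ∈ kids (walk z s), G (c :: s) := by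
  rw [wds, Finset.sum_biUnion]
  · refine Finset.sum_congr rfl fun s _ => ?_
    rw [Finset.sum_image]
    intro c _ c' _ h
    exact (List.cons.inj h).1
  · intro s _ s' _ hne
    simp only [Function.onFun]
    rw [Finset.disjoint_left]
    intro w hw hw'
    obtain ⟨c, _, rfl⟩ := Finset.mem_image.1 hw
    obtain ⟨c', _, e⟩ := Finset.mem_image.1 hw'
    exact hne (List.cons.inj e).2.symm

lemma mem_wds_succ {z : V d} {l : ℕ} {t : List (Fin d)} (h : t ∈ wds z (l + 1)) :
    ∃ s ∈ wds z l, ∃ c ∈ kids (walk z s), t = c :: s := by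
  rw [wds, Finset.mem_biUnion] at h
  obtain ⟨s, hs, ht⟩ := h
  obtain ⟨c, hc, rfl⟩ := Finset.mem_image.1 ht
  exact ⟨s, hs, c, hc, rfl⟩

lemma wds_spec {z : V d} {l : ℕ} {s : List (Fin d)} (h : s ∈ wds z l) :
    (walk z s).1 = s ++ z.1 ∧ s.length = l := by
  induction l generalizing s with
  | zero =>
    rw [wds, Finset.mem_singleton] at h
    subst h
    exact ⟨rfl, rfl⟩
  | succ l ih =>
    obtain ⟨t, ht, c, hc, rfl⟩ := mem_wds_succ h
    rw [walk_cons, step_kid hc, (ih ht).1, List.length_cons, (ih ht).2]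
    exact ⟨rfl, rfl⟩

lemma wds_desc {z : V d} {l : ℕ} {s : List (Fin d)} (h : s ∈ wds z l) :
    desc (walk z s) ⊆ desc z := by
  induction l generalizing s with
  | zero =>
    rw [wds, Finset.mem_singleton] at h
    subst h
    exact subset_rfl
  | succ l ih =>
    obtain ⟨t, ht, c, hc, rfl⟩ := mem_wds_succ h
    exact ((Set.subset_insert _ _).trans (desc_step hc)).trans (ih ht)

lemma card_wds {z : V d} (hz : z ≠ 1) (l : ℕ) : (wds z l).card = (d - 1) ^ l := by
  induction l with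
  | zero => rfl
  | succ l ih =>
    rw [Finset.card_eq_sum_ones, sum_wds_succ, pow_succ, ← ih, ← smul_eq_mul, ← Finset.sum_const]
    refine Finset.sum_congr rfl fun s hs => ?_
    rw [← Finset.card_eq_sum_ones, card_kids]
    intro h1
    have h2 := (wds_spec hs).1
    rw [h1, one_val] at h2
    exact hz (Subtype.ext (List.append_eq_nil_iff.1 h2.symm).2)

lemma sum_sph_add {M : Type*} [AddCommMonoid M] (m l : ℕ) (F : V d → M) :
    ∑ w ∈ sph d (m + l), F w = ∑ z ∈ sph d m, ∑ s ∈ wds z l, F (walk z s) := by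
  induction l generalizing F with
  | zero => simp [wds]
  | succ l ih =>
    rw [← add_assoc, sum_sph_succ, ih]
    refine Finset.sum_congr rfl fun z _ => ?_
    rw [sum_wds_succ]
    rfl

/-- Contribution of the descendants of `z` at depth `l`. -/
noncomputable def gam (θ : ℝ) (f : V d → Fin d → ℝ) (l : ℕ) (z : V d) : ℝ :=
  ∑ s ∈ wds z l, θ ^ (2 * l) * pprod f z s ^ 2

lemma card_wds_real (h : Hyp d θ) {z : V d} (hz : z ≠ 1) (l : ℕ) :
    ((wds z l).card : ℝ) = ((d : ℝ) - 1) ^ l := by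
  have := h.hd
  rw [card_wds hz]
  push_cast [Nat.cast_sub (show 1 ≤ d by omega)]
  rfl

lemma gam_mem (h : Hyp d θ) {f : V d → Fin d → ℝ} (hf : ∀ y c, 0 ≤ f y c ∧ f y c ≤ 1) (l : ℕ)
    {z : V d} (hz : z ≠ 1) : gam θ f l z ∈ Set.Icc (0 : ℝ) 1 := by
  have h0 : 0 ≤ θ ^ (2 * l) := pow_nonneg h.h0 _
  refine ⟨Finset.sum_nonneg fun s _ => mul_nonneg h0 (sq_nonneg _), ?_⟩
  have h1 := Finset.sum_le_card_nsmul (wds z l) (fun s => θ ^ (2 * l) * pprod f z s ^ 2)
    (θ ^ (2 * l)) fun s _ => mul_le_of_le_one_right h0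
      (pow_le_one₀ (pprod_mem hf z s).1 (pprod_mem hf z s).2)
  refine h1.trans ?_
  have h3 : (3 : ℝ) ≤ d := by exact_mod_cast h.hd
  rw [nsmul_eq_mul, card_wds_real h hz, pow_mul, ← mul_pow]
  exact pow_le_one₀ (mul_nonneg (by linarith) (sq_nonneg _)) h.h1

lemma level_le (h : Hyp d θ) {f : V d → Fin d → ℝ} (hf : ∀ y c, 0 ≤ f y c ∧ f y c ≤ 1)
    (m l : ℕ) : ∑ w ∈ sph d (m + l), θ ^ (2 * len w) * pprod f 1 w.1 ^ 2 ≤
      θ ^ (2 * m) * ∑ z ∈ sph d m, gam θ f l z := by
  rw [sum_sph_add, Finset.mul_sum]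
  refine Finset.sum_le_sum fun z hz => ?_
  rw [gam, Finset.mul_sum]
  refine Finset.sum_le_sum fun s hs => ?_
  have h1 : len (walk z s) = m + l := by
    rw [len, (wds_spec hs).1, List.length_append, (wds_spec hs).2, add_comm, ← mem_sph.1 hz, len]
  rw [h1, (wds_spec hs).1, pprod_append, walk_one, mul_add, pow_add, mul_assoc, mul_pow]
  refine mul_le_mul_of_nonneg_left (mul_le_mul_of_nonneg_left ?_ (pow_nonneg h.h0 _))
    (pow_nonneg h.h0 _)
  exact mul_le_of_le_one_left (sq_nonneg _)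
    (pow_le_one₀ (pprod_mem hf 1 z.1).1 (pprod_mem hf 1 z.1).2)

lemma level_le' (h : Hyp d θ) {f : V d → Fin d → ℝ} (hf : ∀ y c, 0 ≤ f y c ∧ f y c ≤ 1)
    (k : ℕ) : ∑ w ∈ sph d k, θ ^ (2 * len w) * pprod f 1 w.1 ^ 2 ≤ 3 / 2 := by
  have h0 : 0 ≤ θ ^ (2 * k) := pow_nonneg h.h0 _
  have h1 := Finset.sum_le_card_nsmul (sph d k) (fun w => θ ^ (2 * len w) * pprod f 1 w.1 ^ 2)
    (θ ^ (2 * k)) fun w hw => by
      rw [mem_sph.1 hw]
      exact mul_le_of_le_one_right h0 (pow_le_one₀ (pprod_mem hf 1 w.1).1 (pprod_mem hf 1 w.1).2)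
  rw [nsmul_eq_mul, mul_comm] at h1
  exact h1.trans (sph_weight h k)

lemma geom_exp_le {g : ℝ} (hg : 0 < g) (K : ℕ) :
    ∑ i ∈ Finset.range K, exp (-g * (i + 1 : ℕ)) ≤ 1 / g := by
  have h : g * ∑ i ∈ Finset.range K, exp (-g * (i + 1 : ℕ)) ≤ 1 - exp (-g * K) := by
    induction K with
    | zero => simp
    | succ K ih =>
      rw [Finset.sum_range_succ, mul_add]
      have h1 : exp (-g * K) = exp (-g * (K + 1 : ℕ)) * exp g := by
        rw [← exp_add]; push_cast; ring_nf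
      have h2 := add_one_le_exp g
      have h3 := exp_pos (-g * (K + 1 : ℕ))
      nlinarith
  rw [le_div_iff₀ hg]
  linarith [exp_pos (-g * K)]

lemma Env.pprod_meas (E : Env d θ B P) {φ : V d → Ω → ℝ}
    (hm : ∀ z, Measurable[E.alg (desc z)] (φ z)) {z : V d} {l : ℕ} {s : List (Fin d)}
    (h : s ∈ wds z l) :
    Measurable[E.alg (desc z)] fun ω => pprod (fun y c => φ (step c y) ω) z s := by
  induction l generalizing s with
  | zero =>
    rw [wds, Finset.mem_singleton] at h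
    subst h
    exact measurable_const
  | succ l ih =>
    obtain ⟨t, ht, c, hc, rfl⟩ := mem_wds_succ h
    exact (ih ht).mul ((hm _).mono (E.alg_mono (wds_desc h)) le_rfl)

lemma Env.level_tail (E : Env d θ B P) (h : Hyp d θ) {φ : V d → Ω → ℝ}
    (hm : ∀ z, Measurable[E.alg (desc z)] (φ z)) (h01 : ∀ z ω, 0 ≤ φ z ω ∧ φ z ω ≤ 1) {g : ℝ}
    (hp : ∀ (z : V d) (l : List (Fin d)), (l ++ z.1).IsChain (· ≠ ·) →
      (((d : ℝ) - 1) * θ ^ 2) ^ l.length *
        ∫ ω, pprod (fun y c => φ (step c y) ω) z l ^ 2 ∂P ≤ exp (-g * l.length))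
    {K m : ℕ} (hK : 1 ≤ K) (hm1 : 1 ≤ m) (l : ℕ) :
    P.real {ω | (sph d m).card * (exp (-g * l) + 1 / K) ≤
      ∑ z ∈ sph d m, gam θ (fun y c => φ (step c y) ω) l z} ≤
        exp (-(2 : ℝ) ^ m / (K : ℝ) ^ 2) := by
  have h3 : (3 : ℝ) ≤ d := by exact_mod_cast h.hd
  have hK' : (1 : ℝ) ≤ K := by exact_mod_cast hK
  have hne : ∀ z ∈ sph d m, z ≠ 1 := fun z hz e => by
    have := mem_sph.1 hz
    rw [e, len_eq_zero.2 rfl] at this
    omega
  have hmeas : ∀ z, Measurable[E.alg (desc z)]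
      fun ω => gam θ (fun y c => φ (step c y) ω) l z := fun z =>
    Finset.measurable_sum (m := E.alg (desc z)) _ fun s hs =>
      ((E.pprod_meas hm hs).pow_const 2).const_mul _
  have hmean : ∀ z ∈ sph d m, ∫ ω, gam θ (fun y c => φ (step c y) ω) l z ∂P ≤ exp (-g * l) := by
    intro z hz
    have hint : ∀ s ∈ wds z l, Integrable
        (fun ω => θ ^ (2 * l) * pprod (fun y c => φ (step c y) ω) z s ^ 2) P := fun s hs =>
      ((BM.const _).mul (BM.pow ⟨(E.pprod_meas hm hs).mono (E.alg_le _) le_rfl, 1, fun ω => by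
        have := pprod_mem (f := fun y c => φ (step c y) ω) (fun y c => h01 _ _) z s
        rw [abs_of_nonneg this.1]; exact this.2⟩ 2)).integrable
    have hb : 0 < ((d : ℝ) - 1) ^ l := pow_pos (by linarith) _
    unfold gam
    rw [integral_finsetSum _ hint]
    refine le_of_mul_le_mul_left ?_ hb
    rw [Finset.mul_sum, ← card_wds_real h (hne z hz) l, ← nsmul_eq_mul, card_wds_real h (hne z hz)]
    refine Finset.sum_le_card_nsmul _ _ _ fun s hs => ?_
    have h1 := hp z s ((wds_spec hs).1 ▸ (walk z s).2)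
    rw [(wds_spec hs).2] at h1
    rw [integral_const_mul, ← mul_assoc, pow_mul, ← mul_pow]
    exact h1
  have hind := E.iIndepFun (ι := sph d m) (S := fun z => desc z)
    (fun z z' hzz => (desc_disjoint ((mem_sph.1 z.2).trans (mem_sph.1 z'.2).symm)
      fun e => hzz (Subtype.ext e)).mono (Set.subset_insert _ _) (Set.subset_insert _ _))
    (f := fun z ω => gam θ (fun y c => φ (step c y) ω) l z -
      ∫ ω, gam θ (fun y c => φ (step c y) ω) l z ∂P)
    fun z => (hmeas z).sub_const _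
  have hN : (2 : ℝ) ^ m ≤ (sph d m).card :=
    (pow_le_pow_left₀ (by norm_num) (by linarith) m).trans (card_sph_ge h.hd m)
  have hN0 : (0 : ℝ) < (sph d m).card := lt_of_lt_of_le (by positivity) hN
  have hH := HasSubgaussianMGF.measure_sum_ge_le_of_iIndepFun hind (s := Finset.univ)
    (c := fun _ => (‖(1 : ℝ) - 0‖₊ / 2) ^ 2)
    (fun z _ => hasSubgaussianMGF_of_mem_Icc
      ((hmeas z).mono (E.alg_le _) le_rfl).aemeasurable
      (ae_of_all _ fun ω => gam_mem h (fun y c => h01 _ _) l (hne z z.2)))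
    (ε := (sph d m).card / K) (by positivity)
  refine le_trans (measureReal_mono (fun ω hω => ?_) (measure_ne_top _ _)) (hH.trans ?_)
  · rw [Set.mem_ofPred_eq] at hω ⊢
    rw [Finset.sum_coe_sort (sph d m) fun z => gam θ (fun y c => φ (step c y) ω) l z -
      ∫ ω, gam θ (fun y c => φ (step c y) ω) l z ∂P, Finset.sum_sub_distrib]
    have := Finset.sum_le_card_nsmul _ _ _ hmean
    rw [nsmul_eq_mul] at this
    rw [mul_add, mul_one_div] at hω
    linarith
  · rw [exp_le_exp]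
    simp only [Finset.sum_const, Finset.card_univ, Fintype.card_coe, sub_zero, nnnorm_one,
      nsmul_eq_mul]
    push_cast
    have e1 : -(((sph d m).card : ℝ) / K) ^ 2 / (2 * ((sph d m).card * (1 / 2) ^ 2)) =
        -(2 * (sph d m).card) / K ^ 2 := by
      field_simp
    rw [e1]
    exact div_le_div_of_nonneg_right (by linarith) (by positivity)

theorem Env.hoeff (E : Env d θ B P) (h : Hyp d θ) {φ : V d → Ω → ℝ}
    (hm : ∀ z, Measurable[E.alg (desc z)] (φ z)) (h01 : ∀ z ω, 0 ≤ φ z ω ∧ φ z ω ≤ 1) {g : ℝ}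
    (hg : 0 < g) (hp : ∀ (z : V d) (l : List (Fin d)), (l ++ z.1).IsChain (· ≠ ·) →
      (((d : ℝ) - 1) * θ ^ 2) ^ l.length *
        ∫ ω, pprod (fun y c => φ (step c y) ω) z l ^ 2 ∂P ≤ exp (-g * l.length))
    {K m : ℕ} (hK : 1 ≤ K) (hm1 : 1 ≤ m) :
    P.real {ω | 2 * ((m : ℝ) + 2 + 1 / g) <
      Gsum θ K fun w => pprod (fun y c => φ (step c y) ω) 1 w.1} ≤
        K * exp (-(2 : ℝ) ^ m / (K : ℝ) ^ 2) := by
  have hK' : (1 : ℝ) ≤ K := by exact_mod_cast hK
  have hsub : {ω | 2 * ((m : ℝ) + 2 + 1 / g) <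
      Gsum θ K fun w => pprod (fun y c => φ (step c y) ω) 1 w.1} ⊆
      ⋃ i ∈ Finset.range K, {ω | (sph d m).card * (exp (-g * (i + 1 : ℕ)) + 1 / K) ≤
        ∑ z ∈ sph d m, gam θ (fun y c => φ (step c y) ω) (i + 1) z} := by
    intro ω hω
    by_contra hc
    simp only [Set.mem_iUnion, Set.mem_ofPred_eq, not_exists, not_le] at hc
    rw [Set.mem_ofPred_eq, Gsum, sum_ball] at hω
    have hf : ∀ y c, 0 ≤ φ (step c y) ω ∧ φ (step c y) ω ≤ 1 := fun y c => h01 _ _
    have h1 := Finset.sum_le_sum_of_subset_of_nonneg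
      (Finset.range_mono (show K + 1 ≤ m + 1 + K by omega))
      (f := fun k => ∑ w ∈ sph d k, θ ^ (2 * len w) *
        pprod (fun y c => φ (step c y) ω) 1 w.1 ^ 2)
      fun k _ _ => Finset.sum_nonneg fun w _ => mul_nonneg (pow_nonneg h.h0 _) (sq_nonneg _)
    rw [Finset.sum_range_add _ (m + 1) K] at h1
    have h2 := Finset.sum_le_card_nsmul (Finset.range (m + 1)) _ _
      fun k _ => level_le' h (f := fun y c => φ (step c y) ω) hf k
    rw [Finset.card_range, nsmul_eq_mul] at h2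
    have h3 : ∑ i ∈ Finset.range K, ∑ w ∈ sph d (m + 1 + i), θ ^ (2 * len w) *
        pprod (fun y c => φ (step c y) ω) 1 w.1 ^ 2 ≤
        ∑ i ∈ Finset.range K, 3 / 2 * (exp (-g * (i + 1 : ℕ)) + 1 / K) := by
      refine Finset.sum_le_sum fun i hi => ?_
      rw [show m + 1 + i = m + (i + 1) by omega]
      refine (level_le h (f := fun y c => φ (step c y) ω) hf m (i + 1)).trans ?_
      refine (mul_le_mul_of_nonneg_left (hc i hi).le (pow_nonneg h.h0 _)).trans ?_
      rw [← mul_assoc]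
      exact mul_le_mul_of_nonneg_right (sph_weight h m) (by positivity)
    rw [← Finset.mul_sum, Finset.sum_add_distrib, Finset.sum_const, Finset.card_range,
      nsmul_eq_mul, mul_one_div_cancel (by positivity)] at h3
    have h4 := geom_exp_le hg K
    have h5 : 0 < 1 / g := by positivity
    push_cast at h2
    have h6 : (0 : ℝ) ≤ m := Nat.cast_nonneg _
    linarith
  refine (measureReal_mono hsub (measure_ne_top _ _)).trans
    ((measureReal_biUnion_finset_le _ _).trans ?_)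
  refine (Finset.sum_le_card_nsmul _ _ _
    fun i _ => E.level_tail h hm h01 hp hK hm1 (i + 1)).trans ?_
  rw [Finset.card_range, nsmul_eq_mul]

end Vale.Agent.P161E
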