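import Vale.Agent.P161E.BP
import Vale.Agent.P161E.Ising

/-! Gibbs expectations on a ball are computed by belief propagation.
Plan.  For a vertex `z`, depth `n`, sign `s = ±1` and edge variables `e` define
`Lam 0 z s e = 1`, `Lam (n+1) z s e = exp (X z * s) * ∏ c ∈ kids z, Lam n (step c z) (s * sg (e (step c z))) e`.
Then `exp (∑ v ∈ ball d n, X v * sg (σ v)) = Lam (n+1) 1 (sg (σ 1)) (eps σ)` (induction with
`sum_sph_succ`, or define the finset of descendants of depth `< n` recursively).  `Lam n z s` only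
depends on `e v` for strict descendants `v` of `z`; different children are independent
(`iIndep_eps`, `iIndepFun.finsets` / `indep_iSup_of_disjoint`), so with `Z n z s = E Lam n z s`,
`Z (n+1) z s = exp (X z s) ∏_c ((1+θ)/2 Z n (zc) s + (1-θ)/2 Z n (zc) (-s))`.
By induction `Z n z s = A n z * exp (s * H n z)` with `A > 0`, `H (n+1) z = X z + ∑_{c ∈ kids z} msg (H n (zc))`
(use `exp_msg`), and `H n (step c x) = hh θ X n x c` for `c ∈ kids x`.
For the two-point function let `N z s = E [s * (∏ of sg e along the path from z to w) * Lam z s]` and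
`R z s = N z s / Z z s` (conditional mean of the spin at `w` given spin `s` at `z`).  Then
`(R z 1 - R z (-1)) / 2 = θ * phi θ (H (child)) * (R child 1 - R child (-1)) / 2` and at the root
the covariance is `(1 - M²) (R 1 - R (-1)) / 2`. -/

namespace Vale.Agent.P161E

open MeasureTheory Filter Finset

variable {d : ℕ} {θ : ℝ}

lemma integrable_of_dep {S : Finset (V d)} {F : (V d → Bool) → ℝ}
    (hF : ∀ e e', (∀ u ∈ S, e u = e' u) → F e = F e') :
    Integrable (fun σ => F (eps σ)) (ising d θ) := by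
  classical
  have e1 : (fun σ => F (eps σ)) = (fun y : S → Bool =>
      F fun u => if hu : u ∈ S then y ⟨u, hu⟩ else false) ∘ fun a (i : S) => eps a i :=
    funext fun σ => hF _ _ fun u hu => by simp [hu]
  rw [e1]
  exact Integrable.comp_measurable Integrable.of_finite
    (measurable_pi_lambda _ fun i => measurable_eps_apply _)

lemma integral_mul_of_dep {S T : Finset (V d)} (hd : Disjoint S T) {F G : (V d → Bool) → ℝ}
    (hF : ∀ e e', (∀ u ∈ S, e u = e' u) → F e = F e')
    (hG : ∀ e e', (∀ u ∈ T, e u = e' u) → G e = G e') :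
    ∫ σ, F (eps σ) * G (eps σ) ∂ising d θ =
      (∫ σ, F (eps σ) ∂ising d θ) * ∫ σ, G (eps σ) ∂ising d θ :=
  (indep_of_dep hd hF hG).integral_fun_mul_eq_mul_integral
    (integrable_of_dep hF).aestronglyMeasurable (integrable_of_dep hG).aestronglyMeasurable

lemma integral_prod_of_dep {ι : Type} (I : Finset ι) {S : ι → Finset (V d)}
    (hd : ∀ i ∈ I, ∀ j ∈ I, i ≠ j → Disjoint (S i) (S j)) {F : ι → (V d → Bool) → ℝ}
    (hF : ∀ i ∈ I, ∀ e e', (∀ u ∈ S i, e u = e' u) → F i e = F i e') :
    ∫ σ, ∏ i ∈ I, F i (eps σ) ∂ising d θ = ∏ i ∈ I, ∫ σ, F i (eps σ) ∂ising d θ := by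
  classical
  induction I using Finset.induction_on with
  | empty => simp
  | insert a I ha ih =>
    simp only [Finset.prod_insert ha]
    rw [← ih (fun i hi j hj => hd i (mem_insert_of_mem hi) j (mem_insert_of_mem hj))
      fun i hi => hF i (mem_insert_of_mem hi)]
    refine integral_mul_of_dep (S := S a) (T := I.biUnion S) (G := fun e => ∏ i ∈ I, F i e)
      ?_ (hF a (mem_insert_self _ _)) fun e e' h => ?_
    · rw [Finset.disjoint_biUnion_right]
      intro i hi
      exact hd a (mem_insert_self _ _) i (mem_insert_of_mem hi) fun e => ha (e ▸ hi)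
    · exact Finset.prod_congr rfl fun i hi => hF i (mem_insert_of_mem hi) e e'
        fun u hu => h u (Finset.mem_biUnion.2 ⟨i, hi, hu⟩)

lemma integral_split {y : V d} {T : Finset (V d)} (hy : y ∉ T) {F : Bool → (V d → Bool) → ℝ}
    (hF : ∀ b e e', (∀ u ∈ T, e u = e' u) → F b e = F b e') :
    ∫ σ, F (eps σ y) (eps σ) ∂ising d θ =
      ∫ σ', (∫ σ, F (eps σ' y) (eps σ) ∂ising d θ) ∂ising d θ := by
  classical
  have hi : ∀ (b : Bool) (e e' : V d → Bool), (∀ u ∈ ({y} : Finset (V d)), e u = e' u) →
      (if e y = b then (1 : ℝ) else 0) = if e' y = b then 1 else 0 :=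
    fun b e e' h => by rw [h y (mem_singleton_self _)]
  have hd : Disjoint ({y} : Finset (V d)) T := Finset.disjoint_singleton_left.2 hy
  have hint : ∀ b : Bool, Integrable
      (fun σ => (if eps σ y = b then (1 : ℝ) else 0) * F b (eps σ)) (ising d θ) := fun b =>
    integrable_of_dep (S := insert y T) (F := fun e => (if e y = b then (1 : ℝ) else 0) * F b e)
      fun e e' h => by
        rw [h y (mem_insert_self _ _), hF b e e' fun u hu => h u (mem_insert_of_mem hu)]
  have e1 : ∀ σ : V d → Bool, F (eps σ y) (eps σ) =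
      (if eps σ y = true then (1 : ℝ) else 0) * F true (eps σ) +
        (if eps σ y = false then (1 : ℝ) else 0) * F false (eps σ) := fun σ => by
    cases eps σ y <;> simp
  have e2 : ∀ σ' : V d → Bool, ∫ σ, F (eps σ' y) (eps σ) ∂ising d θ =
      (if eps σ' y = true then (1 : ℝ) else 0) * (∫ σ, F true (eps σ) ∂ising d θ) +
        (if eps σ' y = false then (1 : ℝ) else 0) * ∫ σ, F false (eps σ) ∂ising d θ := fun σ => by
    cases eps σ y <;> simp
  rw [integral_congr_ae (Eventually.of_forall e1), integral_congr_ae (Eventually.of_forall e2),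
    integral_add (hint true) (hint false),
    integral_add ((integrable_of_dep (hi true)).mul_const _)
      ((integrable_of_dep (hi false)).mul_const _),
    integral_mul_of_dep hd (hi true) (hF true), integral_mul_of_dep hd (hi false) (hF false),
    integral_mul_const, integral_mul_const]

/-- Product of the weights over the subtree of depth `n` below `z`, given the spin at `z`. -/
def Lam (W : V d → Bool → ℝ) : ℕ → V d → Bool → (V d → Bool) → ℝ
  | 0, _, _, _ => 1
  | n + 1, z, b, e => W z b * ∏ c ∈ kids z, Lam W n (step c z) (e (step c z) == b) e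

/-- Its expectation. -/
noncomputable def ZZ (θ : ℝ) (W : V d → Bool → ℝ) : ℕ → V d → Bool → ℝ
  | 0, _, _ => 1
  | n + 1, z, b => W z b * ∏ c ∈ kids z,
      ((1 + θ) / 2 * ZZ θ W n (step c z) b + (1 - θ) / 2 * ZZ θ W n (step c z) (!b))

lemma suffix_step {z : V d} {c : Fin d} (hc : c ∈ kids z) : z.1 <:+ (step c z).1 := by
  rw [step_kid hc]
  exact List.suffix_cons _ _

lemma kid_eq {z u : V d} {c c' : Fin d} (hc : c ∈ kids z) (hc' : c' ∈ kids z)
    (h : (step c z).1 <:+ u.1) (h' : (step c' z).1 <:+ u.1) : c = c' := by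
  have hl : (step c z).1.length = (step c' z).1.length := by
    rw [step_kid hc, step_kid hc']; rfl
  exact step_colour (Subtype.ext ((List.suffix_of_suffix_length_le h h' hl.le).eq_of_length hl))

lemma Lam_congr (W : V d → Bool → ℝ) (n : ℕ) : ∀ (z : V d) (b : Bool) (e e' : V d → Bool),
    (∀ u : V d, z.1 <:+ u.1 → len z < len u → len u ≤ len z + n → e u = e' u) →
      Lam W n z b e = Lam W n z b e' := by
  induction n with
  | zero => intro _ _ _ _ _; rfl
  | succ n ih =>
    intro z b e e' h
    simp only [Lam]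
    refine congrArg _ (Finset.prod_congr rfl fun c hc => ?_)
    have hl := len_step_kid hc
    rw [h _ (suffix_step hc) (by omega) (by omega)]
    exact ih _ _ _ _ fun u h1 h2 h3 => h u ((suffix_step hc).trans h1) (by omega) (by omega)

lemma integral_Lam (h0 : 0 ≤ θ) (h1 : θ ≤ 1) (W : V d → Bool → ℝ) (n : ℕ) :
    ∀ (z : V d) (b : Bool), ∫ σ, Lam W n z b (eps σ) ∂ising d θ = ZZ θ W n z b := by
  classical
  induction n with
  | zero => intro z b; simp [Lam, ZZ]
  | succ n ih =>
    intro z b
    simp only [Lam, ZZ]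
    rw [integral_const_mul]
    refine congrArg _ ?_
    rw [integral_prod_of_dep (kids z)
      (S := fun c => (ball d (len z + 1 + n)).filter fun u => (step c z).1 <:+ u.1)
      (F := fun c e => Lam W n (step c z) (e (step c z) == b) e)]
    · refine Finset.prod_congr rfl fun c hc => ?_
      have hl := len_step_kid hc
      rw [integral_split (y := step c z) (T := (ball d (len z + 1 + n)).erase (step c z))
        (Finset.notMem_erase _ _) (F := fun a e => Lam W n (step c z) (a == b) e)]
      · simp only [ih]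
        rw [integral_eps h0 h1 (step_ne_one hc) fun a => ZZ θ W n (step c z) (a == b)]
        cases b <;> rfl
      · intro a e e' h
        refine Lam_congr W n _ _ _ _ fun u _ h2 h3 => h u (Finset.mem_erase.2 ⟨?_, ?_⟩)
        · rintro rfl
          exact lt_irrefl _ h2
        · exact mem_ball.2 (by omega)
    · intro c hc c' hc' hne
      rw [Finset.disjoint_left]
      intro u hu hu'
      exact hne (kid_eq hc hc' (Finset.mem_filter.1 hu).2 (Finset.mem_filter.1 hu').2)
    · intro c hc e e' h
      have hl := len_step_kid hc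
      rw [h (step c z) (Finset.mem_filter.2 ⟨mem_ball.2 (by omega), List.suffix_refl _⟩)]
      exact Lam_congr W n _ _ _ _ fun u h1 _ h3 =>
        h u (Finset.mem_filter.2 ⟨mem_ball.2 (by omega), h1⟩)

lemma prod_sph_succ (F : V d → ℝ) (k : ℕ) :
    ∏ w ∈ sph d (k + 1), F w = ∏ z ∈ sph d k, ∏ c ∈ kids z, F (step c z) :=
  sum_sph_succ (M := Additive ℝ) (fun w => Additive.ofMul (F w)) k

lemma prod_ball (F : V d → ℝ) (K : ℕ) :
    ∏ w ∈ ball d K, F w = ∏ k ∈ range (K + 1), ∏ w ∈ sph d k, F w :=
  sum_ball (M := Additive ℝ) (fun w => Additive.ofMul (F w)) K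

lemma prod_Lam (W : V d → Bool → ℝ) (σ : V d → Bool) (m : ℕ) : ∀ k : ℕ,
    ∏ z ∈ sph d k, Lam W m z (σ z) (eps σ) =
      ∏ j ∈ range m, ∏ z ∈ sph d (k + j), W z (σ z) := by
  induction m with
  | zero => intro k; simp [Lam]
  | succ m ih =>
    intro k
    simp only [Lam]
    rw [Finset.prod_mul_distrib, Finset.prod_range_succ', mul_comm]
    refine congrArg₂ _ ?_ rfl
    have e : ∀ j, k + (j + 1) = k + 1 + j := fun j => by omega
    refine Eq.trans ?_ ((ih (k + 1)).trans (Finset.prod_congr rfl fun j _ => by rw [e j]))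
    rw [prod_sph_succ]
    refine Finset.prod_congr rfl fun z _ => Finset.prod_congr rfl fun c hc => ?_
    have : (eps σ (step c z) == σ z) = σ (step c z) := by
      simp only [eps, step_ne_one hc, if_false, par_step hc]
      cases σ (step c z) <;> cases σ z <;> rfl
    rw [this]

lemma integral_ball (h0 : 0 ≤ θ) (h1 : θ ≤ 1) (W : V d → Bool → ℝ) (n : ℕ) (f : Bool → ℝ) :
    ∫ σ, f (σ 1) * ∏ v ∈ ball d n, W v (σ v) ∂ising d θ =
      1 / 2 * (f true * ZZ θ W (n + 1) 1 true) + 1 / 2 * (f false * ZZ θ W (n + 1) 1 false) := by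
  classical
  have e : ∀ σ : V d → Bool, f (σ 1) * ∏ v ∈ ball d n, W v (σ v) =
      f (eps σ 1) * Lam W (n + 1) 1 (eps σ 1) (eps σ) := fun σ => by
    have h := prod_Lam W σ (n + 1) 0
    simp only [sph, Finset.prod_singleton, zero_add] at h
    rw [prod_ball, ← h]
    simp [eps]
  simp only [e]
  rw [integral_split (y := 1) (T := (ball d (n + 1)).erase 1) (Finset.notMem_erase _ _)
    (F := fun a e => f a * Lam W (n + 1) 1 a e)]
  · simp only [integral_const_mul, integral_Lam h0 h1]
    have h := integral_root (d := d) (θ := θ) fun a => f a * ZZ θ W (n + 1) 1 a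
    simpa [eps] using h
  · intro a e e' h
    refine congrArg _ (Lam_congr W _ _ _ _ _ fun u _ h2 h3 => h u (Finset.mem_erase.2 ⟨?_, ?_⟩))
    · rintro rfl
      exact lt_irrefl _ h2
    · exact mem_ball.2 (by simpa using h3)

lemma ZZ_congr {W W' : V d → Bool → ℝ} (n : ℕ) : ∀ (z : V d),
    (∀ v : V d, z.1 <:+ v.1 → W v = W' v) → ZZ θ W n z = ZZ θ W' n z := by
  induction n with
  | zero => intro _ _; rfl
  | succ n ih =>
    intro z h
    funext b
    simp only [ZZ]
    rw [h z (List.suffix_refl _)]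
    refine congrArg _ (Finset.prod_congr rfl fun c hc => ?_)
    rw [ih _ fun v hv => h v ((suffix_step hc).trans hv)]

/-- Field of the subtree of depth `n` below `z`. -/
noncomputable def HH (θ : ℝ) (X : V d → ℝ) : ℕ → V d → ℝ
  | 0, _ => 0
  | n + 1, z => X z + ∑ c ∈ kids z, msg θ (HH θ X n (step c z))

lemma HH_step (X : V d → ℝ) (n : ℕ) : ∀ (x : V d) (c : Fin d), c ∈ kids x →
    HH θ X n (step c x) = hh θ X n x c := by
  induction n with
  | zero => intro _ _ _; rfl
  | succ n ih =>
    intro x c hc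
    simp only [HH, hh]
    rw [← kids_step hc]
    exact congrArg _ (Finset.sum_congr rfl fun c' hc' => by rw [ih _ _ hc'])

lemma HH_one (X : V d → ℝ) (n : ℕ) :
    HH θ X (n + 1) 1 = X 1 + ∑ c, msg θ (hh θ X n 1 c) := by
  simp only [HH, kids_one]
  exact congrArg _ (Finset.sum_congr rfl fun c _ => by rw [HH_step X n 1 c (by simp)])

lemma edge_exp (h : Hyp d θ) (a : ℝ) : ∃ A : ℝ, 0 < A ∧ ∀ b : Bool,
    (1 + θ) / 2 * Real.exp (sg b * a) + (1 - θ) / 2 * Real.exp (sg (!b) * a) =
      A * Real.exp (sg b * msg θ a) := by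
  have h0 := h.h0
  have h1 := h.le
  have e := exp_msg h a
  have p1 := Real.exp_pos a
  have p2 := Real.exp_pos (-a)
  have p3 := Real.exp_pos (msg θ a)
  refine ⟨((1 + θ) * Real.exp (-a) + (1 - θ) * Real.exp a) / 2 * Real.exp (msg θ a), ?_, ?_⟩
  · have : 0 < 1 - θ := by linarith
    positivity
  · intro b
    rw [two_mul, Real.exp_add] at e
    have e2 : Real.exp (msg θ a) * Real.exp (-msg θ a) = 1 := by rw [← Real.exp_add]; simp
    cases b
    · simp only [sg, Bool.not_false, if_true, Bool.false_eq_true, if_false, neg_mul, one_mul]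
      linear_combination (-((1 + θ) * Real.exp (-a) + (1 - θ) * Real.exp a) / 2) * e2
    · simp only [sg, Bool.not_true, if_true, Bool.false_eq_true, if_false, neg_mul, one_mul]
      linear_combination (-1 / 2 : ℝ) * e

lemma ZZ_exp (h : Hyp d θ) (X : V d → ℝ) (n : ℕ) : ∀ z : V d, ∃ A : ℝ, 0 < A ∧ ∀ b : Bool,
    ZZ θ (fun v b => Real.exp (X v * sg b)) n z b = A * Real.exp (sg b * HH θ X n z) := by
  induction n with
  | zero => intro z; exact ⟨1, one_pos, fun b => by simp [ZZ, HH]⟩
  | succ n ih =>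
    intro z
    choose A hA hZ using ih
    choose B hB hE using edge_exp h
    refine ⟨∏ c ∈ kids z, A (step c z) * B (HH θ X n (step c z)),
      Finset.prod_pos fun c _ => mul_pos (hA _) (hB _), fun b => ?_⟩
    simp only [ZZ, HH, hZ]
    rw [mul_add, Real.exp_add, Finset.mul_sum, Real.exp_sum, mul_left_comm,
      ← Finset.prod_mul_distrib, mul_comm (X z)]
    refine congrArg _ (Finset.prod_congr rfl fun c _ => ?_)
    linear_combination A (step c z) * hE (HH θ X n (step c z)) b

lemma exp_eq_cosh (a : ℝ) : Real.exp a = Real.cosh a * (1 + Real.tanh a) ∧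
    Real.exp (-a) = Real.cosh a * (1 - Real.tanh a) := by
  have hc := (Real.cosh_pos a).ne'
  rw [Real.tanh_eq_sinh_div_cosh, ← Real.cosh_add_sinh, ← Real.cosh_sub_sinh]
  constructor <;> field_simp

lemma edge_two (h : Hyp d θ) (a α β : ℝ) : ∃ α' : ℝ, ∀ b : Bool,
    (1 + θ) / 2 * (Real.exp (sg b * a) * (α + β * sg b)) +
        (1 - θ) / 2 * (Real.exp (sg (!b) * a) * (α + β * sg (!b))) =
      ((1 + θ) / 2 * Real.exp (sg b * a) + (1 - θ) / 2 * Real.exp (sg (!b) * a)) *
        (α' + β * (θ * phi θ a) * sg b) := by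
  obtain ⟨e1, e2⟩ := exp_eq_cosh a
  have ht : Real.tanh a ^ 2 ≤ 1 := by
    have := Real.tanh_lt_one a
    have := Real.neg_one_lt_tanh a
    nlinarith
  have hs := h.sq_le
  have hne : 1 - θ ^ 2 * Real.tanh a ^ 2 ≠ 0 := by
    have := sq_nonneg θ
    have := sq_nonneg (Real.tanh a)
    nlinarith
  refine ⟨α + β * (Real.tanh a * (1 - θ ^ 2) / (1 - θ ^ 2 * Real.tanh a ^ 2)), fun b => ?_⟩
  cases b
  · simp only [sg, Bool.not_false, if_true, Bool.false_eq_true, if_false, neg_mul, one_mul, phi]
    rw [e2, e1]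
    field_simp
    ring
  · simp only [sg, Bool.not_true, if_true, Bool.false_eq_true, if_false, neg_mul, one_mul, phi]
    rw [e2, e1]
    field_simp
    ring

lemma ZZ_path (h : Hyp d θ) (X : V d → ℝ) (W : V d → Bool → ℝ) (z : V d) : ∀ (m : ℕ) (α β : ℝ),
    (∀ v : V d, ¬ z.1 <:+ v.1 → W v = fun b => Real.exp (X v * sg b)) →
    (∀ b, ZZ θ W (m + 1) z b =
      ZZ θ (fun v b => Real.exp (X v * sg b)) (m + 1) z b * (α + β * sg b)) →
    ∃ α' : ℝ, ∀ b, ZZ θ W (m + len z + 1) 1 b =
      ZZ θ (fun v b => Real.exp (X v * sg b)) (m + len z + 1) 1 b *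
        (α' + β * (θ ^ len z * rn θ X 1 (m + 1) z.1) * sg b) := by
  classical
  induction z using par_induction with
  | h1 => intro m α β _ h2; exact ⟨α, fun b => by simpa [rn] using h2 b⟩
  | hs z hz ih =>
    intro m α β hW h2
    obtain ⟨c, hc, hzc⟩ := exists_kid hz
    have hl := len_par hz
    generalize par z = p at ih hc hzc hl
    subst hzc
    obtain ⟨A, -, hA⟩ := ZZ_exp h X (m + 1) (step c p)
    obtain ⟨α', hα⟩ := edge_two h (HH θ X (m + 1) (step c p)) α β
    obtain ⟨α'', h3⟩ := ih (m + 1) α' (β * (θ * phi θ (HH θ X (m + 1) (step c p))))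
      (fun v hv => hW v fun h4 => hv ((suffix_step hc).trans h4)) (fun b => by
        rw [ZZ, ZZ, hW p (fun h4 => by
            have := h4.length_le
            change len (step c p) ≤ len p at this
            omega), ← Finset.mul_prod_erase _ _ hc, ← Finset.mul_prod_erase _ _ hc]
        have e : ∀ c' ∈ (kids p).erase c, ZZ θ W (m + 1) (step c' p) =
            ZZ θ (fun v b => Real.exp (X v * sg b)) (m + 1) (step c' p) := fun c' hc' =>
          ZZ_congr _ _ fun v hv => hW v fun h4 => (Finset.mem_erase.1 hc').1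
            (kid_eq (Finset.mem_erase.1 hc').2 hc hv h4)
        rw [Finset.prod_congr rfl fun c' hc' => by rw [e c' hc'], h2, h2, hA, hA]
        linear_combination (Real.exp (X p * sg b) * A * ∏ c' ∈ (kids p).erase c,
          ((1 + θ) / 2 * ZZ θ (fun v b => Real.exp (X v * sg b)) (m + 1) (step c' p) b +
            (1 - θ) / 2 * ZZ θ (fun v b => Real.exp (X v * sg b)) (m + 1) (step c' p) (!b))) *
              hα b)
    refine ⟨α'', fun b => ?_⟩
    have e : m + len (step c p) + 1 = m + 1 + len p + 1 := by omega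
    rw [e, h3, hl, step_kid hc, rn, walk_one, HH_step X _ _ _ hc]
    ring

lemma gib_den (h : Hyp d θ) (n : ℕ) (X : V d → ℝ) (f : Bool → ℝ) :
    ∫ σ, f (σ 1) * Real.exp (∑ v ∈ ball d n, X v * sg (σ v)) ∂ising d θ =
      1 / 2 * (f true * ZZ θ (fun v b => Real.exp (X v * sg b)) (n + 1) 1 true) +
        1 / 2 * (f false * ZZ θ (fun v b => Real.exp (X v * sg b)) (n + 1) 1 false) := by
  simp only [Real.exp_sum]
  exact integral_ball h.h0 (h.le.trans (by norm_num)) (fun v b => Real.exp (X v * sg b)) n f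

lemma gib_num (h : Hyp d θ) {n : ℕ} (X : V d → ℝ) (f : Bool → ℝ) {w : V d} (hw : len w ≤ n) :
    ∫ σ, f (σ 1) * sg (σ w) * Real.exp (∑ v ∈ ball d n, X v * sg (σ v)) ∂ising d θ =
      1 / 2 * (f true * ZZ θ (fun v b => (if v = w then sg b else 1) * Real.exp (X v * sg b))
          (n + 1) 1 true) +
        1 / 2 * (f false * ZZ θ (fun v b => (if v = w then sg b else 1) * Real.exp (X v * sg b))
          (n + 1) 1 false) := by
  rw [← integral_ball h.h0 (h.le.trans (by norm_num))]
  refine integral_congr_ae (Eventually.of_forall fun σ => ?_)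
  simp only [Real.exp_sum, Finset.prod_mul_distrib, Finset.prod_ite_eq', mem_ball.2 hw, if_true,
    mul_assoc]

theorem gib_one (h : Hyp d θ) (n : ℕ) (X : V d → ℝ) :
    gib θ n X (fun σ => sg (σ 1)) = Real.tanh (X 1 + ∑ c, msg θ (hh θ X n 1 c)) := by
  have e1 := gib_den h n X sg
  have e2 := gib_den h n X fun _ => 1
  simp only [one_mul] at e2
  obtain ⟨A, hA, hZ⟩ := ZZ_exp h X (n + 1) 1
  rw [gib, e1, e2, hZ, hZ, ← HH_one]
  generalize HH θ X (n + 1) 1 = a
  obtain ⟨e3, e4⟩ := exp_eq_cosh a
  have hc := (Real.cosh_pos a).ne'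
  simp only [sg, if_true, Bool.false_eq_true, if_false, neg_mul, one_mul]
  rw [e4, e3]
  field_simp
  ring

theorem gib_two (h : Hyp d θ) (m : ℕ) (X : V d → ℝ) (w : V d) :
    gib θ (m + len w) X (fun σ => sg (σ 1) * sg (σ w)) -
        gib θ (m + len w) X (fun σ => sg (σ 1)) * gib θ (m + len w) X (fun σ => sg (σ w)) =
      (1 - Real.tanh (X 1 + ∑ c, msg θ (hh θ X (m + len w) 1 c)) ^ 2) * θ ^ len w *
        rn θ X 1 (m + 1) w.1 := by
  obtain ⟨α, hα⟩ := ZZ_path h X
    (fun v b => (if v = w then sg b else 1) * Real.exp (X v * sg b)) w m 0 1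
    (fun v hv => by
      have : v ≠ w := fun e => hv (e ▸ List.suffix_refl _)
      simp [this])
    (fun b => by
      rw [ZZ, ZZ]
      have e : ∀ c ∈ kids w,
          ZZ θ (fun v b => (if v = w then sg b else 1) * Real.exp (X v * sg b)) m (step c w) =
          ZZ θ (fun v b => Real.exp (X v * sg b)) m (step c w) := fun c hc =>
        ZZ_congr _ _ fun v hv => by
          have : v ≠ w := by
            rintro rfl
            have h1 := hv.length_le
            have h2 := len_step_kid hc
            change len (step c v) ≤ len v at h1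
            omega
          simp [this]
      rw [Finset.prod_congr rfl fun c hc => by rw [e c hc], if_pos rfl]
      ring)
  have e1 := gib_num h X sg (Nat.le_add_left (len w) m)
  have e2 := gib_num h X (fun _ => 1) (Nat.le_add_left (len w) m)
  have e3 := gib_den h (m + len w) X fun _ => 1
  simp only [one_mul] at e2 e3
  obtain ⟨A, hA, hZ⟩ := ZZ_exp h X (m + len w + 1) 1
  rw [gib_one h, gib, gib, e1, e2, e3, hα, hα, hZ, hZ, ← HH_one]
  generalize HH θ X (m + len w + 1) 1 = a
  obtain ⟨e3, e4⟩ := exp_eq_cosh a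
  have hc := (Real.cosh_pos a).ne'
  simp only [sg, if_true, Bool.false_eq_true, if_false, neg_mul, one_mul]
  rw [e4, e3]
  field_simp
  ring

end Vale.Agent.P161E
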