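import Vale.Agent.P161E.Obs
import Vale.Agent.P161E.Gibbs

/-! The posterior given infinitely many observations.
`levy`: `MeasureTheory.Integrable.tendsto_ae_condExp`-type theorem (`tendsto_ae_condExp`) for the
filtration `FI (In n)` (`FI_mono`, `FI_le`, `iSup_FI`).
`post_ball`: apply `post_fin` to the finite sets `I ∩ ball n × [-m, m]`, `levy`, `tendsto_XI`,
`continuous_gib`, `gib_congr`, `XI_inter`.
`conv`: enough for `x = 1` (then `hh_lmul`, `XI_pb1`, `P1_pb1 (lmul x)`; countably many edges).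
Fix `c`, let `S` be the set of words with suffix `[c]` and `I' = I ∩ S × ℤ`.  By `post_ball`, `gib_one`,
`XI_inter`, `hh_local`, `hh_zero`, `tanh_msg`, the martingale `E[sg σ₁ | FI (I' ∩ ball n)]` equals
`θ tanh (hh θ X n 1 c)`, so this converges a.e.; if `θ > 0` then `tanh hh` converges, and `hh` is
bounded (`abs_hh_le`), so `hh = artanh (tanh hh)` converges; if `θ = 0` then `msg = 0` and the
sequence is eventually constant.  Then `mid_eq`.
`post1`: for `x = 1`: `post_ball`, `gib_one`, `levy`, `Conv.tendsto_root`; general `x` by invariance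
(test against functions of `obs I`, or `condExp` under the measure preserving bijection `pb1 (lmul x)`).
`post2`: `gib_two` along radii `m + len w`, `levy` for the three spin functions, `post1`.
`qq_sub`, `qq_mono`, `qq_tendsto`: orthogonality (`orth`), tower property, bounded convergence. -/

namespace Vale.Agent.P161E

open MeasureTheory Filter Set

variable {d : ℕ} {θ : ℝ} {J : ℤ} {I I' : Set (Ix d)}

lemma levy {In : ℕ → Set (Ix d)} (hm : Monotone In) {f : O1 d → ℝ} (hf : BM inferInstance f) :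
    ∀ᵐ η ∂P1 d θ, Tendsto (fun n => ((P1 d θ)[f|FI (In n)]) η) atTop
      (nhds (((P1 d θ)[f|FI (⋃ n, In n)]) η)) := by
  let ℱ : Filtration ℕ (inferInstance : MeasurableSpace (O1 d)) :=
    ⟨fun n => FI (In n), fun a b hab => FI_mono (hm hab), fun n => FI_le _⟩
  have h := tendsto_ae_condExp (μ := P1 d θ) (ℱ := ℱ) f
  rw [← iSup_FI hm]
  exact h

lemma Upto.mono (hI : Upto J I') (hs : I ⊆ I') : Upto J I := fun a ha => hI a (hs ha)

lemma BM_fst {H : (V d → Bool) → ℝ} (hH : BM inferInstance H) :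
    BM inferInstance fun η : O1 d => H η.1 := hH.comp measurable_fst

lemma BM_sg_spin (x : V d) : BM inferInstance fun σ : V d → Bool => sg (σ x) :=
  ⟨(measurable_of_countable sg).comp (measurable_pi_apply x), 1, fun _ => (abs_sg _).le⟩

lemma post_ball (hI : Upto J I) (n : ℕ) {H : (V d → Bool) → ℝ} (hH : BM inferInstance H) :
    (P1 d θ)[fun η => H η.1|FI (I ∩ {a | len a.1 ≤ n})] =ᵐ[P1 d θ]
      fun η => gib θ n (XI I η) H := by
  classical
  let A : ℕ → Finset (Ix d) := fun m =>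
    (ball d n ×ˢ Finset.Icc (-(m : ℤ)) m).filter (· ∈ I)
  have hA : ∀ m a, a ∈ A m ↔ (len a.1 ≤ n ∧ -(m : ℤ) ≤ a.2 ∧ a.2 ≤ m) ∧ a ∈ I := by
    intro m a
    simp only [A, Finset.mem_filter, Finset.mem_product, mem_ball, Finset.mem_Icc]
  have hm : Monotone fun m => (A m : Set (Ix d)) := by
    intro a b hab x hx
    obtain ⟨⟨h1, h2, h3⟩, h4⟩ := (hA a x).1 hx
    exact (hA b x).2 ⟨⟨h1, by omega, by omega⟩, h4⟩
  have hU : (⋃ m, (A m : Set (Ix d))) = I ∩ {a | len a.1 ≤ n} := by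
    ext x
    constructor
    · intro hx
      obtain ⟨m, hx⟩ := mem_iUnion.1 hx
      obtain ⟨⟨h1, -⟩, h4⟩ := (hA m x).1 hx
      exact ⟨h4, h1⟩
    · intro hx
      exact mem_iUnion.2 ⟨x.2.natAbs, (hA _ x).2 ⟨⟨hx.2, by omega, by omega⟩, hx.1⟩⟩
  have h1 := levy (θ := θ) hm (BM_fst hH)
  have h2 : ∀ᵐ η ∂P1 d θ, ∀ m, ((P1 d θ)[fun η => H η.1|FI (A m : Set (Ix d))]) η =
      gib θ n (XI (A m : Set (Ix d)) η) H :=
    ae_all_iff.2 fun m => post_fin n (A m) (fun a ha => ((hA m a).1 ha).1.1) hH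
  filter_upwards [h1, h2] with η h1 h2
  have h3 := ((continuous_gib (θ := θ) n hH).tendsto _).comp
    (tendsto_XI hm (hI.mono (hU ▸ inter_subset_left)) η)
  simp only [h2] at h1
  have h4 := tendsto_nhds_unique h1 h3
  rw [hU] at h4
  rw [h4]
  refine gib_congr n (fun v hv => ?_) H
  exact (XI_inter (I := I) {v | len v ≤ n} η v).trans (indicator_of_mem (by exact hv) _)

lemma mono_ball (I : Set (Ix d)) : Monotone fun n : ℕ => I ∩ {a | len a.1 ≤ n} :=
  fun _ _ hab _ hx => ⟨hx.1, le_trans hx.2 hab⟩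

lemma iUnion_ball (I : Set (Ix d)) : (⋃ n : ℕ, I ∩ {a | len a.1 ≤ n}) = I := by
  ext x
  exact ⟨fun hx => by obtain ⟨n, hx⟩ := mem_iUnion.1 hx; exact hx.1,
    fun hx => mem_iUnion.2 ⟨len x.1, hx, Nat.le_refl _⟩⟩

lemma gib_tendsto (hI : Upto J I) {H : (V d → Bool) → ℝ} (hH : BM inferInstance H) :
    ∀ᵐ η ∂P1 d θ, Tendsto (fun n => gib θ n (XI I η) H) atTop
      (nhds (((P1 d θ)[fun η => H η.1|FI I]) η)) := by
  have h1 := levy (θ := θ) (mono_ball I) (BM_fst hH)
  rw [iUnion_ball] at h1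
  have h2 : ∀ᵐ η ∂P1 d θ, ∀ n : ℕ,
      ((P1 d θ)[fun η => H η.1|FI (I ∩ {a | len a.1 ≤ n})]) η = gib θ n (XI I η) H :=
    ae_all_iff.2 fun n => post_ball hI n hH
  filter_upwards [h1, h2] with η h1 h2
  simpa only [h2] using h1

lemma continuousAt_artanh' {t : ℝ} (h : |t| < 1) : ContinuousAt Real.artanh t := by
  obtain ⟨h1, h2⟩ := abs_lt.1 h
  have h3 : 0 < (1 + t) / (1 - t) := div_pos (by linarith) (by linarith)
  unfold Real.artanh
  refine ContinuousAt.log (ContinuousAt.sqrt (ContinuousAt.div ?_ ?_ (by linarith)))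
    (Real.sqrt_pos.2 h3).ne'
  · fun_prop
  · fun_prop

lemma conv_root (h : Hyp d θ) (hI : Upto J I) (c : Fin d) :
    ∀ᵐ η ∂P1 d θ, ∃ l, Tendsto (fun n => hh θ (XI I η) n 1 c) atTop (nhds l) := by
  rcases h.h0.eq_or_lt with h0 | h0
  · refine Eventually.of_forall fun η => ⟨XI I η (step c 1), ?_⟩
    rw [← tendsto_add_atTop_iff_nat 1]
    simp [hh, msg, ← h0]
  let S : Set (V d) := {v | (step c 1).1 <:+ v.1}
  have hv : ∀ c' : Fin d, (step c' (1 : V d)).1 = [c'] := fun c' => step_kid (by simp)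
  have h1 := gib_tendsto (θ := θ) (hI.mono (inter_subset_left (t := {a | a.1 ∈ S}))) (BM_sg_spin 1)
  filter_upwards [h1] with η h1
  have h2 : ∀ n, gib θ n (XI (I ∩ {a | a.1 ∈ S}) η) (fun σ => sg (σ 1)) =
      θ * Real.tanh (hh θ (XI I η) n 1 c) := by
    intro n
    have h3 : XI (I ∩ {a | a.1 ∈ S}) η 1 = 0 := by
      rw [XI_inter]
      refine indicator_of_notMem (fun h4 => ?_) _
      have h5 : (step c 1).1 <:+ (1 : V d).1 := h4
      rw [hv] at h5
      simp at h5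
    have h4 : hh θ (XI (I ∩ {a | a.1 ∈ S}) η) n 1 c = hh θ (XI I η) n 1 c :=
      hh_local n (by simp) fun v hv' => by
        rw [XI_inter]
        exact indicator_of_mem (show v ∈ S from hv') _
    have h5 : ∀ c', c' ≠ c → msg θ (hh θ (XI (I ∩ {a | a.1 ∈ S}) η) n 1 c') = 0 := by
      intro c' hc'
      have h6 : hh θ (XI (I ∩ {a | a.1 ∈ S}) η) n 1 c' = hh θ (fun _ => 0) n 1 c' :=
        hh_local n (by simp) fun v hv' => by
          rw [XI_inter]
          refine indicator_of_notMem (fun h7 => hc' ?_) _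
          have h8 : (step c 1).1 <:+ v.1 := h7
          rw [hv] at h8 hv'
          have h9 := (List.suffix_of_suffix_length_le hv' h8 le_rfl).eq_of_length rfl
          simpa using h9
      rw [h6, hh_zero]
      simp [msg]
    rw [gib_one h, h3, zero_add, Finset.sum_eq_single c (fun c' _ hc' => h5 c' hc')
      (fun h6 => absurd (Finset.mem_univ c) h6), h4, tanh_msg h]
  simp only [h2] at h1
  generalize ((P1 d θ)[fun η => sg (η.1 1)|FI (I ∩ {a | a.1 ∈ S})]) η = L at h1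
  have h3 : Tendsto (fun n => Real.tanh (hh θ (XI I η) n 1 c)) atTop (nhds (θ⁻¹ * L)) := by
    have h4 := h1.const_mul θ⁻¹
    simpa only [← mul_assoc, inv_mul_cancel₀ h0.ne', one_mul] using h4
  have h4 : |θ⁻¹ * L| ≤ Real.tanh (BB J + d) := by
    refine le_of_tendsto' h3.abs fun n => ?_
    rw [abs_tanh']
    exact tanh_mono (abs_hh_le h (abs_XI_le hI η) n 1 c)
  have h5 := (continuousAt_artanh' (h4.trans_lt (Real.tanh_lt_one _))).tendsto.comp h3
  refine ⟨_, h5.congr fun n => ?_⟩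
  exact Real.artanh_tanh _

lemma upto_pb (hI : Upto J I) (g : tree d ≃g tree d) : Upto J {a | (g a.1, a.2) ∈ I} :=
  fun a ha => hI (g a.1, a.2) ha

theorem conv (h : Hyp d θ) (hI : Upto J I) : ∀ᵐ η ∂P1 d θ, Conv θ (XI I η) := by
  refine ae_all_iff.2 fun x => ae_all_iff.2 fun c => ?_
  have h1 := (P1_pb1 h (lmul x)).quasiMeasurePreserving.ae
    (conv_root h (upto_pb hI (lmul x)) c)
  filter_upwards [h1] with η h1
  obtain ⟨l, hl⟩ := h1
  have h2 : XI {a | (lmul x a.1, a.2) ∈ I} (pb1 (lmul x) η) = fun v => XI I η (x * v) :=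
    funext fun v => XI_pb1 (lmul x) η v
  simp only [h2, hh_lmul, mul_one] at hl
  have h3 : P161E.hI θ (XI I η) x c = l := mid_eq hl
  rw [h3]
  exact hl

lemma post1_root (h : Hyp d θ) (hI : Upto J I) :
    (P1 d θ)[fun η => sg (η.1 1)|FI I] =ᵐ[P1 d θ] fun η => mag θ (XI I η) 1 := by
  filter_upwards [gib_tendsto (θ := θ) hI (BM_sg_spin 1), conv h hI] with η h1 h2
  simp only [gib_one h] at h1
  exact tendsto_nhds_unique h1 ((continuous_tanh'.tendsto _).comp (h2.tendsto_root h 1))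

lemma BM_mag (I : Set (Ix d)) (x : V d) : BM (FI I) fun η => mag θ (XI I η) x :=
  ⟨(measurable_mag x).comp (measurable_XI_FI I), 1, fun _ => abs_mag_le x⟩

lemma obs_pb1 (I : Set (Ix d)) (g : tree d ≃g tree d) (η : O1 d) :
    pbT g.symm (obs {a | (g a.1, a.2) ∈ I} (pb1 g η)) = obs I η := by
  funext a
  have e : ((g.symm a.1, a.2) : Ix d) ∈ {a : Ix d | (g a.1, a.2) ∈ I} ↔ a ∈ I := by
    simp only [mem_ofPred_eq, RelIso.apply_symm_apply]
  by_cases ha : a ∈ I
  · simp only [pbT, obs, if_pos (e.2 ha), if_pos ha, YY, pb1, RelIso.apply_symm_apply]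
  · simp only [pbT, obs, if_neg (e.not.2 ha), if_neg ha]

theorem post1 (h : Hyp d θ) (hI : Upto J I) (x : V d) :
    (P1 d θ)[fun η => sg (η.1 x)|FI I] =ᵐ[P1 d θ] fun η => mag θ (XI I η) x := by
  have hT := P1_pb1 h (lmul x)
  have h0 := post1_root h (upto_pb hI (lmul x))
  have hb := (BM_mag (θ := θ) I x).mono (FI_le I)
  have hb' := (BM_mag (θ := θ) {a | (lmul x a.1, a.2) ∈ I} 1).mono (FI_le _)
  have hf : BM inferInstance fun η : O1 d => sg (η.1 1) := BM_fst (BM_sg_spin 1)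
  refine (ae_eq_condExp_of_forall_setIntegral_eq (FI_le I) (BM_fst (BM_sg_spin x)).integrable
    (fun s _ _ => hb.integrable.integrableOn) (fun s hs _ => ?_)
    (BM_mag (θ := θ) I x).meas.stronglyMeasurable.aestronglyMeasurable).symm
  obtain ⟨B, hB, rfl⟩ := hs
  have hs' : MeasurableSet[FI {a | (lmul x a.1, a.2) ∈ I}]
      (obs {a | (lmul x a.1, a.2) ∈ I} ⁻¹' (pbT (lmul x).symm ⁻¹' B)) :=
    ⟨_, measurable_pbT _ hB, rfl⟩
  have e : obs I ⁻¹' B = pb1 (lmul x) ⁻¹'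
      (obs {a | (lmul x a.1, a.2) ∈ I} ⁻¹' (pbT (lmul x).symm ⁻¹' B)) := by
    ext η
    simp only [mem_preimage, obs_pb1]
  have h1 := setIntegral_map (μ := P1 d θ) (FI_le _ _ hs') hb'.meas.aestronglyMeasurable
    hT.aemeasurable
  have h2 := setIntegral_map (μ := P1 d θ) (FI_le _ _ hs') hf.meas.aestronglyMeasurable
    hT.aemeasurable
  rw [hT.map_eq, ← e] at h1 h2
  have h3 : ∀ η, mag θ (XI {a | (lmul x a.1, a.2) ∈ I} (pb1 (lmul x) η)) 1 =
      mag θ (XI I η) x := by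
    intro η
    have h4 : XI {a | (lmul x a.1, a.2) ∈ I} (pb1 (lmul x) η) = fun v => XI I η (lmul x v) :=
      funext fun v => XI_pb1 (lmul x) η v
    rw [h4, mag_aut, lmul_apply, mul_one]
  have h4 : ∀ η : O1 d, sg ((pb1 (lmul x) η).1 1) = sg (η.1 x) := by
    intro η
    simp only [pb1, lmul_apply, mul_one]
  simp only [h3] at h1
  simp only [h4] at h2
  rw [← h1, ← h2, ← setIntegral_condExp (FI_le _) hf.integrable hs']
  exact (setIntegral_congr_ae (FI_le _ _ hs') (h0.mono fun η hη _ => hη)).symm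

theorem post2 (h : Hyp d θ) (hI : Upto J I) (w : V d) :
    (P1 d θ)[fun η => sg (η.1 1) * sg (η.1 w)|FI I] =ᵐ[P1 d θ]
      fun η => mag θ (XI I η) 1 * mag θ (XI I η) w + cov θ (XI I η) 1 w := by
  filter_upwards [gib_tendsto (θ := θ) hI ((BM_sg_spin 1).mul (BM_sg_spin w)),
    gib_tendsto (θ := θ) hI (BM_sg_spin 1), gib_tendsto (θ := θ) hI (BM_sg_spin w), post1 h hI 1,
    post1 h hI w, conv h hI] with η h1 h2 h3 h4 h5 h6
  rw [h4] at h2
  rw [h5] at h3
  have h7 := (h1.sub (h2.mul h3)).comp (tendsto_add_atTop_nat (len w))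
  have h8 := ((((((continuous_tanh'.tendsto _).comp (h6.tendsto_root h 1)).comp
    (tendsto_add_atTop_nat (len w))).pow 2).const_sub 1).mul_const (θ ^ len w)).mul
    ((h6.tendsto_rn h 1 w.1).comp (tendsto_add_atTop_nat 1))
  have h9 := tendsto_nhds_unique (h7.congr fun m => gib_two h m (XI I η) w) h8
  have h10 : cov θ (XI I η) 1 w = (1 - Real.tanh (HI θ (XI I η) 1) ^ 2) * θ ^ len w *
      rr θ (XI I η) 1 w.1 := rfl
  rw [h10, ← h9]
  ring

lemma BM_cov (h : Hyp d θ) (I : Set (Ix d)) (x w : V d) :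
    BM (FI I) fun η => cov θ (XI I η) x w :=
  ⟨(measurable_cov x w).comp (measurable_XI_FI I), 1, fun _ => abs_cov_le h x w⟩

/-- Test-function form of `post1`. -/
lemma test1 (h : Hyp d θ) (hI : Upto J I) (x : V d) {Z : O1 d → ℝ} (hZ : BM (FI I) Z) :
    ∫ η, sg (η.1 x) * Z η ∂P1 d θ = ∫ η, mag θ (XI I η) x * Z η ∂P1 d θ := by
  rw [orth (FI_le I) (BM_fst (BM_sg_spin x)) hZ]
  exact integral_congr_ae ((post1 h hI x).mono fun η hη => by simp only [hη])

/-- Test-function form of `post2`. -/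
lemma test2 (h : Hyp d θ) (hI : Upto J I) (w : V d) {Z : O1 d → ℝ} (hZ : BM (FI I) Z) :
    ∫ η, sg (η.1 1) * sg (η.1 w) * Z η ∂P1 d θ =
      ∫ η, (mag θ (XI I η) 1 * mag θ (XI I η) w + cov θ (XI I η) 1 w) * Z η ∂P1 d θ := by
  rw [orth (FI_le I) (BM_fst ((BM_sg_spin 1).mul (BM_sg_spin w))) hZ]
  exact integral_congr_ae ((post2 h hI w).mono fun η hη => by simp only [hη])

lemma integral_sub_sq {f g : O1 d → ℝ} (hf : BM inferInstance f) (hg : BM inferInstance g) :
    ∫ η, (f η - g η) ^ 2 ∂P1 d θ =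
      ∫ η, f η ^ 2 ∂P1 d θ - 2 * ∫ η, f η * g η ∂P1 d θ + ∫ η, g η ^ 2 ∂P1 d θ := by
  have h1 : Integrable (fun η => f η ^ 2) (P1 d θ) := (hf.pow 2).integrable
  have h2 : Integrable (fun η => 2 * (f η * g η)) (P1 d θ) := (hf.mul hg).integrable.const_mul 2
  have h3 : Integrable (fun η => g η ^ 2) (P1 d θ) := (hg.pow 2).integrable
  have h4 : Integrable (fun η => f η ^ 2 - 2 * (f η * g η)) (P1 d θ) := h1.sub h2
  rw [← integral_const_mul, ← integral_sub h1 h2, ← integral_add h4 h3]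
  exact integral_congr_ae (Eventually.of_forall fun η => by simp only; ring)

/-- Pythagoras. -/
lemma pyth (h : Hyp d θ) (hI : Upto J I') (hs : I ⊆ I') (x : V d) {Z : O1 d → ℝ}
    (hZ : BM (FI I) Z) : ∫ η, (mag θ (XI I' η) x - Z η) ^ 2 ∂P1 d θ =
      ∫ η, (mag θ (XI I η) x - Z η) ^ 2 ∂P1 d θ + (qq θ I' x - qq θ I x) := by
  rw [integral_sub_sq ((BM_mag I' x).mono (FI_le _)) (hZ.mono (FI_le _)),
    integral_sub_sq ((BM_mag I x).mono (FI_le _)) (hZ.mono (FI_le _)),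
    ← test1 h hI x (hZ.mono (FI_mono hs)), ← test1 h (hI.mono hs) x hZ]
  unfold qq
  ring

lemma qq_sub (h : Hyp d θ) (hI : Upto J I') (hs : I ⊆ I') (x : V d) :
    ∫ η, (mag θ (XI I' η) x - mag θ (XI I η) x) ^ 2 ∂P1 d θ = qq θ I' x - qq θ I x := by
  rw [pyth h hI hs x (BM_mag I x)]
  simp

lemma qq_mono (h : Hyp d θ) (hI : Upto J I') (hs : I ⊆ I') (x : V d) : qq θ I x ≤ qq θ I' x := by
  rw [← sub_nonneg, ← qq_sub h hI hs x]
  exact integral_nonneg fun η => sq_nonneg _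

lemma mag_sq_le (X : V d → ℝ) (x : V d) : mag θ X x ^ 2 ≤ 1 :=
  (sq_le_one_iff_abs_le_one _).2 (abs_mag_le x)

lemma qq_mem (I : Set (Ix d)) (x : V d) : 0 ≤ qq θ I x ∧ qq θ I x ≤ 1 := by
  refine ⟨integral_nonneg fun η => sq_nonneg _, ?_⟩
  have h := integral_mono (μ := P1 d θ) (((BM_mag (θ := θ) I x).mono (FI_le _)).pow 2).integrable
    (integrable_const (1 : ℝ)) fun η => mag_sq_le _ x
  rw [integral_const, probReal_univ, one_smul] at h
  exact h

lemma qq_tendsto (h : Hyp d θ) {In : ℕ → Set (Ix d)} (hm : Monotone In) (hI : Upto J (⋃ n, In n))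
    (x : V d) : Tendsto (fun n => qq θ (In n) x) atTop (nhds (qq θ (⋃ n, In n) x)) := by
  refine tendsto_integral_of_dominated_convergence (fun _ => 1)
    (fun n => (((BM_mag (θ := θ) (In n) x).mono (FI_le _)).pow 2).meas.aestronglyMeasurable)
    (integrable_const _) (fun n => Eventually.of_forall fun η => ?_) ?_
  · rw [Real.norm_eq_abs, abs_of_nonneg (sq_nonneg _)]
    exact mag_sq_le _ x
  · have h2 : ∀ᵐ η ∂P1 d θ, ∀ n, ((P1 d θ)[fun η => sg (η.1 x)|FI (In n)]) η =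
        mag θ (XI (In n) η) x :=
      ae_all_iff.2 fun n => post1 h (hI.mono (subset_iUnion In n)) x
    filter_upwards [levy (θ := θ) hm (BM_fst (BM_sg_spin x)), h2, post1 h hI x] with η h1 h2 h3
    simp only [h2, h3] at h1
    exact h1.pow 2

lemma err_eq (h : Hyp d θ) (hI : Upto J I) (x : V d) :
    ∫ η, (sg (η.1 x) - mag θ (XI I η) x) ^ 2 ∂P1 d θ = 1 - qq θ I x := by
  rw [integral_sub_sq (BM_fst (BM_sg_spin x)) ((BM_mag I x).mono (FI_le _)),
    test1 h hI x (BM_mag I x)]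
  simp only [sg_sq, ← sq, integral_const, probReal_univ, smul_eq_mul]
  unfold qq
  ring

end Vale.Agent.P161E
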