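import Vale.Agent.P161E.Site
import Vale.Agent.P161E.Post
import Vale.Agent.P161E.EstA
import Vale.Agent.P161E.EstB
import Vale.Agent.P161E.Hoeff

/-! The estimates for the infinite-volume objects on `Om`.
`hh_eq`: induction on `n` (`kids_step`, `par_step`, `sg_eps`, `msg_sg`, `sg_sq`).  `rn_eq`, `rr_eq`: induction on the
list; each step of a descending path is a step to a child (`walk_val`), `phi_sg`, `mid_sg`.
`conv_Om`: the set `{X | Conv θ X}` is measurable (countable intersection of `measurableSet_tendsto_fun`),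
then `Measure.ae_prod_iff_ae_ae` and `conv`.
`H1`: bounded convergence (`Conv.tendsto_rn`), `rn_eq`, `Env.path_le` with `q0 = dl (j-1)² / 6` (`af_qv`),
`√q0 / (60 d) ≥ gap d j` since `60 √6 ≤ 200`.
`H2`: `Env.hoeff` with `φ z ω = phi θ (mid fun n => ah n z ω)` (`ah_meas`, `measurable_mid`), `rr_eq`, `H1`.
`H3`: `|tanh x| ≤ |x|`, Markov for `cosh (l x) ≥ exp (l lam) / 2`, bounded convergence, `hh_eq`, `mgf_le`.
`QQ_le`, `QQ_ge`: `mag² = lim tanh² (ah (n+1) 1)` a.e. (`Conv.tendsto_root`, `root_eq`), `Env.qv_le`;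
for the lower bound `ah (n+1) 1 = part n 1 univ` and induction on the set of children with
`qv_add_ge_left` (`part_nish`, `part_indep`, `Nish.msg`). -/

namespace Vale.Agent.P161E

open MeasureTheory ProbabilityTheory Filter Finset Real

variable {d : ℕ} {θ : ℝ} {j : ℤ} {cut : V d → ℝ}

/-- The aligned environment at a cut. -/
noncomputable def env (h : Hyp d θ) (j : ℤ) (cut : V d → ℝ) : Env d θ (BB j) (PP d θ) where
  e v ω := eps ω.2.1 v
  s := af j cut
  me v := (measurable_eps_apply v).comp (measurable_fst.comp measurable_snd)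
  ms v := ((measurable_of_countable sg).comp ((measurable_pi_apply v).comp
    (measurable_fst.comp measurable_snd))).mul ((measurable_pi_apply v).comp (measurable_Xc cut))
  ind := site_indep
  edge v hv := ⟨(measurable_eps_apply v).comp (measurable_fst.comp measurable_snd), fun f => by
    rw [← integral_eps h.h0 (h.le.trans (by norm_num)) hv f]
    have h1 := integral_fun_snd (μ := iid (Ix d)) (ν := P1 d θ) fun η : O1 d => f (eps η.1 v)
    have h2 := integral_fun_fst (μ := ising d θ) (ν := iid (Ix d)) fun σ => f (eps σ v)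
    simp only [probReal_univ, one_smul] at h1 h2
    exact h1.trans h2⟩
  nish := af_nish
  bd v ω := by
    rw [af, abs_mul, abs_sg, one_mul]
    exact abs_Xc_le cut ω v

lemma node_eq (h : Hyp d θ) (n : ℕ) (ω : Om d) (z : V d)
    (ih : ∀ c ∈ kids z, hh θ (Xc j cut ω) n z c =
      sg (ω.2.1 (step c z)) * (env h j cut).ah n (step c z) ω) :
    Xc j cut ω z + ∑ c ∈ kids z, msg θ (hh θ (Xc j cut ω) n z c) =
      sg (ω.2.1 z) * (env h j cut).ah (n + 1) z ω := by
  have hs := sg_sq (ω.2.1 z)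
  have e1 : (env h j cut).ah (n + 1) z ω = sg (ω.2.1 z) * Xc j cut ω z +
      ∑ c ∈ kids z, sg (eps ω.2.1 (step c z)) * msg θ ((env h j cut).ah n (step c z) ω) := rfl
  rw [e1, mul_add, mul_sum]
  congr 1
  · linear_combination (-Xc j cut ω z) * hs
  · refine sum_congr rfl fun c hc => ?_
    rw [ih c hc, msg_sg, sg_eps (step_ne_one hc), par_step hc]
    linear_combination (-(sg (ω.2.1 (step c z)) * msg θ ((env h j cut).ah n (step c z) ω))) * hs

lemma hh_eq (h : Hyp d θ) (n : ℕ) {x : V d} {c : Fin d} (hc : c ∈ kids x) (ω : Om d) :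
    hh θ (Xc j cut ω) n x c = sg (ω.2.1 (step c x)) * (env h j cut).ah n (step c x) ω := by
  induction n generalizing x c with
  | zero => simp [hh, Env.ah]
  | succ n ih =>
    rw [← node_eq h n ω (step c x) fun c' hc' => ih hc', kids_step hc]
    rfl

lemma root_eq (h : Hyp d θ) (n : ℕ) (ω : Om d) :
    Xc j cut ω 1 + ∑ c, msg θ (hh θ (Xc j cut ω) n 1 c) =
      sg (ω.2.1 1) * (env h j cut).ah (n + 1) 1 ω := by
  rw [← node_eq h n ω 1 fun c hc => hh_eq h n hc ω, kids_one]

lemma kid_of_chain {z : V d} {c : Fin d} {l : List (Fin d)}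
    (hl : (c :: l ++ z.1).IsChain (· ≠ ·)) : c ∈ kids (walk z l) := by
  refine mem_filter.2 ⟨mem_univ _, ?_⟩
  rw [walk_val hl.tail]
  exact fun h3 => (List.isChain_cons.1 hl).1 c h3 rfl

lemma rn_eq (h : Hyp d θ) (n : ℕ) {z : V d} {l : List (Fin d)} (hl : (l ++ z.1).IsChain (· ≠ ·))
    (ω : Om d) : rn θ (Xc j cut ω) z n l = (env h j cut).ar z n l ω := by
  induction l generalizing n with
  | nil => rfl
  | cons c l ih =>
    rw [rn, Env.ar, ih (n + 1) hl.tail, hh_eq h n (kid_of_chain hl), phi_sg]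
    rfl

lemma rr_eq (h : Hyp d θ) {z : V d} {l : List (Fin d)} (hl : (l ++ z.1).IsChain (· ≠ ·))
    (ω : Om d) : rr θ (Xc j cut ω) z l =
      pprod (fun y c => phi θ (mid fun n => (env h j cut).ah n (step c y) ω)) z l := by
  unfold rr
  induction l with
  | nil => rfl
  | cons c l ih =>
    rw [pprod, pprod, ih hl.tail, hI]
    simp only [hh_eq h _ (kid_of_chain hl), mid_sg, phi_sg]

theorem conv_Om (h : Hyp d θ) : ∀ᵐ ω ∂PP d θ, Conv θ (Xc j cut ω) := by
  have hm : MeasurableSet {X : V d → ℝ | Conv θ X} := by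
    have : {X : V d → ℝ | Conv θ X} = ⋂ x, ⋂ c,
        {X | Tendsto (fun n => hh θ X n x c) atTop (nhds (hI θ X x c))} := by
      ext X; simp [Conv]
    rw [this]
    exact MeasurableSet.iInter fun x => MeasurableSet.iInter fun c =>
      measurableSet_tendsto_fun (fun n => measurable_hh n x c) (measurable_hI x c)
  have hm' : MeasurableSet {ω : Om d | Conv θ (Xc j cut ω)} := measurable_Xc cut hm
  unfold PP
  rw [Measure.ae_prod_iff_ae_ae hm']
  refine ae_of_all _ fun τ => ?_
  have := conv h (upto_idx (j := j) cut τ)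
  simpa only [Xc] using this

lemma ei_gap_pos (h : Hyp d θ) (j : ℤ) : 0 < gap d j := by
  have h3 : (3 : ℝ) ≤ d := by exact_mod_cast h.hd
  have := dl_pos (j - 1)
  unfold gap
  positivity

theorem H1 (h : Hyp d θ) (z : V d) (l : List (Fin d)) (hl : (l ++ z.1).IsChain (· ≠ ·)) :
    (((d : ℝ) - 1) * θ ^ 2) ^ l.length * ∫ ω, rr θ (Xc j cut ω) z l ^ 2 ∂PP d θ ≤
      exp (-gap d j * l.length) := by
  have h3 : (3 : ℝ) ≤ d := by exact_mod_cast h.hd
  have hd0 := dl_pos (j - 1)
  have hd1 := dl_le (j - 1)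
  have q0 : 0 < dl (j - 1) ^ 2 / 6 := by positivity
  have q1 : dl (j - 1) ^ 2 / 6 ≤ 1 / 4 := by nlinarith
  have ht : Tendsto (fun n => ∫ ω, (env h j cut).ar z n l ω ^ 2 ∂PP d θ) atTop
      (nhds (∫ ω, rr θ (Xc j cut ω) z l ^ 2 ∂PP d θ)) := by
    refine tendsto_integral_of_dominated_convergence (fun _ => 1) (fun n => ?_) (integrable_const _)
      (fun n => ae_of_all _ fun ω => ?_) ?_
    · exact ((((env h j cut).ar_meas n l z hl).mono ((env h j cut).alg_le _) le_rfl).pow_const
        2).aestronglyMeasurable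
    · have := (env h j cut).ar_mem h z l n ω
      rw [Real.norm_eq_abs, abs_of_nonneg (sq_nonneg _)]
      exact pow_le_one₀ this.1 this.2
    · filter_upwards [conv_Om (j := j) (cut := cut) h] with ω hω
      have := (hω.tendsto_rn h z l).pow 2
      simpa only [rn_eq h _ hl] using this
  have hle : (((d : ℝ) - 1) * θ ^ 2) ^ l.length * ∫ ω, rr θ (Xc j cut ω) z l ^ 2 ∂PP d θ ≤
      exp (-(√(dl (j - 1) ^ 2 / 6) / (60 * d)) * l.length) := by
    refine le_of_tendsto (ht.const_mul _) ?_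
    filter_upwards [tendsto_natCast_atTop_atTop.eventually_ge_atTop
      (1 / √(dl (j - 1) ^ 2 / 6) + 1)] with n hn
    exact (env h j cut).path_le h q0 q1 af_qv hn z l hl
  refine hle.trans (exp_le_exp.2 (mul_le_mul_of_nonneg_right (neg_le_neg ?_) (Nat.cast_nonneg _)))
  have hs : 3 / 10 * dl (j - 1) ≤ √(dl (j - 1) ^ 2 / 6) := le_sqrt_of_sq_le (by nlinarith)
  rw [gap, div_le_div_iff₀ (by positivity) (by positivity)]
  nlinarith

theorem H1_cov (h : Hyp d θ) (w : V d) :
    ((d : ℝ) - 1) ^ len w * ∫ ω, cov θ (Xc j cut ω) 1 w ^ 2 ∂PP d θ ≤ exp (-gap d j * len w) := by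
  have h3 : (3 : ℝ) ≤ d := by exact_mod_cast h.hd
  have h1 := H1 (j := j) (cut := cut) h 1 w.1 (by simpa using w.2)
  refine le_trans ?_ h1
  rw [mul_pow, mul_assoc, ← integral_const_mul ((θ ^ 2) ^ w.1.length)]
  refine mul_le_mul_of_nonneg_left ?_ (pow_nonneg (by linarith) _)
  have b1 : BM inferInstance fun ω => cov θ (Xc j cut ω) 1 w :=
    ⟨(measurable_cov 1 w).comp (measurable_Xc cut), 1, fun _ => abs_cov_le h 1 w⟩
  have b2 : BM inferInstance fun ω => rr θ (Xc j cut ω) 1 w.1 :=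
    ⟨(measurable_rr 1 w.1).comp (measurable_Xc cut), 1, fun _ => by
      rw [abs_of_nonneg (rr_mem h _ _).1]; exact (rr_mem h _ _).2⟩
  refine integral_mono (b1.pow 2).integrable ((b2.pow 2).integrable.const_mul _) fun ω => ?_
  have := cov_mem (X := Xc j cut ω) h 1 w
  simp only
  rw [← pow_mul, mul_comm 2, pow_mul, ← mul_pow]
  exact pow_le_pow_left₀ this.1 this.2 2

theorem H2 (h : Hyp d θ) {K m : ℕ} (hK : 1 ≤ K) (hm : 1 ≤ m) :
    (PP d θ).real {ω | 2 * ((m : ℝ) + 2 + 1 / gap d j) <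
      Gsum θ K fun w => rr θ (Xc j cut ω) 1 w.1} ≤ K * exp (-(2 : ℝ) ^ m / (K : ℝ) ^ 2) := by
  have h1 := (env h j cut).hoeff h (φ := fun z ω => phi θ (mid fun n => (env h j cut).ah n z ω))
    (fun z => measurable_phi.comp (@measurable_mid _ ((env h j cut).alg (desc z)) _ fun n =>
      (env h j cut).ah_meas n z))
    (fun z ω => ⟨(phi_pos h _).le, phi_le_one h _⟩) (ei_gap_pos h j)
    (fun z l hl => by simpa only [rr_eq h hl] using H1 (j := j) (cut := cut) h z l hl) hK hm
  have e : ∀ (ω : Om d) (w : V d), rr θ (Xc j cut ω) 1 w.1 =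
      pprod (fun y c => phi θ (mid fun n => (env h j cut).ah n (step c y) ω)) 1 w.1 :=
    fun ω w => rr_eq h (by simpa using w.2) ω
  simpa only [e] using h1

theorem H3 (h : Hyp d θ) : ∃ C : ℝ, 1 ≤ C ∧ ∀ (j : ℤ) (cut : V d → ℝ), BB j ≤ 1 → ∀ (c : Fin d)
    (l lam : ℝ), 1 ≤ l → (PP d θ).real {ω | lam < |tanh (hI θ (Xc j cut ω) 1 c)|} ≤
      2 * exp (C * BB j * l ^ 2 - l * lam) := by
  obtain ⟨C, hC, hm⟩ := mgf_le d
  refine ⟨C, hC, fun j cut hB c l lam hl => ?_⟩
  have hc : c ∈ kids (1 : V d) := by simp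
  have hbd : ∀ x : ℝ, |x| ≤ BB j + d → ‖cosh (l * x)‖ ≤ cosh (l * (BB j + d)) := by
    intro x hx
    rw [Real.norm_eq_abs, abs_of_pos (cosh_pos _), cosh_le_cosh, abs_mul, abs_mul]
    exact mul_le_mul_of_nonneg_left (hx.trans (le_abs_self _)) (abs_nonneg _)
  have ht : Tendsto (fun n => ∫ ω, cosh (l * hh θ (Xc j cut ω) n 1 c) ∂PP d θ) atTop
      (nhds (∫ ω, cosh (l * hI θ (Xc j cut ω) 1 c) ∂PP d θ)) := by
    refine tendsto_integral_of_dominated_convergence (fun _ => cosh (l * (BB j + d))) (fun n => ?_)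
      (integrable_const _)
      (fun n => ae_of_all _ fun ω => hbd _ (abs_hh_le h (abs_Xc_le cut ω) n 1 c)) ?_
    · exact (continuous_cosh.measurable.comp (((measurable_hh n 1 c).comp
        (measurable_Xc cut)).const_mul l)).aestronglyMeasurable
    · filter_upwards [conv_Om (j := j) (cut := cut) h] with ω hω
      exact (continuous_cosh.tendsto _).comp ((hω 1 c).const_mul l)
  have hle : ∫ ω, cosh (l * hI θ (Xc j cut ω) 1 c) ∂PP d θ ≤ exp (C * BB j * l ^ 2) := by
    refine le_of_tendsto' ht fun n => ?_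
    have h1 := hm θ (BB j) (Om d) (PP d θ) (env h j cut) h hB n (step c 1) (step_ne_one hc) l hl
    refine le_of_eq_of_le ?_ h1
    congr 1
    ext ω
    rw [hh_eq h n hc]
    cases ω.2.1 (step c 1) <;> simp [sg]
  have hi : Integrable (fun ω => cosh (l * hI θ (Xc j cut ω) 1 c)) (PP d θ) :=
    Integrable.of_bound (continuous_cosh.measurable.comp (((measurable_hI 1 c).comp
        (measurable_Xc cut)).const_mul l)).aestronglyMeasurable _
      (ae_of_all _ fun ω => hbd _ (abs_hI_le h (abs_Xc_le cut ω) 1 c))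
  have h2 := mul_meas_ge_le_integral_of_nonneg (ae_of_all _ fun ω => (cosh_pos _).le) hi
    (exp (l * lam) / 2)
  have h3 : (PP d θ).real {ω | lam < |tanh (hI θ (Xc j cut ω) 1 c)|} ≤
      (PP d θ).real {ω | exp (l * lam) / 2 ≤ cosh (l * hI θ (Xc j cut ω) 1 c)} := by
    refine measureReal_mono fun ω hω => ?_
    have a1 : lam ≤ |hI θ (Xc j cut ω) 1 c| := (le_of_lt hω).trans (abs_tanh_le _)
    have a2 : exp (l * lam) ≤ exp |l * hI θ (Xc j cut ω) 1 c| := by
      rw [exp_le_exp, abs_mul, abs_of_nonneg (by linarith : 0 ≤ l)]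
      exact mul_le_mul_of_nonneg_left a1 (by linarith)
    change exp (l * lam) / 2 ≤ cosh (l * hI θ (Xc j cut ω) 1 c)
    rw [← cosh_abs, cosh_eq]
    linarith [exp_pos (-|l * hI θ (Xc j cut ω) 1 c|)]
  refine h3.trans ?_
  have he := exp_pos (l * lam)
  rw [exp_sub, ← mul_div_assoc, le_div_iff₀ he]
  linarith

lemma tendsto_QQ (h : Hyp d θ) : Tendsto (fun n => qv (PP d θ) ((env h j cut).ah (n + 1) 1)) atTop
    (nhds (QQ θ j cut 1)) := by
  refine tendsto_integral_of_dominated_convergence (fun _ => 1)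
    (fun n => (BM_tanh_sq ((env h j cut).ah_BM h _ _).meas).meas.aestronglyMeasurable)
    (integrable_const _) (fun n => ae_of_all _ fun ω => ?_) ?_
  · rw [Real.norm_eq_abs, abs_of_nonneg (sq_nonneg _)]
    exact (tanh_sq_lt_one _).le
  · filter_upwards [conv_Om (j := j) (cut := cut) h] with ω hω
    have h1 := ((continuous_tanh'.tendsto _).comp (hω.tendsto_root h 1)).pow 2
    refine h1.congr fun n => ?_
    simp only [Function.comp, root_eq h]
    cases ω.2.1 1 <;> simp [sg]

theorem QQ_le (h : Hyp d θ) (hB : BB j ≤ 1) : QQ θ j cut 1 ≤ ((d : ℝ) + 1) * BB j :=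
  le_of_tendsto' (tendsto_QQ h) fun n => (env h j cut).qv_le h hB (n + 1) 1

theorem QQ_ge (h : Hyp d θ) : qv (PP d θ) (af j cut 1) ≤ QQ θ j cut 1 := by
  refine ge_of_tendsto' (tendsto_QQ (j := j) (cut := cut) h) fun n => ?_
  have key : ∀ S : Finset (Fin d), qv (PP d θ) (af j cut 1) ≤
      qv (PP d θ) ((env h j cut).part n 1 S) := by
    intro S
    induction S using Finset.induction_on with
    | empty =>
      refine le_of_eq ?_
      congr 1
      ext ω
      simp [Env.part, env]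
    | insert c S hc ih =>
      exact ih.trans ((env h j cut).qv_insert h n (by simp) (by simp) hc).1
  exact key (kids 1)

end Vale.Agent.P161E
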