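import Vale.Agent.P161E.Jump
import Vale.Agent.P161E.EnvInst

/-! Averaging over the times; the contribution of far vertices.
`ltau`: let `f₁ ω = f (update ω.1 (w, j) 1, ω.2)`; it does not depend on `τ (w, j)` and equals `f` where
`a ≤ τ (w, j)`.  By Fubini (`integral_prod_symm`) and `integral_coord`,
`∫ 1_{a ≤ τ < a'} f = (a' - a) ∫ f₁` and `∫ f ≥ ∫ 1_{a ≤ τ} f₁ = (1 - a) ∫ f₁ ≥ ∫ f₁ / 2`.
`QQ_eq`: `integral_prod`.  `QQ_aut`: `PP_pb (lmul w)`, `Xc_pb`, `mag_aut`.
`cut_step`: for each `τ`, `idx j (update cut w a') τ` is `insert (w, j) (idx j cut τ)` if `cut w ≤ τ (w, j) < a'` and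
`idx j cut τ` otherwise; `jump_var`, Fubini, and `ltau` with `f = cov²` (`idx_update`).
`far_le`: put `cutK K' - cutK K` on the finset `ball K' \ ball K` vertex by vertex (`Finset.induction`,
`cut_step`, `H1_cov`), `card (sph k) ≤ 3/2 b^k`, `∑_{k > K} exp (-g k) ≤ exp (-g K) / g`; then let `K' → ∞`
with `qq_tendsto` (`⋃ K', idx j (cutK K' a a') τ = idx j a' τ`) and bounded convergence in `τ`. -/

namespace Vale.Agent.P161E

open MeasureTheory Filter Finset Function Real

variable {d : ℕ} {θ : ℝ} {j : ℤ} {cut : V d → ℝ} {a a' : ℝ}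

/-- The cut which is `a'` on the ball of radius `K` and `a` outside. -/
noncomputable def cutK (K : ℕ) (a a' : ℝ) (v : V d) : ℝ := if len v ≤ K then a' else a

open Classical in
/-- Indicator that the time of `(w, j)` is in `[a, a')`. -/
noncomputable def slot (j : ℤ) (a a' : ℝ) (w : V d) (τ : T d) : ℝ :=
  if a ≤ (τ (w, j) : ℝ) ∧ (τ (w, j) : ℝ) < a' then 1 else 0

lemma gap_pos (h : Hyp d θ) (j : ℤ) : 0 < gap d j := by
  have h3 : (3 : ℝ) ≤ d := by exact_mod_cast h.hd
  exact div_pos (dl_pos _) (by linarith)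

open Classical in
/-- Indicator of `[a, a')` on the unit interval. -/
noncomputable def cutInd (a a' : ℝ) (u : unitInterval) : ℝ :=
  if a ≤ (u : ℝ) ∧ (u : ℝ) < a' then 1 else 0

lemma cutInd_BM (a a' : ℝ) : BM inferInstance (cutInd a a') := by
  refine ⟨Measurable.ite ((measurableSet_le measurable_const measurable_subtype_coe).inter
    (measurableSet_lt measurable_subtype_coe measurable_const)) measurable_const measurable_const,
    1, fun u => ?_⟩
  unfold cutInd
  split_ifs <;> simp

lemma integral_cutInd (h0 : 0 ≤ a) (h1 : a ≤ a') (h2 : a' ≤ 1) :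
    ∫ u, cutInd a a' u = a' - a := by
  have e : cutInd a a' = (Set.Ico (⟨a, h0, h1.trans h2⟩ : unitInterval)
      ⟨a', h0.trans h1, h2⟩).indicator 1 := by
    funext u
    rw [Set.indicator_apply]
    exact if_congr Iff.rfl rfl rfl
  rw [e, integral_indicator_one measurableSet_Ico, Measure.real, unitInterval.volume_Ico,
    ENNReal.toReal_ofReal (by linarith)]

lemma measurable_slot (w : V d) : Measurable (slot j a a' w) :=
  (cutInd_BM a a').meas.comp (measurable_pi_apply (w, j))

lemma slot_BM (w : V d) : BM inferInstance (slot j a a' w) :=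
  (cutInd_BM a a').comp (measurable_pi_apply (w, j))

lemma iid_coord (b : Ix d) {g : unitInterval → ℝ} (hg : BM inferInstance g) {f : T d → ℝ}
    (hf : BM inferInstance f) (hu : ∀ τ u, f (update τ b u) = f τ) :
    ∫ τ, g (τ b) * f τ ∂iid (Ix d) = (∫ u, g u) * ∫ τ, f τ ∂iid (Ix d) := by
  have h := integral_coord b (F := fun p => g p.1 * f p.2)
    ((hg.comp measurable_fst).mul (hf.comp measurable_snd)) fun u u' τ => by simp only [hu]
  simp only [integral_mul_const] at h
  rw [h, integral_const_mul]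

lemma Om_coord (b : Ix d) {g : unitInterval → ℝ} (hg : BM inferInstance g) {f : Om d → ℝ}
    (hf : BM inferInstance f) (hu : ∀ (ω : Om d) u, f (update ω.1 b u, ω.2) = f ω) :
    ∫ ω, g (ω.1 b) * f ω ∂PP d θ = (∫ u, g u) * ∫ ω, f ω ∂PP d θ := by
  have h1 : Integrable (fun ω : Om d => g (ω.1 b) * f ω) (PP d θ) :=
    ((hg.comp ((measurable_pi_apply b).comp measurable_fst)).mul hf).integrable
  have h2 : Integrable f (PP d θ) := hf.integrable
  unfold PP at h1 h2 ⊢
  rw [integral_prod_symm _ h1, integral_prod_symm _ h2, ← integral_const_mul]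
  refine integral_congr_ae (Eventually.of_forall fun η => ?_)
  exact iid_coord b hg (hf.comp (measurable_id.prodMk measurable_const)) fun τ u => hu (τ, η) u

lemma ltau (h0 : 0 ≤ a) (h1 : a ≤ a') (h2 : a' ≤ 1 / 2) (w : V d) {f : Om d → ℝ}
    (hf : BM inferInstance f) (hn : ∀ ω, 0 ≤ f ω)
    (hu : ∀ (ω : Om d) (u : unitInterval), a ≤ ω.1 (w, j) → a ≤ u →
      f (update ω.1 (w, j) u, ω.2) = f ω) :
    ∫ ω, slot j a a' w ω.1 * f ω ∂PP d θ ≤ 2 * (a' - a) * ∫ ω, f ω ∂PP d θ := by
  have hf₁ : BM inferInstance fun ω : Om d => f (update ω.1 (w, j) 1, ω.2) :=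
    hf.comp ((measurable_update_left.comp measurable_fst).prodMk measurable_snd)
  have key : ∀ b' : ℝ, a ≤ b' → b' ≤ 1 → ∫ ω, cutInd a b' (ω.1 (w, j)) * f ω ∂PP d θ =
      (b' - a) * ∫ ω, f (update ω.1 (w, j) 1, ω.2) ∂PP d θ := by
    intro b' hb hb'
    rw [← integral_cutInd h0 hb hb', ← Om_coord (w, j) (cutInd_BM a b') hf₁ fun ω u => by
      simp only [update_idem]]
    refine integral_congr_ae (Eventually.of_forall fun ω => ?_)
    simp only [cutInd]
    split_ifs with h
    · rw [hu ω 1 h.1 (by simp only [Set.Icc.coe_one]; linarith)]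
    · rw [zero_mul, zero_mul]
  have h3 := key a' h1 (by linarith)
  have h4 := key 1 (by linarith) le_rfl
  have h5 : ∫ ω, cutInd a 1 (ω.1 (w, j)) * f ω ∂PP d θ ≤ ∫ ω, f ω ∂PP d θ := by
    refine integral_mono (((cutInd_BM a 1).comp
      ((measurable_pi_apply (w, j)).comp measurable_fst)).mul hf).integrable hf.integrable
      fun ω => ?_
    simp only [cutInd]
    split_ifs
    · rw [one_mul]
    · rw [zero_mul]; exact hn ω
  have h6 : 0 ≤ ∫ ω, f (update ω.1 (w, j) 1, ω.2) ∂PP d θ := integral_nonneg fun ω => hn _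
  refine h3.le.trans ?_
  rw [h4] at h5
  nlinarith [mul_nonneg (sub_nonneg.2 h1) h6]

/-- Two different times fall in the slot with probability `(a' - a)²`. -/
lemma slot_two (h0 : 0 ≤ a) (h1 : a ≤ a') (h2 : a' ≤ 1 / 2) {w w' : V d} (hw : w ≠ w') :
    ∫ τ, slot j a a' w τ * slot j a a' w' τ ∂iid (Ix d) = (a' - a) ^ 2 := by
  have h3 := iid_coord (w, j) (cutInd_BM a a') (slot_BM (j := j) (a := a) (a' := a') w')
    fun τ u => by
      have : ((w', j) : Ix d) ≠ (w, j) := fun h => hw (congrArg Prod.fst h).symm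
      simp only [slot, update_of_ne this]
  have h4 := iid_coord (w', j) (cutInd_BM a a') (BM.const 1) fun _ _ => rfl
  rw [integral_cutInd h0 h1 (by linarith)] at h3 h4
  simp only [mul_one, integral_const, probReal_univ, one_smul] at h4
  refine h3.trans ?_
  rw [sq]
  exact congrArg _ h4

lemma BM_magc (x : V d) : BM inferInstance fun ω => mag θ (Xc j cut ω) x :=
  ⟨(measurable_mag x).comp (measurable_Xc cut), 1, fun _ => abs_mag_le x⟩

lemma BM_covc (h : Hyp d θ) (x w : V d) : BM inferInstance fun ω => cov θ (Xc j cut ω) x w :=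
  ⟨(measurable_cov x w).comp (measurable_Xc cut), 1, fun _ => abs_cov_le h x w⟩

lemma measurable_qq (x : V d) : Measurable fun τ : T d => qq θ (idx j cut τ) x :=
  (((BM_magc (θ := θ) (j := j) (cut := cut) x).pow 2).meas.stronglyMeasurable.integral_prod_right'
    (ν := P1 d θ)).measurable

lemma BM_qq (x : V d) : BM inferInstance fun τ : T d => qq θ (idx j cut τ) x :=
  ⟨measurable_qq x, 1, fun τ => by
    rw [abs_of_nonneg (qq_mem _ x).1]
    exact (qq_mem _ x).2⟩

lemma integral_PP {f : Om d → ℝ} (hf : BM inferInstance f) :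
    ∫ ω, f ω ∂PP d θ = ∫ τ, ∫ η, f (τ, η) ∂P1 d θ ∂iid (Ix d) :=
  integral_prod f hf.integrable

lemma QQ_eq (x : V d) : QQ θ j cut x = ∫ τ, qq θ (idx j cut τ) x ∂iid (Ix d) :=
  integral_PP ((BM_magc x).pow 2)

lemma QQ_mem (x : V d) : 0 ≤ QQ θ j cut x ∧ QQ θ j cut x ≤ 1 := by
  refine ⟨integral_nonneg fun η => sq_nonneg _, ?_⟩
  have h := integral_mono (μ := PP d θ)
    ((BM_magc (θ := θ) (j := j) (cut := cut) x).pow 2).integrable
    (integrable_const (1 : ℝ)) fun η => mag_sq_le _ x
  rw [integral_const, probReal_univ, one_smul] at h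
  exact h

lemma QQ_sub (h : Hyp d θ) {cut' : V d → ℝ} (hc : cut ≤ cut') (x : V d) :
    ∫ ω, (mag θ (Xc j cut' ω) x - mag θ (Xc j cut ω) x) ^ 2 ∂PP d θ =
      QQ θ j cut' x - QQ θ j cut x := by
  rw [integral_PP (((BM_magc x).sub (BM_magc x)).pow 2), QQ_eq, QQ_eq,
    ← integral_sub (BM_qq x).integrable (BM_qq x).integrable]
  exact integral_congr_ae (Eventually.of_forall fun τ =>
    qq_sub h (upto_idx cut' τ) (idx_mono hc τ) x)

lemma QQ_mono (h : Hyp d θ) {cut' : V d → ℝ} (hc : cut ≤ cut') (x : V d) :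
    QQ θ j cut x ≤ QQ θ j cut' x := by
  rw [← sub_nonneg, ← QQ_sub h hc x]
  exact integral_nonneg fun η => sq_nonneg _

lemma QQ_aut (h : Hyp d θ) (t : ℝ) (w : V d) :
    QQ θ j (fun _ => t) w = QQ θ j (fun _ => t) (1 : V d) := by
  have hT := PP_pb h (lmul w)
  have h1 := integral_map (μ := PP d θ) hT.aemeasurable
    ((BM_magc (θ := θ) (j := j) (cut := fun _ => t) (1 : V d)).pow 2).meas.aestronglyMeasurable
  rw [hT.map_eq] at h1
  have h2 : ∀ ω, mag θ (Xc j (fun _ => t) (pb (lmul w) ω)) 1 = mag θ (Xc j (fun _ => t) ω) w := by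
    intro ω
    rw [Xc_pb, mag_aut, lmul_apply, mul_one]
  simp only [h2] at h1
  exact h1.symm

lemma err_Om (h : Hyp d θ) :
    ∫ ω, (sg (ω.2.1 1) - mag θ (Xc j cut ω) 1) ^ 2 ∂PP d θ = 1 - QQ θ j cut 1 := by
  rw [integral_PP ((((BM_fst (BM_sg_spin 1)).comp measurable_snd).sub (BM_magc 1)).pow 2), QQ_eq]
  have h1 := integral_sub (μ := iid (Ix d)) (integrable_const (1 : ℝ))
    (BM_qq (θ := θ) (j := j) (cut := cut) 1).integrable
  rw [integral_const, probReal_univ, one_smul] at h1
  rw [← h1]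
  exact integral_congr_ae (Eventually.of_forall fun τ => err_eq h (upto_idx cut τ) 1)

lemma idx_step {w : V d} (h1 : cut w ≤ a') (τ : T d) (b : Ix d) :
    b ∈ idx j (update cut w a') τ ↔ b ∈ idx j cut τ ∨
      (b = (w, j) ∧ cut w ≤ (τ (w, j) : ℝ) ∧ (τ (w, j) : ℝ) < a') := by
  obtain ⟨v, i⟩ := b
  simp only [idx, Set.mem_ofPred_eq, Prod.mk.injEq]
  by_cases hv : v = w
  · subst hv
    rw [update_self]
    constructor
    · rintro (h | ⟨rfl, h⟩)
      · exact Or.inl (Or.inl h)
      · rcases lt_or_ge (τ (v, i) : ℝ) (cut v) with h2 | h2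
        · exact Or.inl (Or.inr ⟨rfl, h2⟩)
        · exact Or.inr ⟨⟨rfl, rfl⟩, h2, h⟩
    · rintro ((h | ⟨h, h2⟩) | ⟨⟨-, rfl⟩, -, h⟩)
      · exact Or.inl h
      · exact Or.inr ⟨h, h2.trans_le h1⟩
      · exact Or.inr ⟨rfl, h⟩
  · rw [update_of_ne hv]
    exact ⟨Or.inl, fun h => h.elim id fun h => absurd h.1.1 hv⟩

lemma cut_step (h : Hyp d θ) (w : V d) (h0 : 0 ≤ cut w) (h1 : cut w ≤ a') (h2 : a' ≤ 1 / 2) :
    QQ θ j (update cut w a') 1 - QQ θ j cut 1 ≤
      8 * dl j ^ 2 * (a' - cut w) * ∫ ω, cov θ (Xc j cut ω) 1 w ^ 2 ∂PP d θ := by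
  have hc := (BM_covc (j := j) (cut := cut) h 1 w).pow 2
  have hs := ((slot_BM (j := j) (a := cut w) (a' := a') w).comp
    (measurable_fst (β := O1 d))).mul hc
  have h3 := ltau (θ := θ) (j := j) h0 h1 h2 w hc (fun _ => sq_nonneg _) fun ω u hτ hu => by
    simp only [Xc, idx_update ω.1 hτ hu]
  have h4 : QQ θ j (update cut w a') 1 - QQ θ j cut 1 ≤ 4 * dl j ^ 2 *
      ∫ ω, slot j (cut w) a' w ω.1 * cov θ (Xc j cut ω) 1 w ^ 2 ∂PP d θ := by
    have hi : Integrable (fun ω : Om d => slot j (cut w) a' w ω.1 * cov θ (Xc j cut ω) 1 w ^ 2)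
        ((iid (Ix d)).prod (P1 d θ)) := hs.integrable (P := PP d θ)
    rw [QQ_eq, QQ_eq, ← integral_sub (BM_qq 1).integrable (BM_qq 1).integrable, integral_PP hs,
      ← integral_const_mul]
    refine integral_mono ((BM_qq 1).sub (BM_qq 1)).integrable
      (hi.integral_prod_left.const_mul _) fun τ => ?_
    simp only [slot]
    split_ifs with hτ
    · have e : idx j (update cut w a') τ = insert (w, j) (idx j cut τ) := by
        ext b
        rw [idx_step h1, Set.mem_insert_iff]
        exact ⟨fun h => h.elim Or.inr fun h => Or.inl h.1,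
          fun h => h.elim (fun h => Or.inr ⟨h, hτ⟩) Or.inl⟩
      have hn : (w, j) ∉ idx j cut τ := by
        rintro (h5 | h5)
        · exact lt_irrefl _ h5.1
        · exact absurd h5.2 (not_lt.2 hτ.1)
      simp only [e, one_mul]
      exact jump_var h (upto_idx cut τ) hn
    · have e : idx j (update cut w a') τ = idx j cut τ := by
        ext b
        rw [idx_step h1]
        exact ⟨fun h => h.elim id fun h => absurd h.2 hτ, Or.inl⟩
      simp only [e, sub_self, zero_mul, integral_zero, mul_zero, le_refl]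
  refine h4.trans ((mul_le_mul_of_nonneg_left h3 (by positivity)).trans (le_of_eq ?_))
  ring

lemma sphere_step (h : Hyp d θ) (h0 : 0 ≤ a) (h1 : a ≤ a') (h2 : a' ≤ 1 / 2) (m : ℕ) :
    QQ θ j (cutK (m + 1) a a') (1 : V d) - QQ θ j (cutK m a a') (1 : V d) ≤
      12 * dl j ^ 2 * (a' - a) * exp (-gap d j * (m + 1 : ℕ)) := by
  have h3 : (3 : ℝ) ≤ d := by exact_mod_cast h.hd
  have hb : 0 < ((d : ℝ) - 1) ^ (m + 1) := pow_pos (by linarith) _
  have hA : 0 ≤ 8 * dl j ^ 2 * (a' - a) := mul_nonneg (by positivity) (sub_nonneg.2 h1)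
  have key : ∀ s : Finset (V d), s ⊆ sph d (m + 1) →
      QQ θ j (fun v => if len v ≤ m ∨ v ∈ s then a' else a) (1 : V d) -
        QQ θ j (cutK m a a') (1 : V d) ≤ s.card * (8 * dl j ^ 2 * (a' - a) *
          (exp (-gap d j * (m + 1 : ℕ)) / ((d : ℝ) - 1) ^ (m + 1))) := by
    intro s
    induction s using Finset.induction_on with
    | empty =>
      intro _
      have e : (fun v : V d => if len v ≤ m ∨ v ∈ (∅ : Finset (V d)) then a' else a) =
          cutK m a a' := by
        funext v; simp [cutK]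
      rw [e]; simp
    | insert w s hw ih =>
      intro hs
      have hl : len w = m + 1 := mem_sph.1 (hs (mem_insert_self w s))
      have ih' := ih ((subset_insert w s).trans hs)
      have e : (fun v : V d => if len v ≤ m ∨ v ∈ insert w s then a' else a) =
          update (fun v : V d => if len v ≤ m ∨ v ∈ s then a' else a) w a' := by
        funext v
        by_cases hv : v = w
        · subst hv; simp
        · simp [hv]
      have e' : (if len w ≤ m ∨ w ∈ s then a' else a) = a := if_neg (by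
        rintro (h4 | h4)
        · omega
        · exact hw h4)
      have h4 := cut_step (j := j) (cut := fun v : V d => if len v ≤ m ∨ v ∈ s then a' else a)
        (a' := a') h w (by simp only [e']; exact h0) (by simp only [e']; exact h1) h2
      have h5 := H1_cov (j := j) (cut := fun v : V d => if len v ≤ m ∨ v ∈ s then a' else a) h w
      simp only [e'] at h4
      rw [hl, ← le_div_iff₀' hb] at h5
      have h6 := mul_le_mul_of_nonneg_left h5 hA
      rw [e, card_insert_of_notMem hw]
      push_cast at h6 ih' ⊢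
      linarith
  have h4 := key _ Subset.rfl
  have e : (fun v : V d => if len v ≤ m ∨ v ∈ sph d (m + 1) then a' else a) =
      cutK (m + 1) a a' := by
    funext v
    unfold cutK
    refine if_congr ?_ rfl rfl
    rw [mem_sph]
    omega
  rw [e] at h4
  refine h4.trans ((mul_le_mul_of_nonneg_right (card_sph_le h.hd (m + 1))
    (mul_nonneg hA (by positivity))).trans (le_of_eq ?_))
  field_simp
  ring

theorem far_le (h : Hyp d θ) (h0 : 0 ≤ a) (h1 : a ≤ a') (h2 : a' ≤ 1 / 2) (K : ℕ) :
    QQ θ j (fun _ => a') (1 : V d) - QQ θ j (cutK K a a') (1 : V d) ≤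
      12 * dl j ^ 2 * (a' - a) * (exp (-gap d j * K) / gap d j) := by
  have hg := gap_pos h j
  have hA : 0 ≤ 12 * dl j ^ 2 * (a' - a) := mul_nonneg (by positivity) (sub_nonneg.2 h1)
  have key : ∀ n : ℕ, QQ θ j (cutK (n + K) a a') (1 : V d) - QQ θ j (cutK K a a') (1 : V d) ≤
      12 * dl j ^ 2 * (a' - a) *
        ((exp (-gap d j * K) - exp (-gap d j * (n + K : ℕ))) / gap d j) := by
    intro n
    induction n with
    | zero => simp
    | succ n ih =>
      have h3 := sphere_step (j := j) h h0 h1 h2 (n + K)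
      have h4 : exp (-gap d j * (n + K + 1 : ℕ)) ≤
          (exp (-gap d j * (n + K : ℕ)) - exp (-gap d j * (n + K + 1 : ℕ))) / gap d j := by
        have h5 : exp (-gap d j * (n + K : ℕ)) =
            exp (-gap d j * (n + K + 1 : ℕ)) * exp (gap d j) := by
          rw [← exp_add]
          refine congrArg _ ?_
          push_cast
          ring
        have h6 := add_one_le_exp (gap d j)
        have h7 := exp_pos (-gap d j * (n + K + 1 : ℕ))
        rw [le_div_iff₀ hg, h5]
        nlinarith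
      have h5 := mul_le_mul_of_nonneg_left h4 hA
      rw [show n + 1 + K = n + K + 1 by ring]
      rw [sub_div, mul_sub] at h5 ih ⊢
      linarith
  have hlim : Tendsto (fun n : ℕ => QQ θ j (cutK n a a') (1 : V d)) atTop
      (nhds (QQ θ j (fun _ => a') (1 : V d))) := by
    simp only [QQ_eq]
    refine tendsto_integral_of_dominated_convergence (fun _ => 1)
      (fun n => (measurable_qq 1).aestronglyMeasurable) (integrable_const _)
      (fun n => Eventually.of_forall fun τ => ?_) (Eventually.of_forall fun τ => ?_)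
    · rw [Real.norm_eq_abs, abs_of_nonneg (qq_mem _ _).1]
      exact (qq_mem _ _).2
    · have hm : Monotone fun n : ℕ => idx j (cutK n a a') τ := by
        intro n n' hn
        refine idx_mono (fun v => ?_) τ
        unfold cutK
        split_ifs with h3 h4
        · exact le_rfl
        · omega
        · exact h1
        · exact le_rfl
      have hU : (⋃ n : ℕ, idx j (cutK n a a') τ) = idx j (fun _ => a') τ := by
        refine Set.Subset.antisymm (Set.iUnion_subset fun n => idx_mono (fun v => ?_) τ)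
          fun b hb => Set.mem_iUnion.2 ⟨len b.1, ?_⟩
        · unfold cutK
          split_ifs
          · exact le_rfl
          · exact h1
        · rcases hb with hb | hb
          · exact Or.inl hb
          · refine Or.inr ⟨hb.1, ?_⟩
            unfold cutK
            rw [if_pos le_rfl]
            exact hb.2
      have h3 := qq_tendsto (J := j) h hm (hU ▸ upto_idx _ τ) 1
      rwa [hU] at h3
  refine le_of_tendsto' ((hlim.comp (tendsto_add_atTop_nat K)).sub_const _) fun n =>
    (key n).trans (mul_le_mul_of_nonneg_left (div_le_div_of_nonneg_right ?_ hg.le) hA)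
  have := exp_pos (-gap d j * (n + K : ℕ))
  linarith

end Vale.Agent.P161E
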