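import Mathlib

/-! Definitions used in the statement of the result on the free Ising state. -/

namespace Vale.Agent.P161E

open MeasureTheory

/-- Vertices of the `d`-regular tree: words in `d` letters without two equal adjacent letters. -/
abbrev V (d : ℕ) : Type := {l : List (Fin d) // l.IsChain (· ≠ ·)}

/-- The `d`-regular tree: two words are adjacent if one is the other with one more first letter. -/
def tree (d : ℕ) : SimpleGraph (V d) where
  Adj x y := (∃ c, y.1 = c :: x.1) ∨ (∃ c, x.1 = c :: y.1)
  symm := ⟨fun _ _ h => h.symm⟩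
  loopless := ⟨fun x h => by
    rcases h with ⟨c, h⟩ | ⟨c, h⟩ <;> exact absurd (congrArg List.length h) (by simp)⟩

/-- The spin value `+1` or `-1`. -/
def sg (b : Bool) : ℝ := if b then 1 else -1

/-- The weight `(1 + θ η_u η_v) / 2` of an edge `{u, v}`. -/
noncomputable def edgeWeight {W : Type} (θ : ℝ) (η : W → Bool) : Sym2 W → ℝ :=
  Sym2.lift ⟨fun u v => (1 + θ * sg (η u) * sg (η v)) / 2, fun u v => by ring⟩

open Classical in
/-- `μ` is the free zero-field Ising measure with parameter `θ` on the tree `G`. -/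
def IsFreeIsing {W : Type} (G : SimpleGraph W) (θ : ℝ) (μ : Measure (W → Bool)) : Prop :=
  IsProbabilityMeasure μ ∧ ∀ D : Finset W, (G.induce (D : Set W)).Connected → ∀ η : W → Bool,
    μ {σ | ∀ v ∈ D, σ v = η v} =
      ENNReal.ofReal (1 / 2 * ∏ e ∈ D.sym2.filter (· ∈ G.edgeSet), edgeWeight θ η e)

/-- The law of i.i.d. uniform `[0,1]` labels. -/
noncomputable def iid (ι : Type) : Measure (ι → unitInterval) :=
  Measure.infinitePi fun _ => volume

/-- `ν` is a factor of IID on the graph `G`. -/
def IsFIID {W : Type} (G : SimpleGraph W) (ν : Measure (W → Bool)) : Prop :=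
  ∃ Φ : (W → unitInterval) → (W → Bool), Measurable Φ ∧ (iid W).map Φ = ν ∧
    ∀ g : G ≃g G, ∀ᵐ U ∂(iid W), Φ (fun v => U (g.symm v)) = fun v => Φ U (g.symm v)

end Vale.Agent.P161E
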