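import Vale.Agent.P161E.Basic

/-! Combinatorics of the tree.  Everything is by unfolding `step`, `kids`, `sph` and induction.
`isTree`: connected since `x` is reachable from `1` by induction on the word; acyclic e.g. by
`SimpleGraph.isAcyclic_iff_forall_adj_isBridge` (the set of words having `c :: x` as a suffix is
closed under all other edges) or by the longest word on a cycle.
`aut_perm`: `g (step c x)` is adjacent to `g x`, so equals `step (f c) (g x)` (`adj_iff`);
`f` is injective by `step_colour`, hence a permutation (`Finite.injective_iff_bijective`). -/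

namespace Vale.Agent.P161E

open Finset

variable {d : ℕ}

lemma step_kid {z : V d} {c : Fin d} (h : c ∈ kids z) : (step c z).1 = c :: z.1 :=
  step_of_ne (by simpa [kids] using h)

lemma kids_step {z : V d} {c : Fin d} (h : c ∈ kids z) : kids (step c z) = univ.erase c := by
  ext c'
  simp [kids, step_kid h, eq_comm]

@[simp] lemma kids_one : kids (1 : V d) = univ := by
  ext c; simp [kids]

lemma card_kids {z : V d} (h : z ≠ 1) : (kids z).card = d - 1 := by
  obtain ⟨l, hl⟩ := z
  cases l with
  | nil => exact absurd rfl h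
  | cons a t =>
    have : kids (⟨a :: t, hl⟩ : V d) = univ.erase a := by
      ext c; simp [kids, eq_comm]
    rw [this, card_erase_of_mem (mem_univ _)]; simp

lemma par_step {z : V d} {c : Fin d} (h : c ∈ kids z) : par (step c z) = z := by
  apply Subtype.ext
  simp [par, step_kid h]

lemma step_ne_one {z : V d} {c : Fin d} (h : c ∈ kids z) : step c z ≠ 1 := by
  intro e
  have := step_kid h
  rw [e] at this
  simp at this

lemma len_step_kid {z : V d} {c : Fin d} (h : c ∈ kids z) : len (step c z) = len z + 1 := by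
  simp [len, step_kid h]

lemma exists_kid {w : V d} (h : w ≠ 1) : ∃ c ∈ kids (par w), w = step c (par w) := by
  obtain ⟨l, hl⟩ := w
  cases l with
  | nil => exact absurd rfl h
  | cons a t =>
    have ha : a ∈ kids (par (⟨a :: t, hl⟩ : V d)) := by
      exact mem_filter.2 ⟨mem_univ _, fun h3 => (List.isChain_cons.1 hl).1 a h3 rfl⟩
    refine ⟨a, ha, Subtype.ext ?_⟩
    rw [step_kid ha]; rfl

lemma step_colour {x : V d} {c c' : Fin d} (h : step c x = step c' x) : c = c' := by
  have h' := congrArg Subtype.val h
  by_cases h1 : x.1.head? = some c <;> by_cases h2 : x.1.head? = some c'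
  · rw [h1] at h2; exact Option.some.inj h2
  · rw [step_of_eq h1, step_of_ne h2] at h'
    have := congrArg List.length h'
    rw [List.length_tail, List.length_cons] at this
    omega
  · rw [step_of_ne h1, step_of_eq h2] at h'
    have := congrArg List.length h'
    rw [List.length_tail, List.length_cons] at this
    omega
  · rw [step_of_ne h1, step_of_ne h2] at h'
    exact (List.cons.inj h').1

@[simp] lemma len_one : len (1 : V d) = 0 := rfl

lemma len_eq_zero {x : V d} : len x = 0 ↔ x = 1 := by
  constructor
  · intro h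
    exact Subtype.ext (List.length_eq_zero_iff.1 h)
  · rintro rfl; rfl

@[simp] lemma len_inv (x : V d) : len x⁻¹ = len x := by
  simp [len]

lemma len_step_le (c : Fin d) (x : V d) : len (step c x) ≤ len x + 1 := by
  by_cases h : x.1.head? = some c
  · simp only [len, step_of_eq h, List.length_tail]; omega
  · simp [len, step_of_ne h]

lemma len_walk_le (x : V d) (l : List (Fin d)) : len (walk x l) ≤ len x + l.length := by
  induction l with
  | nil => simp
  | cons c l ih =>
    have := len_step_le c (walk x l)
    simp only [walk_cons, List.length_cons]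
    omega

lemma len_mul_le (x y : V d) : len (x * y) ≤ len x + len y :=
  len_walk_le x y.1

lemma len_le_mul (x y : V d) : len x ≤ len (x * y) + len y := by
  have := len_mul_le (x * y) y⁻¹
  simpa using this

/-- A descending path from `z`: the product is concatenation. -/
lemma walk_val {z : V d} {l : List (Fin d)} (h : (l ++ z.1).IsChain (· ≠ ·)) :
    (walk z l).1 = l ++ z.1 := by
  induction l with
  | nil => rfl
  | cons c l ih =>
    have h1 := ih h.tail
    rw [walk_cons, step_of_ne, h1]
    · rfl
    · rw [h1]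
      intro h3
      exact (List.isChain_cons.1 h).1 c h3 rfl

lemma mem_sph {w : V d} {k : ℕ} : w ∈ sph d k ↔ len w = k := by
  induction k generalizing w with
  | zero => simp [sph, len_eq_zero]
  | succ k ih =>
    simp only [sph, mem_biUnion, mem_image]
    constructor
    · rintro ⟨z, hz, c, hc, rfl⟩
      rw [len_step_kid hc, ih.1 hz]
    · intro h
      have hw : w ≠ 1 := by rintro rfl; simp at h
      obtain ⟨c, hc, e⟩ := exists_kid hw
      refine ⟨par w, ih.2 ?_, c, hc, e.symm⟩
      have := len_step_kid hc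
      rw [← e] at this
      omega

lemma mem_ball {w : V d} {K : ℕ} : w ∈ ball d K ↔ len w ≤ K := by
  simp only [ball, mem_biUnion, mem_range, mem_sph]
  constructor
  · rintro ⟨k, hk, rfl⟩; omega
  · intro h; exact ⟨_, by omega, rfl⟩

lemma sum_sph_succ {M : Type*} [AddCommMonoid M] (F : V d → M) (k : ℕ) :
    ∑ w ∈ sph d (k + 1), F w = ∑ z ∈ sph d k, ∑ c ∈ kids z, F (step c z) := by
  rw [sph, sum_biUnion]
  · refine sum_congr rfl fun z _ => ?_
    rw [sum_image]
    intro c _ c' _ h
    exact step_colour h
  · intro z _ z' _ hne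
    simp only [Function.onFun]
    rw [disjoint_left]
    intro w hw hw'
    obtain ⟨c, hc, rfl⟩ := mem_image.1 hw
    obtain ⟨c', hc', e⟩ := mem_image.1 hw'
    apply hne
    rw [← par_step hc, ← e, par_step hc']

lemma sum_ball {M : Type*} [AddCommMonoid M] (F : V d → M) (K : ℕ) :
    ∑ w ∈ ball d K, F w = ∑ k ∈ range (K + 1), ∑ w ∈ sph d k, F w := by
  rw [ball, sum_biUnion]
  intro k _ k' _ hne
  simp only [Function.onFun]
  rw [disjoint_left]
  intro w hw hw'
  exact hne ((mem_sph.1 hw).symm.trans (mem_sph.1 hw'))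

lemma sum_sph_inv {M : Type*} [AddCommMonoid M] (F : V d → M) (k : ℕ) :
    ∑ w ∈ sph d k, F w⁻¹ = ∑ w ∈ sph d k, F w := by
  refine sum_bij' (fun w _ => w⁻¹) (fun w _ => w⁻¹) ?_ ?_ ?_ ?_ ?_ <;> simp [mem_sph]

lemma sum_ball_inv {M : Type*} [AddCommMonoid M] (F : V d → M) (K : ℕ) :
    ∑ w ∈ ball d K, F w⁻¹ = ∑ w ∈ ball d K, F w := by
  refine sum_bij' (fun w _ => w⁻¹) (fun w _ => w⁻¹) ?_ ?_ ?_ ?_ ?_ <;> simp [mem_ball]

lemma card_sph_succ (k : ℕ) : (sph d (k + 1)).card = d * (d - 1) ^ k := by
  induction k with
  | zero =>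
    rw [card_eq_sum_ones, sum_sph_succ]
    simp [sph]
  | succ k ih =>
    rw [card_eq_sum_ones, sum_sph_succ]
    have : ∀ z ∈ sph d (k + 1), ∑ c ∈ kids z, (1 : ℕ) = d - 1 := by
      intro z hz
      have hz' : z ≠ 1 := by
        rintro rfl
        have := mem_sph.1 hz
        simp at this
      rw [← card_eq_sum_ones, card_kids hz']
    rw [sum_congr rfl this, sum_const, ih, smul_eq_mul]
    ring

lemma card_sph_le (hd : 3 ≤ d) (k : ℕ) : ((sph d k).card : ℝ) ≤ 3 / 2 * ((d : ℝ) - 1) ^ k := by
  have h3 : (3 : ℝ) ≤ d := by exact_mod_cast hd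
  cases k with
  | zero => simp [sph]; norm_num
  | succ k =>
    rw [card_sph_succ]
    have h1 : 1 ≤ d := by omega
    push_cast [Nat.cast_sub h1]
    have hp : (0 : ℝ) ≤ ((d : ℝ) - 1) ^ k := pow_nonneg (by linarith) _
    rw [pow_succ]
    nlinarith

lemma card_sph_ge (hd : 3 ≤ d) (k : ℕ) : ((d : ℝ) - 1) ^ k ≤ (sph d k).card := by
  have h3 : (3 : ℝ) ≤ d := by exact_mod_cast hd
  cases k with
  | zero => simp [sph]
  | succ k =>
    rw [card_sph_succ]
    have h1 : 1 ≤ d := by omega
    push_cast [Nat.cast_sub h1]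
    have hp : (0 : ℝ) ≤ ((d : ℝ) - 1) ^ k := pow_nonneg (by linarith) _
    rw [pow_succ]
    nlinarith

/-- The weights `θ ^ (2 k)` of a sphere add up to at most `3 / 2`. -/
lemma sph_weight {θ : ℝ} (h : Hyp d θ) (k : ℕ) :
    θ ^ (2 * k) * ((sph d k).card : ℝ) ≤ 3 / 2 := by
  have h3 : (3 : ℝ) ≤ d := by exact_mod_cast h.hd
  have h1 := card_sph_le h.hd k
  have h2 : (((d : ℝ) - 1) * θ ^ 2) ^ k ≤ 1 :=
    pow_le_one₀ (mul_nonneg (by linarith) (sq_nonneg _)) h.h1
  have h4 : 0 ≤ θ ^ (2 * k) := pow_nonneg h.h0 _
  calc θ ^ (2 * k) * ((sph d k).card : ℝ) ≤ θ ^ (2 * k) * (3 / 2 * ((d : ℝ) - 1) ^ k) :=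
        mul_le_mul_of_nonneg_left h1 h4
    _ = 3 / 2 * (((d : ℝ) - 1) * θ ^ 2) ^ k := by rw [mul_pow, pow_mul]; ring
    _ ≤ 3 / 2 := by linarith

lemma pprod_append (f : V d → Fin d → ℝ) (x : V d) (s p : List (Fin d)) :
    pprod f x (s ++ p) = pprod f x p * pprod f (walk x p) s := by
  induction s with
  | nil => simp [pprod]
  | cons c s ih => simp only [List.cons_append, pprod, ih, walk_append]; ring

lemma psum_append (f : V d → Fin d → ℝ) (x : V d) (s p : List (Fin d)) :
    psum f x (s ++ p) = psum f x p + psum f (walk x p) s := by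
  induction s with
  | nil => simp [psum]
  | cons c s ih => simp only [List.cons_append, psum, ih, walk_append]; ring

lemma pprod_mul (f : V d → Fin d → ℝ) (x y : V d) (l : List (Fin d)) :
    pprod f (x * y) l = pprod (fun z c => f (x * z) c) y l := by
  induction l with
  | nil => rfl
  | cons c l ih => simp only [pprod, ih, mul_walk]

lemma psum_mul (f : V d → Fin d → ℝ) (x y : V d) (l : List (Fin d)) :
    psum f (x * y) l = psum (fun z c => f (x * z) c) y l := by
  induction l with
  | nil => rfl
  | cons c l ih => simp only [psum, ih, mul_walk]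

lemma exp_psum (f : V d → Fin d → ℝ) (x : V d) (l : List (Fin d)) :
    Real.exp (psum f x l) = pprod (fun z c => Real.exp (f z c)) x l := by
  induction l with
  | nil => simp [psum, pprod]
  | cons c l ih => simp only [psum, pprod, Real.exp_add, ih]

lemma pprod_mem {f : V d → Fin d → ℝ} (h : ∀ y c, 0 ≤ f y c ∧ f y c ≤ 1) (x : V d)
    (l : List (Fin d)) : 0 ≤ pprod f x l ∧ pprod f x l ≤ 1 := by
  induction l with
  | nil => simp [pprod]
  | cons c l ih =>
    simp only [pprod]
    exact ⟨mul_nonneg ih.1 (h _ _).1, mul_le_one₀ ih.2 (h _ _).1 (h _ _).2⟩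

lemma aut_perm (g : tree d ≃g tree d) (x : V d) :
    ∃ π : Equiv.Perm (Fin d), ∀ c, g (step c x) = step (π c) (g x) := by
  have h1 : ∀ c, ∃ c', g (step c x) = step c' (g x) := fun c =>
    adj_iff.1 (g.map_rel_iff.2 (adj_iff.2 ⟨c, rfl⟩))
  choose f hf using h1
  have hinj : Function.Injective f := by
    intro c c' e
    have : g (step c x) = g (step c' x) := by rw [hf, hf, e]
    exact step_colour (g.injective this)
  exact ⟨Equiv.ofBijective f (Finite.injective_iff_bijective.1 hinj), hf⟩

theorem isTree : (tree d).IsTree := by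
  have hr : ∀ x : V d, (tree d).Reachable 1 x := by
    intro x
    rw [← walk_one x]
    generalize x.1 = l
    induction l with
    | nil => rfl
    | cons c l ih => exact ih.trans (adj_iff.2 ⟨c, rfl⟩).reachable
  refine ⟨(SimpleGraph.connected_iff _).2 ⟨fun x y => (hr x).symm.trans (hr y), ⟨1⟩⟩, ?_⟩
  rw [SimpleGraph.isAcyclic_iff_forall_adj_isBridge]
  have key : ∀ (x y : V d) (c : Fin d), y.1 = c :: x.1 → (tree d).IsBridge s(x, y) := by
    intro x y c hc
    rw [SimpleGraph.isBridge_iff]
    intro hre
    have hcl : ∀ u v : V d, ((tree d).deleteEdges {s(x, y)}).Reachable u v →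
        y.1 <:+ u.1 → y.1 <:+ v.1 := by
      intro u v huv
      obtain ⟨p⟩ := huv
      induction p with
      | nil => exact id
      | @cons a b e hab p ih =>
        intro ha
        apply ih
        rw [SimpleGraph.deleteEdges_adj] at hab
        obtain ⟨h1, h2⟩ := hab
        rcases h1 with ⟨c', h1⟩ | ⟨c', h1⟩
        · rw [h1]; exact ha.trans (List.suffix_cons _ _)
        · rw [h1] at ha
          rcases List.suffix_cons_iff.1 ha with h3 | h3
          · exfalso
            apply h2
            have e1 : a = y := Subtype.ext (h1.trans h3.symm)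
            have e2 : b = x := by
              rw [hc] at h3
              exact Subtype.ext (List.cons.inj h3).2.symm
            rw [e1, e2]
            simp
          · exact h3
    have := (hcl y x hre.symm List.suffix_rfl).length_le
    rw [hc] at this
    simp at this
  rintro v w (⟨c, h⟩ | ⟨c, h⟩)
  · exact key v w c h
  · rw [Sym2.eq_swap]; exact key w v c h

theorem regular (v : V d) : ((tree d).neighborSet v).ncard = d := by
  have : (tree d).neighborSet v = Set.range fun c => step c v := by
    ext w
    simp [adj_iff, eq_comm]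
  rw [this, Set.ncard_range_of_injective fun c c' h => step_colour h]
  simp

end Vale.Agent.P161E
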