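import Vale.Agent.P161E.Nish
import Vale.Agent.P161E.Tree

/-! Broadcasting on the tree with independent side information, in aligned form.
`indep_alg`: `indep_iSup_of_disjoint`.  `ah_meas`: induction on `n`; `desc (step c z) ⊆ desc z` and
`inl (step c z) ∈ desc z` for `c ∈ kids z`.  `ah_nish`: induction on `n`, and on the finite set of
children with `Nish.add`, `Nish.msg` (`part_nish`): the summand of child `c` is measurable for
`alg (insert (inl (step c z)) (desc (step c z)))`, these index sets and `{inr z}` are disjoint. -/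

namespace Vale.Agent.P161E

open MeasureTheory ProbabilityTheory Finset

/-- Edge variables and aligned site fields. -/
structure Env (d : ℕ) (θ B : ℝ) {Ω : Type} [MeasurableSpace Ω] (P : Measure Ω) where
  e : V d → Ω → Bool
  s : V d → Ω → ℝ
  me : ∀ v, Measurable (e v)
  ms : ∀ v, Measurable (s v)
  ind : iIndepFun (Sum.elim (fun v ω => sg (e v ω)) s) P
  edge : ∀ v, v ≠ 1 → Edge P θ (e v)
  nish : ∀ v, Nish P (s v)
  bd : ∀ v ω, |s v ω| ≤ B

variable {d : ℕ} {θ B : ℝ} {Ω : Type} [m0 : MeasurableSpace Ω] {P : Measure Ω}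

/-- The sigma-algebra generated by the variables with index in `S`. -/
def Env.alg (E : Env d θ B P) (S : Set (V d ⊕ V d)) : MeasurableSpace Ω :=
  ⨆ i ∈ S, MeasurableSpace.comap (Sum.elim (fun v ω => sg (E.e v ω)) E.s i) inferInstance

/-- Indices of the variables in the subtree below `z`. -/
def desc (z : V d) : Set (V d ⊕ V d) :=
  {i | Sum.elim (fun v : V d => z.1 <:+ v.1 ∧ v ≠ z) (fun v : V d => z.1 <:+ v.1) i}

/-- Aligned field at `z` from its descendants up to depth `n`. -/
noncomputable def Env.ah (E : Env d θ B P) : ℕ → V d → Ω → ℝ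
  | 0, _, _ => 0
  | n + 1, z, ω => E.s z ω + ∑ c ∈ kids z, sg (E.e (step c z) ω) * msg θ (E.ah n (step c z) ω)

/-- Aligned field at `z` using only the children in `S`. -/
noncomputable def Env.part (E : Env d θ B P) (n : ℕ) (z : V d) (S : Finset (Fin d)) (ω : Ω) : ℝ :=
  E.s z ω + ∑ c ∈ S, sg (E.e (step c z) ω) * msg θ (E.ah n (step c z) ω)

/-- Decay factor along a descending path, the last vertex having depth `n`. -/
noncomputable def Env.ar (E : Env d θ B P) (z : V d) : ℕ → List (Fin d) → Ω → ℝ
  | _, [], _ => 1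
  | n, c :: l, ω => E.ar z (n + 1) l ω * phi θ (E.ah n (walk z (c :: l)) ω)

variable [IsProbabilityMeasure P] (E : Env d θ B P)

omit [IsProbabilityMeasure P] in
lemma Env.var_meas (i : V d ⊕ V d) :
    Measurable (Sum.elim (fun v ω => sg (E.e v ω)) E.s i) := by
  cases i with
  | inl v => exact (measurable_of_countable sg).comp (E.me v)
  | inr v => exact E.ms v

lemma Env.alg_le (S : Set (V d ⊕ V d)) : E.alg S ≤ m0 :=
  iSup₂_le fun i _ => (E.var_meas i).comap_le

lemma Env.alg_mono {S S' : Set (V d ⊕ V d)} (h : S ⊆ S') : E.alg S ≤ E.alg S' :=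
  biSup_mono h

lemma Env.indep_alg {S S' : Set (V d ⊕ V d)} (h : Disjoint S S') :
    Indep (E.alg S) (E.alg S') P :=
  indep_iSup_of_disjoint (fun i => (E.var_meas i).comap_le)
    ((iIndepFun_iff_iIndep _ _ _).1 E.ind) h

lemma Env.indepFun {S S' : Set (V d ⊕ V d)} (h : Disjoint S S') {β γ : Type} [MeasurableSpace β]
    [MeasurableSpace γ] {f : Ω → β} {g : Ω → γ} (hf : Measurable[E.alg S] f)
    (hg : Measurable[E.alg S'] g) : IndepFun f g P :=
  (IndepFun_iff_Indep _ _ _).2 (indep_of_indep_of_le (E.indep_alg h) hf.comap_le hg.comap_le)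

lemma Env.iIndep_alg {ι : Type} {S : ι → Set (V d ⊕ V d)}
    (h : Pairwise fun i j => Disjoint (S i) (S j)) : iIndep (fun i => E.alg (S i)) P := by
  classical
  rw [iIndep_iff]
  intro T A
  induction T using Finset.induction_on with
  | empty => intro _; simp
  | insert a T ha ih =>
    intro hA
    have h1 : Disjoint (S a) (⋃ i ∈ T, S i) := by
      rw [Set.disjoint_iUnion₂_right]
      intro i hi
      exact h (fun e => ha (e ▸ hi))
    have h2 : MeasurableSet[E.alg (⋃ i ∈ T, S i)] (⋂ i ∈ T, A i) :=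
      Finset.measurableSet_biInter (m := E.alg (⋃ i ∈ T, S i)) T fun i hi =>
        E.alg_mono (Set.subset_biUnion_of_mem (u := S) hi) _ (hA i (mem_insert_of_mem hi))
    rw [Finset.set_biInter_insert, prod_insert ha, ← ih fun i hi => hA i (mem_insert_of_mem hi)]
    exact (Indep_iff _ _ _).1 (E.indep_alg h1) _ _ (hA a (mem_insert_self _ _)) h2

lemma Env.iIndepFun {ι : Type} {S : ι → Set (V d ⊕ V d)} (h : Pairwise fun i j => Disjoint (S i) (S j))
    {f : ι → Ω → ℝ} (hf : ∀ i, Measurable[E.alg (S i)] (f i)) : iIndepFun f P :=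
  (iIndepFun_iff_iIndep _ _ _).2 (iIndep_of_iIndep_of_le (E.iIndep_alg h) fun i => (hf i).comap_le)

lemma Env.e_meas {S : Set (V d ⊕ V d)} {v : V d} (h : Sum.inl v ∈ S) :
    Measurable[E.alg S] fun ω => sg (E.e v ω) :=
  Measurable.of_comap_le (le_iSup₂_of_le (f := fun i (_ : i ∈ S) =>
    MeasurableSpace.comap (Sum.elim (fun v ω => sg (E.e v ω)) E.s i) inferInstance) _ h le_rfl)

lemma Env.s_meas {S : Set (V d ⊕ V d)} {v : V d} (h : Sum.inr v ∈ S) :
    Measurable[E.alg S] (E.s v) :=
  Measurable.of_comap_le (le_iSup₂_of_le (f := fun i (_ : i ∈ S) =>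
    MeasurableSpace.comap (Sum.elim (fun v ω => sg (E.e v ω)) E.s i) inferInstance) _ h le_rfl)

lemma desc_step {z : V d} {c : Fin d} (h : c ∈ kids z) :
    insert (Sum.inl (step c z)) (desc (step c z)) ⊆ desc z := by
  have h1 : z.1 <:+ (step c z).1 := by rw [step_kid h]; exact List.suffix_cons _ _
  have h2 := len_step_kid h
  rintro i (rfl | hi)
  · refine ⟨h1, fun e => ?_⟩
    rw [e] at h2
    omega
  · cases i with
    | inl v =>
      refine ⟨h1.trans hi.1, fun e => ?_⟩
      have h3 : len (step c z) ≤ len v := hi.1.length_le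
      rw [e] at h3
      omega
    | inr v => exact h1.trans hi

lemma desc_suffix {z : V d} {i : V d ⊕ V d} (hi : i ∈ insert (Sum.inl z) (desc z)) :
    z.1 <:+ (Sum.elim id id i : V d).1 := by
  rcases hi with rfl | hi
  · exact List.suffix_refl _
  · cases i with
    | inl v => exact hi.1
    | inr v => exact hi

lemma desc_disjoint {z z' : V d} (hl : len z = len z') (h : z ≠ z') :
    Disjoint (insert (Sum.inl z) (desc z)) (insert (Sum.inl z') (desc z')) := by
  rw [Set.disjoint_left]
  intro i hi hi'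
  exact h (Subtype.ext ((List.suffix_of_suffix_length_le (desc_suffix hi) (desc_suffix hi')
    hl.le).eq_of_length hl))

lemma inr_mem_desc (z : V d) : Sum.inr z ∈ desc z := List.suffix_refl _

lemma inr_notMem_desc {z : V d} {c : Fin d} (h : c ∈ kids z) :
    Sum.inr z ∉ insert (Sum.inl (step c z)) (desc (step c z)) := fun hi => by
  have h1 : len (step c z) ≤ len z := (desc_suffix hi).length_le
  have h2 := len_step_kid h
  omega

lemma Env.term_meas {n : ℕ} {w : V d} (hw : Measurable[E.alg (desc w)] (E.ah n w)) :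
    Measurable[E.alg (insert (Sum.inl w) (desc w))] fun ω => sg (E.e w ω) * msg θ (E.ah n w ω) :=
  (E.e_meas (Set.mem_insert _ _)).mul
    (measurable_msg.comp (hw.mono (E.alg_mono (Set.subset_insert _ _)) le_rfl))

lemma Env.ah_meas (n : ℕ) (z : V d) : Measurable[E.alg (desc z)] (E.ah n z) := by
  induction n generalizing z with
  | zero => exact measurable_const
  | succ n ih =>
    exact (E.s_meas (inr_mem_desc z)).add (Finset.measurable_fun_sum _ fun c hc =>
      (E.term_meas (ih _)).mono (E.alg_mono (desc_step hc)) le_rfl)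

omit [IsProbabilityMeasure P] in
lemma Env.abs_part_le (h : Hyp d θ) (n : ℕ) (z : V d) (S : Finset (Fin d)) (ω : Ω) :
    |E.part n z S ω| ≤ B + d := by
  refine (abs_add_le _ _).trans (add_le_add (E.bd z ω) ((abs_sum_le_sum_abs _ _).trans ?_))
  refine (sum_le_card_nsmul _ _ 1 fun c _ => ?_).trans ?_
  · rw [abs_mul, abs_sg, one_mul]
    exact abs_msg_le_one h _
  · rw [nsmul_eq_mul, mul_one]
    exact_mod_cast (card_le_univ S).trans (Fintype.card_fin d).le

lemma Env.abs_ah_le (h : Hyp d θ) (n : ℕ) (z : V d) (ω : Ω) : |E.ah n z ω| ≤ B + d := by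
  cases n with
  | zero =>
    have := (abs_nonneg _).trans (E.bd z ω)
    show |(0 : ℝ)| ≤ _
    rw [abs_zero]
    positivity
  | succ n => exact E.abs_part_le h n z (kids z) ω

lemma Env.ah_BM (h : Hyp d θ) (n : ℕ) (z : V d) : BM m0 (E.ah n z) :=
  ⟨(E.ah_meas n z).mono (E.alg_le _) le_rfl, _, E.abs_ah_le h n z⟩

lemma Env.part_BM (h : Hyp d θ) (n : ℕ) (z : V d) (S : Finset (Fin d)) : BM m0 (E.part n z S) :=
  ⟨(E.ms z).add (Finset.measurable_fun_sum _ fun _ _ =>
    (E.term_meas (E.ah_meas n _)).mono (E.alg_le _) le_rfl), _, E.abs_part_le h n z S⟩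

/-- The partial field is independent of anything attached to another child. -/
lemma Env.part_indep (n : ℕ) {z : V d} {S : Finset (Fin d)} (hS : S ⊆ kids z) {c : Fin d}
    (hc : c ∈ kids z) (hcS : c ∉ S) {γ : Type} [MeasurableSpace γ] {g : Ω → γ}
    (hg : Measurable[E.alg (insert (Sum.inl (step c z)) (desc (step c z)))] g) :
    IndepFun (E.part n z S) g P := by
  refine E.indepFun (S := (insert (Sum.inl (step c z)) (desc (step c z)))ᶜ)
    disjoint_compl_left ?_ hg
  refine (E.s_meas (inr_notMem_desc hc)).add (Finset.measurable_fun_sum _ fun c' hc' =>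
    (E.term_meas (E.ah_meas n _)).mono (E.alg_mono ?_) le_rfl)
  refine (desc_disjoint ?_ fun e => hcS ?_).subset_compl_right
  · rw [len_step_kid hc, len_step_kid (hS hc')]
  · rw [← step_colour e]; exact hc'

lemma Env.e_indep {z : V d} {γ : Type} [MeasurableSpace γ] {g : Ω → γ}
    (hg : Measurable[E.alg (desc z)] g) : IndepFun (fun ω => sg (E.e z ω)) g P :=
  E.indepFun (S := {Sum.inl z}) (Set.disjoint_singleton_left.2 fun h => h.2 rfl)
    (E.e_meas rfl) hg

lemma Env.part_nish_aux (h : Hyp d θ) {n : ℕ} (ih : ∀ w, Nish P (E.ah n w)) {z : V d}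
    {S : Finset (Fin d)} (hS : S ⊆ kids z) : Nish P (E.part n z S) := by
  induction S using Finset.induction_on with
  | empty =>
    have e : E.part n z ∅ = E.s z := by funext ω; simp [Env.part]
    rw [e]
    exact E.nish z
  | insert c S hc ihS =>
    have hS' : S ⊆ kids z := (subset_insert _ _).trans hS
    have hcz : c ∈ kids z := hS (mem_insert_self _ _)
    have e : E.part n z (insert c S) = fun ω => E.part n z S ω +
        sg (E.e (step c z) ω) * msg θ (E.ah n (step c z) ω) := by
      funext ω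
      simp only [Env.part, sum_insert hc]
      ring
    have hm := E.term_meas (E.ah_meas n (step c z))
    rw [e]
    refine Nish.add (ihS hS') (Nish.msg h (ih _) (E.ah_BM h n _) (E.edge _ (step_ne_one hcz))
      (E.e_indep (E.ah_meas n _))) (E.part_BM h n z S) ⟨hm.mono (E.alg_le _) le_rfl, 1, fun ω => ?_⟩
      (E.part_indep n hS' hcz hc hm)
    rw [abs_mul, abs_sg, one_mul]
    exact abs_msg_le_one h _

lemma Env.ah_nish (h : Hyp d θ) (n : ℕ) (z : V d) : Nish P (E.ah n z) := by
  induction n generalizing z with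
  | zero => exact Nish.zero
  | succ n ih => exact E.part_nish_aux h ih (Subset.refl _)

lemma Env.part_nish (h : Hyp d θ) (n : ℕ) {z : V d} {S : Finset (Fin d)} (hS : S ⊆ kids z) :
    Nish P (E.part n z S) :=
  E.part_nish_aux h (E.ah_nish h n) hS

end Vale.Agent.P161E
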