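import Vale.Agent.P161E.Alg

/-! The observation law with density `(1 + α y) / 2` on `[-1, 1]`, `|α| ≤ 1/2`.
`1 + α * qf α u = √((1-α)² + 4 α u)`.  `cdf α y - cdf α y' = (y - y') (1/2 + α (y + y') / 4)`, the
bracket is at least `1/4` on `[-1,1]`; this gives injectivity and all Lipschitz bounds.
`integral_qf`: show first that the map `y ↦ cdf α y` pushes the density to Lebesgue measure on
`[0,1]` (`MeasureTheory.integral_image_eq_integral_abs_deriv_smul`), then use `qf_cdf`. -/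

namespace Vale.Agent.P161E

open MeasureTheory Set

variable {α : ℝ}

lemma dl_pos (j : ℤ) : 0 < dl j :=
  lt_min (by norm_num) (by positivity)

lemma dl_le (j : ℤ) : dl j ≤ 1 / 2 := min_le_left _ _

lemma dl_of_nonpos {j : ℤ} (h : j ≤ 0) : dl j = (2 : ℝ) ^ j / 2 := by
  have : (2 : ℝ) ^ j ≤ 1 := zpow_le_one_of_nonpos₀ (by norm_num) h
  exact min_eq_right (by linarith)

lemma dl_of_nonneg {j : ℤ} (h : 0 ≤ j) : dl j = 1 / 2 := by
  have : (1 : ℝ) ≤ 2 ^ j := one_le_zpow₀ (by norm_num) h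
  exact min_eq_left (by linarith)

lemma dl_mono : Monotone dl := by
  intro i j h
  have : (2 : ℝ) ^ i ≤ 2 ^ j := zpow_le_zpow_right₀ (by norm_num) h
  exact min_le_min le_rfl (by linarith)

lemma dl_pred {j : ℤ} (h : j ≤ 0) : dl j = 2 * dl (j - 1) := by
  rw [dl_of_nonpos h, dl_of_nonpos (by omega : j - 1 ≤ 0), zpow_sub_one₀ (by norm_num)]
  ring

lemma dl_le_two (j : ℤ) : dl j ≤ 2 * dl (j - 1) := by
  rcases le_or_gt j 0 with h | h
  · exact (dl_pred h).le
  · rw [dl_of_nonneg h.le, dl_of_nonneg (by omega : 0 ≤ j - 1)]; norm_num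

lemma BB_mono : Monotone BB := by
  intro i j h
  have h1 := dl_mono h
  have h2 : max (i : ℝ) 0 ≤ max (j : ℝ) 0 := max_le_max (by exact_mod_cast h) le_rfl
  unfold BB
  linarith

lemma BB_nonneg (j : ℤ) : 0 ≤ BB j := by
  have := dl_pos j
  have h2 : (0 : ℝ) ≤ max (j : ℝ) 0 := le_max_right _ _
  unfold BB
  linarith

lemma BB_step (j : ℤ) : 2 * dl j + BB (j - 1) ≤ BB j := by
  unfold BB
  rcases le_or_gt j 0 with h | h
  · have h1 : (j : ℝ) ≤ 0 := by exact_mod_cast h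
    rw [dl_pred h, max_eq_right h1, max_eq_right (by push_cast; linarith)]
    linarith
  · have h1 : (1 : ℝ) ≤ j := by exact_mod_cast h
    rw [dl_of_nonneg h.le, dl_of_nonneg (by omega : 0 ≤ j - 1), max_eq_left (by linarith : (0 : ℝ) ≤ j),
      max_eq_left (by push_cast; linarith)]
    push_cast
    linarith

/-- Any finite set of sweeps up to `J` has total strength at most `BB J / 2`. -/
lemma sum_dl_le (J : ℤ) (s : Finset ℤ) (hs : ∀ i ∈ s, i ≤ J) : ∑ i ∈ s, 2 * dl i ≤ BB J := by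
  induction s using Finset.induction_on_max generalizing J with
  | empty => simpa using BB_nonneg J
  | insert a s ha ih =>
    rw [Finset.sum_insert fun h => lt_irrefl _ (ha a h)]
    have h1 := ih (a - 1) fun i hi => by have := ha i hi; omega
    have h2 := BB_step a
    have h3 := BB_mono (hs a (Finset.mem_insert_self _ _))
    linarith

lemma measurable_qf : Measurable fun p : ℝ × ℝ => qf p.1 p.2 := by
  unfold qf
  fun_prop

lemma measurable_psi : Measurable fun p : ℝ × ℝ => psi p.1 p.2 := by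
  unfold psi qf
  fun_prop

lemma continuous_cdf : Continuous fun p : ℝ × ℝ => cdf p.1 p.2 := by
  unfold cdf
  fun_prop

lemma qf_aux (h : |α| ≤ 1 / 2) {u : ℝ} (hu : u ∈ Icc (0 : ℝ) 1) :
    ∃ S : ℝ, 0 ≤ S ∧ qf α u * (1 + S) = 4 * u - 2 + α ∧ α * qf α u = S - 1 := by
  have h1 := abs_le.1 h
  have hp : 0 ≤ (1 - α) ^ 2 + 4 * α * u := by
    rcases le_total 0 α with h0 | h0
    · have := mul_nonneg h0 hu.1
      nlinarith [sq_nonneg (1 - α)]
    · have := mul_nonneg (neg_nonneg.2 h0) (sub_nonneg.2 hu.2)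
      nlinarith [sq_nonneg (1 + α)]
  have hS := Real.sqrt_nonneg ((1 - α) ^ 2 + 4 * α * u)
  have hS2 := Real.sq_sqrt hp
  have hne : 1 + √((1 - α) ^ 2 + 4 * α * u) ≠ 0 := by linarith
  have e1 : qf α u * (1 + √((1 - α) ^ 2 + 4 * α * u)) = 4 * u - 2 + α := div_mul_cancel₀ _ hne
  refine ⟨_, hS, e1, mul_right_cancel₀ hne ?_⟩
  rw [mul_assoc, e1]
  linear_combination (-1 : ℝ) * hS2

lemma abs_qf_le (h : |α| ≤ 1 / 2) {u : ℝ} (hu : u ∈ Icc (0 : ℝ) 1) : |qf α u| ≤ 1 := by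
  obtain ⟨S, hS, e1, e2⟩ := qf_aux h hu
  have h1 := abs_le.1 h
  have a1 : (1 - qf α u) * (1 + α + S) = 4 * (1 - u) := by linear_combination -e1 - e2
  have a2 : (1 + qf α u) * (1 - α + S) = 4 * u := by linear_combination e1 - e2
  have p1 : 0 < 1 + α + S := by linarith
  have p2 : 0 < 1 - α + S := by linarith
  have b1 : 0 ≤ 1 - qf α u := nonneg_of_mul_nonneg_left (by rw [a1]; linarith [hu.2]) p1
  have b2 : 0 ≤ 1 + qf α u := nonneg_of_mul_nonneg_left (by rw [a2]; linarith [hu.1]) p2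
  rw [abs_le]
  constructor <;> linarith

lemma cdf_qf (h : |α| ≤ 1 / 2) {u : ℝ} (hu : u ∈ Icc (0 : ℝ) 1) : cdf α (qf α u) = u := by
  obtain ⟨S, hS, e1, e2⟩ := qf_aux h hu
  unfold cdf
  linear_combination (1 / 4 : ℝ) * e1 + (qf α u / 4) * e2

lemma bracket (h : |α| ≤ 1 / 2) {y y' : ℝ} (hy : |y| ≤ 1) (hy' : |y'| ≤ 1) :
    1 ≤ 2 + α * (y + y') := by
  have h1 : |α * (y + y')| ≤ 1 := by
    rw [abs_mul]
    have := abs_add_le y y'
    nlinarith [abs_nonneg α, abs_nonneg (y + y')]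
  linarith [(abs_le.1 h1).1]

lemma cdf_sub (α y y' : ℝ) : cdf α y - cdf α y' = (y - y') * (2 + α * (y + y')) / 4 := by
  unfold cdf
  ring

lemma cdf_colip (h : |α| ≤ 1 / 2) {y y' : ℝ} (hy : |y| ≤ 1) (hy' : |y'| ≤ 1) :
    |y - y'| ≤ 4 * |cdf α y - cdf α y'| := by
  have hb := bracket h hy hy'
  rw [cdf_sub, abs_div, abs_mul, abs_of_nonneg (by linarith : 0 ≤ 2 + α * (y + y')),
    abs_of_nonneg (by norm_num : (0 : ℝ) ≤ 4)]
  nlinarith [abs_nonneg (y - y')]

lemma cdf_mem (h : |α| ≤ 1 / 2) {y : ℝ} (hy : |y| ≤ 1) : cdf α y ∈ Icc (0 : ℝ) 1 := by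
  have h1 := abs_le.1 hy
  have b1 := bracket h hy (y' := -1) (by simp)
  have b2 := bracket h hy (y' := 1) (by simp)
  have e1 : cdf α y = (y + 1) * (2 + α * (y + -1)) / 4 := by unfold cdf; ring
  have e2 : 1 - cdf α y = (1 - y) * (2 + α * (y + 1)) / 4 := by unfold cdf; ring
  have c1 : 0 ≤ (y + 1) * (2 + α * (y + -1)) := mul_nonneg (by linarith) (by linarith)
  have c2 : 0 ≤ (1 - y) * (2 + α * (y + 1)) := mul_nonneg (by linarith) (by linarith)
  constructor <;> linarith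

lemma qf_cdf (h : |α| ≤ 1 / 2) {y : ℝ} (hy : |y| ≤ 1) : qf α (cdf α y) = y := by
  have hm := cdf_mem h hy
  have := cdf_colip h (abs_qf_le h hm) hy
  rw [cdf_qf h hm, sub_self, abs_zero, mul_zero] at this
  exact sub_eq_zero.1 (abs_nonpos_iff.1 this)

lemma cdf_neg (α y : ℝ) : cdf (-α) (-y) = 1 - cdf α y := by
  unfold cdf
  ring

lemma cdf_lip (α α' : ℝ) {y : ℝ} (hy : |y| ≤ 1) : |cdf α y - cdf α' y| ≤ |α - α'| := by
  have e : cdf α y - cdf α' y = (α - α') * ((y ^ 2 - 1) / 4) := by unfold cdf; ring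
  have h1 : y ^ 2 ≤ 1 := by rw [← sq_abs]; nlinarith [abs_nonneg y]
  have h2 : |(y ^ 2 - 1) / 4| ≤ 1 := by
    rw [abs_le]; constructor <;> nlinarith [sq_nonneg y]
  rw [e, abs_mul]
  nlinarith [abs_nonneg (α - α')]

lemma half_le_den (h : |α| ≤ 1 / 2) {y : ℝ} (hy : |y| ≤ 1) : 1 / 2 ≤ 1 + α * y := by
  have := bracket h hy hy
  linarith

lemma abs_psi_le (h : |α| ≤ 1 / 2) {u : ℝ} (hu : u ∈ Icc (0 : ℝ) 1) : |psi α u| ≤ 2 := by
  have h1 := abs_qf_le h hu
  have h2 := half_le_den h h1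
  rw [psi, abs_div, abs_of_pos (by linarith : 0 < 1 + α * qf α u), div_le_iff₀ (by linarith)]
  linarith

lemma psi_lip {α' u u' : ℝ} (h : |α| ≤ 1 / 2) (h' : |α'| ≤ 1 / 2) (hu : u ∈ Icc (0 : ℝ) 1)
    (hu' : u' ∈ Icc (0 : ℝ) 1) : |psi α u - psi α' u'| ≤ 30 * (|α - α'| + |u - u'|) := by
  have h1 := abs_qf_le h hu
  have h1' := abs_qf_le h' hu'
  have h2 := half_le_den h h1
  have h2' := half_le_den h' h1'
  have h3 := cdf_colip h h1 h1'
  have h4 := cdf_lip α α' h1'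
  rw [cdf_qf h' hu'] at h4
  rw [cdf_qf h hu] at h3
  have h5 : |u - cdf α (qf α' u')| ≤ |u - u'| + |α - α'| := by
    have := abs_sub_le u u' (cdf α (qf α' u'))
    rw [abs_sub_comm u'] at this
    linarith
  unfold psi
  generalize qf α u = y at *
  generalize qf α' u' = y' at *
  have hp : 0 < 1 + α * y := by linarith
  have hp' : 0 < 1 + α' * y' := by linarith
  rw [div_sub_div _ _ hp.ne' hp'.ne', abs_div, abs_of_pos (mul_pos hp hp'),
    div_le_iff₀ (mul_pos hp hp')]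
  have e : y * (1 + α' * y') - (1 + α * y) * y' = (y - y') - y * y' * (α - α') := by ring
  rw [e]
  have h6 : |y * y' * (α - α')| ≤ |α - α'| := by
    rw [abs_mul, abs_mul]
    have := mul_le_one₀ h1 (abs_nonneg _) h1'
    nlinarith [abs_nonneg (α - α')]
  have h7 := abs_sub (y - y') (y * y' * (α - α'))
  have h8 : 1 / 4 ≤ (1 + α * y) * (1 + α' * y') := by nlinarith
  have h9 : 0 ≤ |α - α'| + |u - u'| := by positivity
  have h10 := abs_nonneg (u - u')
  nlinarith

lemma integral_cdf' (h : |α| ≤ 1 / 2) (φ : ℝ → ℝ) :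
    ∫ y in Icc (-1 : ℝ) 1, φ (cdf α y) * ((1 + α * y) / 2) = ∫ u : unitInterval, φ u := by
  have him : cdf α '' Icc (-1 : ℝ) 1 = Icc 0 1 := by
    ext u
    constructor
    · rintro ⟨y, hy, rfl⟩
      exact cdf_mem h (abs_le.2 hy)
    · intro hu
      exact ⟨qf α u, abs_le.1 (abs_qf_le h hu), cdf_qf h hu⟩
  have hd : ∀ y ∈ Icc (-1 : ℝ) 1, HasDerivWithinAt (cdf α) ((1 + α * y) / 2) (Icc (-1) 1) y := by
    intro y _
    have h1 : HasDerivAt (fun y : ℝ => (y + 1) / 2 + α * (y ^ 2 - 1) / 4)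
        (1 / 2 + α * (((2 : ℕ) : ℝ) * y ^ (2 - 1)) / 4) y :=
      (((hasDerivAt_id y).add_const 1).div_const 2).add
        ((((hasDerivAt_pow 2 y).sub_const 1).const_mul α).div_const 4)
    have h2 : HasDerivAt (cdf α) ((1 + α * y) / 2) y := by
      refine h1.congr_deriv ?_
      push_cast
      ring
    exact h2.hasDerivWithinAt
  have hinj : InjOn (cdf α) (Icc (-1 : ℝ) 1) := by
    intro y hy y' hy' e
    rw [← qf_cdf h (abs_le.2 hy), e, qf_cdf h (abs_le.2 hy')]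
  have h1 := integral_image_eq_integral_abs_deriv_smul measurableSet_Icc hd hinj φ
  rw [him] at h1
  have h2 : ∫ u : unitInterval, φ u = ∫ u in Icc (0 : ℝ) 1, φ u :=
    integral_subtype measurableSet_Icc φ
  rw [h2, h1]
  refine setIntegral_congr_fun measurableSet_Icc fun y hy => ?_
  have := half_le_den h (abs_le.2 hy)
  simp only [smul_eq_mul]
  rw [abs_of_nonneg (by linarith)]
  ring

lemma integral_qf' (h : |α| ≤ 1 / 2) (φ : ℝ → ℝ) :
    ∫ u : unitInterval, φ (qf α u) = ∫ y in Icc (-1 : ℝ) 1, φ y * ((1 + α * y) / 2) := by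
  rw [← integral_cdf' h fun u => φ (qf α u)]
  refine setIntegral_congr_fun measurableSet_Icc fun y hy => ?_
  simp only [qf_cdf h (abs_le.2 hy)]

lemma integral_Icc_eq (f : ℝ → ℝ) : ∫ y in Icc (-1 : ℝ) 1, f y = ∫ y in (-1 : ℝ)..1, f y := by
  rw [integral_Icc_eq_integral_Ioc, intervalIntegral.integral_of_le (by norm_num)]

lemma integral_qf (h : |α| ≤ 1 / 2) {φ : ℝ → ℝ} (hφ : Measurable φ) (b : Bool) :
    ∫ u : unitInterval, φ (sg b * qf α u) =
      ∫ y in Icc (-1 : ℝ) 1, φ y * ((1 + α * sg b * y) / 2) := by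
  have _ := hφ
  cases b
  · have h1 := integral_qf' h fun y => φ (-y)
    have h2 := intervalIntegral.integral_comp_neg (a := -1) (b := 1)
      fun y : ℝ => φ y * ((1 + α * -1 * y) / 2)
    simp only [sg, Bool.false_eq_true, if_false, neg_mul, one_mul]
    rw [h1, integral_Icc_eq, integral_Icc_eq]
    simp only [neg_neg] at h2
    rw [← h2]
    congr 1
    ext y
    ring
  · simpa [sg] using integral_qf' h φ

lemma integral_cdf (h : |α| ≤ 1 / 2) {φ : ℝ → ℝ} (hφ : Measurable φ) :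
    ∫ y in Icc (-1 : ℝ) 1, φ (cdf α y) * ((1 + α * y) / 2) = ∫ u : unitInterval, φ u := by
  have _ := hφ
  exact integral_cdf' h φ

lemma integral_psi (h : |α| ≤ 1 / 2) : ∫ u : unitInterval, psi α u = 0 := by
  have h1 := integral_qf' h fun y => y / (1 + α * y)
  unfold psi
  rw [h1, setIntegral_congr_fun (g := fun y => y * (1 / 2)) measurableSet_Icc, integral_Icc_eq]
  · simp
  · intro y hy
    have := half_le_den h (abs_le.2 hy)
    have h2 : 1 + α * y ≠ 0 := by linarith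
    simp only
    rw [div_mul_div_comm, mul_comm (1 + α * y) 2, mul_div_mul_right _ _ h2]
    ring

lemma integral_qf_sq (h : |α| ≤ 1 / 2) : ∫ u : unitInterval, qf α u ^ 2 = 1 / 3 := by
  have h1 := integral_qf' h fun y => y ^ 2
  rw [h1, integral_Icc_eq]
  have e : (fun y : ℝ => y ^ 2 * ((1 + α * y) / 2)) = fun y => 1 / 2 * y ^ 2 + α / 2 * y ^ 3 := by
    ext y; ring
  rw [e, intervalIntegral.integral_add, intervalIntegral.integral_const_mul,
    intervalIntegral.integral_const_mul, integral_pow, integral_pow]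
  · norm_num
  · exact Continuous.intervalIntegrable (by fun_prop) _ _
  · exact Continuous.intervalIntegrable (by fun_prop) _ _

end Vale.Agent.P161E
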