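import Vale.Agent.P161E.BP
import Vale.Agent.P161E.Quant

/-! The external field of a family of observations; measurability and symmetries of all objects.
For `Upto J I` the terms `artanh (dl i * obs I η (v, i))` are bounded by `2 * dl i`, vanish for
`i > J`, and are summable over `ℤ` (`sum_dl_le`, `summable_of_sum_le`), so the partial sums over
`Icc (-n) n` converge to the `tsum` (`tendsto_finset_Icc_neg`-type lemma) and `mid_eq` applies.
`tendsto_XI`: dominated convergence for series (`tendsto_tsum_of_dominated_convergence`).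
Measurability: `measurable_pi_lambda`, `Measurable.ite`, `measurable_mid`. -/

namespace Vale.Agent.P161E

open MeasureTheory Filter Finset Function

variable {d : ℕ} {θ : ℝ} {J j : ℤ} {I I' : Set (Ix d)}

lemma fld_abs_dl (i : ℤ) : |dl i| ≤ 1 / 2 := by
  rw [abs_of_pos (dl_pos i)]
  exact dl_le i

lemma meas_comap_of {α β γ : Type*} {mα : MeasurableSpace α} [mγ : MeasurableSpace γ]
    {g : α → β} {f : β → γ} (h : Measurable[mα, mγ] fun x => f (g x)) :
    Measurable[mα, MeasurableSpace.comap f mγ] g := by
  rintro s ⟨t, ht, rfl⟩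
  exact h ht

lemma comap_le_of {α β γ : Type*} [mβ : MeasurableSpace β] [mγ : MeasurableSpace γ]
    {g : α → β} {f : α → γ} {F : γ → β} (hF : Measurable F) (h : ∀ x, g x = F (f x)) :
    MeasurableSpace.comap g mβ ≤ MeasurableSpace.comap f mγ := by
  rintro s ⟨t, ht, rfl⟩
  exact ⟨F ⁻¹' t, hF ht, by ext x; simp [h]⟩

lemma abs_YY_le (a : Ix d) (η : O1 d) : |YY a η| ≤ 1 := by
  rw [YY, abs_mul, abs_sg, one_mul]
  exact abs_qf_le (fld_abs_dl _) (η.2 a).2

lemma abs_obs_le (I : Set (Ix d)) (η : O1 d) (a : Ix d) : |obs I η a| ≤ 1 := by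
  unfold obs
  split_ifs
  · exact abs_YY_le a η
  · simp

lemma measurable_YY (a : Ix d) : Measurable (YY a) := by
  unfold YY
  refine Measurable.mul ((measurable_of_countable sg).comp
    ((measurable_pi_apply a.1).comp measurable_fst)) ?_
  exact measurable_qf.comp (measurable_const.prodMk
    (measurable_subtype_coe.comp ((measurable_pi_apply a).comp measurable_snd)))

lemma measurable_obs (I : Set (Ix d)) : Measurable (obs I) := by
  refine measurable_pi_lambda _ fun a => ?_
  unfold obs
  split_ifs
  · exact measurable_YY a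
  · exact measurable_const

lemma measurable_fld : Measurable (fld : (Ix d → ℝ) → V d → ℝ) := by
  refine measurable_pi_lambda _ fun v => measurable_mid fun n => ?_
  exact Finset.measurable_fun_sum _ fun i _ =>
    measurable_artanh.comp (measurable_const.mul (measurable_pi_apply _))

lemma measurable_XI (I : Set (Ix d)) : Measurable (XI I) := measurable_fld.comp (measurable_obs I)

lemma FI_le (I : Set (Ix d)) : FI I ≤ (inferInstance : MeasurableSpace (O1 d)) :=
  (measurable_obs I).comap_le

lemma FI_mono (h : I ⊆ I') : FI I ≤ FI I' := by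
  classical
  refine comap_le_of (F := fun y a => if a ∈ I then y a else 0) ?_ fun η => ?_
  · refine measurable_pi_lambda _ fun a => ?_
    split_ifs
    · exact measurable_pi_apply a
    · exact measurable_const
  · funext a
    by_cases ha : a ∈ I
    · simp [obs, ha, h ha]
    · simp [obs, ha]

lemma measurable_XI_FI (I : Set (Ix d)) : Measurable[FI I] (XI I) :=
  measurable_fld.comp (comap_measurable _)

lemma measurable_YY_FI {a : Ix d} (h : a ∈ I) : Measurable[FI I] (YY a) := by
  have : YY a = fun η => obs I η a := by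
    funext η
    simp [obs, h]
  rw [this]
  exact (measurable_pi_apply a).comp (comap_measurable (obs I))

lemma iSup_FI {In : ℕ → Set (Ix d)} (hm : Monotone In) : ⨆ n, FI (In n) = FI (⋃ n, In n) := by
  refine le_antisymm (iSup_le fun n => FI_mono (Set.subset_iUnion In n)) ?_
  refine Measurable.comap_le ?_
  refine @measurable_pi_lambda _ _ _ (_) _ _ fun a => ?_
  unfold obs
  split_ifs with ha
  · obtain ⟨n, hn⟩ := Set.mem_iUnion.1 ha
    exact (measurable_YY_FI hn).mono (le_iSup (fun n => FI (In n)) n) le_rfl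
  · exact measurable_const

lemma obs_congr {a : Ix d} (h : a ∈ I ↔ a ∈ I') (η : O1 d) : obs I η a = obs I' η a := by
  by_cases ha : a ∈ I
  · simp [obs, ha, h.1 ha]
  · simp [obs, ha, mt h.2 ha]

lemma obs_insert (a : Ix d) (η : O1 d) : obs (insert a I) η = update (obs I η) a (YY a η) := by
  funext b
  by_cases hb : b = a
  · subst hb
    simp [obs]
  · rw [update_of_ne hb]
    exact obs_congr (by simp [hb]) η

lemma obs_update {a : Ix d} (h : a ∉ I) (η : O1 d) (u : unitInterval) :
    obs I (η.1, update η.2 a u) = obs I η := by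
  funext b
  by_cases hb : b ∈ I
  · have : b ≠ a := fun e => h (e ▸ hb)
    simp [obs, YY, hb, this]
  · simp [obs, hb]

/-- An `FI I`-measurable function does not depend on the noise of an index outside `I`. -/
lemma FI_update {a : Ix d} (h : a ∉ I) {f : O1 d → ℝ} (hf : Measurable[FI I] f) (η : O1 d)
    (u : unitInterval) : f (η.1, update η.2 a u) = f η := hf.factorsThrough (obs_update h η u)

lemma abs_term_le (h : Upto J I) (η : O1 d) (v : V d) (i : ℤ) :
    |Real.artanh (dl i * obs I η (v, i))| ≤ if i ≤ J then 2 * dl i else 0 := by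
  have h1 : |dl i * obs I η (v, i)| ≤ dl i := by
    rw [abs_mul, abs_of_pos (dl_pos i)]
    exact mul_le_of_le_one_right (dl_pos i).le (abs_obs_le _ _ _)
  split_ifs with hi
  · exact (abs_artanh_le (h1.trans (dl_le i))).trans (by linarith)
  · have : (v, i) ∉ I := fun e => hi (h _ e)
    simp [obs, this]

lemma sum_bound_le (J : ℤ) (s : Finset ℤ) :
    ∑ i ∈ s, (if i ≤ J then 2 * dl i else 0) ≤ BB J := by
  rw [← sum_filter]
  exact sum_dl_le J _ fun i hi => (mem_filter.1 hi).2

lemma summable_bound (J : ℤ) : Summable fun i : ℤ => if i ≤ J then 2 * dl i else 0 := by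
  refine summable_of_sum_le (fun i => ?_) (sum_bound_le J)
  have := dl_pos i
  simp only [Pi.zero_apply]
  split_ifs
  · positivity
  · exact le_rfl

lemma tendsto_Icc_int : Tendsto (fun n : ℕ => Icc (-(n : ℤ)) n) atTop atTop := by
  refine tendsto_atTop_finset_of_monotone (fun m n h => ?_) fun x => ⟨x.natAbs, ?_⟩
  · exact Icc_subset_Icc (by omega) (by omega)
  · rw [mem_Icc]
    omega

lemma tendsto_Icc_sum {f : ℤ → ℝ} (h : Summable f) :
    Tendsto (fun n : ℕ => ∑ i ∈ Icc (-(n : ℤ)) n, f i) atTop (nhds (∑' i, f i)) := by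
  have h1 : Tendsto (fun s : Finset ℤ => ∑ i ∈ s, f i) atTop (nhds (∑' i, f i)) := h.hasSum
  exact h1.comp tendsto_Icc_int

lemma summable_obs (h : Upto J I) (η : O1 d) (v : V d) :
    Summable fun i : ℤ => Real.artanh (dl i * obs I η (v, i)) :=
  Summable.of_norm_bounded (summable_bound J) (abs_term_le h η v)

lemma XI_eq_tsum (h : Upto J I) (η : O1 d) (v : V d) :
    XI I η v = ∑' i : ℤ, Real.artanh (dl i * obs I η (v, i)) :=
  mid_eq (tendsto_Icc_sum (summable_obs h η v))

lemma tendsto_partial (h : Upto J I) (η : O1 d) (v : V d) :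
    Tendsto (fun n : ℕ => ∑ i ∈ Icc (-(n : ℤ)) n, Real.artanh (dl i * obs I η (v, i))) atTop
      (nhds (XI I η v)) := by
  rw [XI_eq_tsum h]
  exact tendsto_Icc_sum (summable_obs h η v)

lemma abs_XI_le (h : Upto J I) (η : O1 d) (v : V d) : |XI I η v| ≤ BB J :=
  abs_mid_le fun _ => (abs_sum_le_sum_abs _ _).trans
    ((sum_le_sum fun i _ => abs_term_le h η v i).trans (sum_bound_le J _))

lemma XI_finset (A : Finset (Ix d)) (η : O1 d) (v : V d) :
    XI (A : Set (Ix d)) η v =
      ∑ a ∈ A.filter (fun a => a.1 = v), Real.artanh (dl a.2 * YY a η) := by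
  classical
  obtain ⟨J, hJ⟩ := (A.image Prod.snd).bddAbove
  have hU : Upto J (A : Set (Ix d)) := fun a ha => hJ (mem_coe.2 (mem_image_of_mem _ ha))
  rw [XI_eq_tsum hU, tsum_eq_sum (s := (A.filter (fun a => a.1 = v)).image Prod.snd), sum_image]
  · refine sum_congr rfl fun a ha => ?_
    obtain ⟨ha1, rfl⟩ := mem_filter.1 ha
    simp [obs, ha1]
  · intro a ha b hb e
    exact Prod.ext ((mem_filter.1 ha).2.trans (mem_filter.1 hb).2.symm) e
  · intro i hi
    have : (v, i) ∉ A := fun e => hi (mem_image.2 ⟨(v, i), mem_filter.2 ⟨e, rfl⟩, rfl⟩)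
    simp [obs, this]

lemma tendsto_XI {In : ℕ → Set (Ix d)} (hm : Monotone In) (h : Upto J (⋃ n, In n)) (η : O1 d) :
    Tendsto (fun n => XI (In n) η) atTop (nhds (XI (⋃ n, In n) η)) := by
  have hn : ∀ n, Upto J (In n) := fun n a ha => h a (Set.subset_iUnion In n ha)
  refine tendsto_pi_nhds.2 fun v => ?_
  simp only [XI_eq_tsum (hn _), XI_eq_tsum h]
  refine tendsto_tsum_of_dominated_convergence (summable_bound J) (fun i => ?_)
    (Eventually.of_forall fun n i => abs_term_le (hn n) η v i)
  by_cases hi : (v, i) ∈ ⋃ n, In n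
  · obtain ⟨m, hm'⟩ := Set.mem_iUnion.1 hi
    refine tendsto_const_nhds.congr' ?_
    filter_upwards [eventually_ge_atTop m] with n hmn
    simp only [obs, if_pos hi, if_pos (hm hmn hm')]
  · refine tendsto_const_nhds.congr fun n => ?_
    have : (v, i) ∉ In n := fun e => hi (Set.subset_iUnion In n e)
    simp only [obs, if_neg hi, if_neg this]

/-- Restricting the observations to a set of vertices restricts the field. -/
lemma XI_inter (S : Set (V d)) (η : O1 d) (v : V d) :
    XI (I ∩ {a | a.1 ∈ S}) η v = S.indicator (XI I η) v := by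
  by_cases hv : v ∈ S
  · rw [Set.indicator_of_mem hv]
    have : ∀ i : ℤ, obs (I ∩ {a | a.1 ∈ S}) η (v, i) = obs I η (v, i) := fun i =>
      obs_congr (by simp [hv]) η
    simp only [XI, fld, this]
  · rw [Set.indicator_of_notMem hv]
    simp only [XI, fld, obs, Set.mem_inter_iff, Set.mem_ofPred_eq, hv, and_false, if_false,
      mul_zero, Real.artanh_zero, sum_const_zero]
    exact mid_eq tendsto_const_nhds

lemma XI_pb1 (g : tree d ≃g tree d) (η : O1 d) (v : V d) :
    XI {a | (g a.1, a.2) ∈ I} (pb1 g η) v = XI I η (g v) := rfl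

lemma upto_idx (cut : V d → ℝ) (τ : T d) : Upto j (idx j cut τ) := by
  rintro a (h | h)
  · exact h.1.le
  · exact h.1.le

lemma idx_mono {cut cut' : V d → ℝ} (h : cut ≤ cut') (τ : T d) : idx j cut τ ⊆ idx j cut' τ := by
  rintro a (ha | ha)
  · exact Or.inl ha
  · exact Or.inr ⟨ha.1, ha.2.trans_le (h _)⟩

lemma idx_half (τ : T d) : idx j (fun _ => 1 / 2) τ = idx (j + 1) (fun _ => 0) τ := by
  ext a
  have := (τ a).2.1
  simp only [idx, Set.mem_ofPred_eq]
  constructor
  · rintro (h | h)
    · exact Or.inl ⟨by omega, h.2⟩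
    · exact Or.inl ⟨by omega, h.2⟩
  · rintro (h | h)
    · rcases lt_or_eq_of_le (Int.lt_add_one_iff.1 h.1) with e | e
      · exact Or.inl ⟨e, h.2⟩
      · exact Or.inr ⟨e, h.2⟩
    · exact absurd h.2 (not_lt.2 this)

lemma abs_Xc_le (cut : V d → ℝ) (ω : Om d) (v : V d) : |Xc j cut ω v| ≤ BB j :=
  abs_XI_le (upto_idx cut ω.1) ω.2 v

lemma measurableSet_idx {α : Type*} [MeasurableSpace α] {c : α → V d → ℝ}
    (hc : ∀ v, Measurable fun p => c p v) {τ : α → T d} (hτ : Measurable τ) (a : Ix d) :
    MeasurableSet {p | a ∈ idx j (c p) (τ p)} := by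
  have h1 : Measurable fun p => (τ p a : ℝ) :=
    measurable_subtype_coe.comp ((measurable_pi_apply a).comp hτ)
  exact ((MeasurableSet.const _).inter (measurableSet_lt h1 measurable_const)).union
    ((MeasurableSet.const _).inter (measurableSet_lt h1 (hc _)))

lemma measurable_Xc_gen {α : Type*} [MeasurableSpace α] {c : α → V d → ℝ}
    (hc : ∀ v, Measurable fun p => c p v) {w : α → Om d} (hw : Measurable w) :
    Measurable fun p => Xc j (c p) (w p) := by
  refine measurable_fld.comp (measurable_pi_lambda _ fun a => ?_)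
  exact Measurable.ite (measurableSet_idx hc hw.fst a) ((measurable_YY a).comp hw.snd)
    measurable_const

lemma measurable_Xc (cut : V d → ℝ) : Measurable (Xc j cut) :=
  measurable_Xc_gen (c := fun _ => cut) (fun _ => measurable_const) measurable_id

lemma measurable_Xc_time : Measurable fun p : ℝ × Om d => Xc j (fun _ => p.1) p.2 :=
  measurable_Xc_gen (fun _ => measurable_fst) measurable_snd

lemma measurable_UU : Measurable (UU (d := d) θ) := by
  refine measurable_pi_lambda _ fun a => ?_
  have h1 : Measurable fun ω : Om d => (ω.1 a : ℝ) :=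
    measurable_subtype_coe.comp ((measurable_pi_apply a).comp measurable_fst)
  refine Measurable.ite (measurableSet_lt h1 measurable_const) ?_
    ((measurable_pi_apply a).comp measurable_snd.snd)
  refine continuous_projIcc.measurable.comp (continuous_cdf.measurable.comp
    (Measurable.prodMk (measurable_const.mul ?_) ((measurable_YY a).comp measurable_snd)))
  exact (measurable_mag a.1).comp (measurable_Xc_gen (fun _ => h1) measurable_id)

lemma measurable_Th (t : ℝ) : Measurable (Th (d := d) θ j t) := by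
  refine measurable_pi_lambda _ fun a => ?_
  exact Measurable.ite (measurableSet_idx (c := fun _ _ => t) (fun _ => measurable_const)
    measurable_fst a) (((measurable_pi_apply a).comp measurable_fst).prodMk
      ((measurable_pi_apply a).comp measurable_UU)) measurable_const

lemma GG_le (t : ℝ) : GG (d := d) θ j t ≤ (inferInstance : MeasurableSpace (Om d)) :=
  (measurable_Th t).comap_le

lemma GG_mono {t t' : ℝ} (h : t ≤ t') : GG (d := d) θ j t ≤ GG θ j t' := by
  classical
  refine comap_le_of (F := fun y a => if a ∈ idx j (fun _ => t) (fun b => (y b).1) then y a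
    else (1, 0)) ?_ fun ω => ?_
  · refine measurable_pi_lambda _ fun a => ?_
    exact Measurable.ite (measurableSet_idx (c := fun _ _ => t) (fun _ => measurable_const)
      (measurable_pi_lambda _ fun b => (measurable_pi_apply b).fst) a) (measurable_pi_apply a)
      measurable_const
  · funext a
    by_cases ha' : a ∈ idx j (fun _ => t') ω.1
    · have e : Th θ j t' ω a = (ω.1 a, UU θ ω a) := if_pos ha'
      have e2 : a ∈ idx j (fun _ => t) (fun b => (Th θ j t' ω b).1) ↔
          a ∈ idx j (fun _ => t) ω.1 := by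
        simp only [idx, Set.mem_ofPred_eq, e]
      simp only [e2, e]
      rfl
    · have e : Th θ j t' ω a = (1, 0) := if_neg ha'
      have ha : a ∉ idx j (fun _ => t) ω.1 := fun e => ha' (idx_mono (fun _ => h) _ e)
      simp only [e, ite_self]
      exact if_neg ha

lemma Th_half : Th (d := d) θ j (1 / 2) = Th θ (j + 1) 0 := by
  funext ω a
  unfold Th
  rw [idx_half]

lemma Xc_half : Xc (d := d) j (fun _ => 1 / 2) = Xc (j + 1) (fun _ => 0) := by
  funext ω
  simp only [Xc, idx_half]

lemma GG_half : GG (d := d) θ j (1 / 2) = GG θ (j + 1) 0 := by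
  simp only [GG, Th_half]

lemma DD_half : DD d θ j (1 / 2) = DD d θ (j + 1) 0 := by
  simp only [DD, GG_half, Xc_half]

lemma GG_le_lab (t : ℝ) : GG (d := d) θ j t ≤
    MeasurableSpace.comap (fun ω : Om d => (ω.1, UU θ ω)) inferInstance := by
  classical
  refine comap_le_of (F := fun (p : T d × T d) a => if a ∈ idx j (fun _ => t) p.1 then
    (p.1 a, p.2 a) else (1, 0)) ?_ fun ω => rfl
  refine measurable_pi_lambda _ fun a => ?_
  exact Measurable.ite (measurableSet_idx (c := fun _ _ => t) (fun _ => measurable_const)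
    measurable_fst a) (((measurable_pi_apply a).comp measurable_fst).prodMk
      ((measurable_pi_apply a).comp measurable_snd)) measurable_const

lemma measurable_pbT {α : Type} [MeasurableSpace α] (g : tree d ≃g tree d) :
    Measurable (pbT (α := α) g) := measurable_pi_lambda _ fun _ => measurable_pi_apply _

lemma measurable_pb1 (g : tree d ≃g tree d) : Measurable (pb1 g) :=
  (measurable_pi_lambda _ fun _ => (measurable_pi_apply _).comp measurable_fst).prodMk
    ((measurable_pbT g).comp measurable_snd)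

lemma measurable_pb (g : tree d ≃g tree d) : Measurable (pb g) :=
  ((measurable_pbT g).comp measurable_fst).prodMk ((measurable_pb1 g).comp measurable_snd)

lemma measurable_flip : Measurable (flip (d := d)) :=
  measurable_fst.prodMk ((measurable_pi_lambda _ fun v => (measurable_of_countable not).comp
    ((measurable_pi_apply v).comp measurable_snd.fst)).prodMk measurable_snd.snd)

lemma Xc_pb (g : tree d ≃g tree d) (t : ℝ) (ω : Om d) :
    Xc j (fun _ => t) (pb g ω) = fun v => Xc j (fun _ => t) ω (g v) := rfl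

lemma UU_pb (g : tree d ≃g tree d) (ω : Om d) : UU θ (pb g ω) = pbT g (UU θ ω) := by
  funext a
  simp only [UU, Xc_pb, mag_aut]
  rfl

lemma Th_pb (g : tree d ≃g tree d) (t : ℝ) (ω : Om d) :
    Th θ j t (pb g ω) = pbT g (Th θ j t ω) := by
  funext a
  simp only [Th, UU_pb]
  rfl

lemma YY_flip (a : Ix d) (ω : Om d) : YY a (flip ω).2 = -YY a ω.2 := by
  simp [YY, flip, sg_not]

lemma Xc_flip (cut : V d → ℝ) (ω : Om d) : Xc j cut (flip ω) = fun v => -Xc j cut ω v := by
  funext v
  have : ∀ a, obs (idx j cut (flip ω).1) (flip ω).2 a = -obs (idx j cut ω.1) ω.2 a := by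
    intro a
    change obs (idx j cut ω.1) (flip ω).2 a = _
    simp only [obs, YY_flip]
    split_ifs <;> simp
  simp only [Xc, XI, fld, this, mul_neg, artanh_neg', sum_neg_distrib, mid_neg]

lemma GG_pb (g : tree d ≃g tree d) (t : ℝ) : Measurable[GG θ j t, GG θ j t] (pb g) := by
  refine meas_comap_of ?_
  simp only [Th_pb]
  exact (measurable_pbT g).comp (comap_measurable _)

lemma time_lt {t : ℝ} (ht : t ≤ 1 / 2) {τ : T d} {a : Ix d} (ha : a ∈ idx j (fun _ => t) τ) :
    (τ a : ℝ) < 1 / 2 := by
  rcases ha with h | h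
  · exact h.2
  · exact h.2.trans_le ht

lemma UU_flip (ω : Om d) {a : Ix d} (ha : (ω.1 a : ℝ) < 1 / 2) :
    UU θ (flip ω) a = unitInterval.symm (UU θ ω a) := by
  have ha' : ((flip ω).1 a : ℝ) < 1 / 2 := ha
  unfold UU
  rw [if_pos ha, if_pos ha', unitInterval.symm_projIcc, ← cdf_neg, YY_flip, Xc_flip, mag_neg,
    mul_neg]
  rfl

lemma idx_sub {t : ℝ} (ht : t ≤ 1 / 2) {τ : T d} {a : Ix d} (ha : a ∈ idx j (fun _ => t) τ) :
    idx a.2 (fun _ => (τ a : ℝ)) τ ⊆ idx j (fun _ => t) τ := by
  have h0 := time_lt ht ha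
  rintro b (hb | hb)
  · exact Or.inl ⟨hb.1.trans_le (upto_idx _ _ a ha), hb.2⟩
  · rcases ha with h | h
    · exact Or.inl ⟨hb.1 ▸ h.1, hb.2.trans h0⟩
    · exact Or.inr ⟨hb.1.trans h.1, hb.2.trans h.2⟩

/-- Under the flip an active innovation `u` becomes `1 - u` (`cdf_neg`, `unitInterval.symm`). -/
lemma GG_flip {t : ℝ} (ht : t ≤ 1 / 2) : Measurable[GG θ j t, GG θ j t] (flip (d := d)) := by
  refine meas_comap_of ?_
  have e : (fun ω : Om d => Th θ j t (flip ω)) = (fun (y : Ix d → unitInterval × unitInterval) a =>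
      if ((y a).1 : ℝ) < 1 / 2 then ((y a).1, unitInterval.symm (y a).2) else (1, 0)) ∘
        Th θ j t := by
    funext ω a
    by_cases ha : a ∈ idx j (fun _ => t) ω.1
    · have e1 : Th θ j t ω a = (ω.1 a, UU θ ω a) := if_pos ha
      have e2 : Th θ j t (flip ω) a = (ω.1 a, UU θ (flip ω) a) := if_pos ha
      simp only [comp_apply, e1, e2, if_pos (time_lt ht ha), UU_flip ω (time_lt ht ha)]
    · have e1 : Th θ j t ω a = (1, 0) := if_neg ha
      have e2 : Th θ j t (flip ω) a = (1, 0) := if_neg ha
      simp only [comp_apply, e1, e2]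
      rw [if_neg (by norm_num)]
  rw [e]
  refine Measurable.comp (measurable_pi_lambda _ fun a => ?_) (comap_measurable _)
  exact Measurable.ite (measurableSet_lt (measurable_subtype_coe.comp (measurable_pi_apply a).fst)
    measurable_const) ((measurable_pi_apply a).fst.prodMk
      (unitInterval.continuous_symm.measurable.comp (measurable_pi_apply a).snd)) measurable_const

/-- For fixed times the revealed innovations are functions of the revealed observations. -/
lemma GG_section {t : ℝ} (ht : t ≤ 1 / 2) {f : Om d → ℝ} (hf : Measurable[GG θ j t] f) (τ : T d) :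
    Measurable[FI (idx j (fun _ => t) τ)] fun η => f (τ, η) := by
  refine hf.comp (meas_comap_of ?_)
  refine @measurable_pi_lambda _ _ _ (_) _ _ fun a => ?_
  by_cases ha : a ∈ idx j (fun _ => t) τ
  · have e : (fun η : O1 d => Th θ j t (τ, η) a) = fun η => (τ a, Set.projIcc 0 1 zero_le_one
        (cdf (dl a.2 * mag θ (XI (idx a.2 (fun _ => (τ a : ℝ)) τ) η) a.1) (YY a η))) := by
      funext η
      have e1 : Th θ j t (τ, η) a = (τ a, UU θ (τ, η) a) := if_pos ha
      rw [e1]
      congr 1
      exact if_pos (time_lt ht ha)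
    rw [e]
    refine measurable_const.prodMk (continuous_projIcc.measurable.comp
      (continuous_cdf.measurable.comp (Measurable.prodMk (measurable_const.mul ?_)
        (measurable_YY_FI ha))))
    exact (measurable_mag a.1).comp ((measurable_XI_FI _).mono (FI_mono (idx_sub ht ha)) le_rfl)
  · have e : (fun η : O1 d => Th θ j t (τ, η) a) = fun _ => (1, 0) := by
      funext η
      exact if_neg ha
    rw [e]
    exact measurable_const

lemma not_mem_idx {cut : V d → ℝ} {w : V d} {τ : T d} (h : cut w ≤ τ (w, j)) :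
    (w, j) ∉ idx j cut τ := by
  rintro (e | e)
  · exact lt_irrefl _ e.1
  · exact absurd e.2 (not_lt.2 h)

lemma idx_update' {i : ℤ} {cut : V d → ℝ} {b : Ix d} (τ : T d) {u : unitInterval}
    (h : b ∉ idx i cut τ) (hu : b ∉ idx i cut (update τ b u)) :
    idx i cut (update τ b u) = idx i cut τ := by
  ext a
  by_cases ha : a = b
  · subst ha
    exact iff_of_false hu h
  · simp only [idx, Set.mem_ofPred_eq, update_of_ne ha]

/-- Moving a time that is not yet reached changes nothing. -/
lemma idx_update {cut : V d → ℝ} {w : V d} (τ : T d) {u : unitInterval}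
    (h : cut w ≤ τ (w, j)) (hu : cut w ≤ u) : idx j cut (update τ (w, j) u) = idx j cut τ :=
  idx_update' τ (not_mem_idx h) (not_mem_idx (by rwa [update_self]))

lemma GG_update {t : ℝ} (ht : t ≤ 1 / 2) {f : Om d → ℝ} (hf : Measurable[GG θ j t] f) {w : V d}
    (ω : Om d) {u : unitInterval} (h : t ≤ ω.1 (w, j)) (hu : t ≤ u) :
    f (update ω.1 (w, j) u, ω.2) = f ω := by
  refine hf.factorsThrough ?_
  have e0 := idx_update (cut := fun _ => t) ω.1 h hu
  funext a
  by_cases ha : a ∈ idx j (fun _ => t) ω.1
  · have ha' : a ∈ idx j (fun _ => t) (update ω.1 (w, j) u) := e0 ▸ ha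
    have hn : (w, j) ∉ idx j (fun _ => t) ω.1 := not_mem_idx h
    have hne : a ≠ (w, j) := fun e => hn (e ▸ ha)
    have e1 : Th θ j t ω a = (ω.1 a, UU θ ω a) := if_pos ha
    have e2 : Th θ j t (update ω.1 (w, j) u, ω.2) a =
        (update ω.1 (w, j) u a, UU θ (update ω.1 (w, j) u, ω.2) a) := if_pos ha'
    have e3 : idx a.2 (fun _ => (ω.1 a : ℝ)) (update ω.1 (w, j) u) =
        idx a.2 (fun _ => (ω.1 a : ℝ)) ω.1 := by
      refine idx_update' _ (fun e => hn (idx_sub ht ha e)) fun e => ?_
      have h2 := idx_sub ht ha'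
      rw [update_of_ne hne, e0] at h2
      exact hn (h2 e)
    rw [e1, e2]
    simp only [UU, Xc, update_of_ne hne, e3]
  · have ha' : a ∉ idx j (fun _ => t) (update ω.1 (w, j) u) := e0 ▸ ha
    have e1 : Th θ j t ω a = (1, 0) := if_neg ha
    have e2 : Th θ j t (update ω.1 (w, j) u, ω.2) a = (1, 0) := if_neg ha'
    rw [e1, e2]

end Vale.Agent.P161E
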