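import Vale.Agent.P161E.Jump

/-! The innovations are i.i.d. uniform and independent of the times.
`innov_box`: induction on `S.card`.  If some `a ∈ S` has `τ a ≥ 1/2` then `UU a` is the raw noise
`η.2 a`, and no other `UU b` depends on it (`obs_update`; `a` is in no `idx`): use `lraw`.  Otherwise
let `a` be maximal in `S` for the lexicographic order on `(a.2, τ a)`; by injectivity all other
`b ∈ S` lie in `Ia = idx a.2 (fun _ => τ a) τ` and `idx b.2 (fun _ => τ b) τ ⊆ Ia`, so `UU b` is
`FI Ia`-measurable; use `innov_test` (with `cdf_mem`, the `projIcc` is the identity).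
`ae_inj`: two different coordinates of `iid` agree with probability zero; countably many pairs.
`law_lab`: for a.e. `τ` the law of `η ↦ UU θ (τ, η)` is `iid` (`Measure.eq_infinitePi`); then compare
on rectangles (`Measure.prod_eq`) using Fubini (`Measure.prod_apply`). -/

namespace Vale.Agent.P161E

open MeasureTheory Set

variable {d : ℕ} {θ : ℝ}

lemma ae_inj : ∀ᵐ τ ∂iid (Ix d), Function.Injective τ := by
  have key : ∀ a b : Ix d, ∀ᵐ τ ∂iid (Ix d), τ a = τ b → a = b := by
    intro a b
    by_cases hab : a = b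
    · exact ae_of_all _ fun _ _ => hab
    · have hm : (iid (Ix d)).map (fun τ => (τ a, τ b)) = (volume : Measure unitInterval).prod volume :=
        Measure.infinitePi_map_eval_prod (P := fun _ : Ix d => (volume : Measure unitInterval)) hab
      have hs : MeasurableSet {p : unitInterval × unitInterval | p.1 = p.2} :=
        measurableSet_eq_fun measurable_fst measurable_snd
      have h0 : ((volume : Measure unitInterval).prod volume) {p | p.1 = p.2} = 0 := by
        rw [Measure.prod_apply hs]
        have : ∀ x : unitInterval, Prod.mk x ⁻¹' {p : unitInterval × unitInterval | p.1 = p.2} =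
            {x} := by
          intro x; ext y; simp [eq_comm]
        simp [this]
      rw [← hm, Measure.map_apply (by fun_prop) hs] at h0
      have h1 : ∀ᵐ τ ∂iid (Ix d), τ a ≠ τ b := by
        rw [ae_iff]
        simpa using h0
      filter_upwards [h1] with τ h2 h3 using absurd h3 h2
  have := ae_all_iff.2 fun a => ae_all_iff.2 fun b => key a b
  filter_upwards [this] with τ h a b using h a b

lemma measurable_UU_sec (τ : T d) (a : Ix d) : Measurable fun η : O1 d => UU θ (τ, η) a :=
  (measurable_pi_apply a).comp (measurable_UU.comp measurable_prodMk_left)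

lemma UU_update {τ : T d} {a b : Ix d} (ha : ¬ (τ a : ℝ) < 1 / 2) (hb : b ≠ a) (η : O1 d)
    (u : unitInterval) : UU θ (τ, (η.1, Function.update η.2 a u)) b = UU θ (τ, η) b := by
  unfold UU
  by_cases h : (τ b : ℝ) < 1 / 2
  · have hI : a ∉ idx b.2 (fun _ => (τ b : ℝ)) τ := by
      rintro (h1 | h1)
      · exact ha h1.2
      · exact ha (h1.2.trans h)
    simp only [h, if_true, Xc, XI, obs_update hI, YY, Function.update_of_ne hb]
  · simp only [h, if_false, Function.update_of_ne hb]

lemma UU_FI {τ : T d} {b : Ix d} {I : Set (Ix d)} (hb : (τ b : ℝ) < 1 / 2) (h1 : b ∈ I)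
    (h2 : idx b.2 (fun _ => (τ b : ℝ)) τ ⊆ I) : Measurable[FI I] fun η : O1 d => UU θ (τ, η) b := by
  unfold UU
  simp only [hb, if_true, Xc]
  have m1 : Measurable[FI I] (XI (idx b.2 (fun _ => (τ b : ℝ)) τ)) :=
    (measurable_XI_FI _).mono (FI_mono h2) le_rfl
  have m2 : Measurable[FI I] (YY b) := measurable_YY_FI h1
  have m3 : Measurable[FI I] fun η => dl b.2 * mag θ (XI (idx b.2 (fun _ => (τ b : ℝ)) τ) η) b.1 :=
    ((measurable_mag b.1).comp m1).const_mul _
  exact continuous_projIcc.measurable.comp (continuous_cdf.measurable.comp (m3.prodMk m2))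

lemma BM_ind {Ω α : Type} {m : MeasurableSpace Ω} [MeasurableSpace α] {s : Set α}
    (hs : MeasurableSet s) {f : Ω → α} (hf : Measurable[m] f) :
    BM m fun ω => s.indicator (1 : α → ℝ) (f ω) :=
  ⟨(measurable_one.indicator hs).comp hf, 1, fun ω => by
    by_cases h : f ω ∈ s <;> simp [h]⟩

lemma BM_prod {Ω ι : Type} {m : MeasurableSpace Ω} (s : Finset ι) {F : ι → Ω → ℝ}
    (h : ∀ i ∈ s, BM m (F i)) : BM m fun ω => ∏ i ∈ s, F i ω := by
  classical
  induction s using Finset.induction_on with
  | empty => simpa using BM.const (G := m) 1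
  | insert a s ha ih =>
    simp only [Finset.prod_insert ha]
    exact (h a (Finset.mem_insert_self _ _)).mul
      (ih fun i hi => h i (Finset.mem_insert_of_mem hi))

lemma innov_int (h : Hyp d θ) {τ : T d} (hτ : Function.Injective τ)
    {t : Ix d → Set unitInterval} (ht : ∀ a, MeasurableSet (t a)) (S : Finset (Ix d)) :
    ∫ η, ∏ a ∈ S, (t a).indicator (1 : unitInterval → ℝ) (UU θ (τ, η) a) ∂P1 d θ =
      ∏ a ∈ S, volume.real (t a) := by
  classical
  induction S using Finset.strongInduction with
  | H S ih =>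
  rcases S.eq_empty_or_nonempty with rfl | hne
  · simp
  have step : ∀ a ∈ S, ∫ η, (t a).indicator (1 : unitInterval → ℝ) (UU θ (τ, η) a) *
      ∏ b ∈ S.erase a, (t b).indicator (1 : unitInterval → ℝ) (UU θ (τ, η) b) ∂P1 d θ =
      volume.real (t a) * ∫ η, ∏ b ∈ S.erase a,
        (t b).indicator (1 : unitInterval → ℝ) (UU θ (τ, η) b) ∂P1 d θ →
      ∫ η, ∏ a ∈ S, (t a).indicator (1 : unitInterval → ℝ) (UU θ (τ, η) a) ∂P1 d θ =
      ∏ a ∈ S, volume.real (t a) := by
    intro a ha e
    rw [ih _ (Finset.erase_ssubset ha), Finset.mul_prod_erase S (fun a => volume.real (t a)) ha] at e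
    rw [← e]
    congr 1
    ext η
    exact (Finset.mul_prod_erase S
      (fun b => (t b).indicator (1 : unitInterval → ℝ) (UU θ (τ, η) b)) ha).symm
  by_cases hc : ∃ a ∈ S, ¬ (τ a : ℝ) < 1 / 2
  · obtain ⟨a, ha, hτa⟩ := hc
    refine step a ha ?_
    have hB : BM inferInstance fun p : unitInterval × O1 d => (t a).indicator (1 : unitInterval → ℝ) p.1 *
        ∏ b ∈ S.erase a, (t b).indicator (1 : unitInterval → ℝ) (UU θ (τ, p.2) b) :=
      (BM_ind (ht a) measurable_fst).mul (BM_prod _ fun b _ =>
        BM_ind (ht b) ((measurable_UU_sec τ b).comp measurable_snd))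
    have h0 : ∀ (η : O1 d) (u' : unitInterval), ∏ b ∈ S.erase a,
        (t b).indicator (1 : unitInterval → ℝ) (UU θ (τ, (η.1, Function.update η.2 a u')) b) =
        ∏ b ∈ S.erase a, (t b).indicator (1 : unitInterval → ℝ) (UU θ (τ, η) b) :=
      fun η u' => Finset.prod_congr rfl fun b hb => by
        rw [UU_update hτa (Finset.ne_of_mem_erase hb)]
    have h1 := lraw (θ := θ) a hB fun u u' η => congrArg (_ * ·) (h0 η u')
    have h2 : ∀ η : O1 d, UU θ (τ, η) a = η.2 a := fun η => by simp only [UU, hτa, if_false]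
    simp only [h2]
    rw [h1, ← integral_const_mul]
    congr 1
    ext η
    simp only
    rw [integral_mul_const, integral_indicator_one (ht a)]
  · push Not at hc
    obtain ⟨a, ha, hmax⟩ := S.exists_max_image (fun a => toLex (a.2, τ a)) hne
    refine step a ha ?_
    have hI : a ∉ idx a.2 (fun _ => (τ a : ℝ)) τ := by
      rintro (h1 | h1)
      · exact lt_irrefl _ h1.1
      · exact lt_irrefl _ h1.2
    have hZ : BM (FI (idx a.2 (fun _ => (τ a : ℝ)) τ)) fun η =>
        ∏ b ∈ S.erase a, (t b).indicator (1 : unitInterval → ℝ) (UU θ (τ, η) b) := by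
      refine BM_prod _ fun b hb => BM_ind (ht b) ?_
      have hbS := Finset.mem_of_mem_erase hb
      have hne : τ b ≠ τ a := fun e => Finset.ne_of_mem_erase hb (hτ e)
      have hlt : b.2 < a.2 ∨ (b.2 = a.2 ∧ (τ b : ℝ) < τ a) := by
        rcases Prod.Lex.le_iff.1 (hmax b hbS) with h1 | h1
        · exact Or.inl h1
        · exact Or.inr ⟨h1.1, Subtype.coe_lt_coe.2 (lt_of_le_of_ne h1.2 hne)⟩
      refine UU_FI (hc b hbS) ?_ ?_
      · rcases hlt with h1 | h1
        · exact Or.inl ⟨h1, hc b hbS⟩
        · exact Or.inr h1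
      · rintro c (h2 | h2)
        · rcases hlt with h1 | h1
          · exact Or.inl ⟨h2.1.trans h1, h2.2⟩
          · exact Or.inl ⟨h2.1.trans_eq h1.1, h2.2⟩
        · rcases hlt with h1 | h1
          · exact Or.inl ⟨h2.1.trans_lt h1, h2.2.trans (hc b hbS)⟩
          · exact Or.inr ⟨h2.1.trans h1.1, h2.2.trans h1.2⟩
    have hφ : BM inferInstance fun x : ℝ =>
        (t a).indicator (1 : unitInterval → ℝ) (projIcc 0 1 zero_le_one x) :=
      BM_ind (ht a) continuous_projIcc.measurable
    have h1 := innov_test h (upto_idx _ τ) hI hφ hZ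
    simp only [projIcc_val] at h1
    rw [integral_indicator_one (ht a)] at h1
    rw [← h1]
    simp only [UU, hc a ha, if_true, Xc]

lemma innov_box (h : Hyp d θ) {τ : T d} (hτ : Function.Injective τ) (S : Finset (Ix d))
    {t : Ix d → Set unitInterval} (ht : ∀ a, MeasurableSet (t a)) :
    (P1 d θ).real {η | ∀ a ∈ S, UU θ (τ, η) a ∈ t a} = ∏ a ∈ S, volume.real (t a) := by
  rw [← innov_int h hτ ht S]
  have hs : MeasurableSet {η : O1 d | ∀ a ∈ S, UU θ (τ, η) a ∈ t a} := by
    have : {η : O1 d | ∀ a ∈ S, UU θ (τ, η) a ∈ t a} =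
        ⋂ a ∈ S, (fun η : O1 d => UU θ (τ, η) a) ⁻¹' t a := by
      ext η; simp
    rw [this]
    exact S.measurableSet_biInter fun a _ => measurable_UU_sec τ a (ht a)
  rw [← integral_indicator_one hs]
  congr 1
  ext η
  by_cases hη : ∀ a ∈ S, UU θ (τ, η) a ∈ t a
  · rw [indicator_of_mem (show η ∈ {η : O1 d | ∀ a ∈ S, UU θ (τ, η) a ∈ t a} from hη)]
    exact (Finset.prod_eq_one fun a ha => by simp [hη a ha]).symm
  · rw [indicator_of_notMem (show η ∉ {η : O1 d | ∀ a ∈ S, UU θ (τ, η) a ∈ t a} from hη)]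
    push Not at hη
    obtain ⟨a, ha, h1⟩ := hη
    exact (Finset.prod_eq_zero ha (by simp [h1])).symm

theorem law_lab (h : Hyp d θ) : MeasurePreserving (fun ω : Om d => (ω.1, UU θ ω)) (PP d θ)
    ((iid (Ix d)).prod (iid (Ix d))) := by
  have hm : Measurable (Function.uncurry fun (τ : T d) (η : O1 d) => UU θ (τ, η)) := measurable_UU
  refine (MeasurePreserving.id (iid (Ix d))).skew_product hm ?_
  filter_upwards [ae_inj] with τ hτ
  refine Measure.eq_infinitePi _ fun s t ht => ?_
  have hU : Measurable fun η : O1 d => UU θ (τ, η) := measurable_UU.comp measurable_prodMk_left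
  rw [Measure.map_apply hU (MeasurableSet.pi s.countable_toSet fun i _ => ht i)]
  have h1 := innov_box h hτ s ht
  have h2 : (fun η : O1 d => UU θ (τ, η)) ⁻¹' Set.pi s t =
      {η | ∀ a ∈ s, UU θ (τ, η) a ∈ t a} := by
    ext η; simp
  rw [h2, ← ofReal_measureReal (measure_ne_top _ _), h1,
    ENNReal.ofReal_prod_of_nonneg fun _ _ => measureReal_nonneg]
  exact Finset.prod_congr rfl fun a _ => ofReal_measureReal (measure_ne_top _ _)

end Vale.Agent.P161E
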