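import Vale.Agent.P161E.Tree
import Vale.Agent.P161E.Tools

/-! Temperedness of factors of locally independent fields.  Put `b = d - 1`, `wt x = (√b)⁻¹ ^ len x`.
`schur`: let `W k = ∑ q ∈ sph k, wt (x * q)`.  A step `step c y` either increases `len` by one
(`c ∈ kids y`) or decreases it by one.  In `sum_sph_succ`, `x * step c z = step c (x * z)` (`mul_step`).
Steps up in length contribute at most `(number of c) * wt (x z) / √b`, i.e. `√b * W k` for `k ≥ 1` and
`d / √b ≤ 3/2 √b` for `k = 0`.  A last step towards the root forces all steps to go towards the root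
(the word is reduced), so there is at most one such `q`, of weight `≤ √b ^ (k+1) wt x`
(`len_le_mul`).  Alternatively prove by induction on `k`, for all `x c`, that the sum over reduced
walks of length `k + 1` from `x` with first colour `c` is at most `(k+1) √b^(k+1) wt x`.
`temper_fin`: let `T F ω = ∑ q ∈ Q, F (sh q ω)`, `T' F ω = ∑ q ∈ Q, F (sh q⁻¹ ω)` (adjoint, since
`sh q` is measure preserving and `sh q⁻¹ (sh q ω) = ω`), `F 0 = f`, `F (n+1) = T (F n)` for even `n`
and `T' (F n)` for odd `n`; `a n = ∫ (F n)²`.  Then `∫ F (i+1) F k = ∫ F i F (k+1)` if `i + 1 ≡ k` mod 2, so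
`a (n+1) = ∫ F n F (n+2) ≤ √(a n a (n+2))` and `a n = ∫ f F (2n)`.  Log-convexity gives
`a 1 ^ n ≤ a 0 ^ (n-1) a n`.  With `u n x = ∫ f ω * F n (sh x ω)` we have `u (n+1) x = ∑ q, u n (x * q^(±1))`,
`u 0 x = 0` for `len x > 2R` (independence, mean zero), `|u 0 x| ≤ a 0 ≤ a 0 b^R wt x` otherwise, so by
`schur` `|u n x| ≤ a 0 b^R √NN^n wt x`, and `a 1 ^ n ≤ a 0 ^ n b^R NN^n` for all `n`; let `n → ∞`.
`temper`: apply `temper_fin` to bounded versions (`exists_condExp`) of `P[f | E R]`, which have mean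
zero, smaller second moment, and converge to `f` a.e. (`Integrable.tendsto_ae_condExp`); pass to the
limit by bounded convergence (`sh q` preserves null sets). -/

namespace Vale.Agent.P161E

open MeasureTheory ProbabilityTheory Finset

variable {d : ℕ} {Ω : Type} [m0 : MeasurableSpace Ω] {P : Measure Ω} [IsProbabilityMeasure P]

lemma toward (x z : V d) {c : Fin d} (hc : c ∈ kids z) (hc' : c ∉ kids (x * z)) :
    (x * z).1 = x.1.drop (len z) := by
  obtain ⟨k, hk⟩ : ∃ k, len z = k := ⟨_, rfl⟩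
  induction k generalizing z c with
  | zero =>
    obtain rfl := len_eq_zero.1 hk
    simp
  | succ k ih =>
    have hz : z ≠ 1 := by rintro rfl; simp at hk
    obtain ⟨c', hk', e⟩ := exists_kid hz
    have hl := len_step_kid hk'
    rw [← e] at hl
    have hne : c ≠ c' := by
      rw [e, kids_step hk'] at hc
      exact (mem_erase.1 hc).1
    have e2 : x * z = step c' (x * par z) := by rw [← mul_step, ← e]
    have h3 : c' ∉ kids (x * par z) := by
      intro h
      apply hc'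
      rw [e2, kids_step h]
      exact mem_erase.2 ⟨hne, mem_univ _⟩
    have h4 := ih (par z) hk' h3 (by omega)
    have h5 : (x * par z).1.head? = some c' := by simpa [kids] using h3
    rw [e2, step_of_eq h5, h4, hl, List.tail_drop]

lemma wt_step {s : ℝ} (hs : 1 ≤ s) (x z : V d) :
    ∑ c ∈ kids z, s⁻¹ ^ len (step c (x * z)) ≤ (kids z).card * (s⁻¹ ^ len (x * z) * s⁻¹) +
      if (x * z).1 = x.1.drop (len z) then s ^ (len z + 1) * s⁻¹ ^ len x else 0 := by
  have hs0 : 0 < s := by linarith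
  have hi : 0 < s⁻¹ := inv_pos.2 hs0
  have hi1 : s⁻¹ ≤ 1 := inv_le_one_of_one_le₀ hs
  rw [← sum_filter_add_sum_filter_not (kids z) (fun c => c ∈ kids (x * z))]
  refine add_le_add ?_ ?_
  · rw [sum_congr rfl (g := fun _ => s⁻¹ ^ len (x * z) * s⁻¹) fun c hc => by
      rw [len_step_kid (mem_filter.1 hc).2, pow_succ], sum_const, nsmul_eq_mul]
    exact mul_le_mul_of_nonneg_right (Nat.cast_le.2 (card_filter_le _ _)) (by positivity)
  · have hcard : ((kids z).filter fun c => c ∉ kids (x * z)).card ≤ 1 := by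
      refine card_le_one.2 fun a ha b hb => ?_
      have h1 : (x * z).1.head? = some a := by simpa [kids] using (mem_filter.1 ha).2
      have h2 : (x * z).1.head? = some b := by simpa [kids] using (mem_filter.1 hb).2
      exact Option.some.inj (h1.symm.trans h2)
    split_ifs with h
    · have hb : ∀ c ∈ (kids z).filter fun c => c ∉ kids (x * z),
          s⁻¹ ^ len (step c (x * z)) ≤ s ^ (len z + 1) * s⁻¹ ^ len x := by
        intro c hc
        have h1 := len_le_mul x (step c z)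
        rw [mul_step, len_step_kid (mem_filter.1 hc).1] at h1
        have h2 : s⁻¹ ^ (len (step c (x * z)) + (len z + 1)) ≤ s⁻¹ ^ len x :=
          pow_le_pow_of_le_one hi.le hi1 h1
        have h3 : s ^ (len z + 1) * s⁻¹ ^ (len z + 1) = 1 := by
          rw [← mul_pow, mul_inv_cancel₀ hs0.ne', one_pow]
        calc s⁻¹ ^ len (step c (x * z))
            = s ^ (len z + 1) * s⁻¹ ^ (len (step c (x * z)) + (len z + 1)) := by
              rw [pow_add s⁻¹, mul_left_comm, h3, mul_one]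
          _ ≤ _ := mul_le_mul_of_nonneg_left h2 (by positivity)
      refine (sum_le_card_nsmul _ _ _ hb).trans ?_
      rw [nsmul_eq_mul]
      exact mul_le_of_le_one_left (by positivity) (by exact_mod_cast hcard)
    · rw [filter_eq_empty_iff.2 fun c hc hc' => h (toward x z hc hc'), sum_empty]

lemma schur (hd : 3 ≤ d) (x : V d) (k : ℕ) :
    ∑ q ∈ sph d k, (√((d : ℝ) - 1))⁻¹ ^ len (x * q) ≤
      2 * ((k : ℝ) + 1) * √((d : ℝ) - 1) ^ k * (√((d : ℝ) - 1))⁻¹ ^ len x := by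
  have h3 : (3 : ℝ) ≤ d := by exact_mod_cast hd
  obtain ⟨s, hs⟩ : ∃ s, s = √((d : ℝ) - 1) := ⟨_, rfl⟩
  have hs2 : s * s = (d : ℝ) - 1 := by rw [hs]; exact Real.mul_self_sqrt (by linarith)
  have hs1 : 1 ≤ s := by rw [hs]; exact Real.one_le_sqrt.2 (by linarith)
  have hs0 : 0 < s := by linarith
  have hw : 0 < s⁻¹ ^ len x := by positivity
  rw [← hs]
  induction k with
  | zero => simp [sph]; linarith [inv_pow s (len x)]
  | succ k ih =>
    rw [sum_sph_succ]
    simp only [mul_step]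
    refine (sum_le_sum fun z _ => wt_step hs1 x z).trans ?_
    rw [sum_add_distrib]
    have h1 : ∑ z ∈ sph d k, (kids z).card * (s⁻¹ ^ len (x * z) * s⁻¹) ≤
        s * (2 * ((k : ℝ) + 1) * s ^ k * s⁻¹ ^ len x) := by
      cases k with
      | zero =>
        have : (d : ℝ) * s⁻¹ ≤ 2 * s := by
          rw [← div_eq_mul_inv, div_le_iff₀ hs0]; nlinarith
        simp only [sph, sum_singleton, kids_one, card_univ, Fintype.card_fin, mul_one]
        simp only [Nat.cast_zero, zero_add, pow_zero, mul_one]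
        nlinarith
      | succ k =>
        refine le_trans (le_of_eq ?_) (mul_le_mul_of_nonneg_left ih hs0.le)
        rw [mul_sum]
        refine sum_congr rfl fun z hz => ?_
        have hz' : z ≠ 1 := by
          rintro rfl
          have := mem_sph.1 hz
          simp at this
        rw [card_kids hz', Nat.cast_sub (by omega), Nat.cast_one, ← hs2]
        field_simp
    have h2 : ∑ z ∈ sph d k, (if (x * z).1 = x.1.drop (len z) then s ^ (len z + 1) * s⁻¹ ^ len x
        else 0) ≤ s ^ (k + 1) * s⁻¹ ^ len x := by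
      rw [← sum_filter]
      rw [sum_congr rfl (g := fun _ => s ^ (k + 1) * s⁻¹ ^ len x) fun z hz => by
        rw [mem_sph.1 (mem_filter.1 hz).1], sum_const, nsmul_eq_mul]
      refine mul_le_of_le_one_left (by positivity) ?_
      have : ((sph d k).filter fun z => (x * z).1 = x.1.drop (len z)).card ≤ 1 := by
        refine card_le_one.2 fun a ha b hb => ?_
        obtain ⟨ha1, ha2⟩ := mem_filter.1 ha
        obtain ⟨hb1, hb2⟩ := mem_filter.1 hb
        rw [mem_sph.1 ha1] at ha2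
        rw [mem_sph.1 hb1] at hb2
        exact mul_left_cancel (Subtype.ext (ha2.trans hb2.symm))
      exact_mod_cast this
    have h4 : 0 < s ^ (k + 1) * s⁻¹ ^ len x := by positivity
    have h5 : s * (2 * ((k : ℝ) + 1) * s ^ k * s⁻¹ ^ len x) =
        2 * ((k : ℝ) + 1) * (s ^ (k + 1) * s⁻¹ ^ len x) := by ring
    have h6 : 2 * (((k + 1 : ℕ) : ℝ) + 1) * s ^ (k + 1) * s⁻¹ ^ len x =
        2 * ((k : ℝ) + 1) * (s ^ (k + 1) * s⁻¹ ^ len x) + 2 * (s ^ (k + 1) * s⁻¹ ^ len x) := by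
      push_cast; ring
    linarith

lemma cs_int {f g : Ω → ℝ} (hf : BM m0 f) (hg : BM m0 g) :
    (∫ ω, f ω * g ω ∂P) ^ 2 ≤ (∫ ω, f ω ^ 2 ∂P) * ∫ ω, g ω ^ 2 ∂P := by
  have h : ∀ t : ℝ, 0 ≤ (∫ ω, f ω ^ 2 ∂P) * (t * t) + (2 * ∫ ω, f ω * g ω ∂P) * t +
      ∫ ω, g ω ^ 2 ∂P := by
    intro t
    have i1 : Integrable (fun ω => f ω ^ 2 * (t * t)) P := (hf.pow 2).integrable.mul_const _
    have i2 : Integrable (fun ω => 2 * (f ω * g ω) * t) P :=
      ((hf.mul hg).integrable.const_mul 2).mul_const _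
    have i3 : Integrable (fun ω => g ω ^ 2) P := (hg.pow 2).integrable
    have i4 : Integrable (fun ω => f ω ^ 2 * (t * t) + 2 * (f ω * g ω) * t) P := i1.add i2
    rw [← integral_const_mul, ← integral_mul_const, ← integral_mul_const, ← integral_add i1 i2,
      ← integral_add i4 i3]
    refine integral_nonneg fun ω => ?_
    have := sq_nonneg (f ω * t + g ω)
    simp only [Pi.zero_apply]
    nlinarith
  have := discrim_le_zero h
  unfold discrim at this
  nlinarith

/-- The self-adjoint averaging operator. -/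
noncomputable def SS (sh : V d → Ω → Ω) (Q : Finset (V d)) (F : Ω → ℝ) (ω : Ω) : ℝ :=
  ∑ q ∈ Q, ∑ q' ∈ Q, F (sh (q⁻¹ * q') ω)

section

variable {sh : V d → Ω → Ω} (mp : ∀ x, MeasurePreserving (sh x) P P)
  (h1 : ∀ ω, sh 1 ω = ω) (hm : ∀ x y ω, sh y (sh x ω) = sh (x * y) ω) {Q : Finset (V d)}
  {F G : Ω → ℝ}

include mp

omit [IsProbabilityMeasure P] in
lemma SS_BM (hF : BM m0 F) : BM m0 (SS sh Q F) :=
  BM.sum Q fun _ _ => BM.sum Q fun _ _ => hF.comp (mp _).measurable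

omit [IsProbabilityMeasure P] in
lemma SSn_BM (hF : BM m0 F) (n : ℕ) : BM m0 ((SS sh Q)^[n] F) := by
  induction n with
  | zero => exact hF
  | succ n ih => rw [Function.iterate_succ_apply']; exact SS_BM mp ih

omit [IsProbabilityMeasure P] in
lemma int_sh (hF : Measurable F) (x : V d) : ∫ ω, F (sh x ω) ∂P = ∫ ω, F ω ∂P := by
  rw [← integral_map (mp x).measurable.aemeasurable hF.aestronglyMeasurable, (mp x).map_eq]

include hm in
lemma int_SS (hF : BM m0 F) (hG : BM m0 G) (x : V d) :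
    ∫ ω, G ω * SS sh Q F (sh x ω) ∂P =
      ∑ q ∈ Q, ∑ q' ∈ Q, ∫ ω, G ω * F (sh (x * q⁻¹ * q') ω) ∂P := by
  simp only [SS, mul_sum, hm, mul_assoc]
  rw [integral_finsetSum _ fun q _ =>
    (BM.sum Q fun _ _ => hG.mul (hF.comp (mp _).measurable)).integrable]
  exact sum_congr rfl fun q _ => integral_finsetSum _ fun q' _ =>
    (hG.mul (hF.comp (mp _).measurable)).integrable

include h1 hm

omit [IsProbabilityMeasure P] in
lemma int_two (hF : BM m0 F) (hG : BM m0 G) (x y : V d) :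
    ∫ ω, G (sh x ω) * F (sh y ω) ∂P = ∫ ω, G ω * F (sh (x⁻¹ * y) ω) ∂P := by
  rw [← int_sh mp (hG.mul (hF.comp (mp (x⁻¹ * y)).measurable)).meas x]
  simp only [hm, mul_inv_cancel_left]

lemma SS_adj (hF : BM m0 F) (hG : BM m0 G) :
    ∫ ω, G ω * SS sh Q F ω ∂P = ∫ ω, SS sh Q G ω * F ω ∂P := by
  have e1 := int_SS mp hm (Q := Q) hF hG 1
  have e2 := int_SS mp hm (Q := Q) hG hF 1
  simp only [h1, one_mul] at e1 e2
  rw [e1, show (fun ω => SS sh Q G ω * F ω) = fun ω => F ω * SS sh Q G ω from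
    funext fun ω => mul_comm _ _, e2, sum_comm]
  refine sum_congr rfl fun q _ => sum_congr rfl fun q' _ => ?_
  rw [← int_two mp h1 hm hF hG, ← int_two mp h1 hm hG hF]
  simp only [mul_comm]

lemma SSn_adj (hF : BM m0 F) (n : ℕ) (hG : BM m0 G) :
    ∫ ω, G ω * (SS sh Q)^[n] F ω ∂P = ∫ ω, (SS sh Q)^[n] G ω * F ω ∂P := by
  induction n generalizing G with
  | zero => rfl
  | succ n ih =>
    rw [Function.iterate_succ_apply', SS_adj mp h1 hm (SSn_BM mp hF n) hG, ih (SS_BM mp hG),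
      Function.iterate_succ_apply]

lemma sq_SS (hF : BM m0 F) :
    ∫ ω, (∑ q ∈ Q, F (sh q ω)) ^ 2 ∂P = ∫ ω, F ω * SS sh Q F ω ∂P := by
  have e1 := int_SS mp hm (Q := Q) hF hF 1
  simp only [h1, one_mul] at e1
  rw [e1]
  simp only [sq, sum_mul_sum]
  rw [integral_finsetSum _ fun q _ => (BM.sum Q fun _ _ =>
    (hF.comp (mp _).measurable).mul (hF.comp (mp _).measurable)).integrable]
  refine sum_congr rfl fun q _ => ?_
  rw [integral_finsetSum _ fun q' _ =>
    ((hF.comp (mp _).measurable).mul (hF.comp (mp _).measurable)).integrable]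
  exact sum_congr rfl fun q' _ => int_two mp h1 hm hF hF q q'

end

lemma schur2 (hd : 3 ≤ d) (x : V d) {k : ℕ} {Q : Finset (V d)} (hQ : Q ⊆ sph d k) :
    ∑ q ∈ Q, ∑ q' ∈ Q, (√((d : ℝ) - 1))⁻¹ ^ len (x * q⁻¹ * q') ≤
      NN d k * (√((d : ℝ) - 1))⁻¹ ^ len x := by
  have h3 : (3 : ℝ) ≤ d := by exact_mod_cast hd
  have hs2 : √((d : ℝ) - 1) * √((d : ℝ) - 1) = (d : ℝ) - 1 := Real.mul_self_sqrt (by linarith)
  have e : NN d k = (2 * ((k : ℝ) + 1) * √((d : ℝ) - 1) ^ k) *
      (2 * ((k : ℝ) + 1) * √((d : ℝ) - 1) ^ k) := by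
    unfold NN
    conv_lhs => rw [← hs2, mul_pow]
    ring
  calc _ ≤ ∑ q ∈ Q, 2 * ((k : ℝ) + 1) * √((d : ℝ) - 1) ^ k * (√((d : ℝ) - 1))⁻¹ ^ len (x * q⁻¹) :=
        sum_le_sum fun q _ => (sum_le_sum_of_subset_of_nonneg hQ fun _ _ _ => by positivity).trans
          (schur hd _ k)
    _ ≤ ∑ q ∈ sph d k, 2 * ((k : ℝ) + 1) * √((d : ℝ) - 1) ^ k *
          (√((d : ℝ) - 1))⁻¹ ^ len (x * q⁻¹) :=
        sum_le_sum_of_subset_of_nonneg hQ fun _ _ _ => by positivity
    _ = 2 * ((k : ℝ) + 1) * √((d : ℝ) - 1) ^ k *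
          ∑ q ∈ sph d k, (√((d : ℝ) - 1))⁻¹ ^ len (x * q) := by
        rw [← mul_sum, sum_sph_inv (fun q => (√((d : ℝ) - 1))⁻¹ ^ len (x * q))]
    _ ≤ _ := by
        rw [e, mul_assoc (2 * ((k : ℝ) + 1) * √((d : ℝ) - 1) ^ k)]
        exact mul_le_mul_of_nonneg_left (schur hd x k) (by positivity)

lemma moment_le {a N C : ℝ} {b : ℕ → ℝ} (ha : 0 ≤ a) (hN : 0 < N)
    (h1 : ∀ k, b k ^ 2 ≤ a * b (k + 1)) (h2 : ∀ k, b k ≤ C * N ^ 2 ^ k) : b 0 ≤ N * a := by
  by_contra hlt
  rw [not_le] at hlt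
  rcases ha.eq_or_lt with rfl | ha0
  · have := h1 0
    nlinarith
  have hr : 1 < b 0 / (N * a) := (one_lt_div (by positivity)).2 hlt
  have h3 : ∀ k, a * (b 0 / a) ^ 2 ^ k ≤ b k := by
    intro k
    induction k with
    | zero => rw [pow_zero, pow_one, mul_div_cancel₀ _ ha0.ne']
    | succ k ih =>
      have hb : 0 < b 0 := lt_trans (by positivity) hlt
      have h4 := (pow_le_pow_left₀ (by positivity) ih 2).trans (h1 k)
      rw [mul_pow, ← pow_mul, ← pow_succ, sq, mul_assoc] at h4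
      exact le_of_mul_le_mul_left h4 ha0
  obtain ⟨n, hn⟩ := pow_unbounded_of_one_lt (C / a) hr
  have h5 : (b 0 / (N * a)) ^ n ≤ (b 0 / (N * a)) ^ 2 ^ n :=
    pow_le_pow_right₀ hr.le Nat.lt_two_pow_self.le
  have h6 := (h3 n).trans (h2 n)
  have h7 : (b 0 / a) ^ 2 ^ n = (b 0 / (N * a)) ^ 2 ^ n * N ^ 2 ^ n := by
    rw [← mul_pow]; congr 1; field_simp
  rw [h7, ← mul_assoc] at h6
  have h8 := le_of_mul_le_mul_right h6 (by positivity)
  rw [div_lt_iff₀ ha0] at hn
  nlinarith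

lemma temper_fin (hd : 3 ≤ d) {sh : V d → Ω → Ω} (mp : ∀ x, MeasurePreserving (sh x) P P)
    (h1 : ∀ ω, sh 1 ω = ω) (hm : ∀ x y ω, sh y (sh x ω) = sh (x * y) ω) {f : Ω → ℝ}
    (hf : BM m0 f) {R : ℕ} (h0 : ∀ x, 2 * R < len x → ∫ ω, f ω * f (sh x ω) ∂P = 0) {k : ℕ}
    {Q : Finset (V d)} (hQ : Q ⊆ sph d k) :
    ∫ ω, (∑ q ∈ Q, f (sh q ω)) ^ 2 ∂P ≤ NN d k * ∫ ω, f ω ^ 2 ∂P := by
  have h3 : (3 : ℝ) ≤ d := by exact_mod_cast hd
  obtain ⟨M, hM⟩ := hf.bdd
  have hs1 : 1 ≤ √((d : ℝ) - 1) := Real.one_le_sqrt.2 (by linarith)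
  have hN : 0 < NN d k := by
    have : (0 : ℝ) < (d : ℝ) - 1 := by linarith
    unfold NN; positivity
  obtain ⟨C, hC0, hC⟩ : ∃ C : ℝ, 0 ≤ C ∧ ∀ x, ∫ ω, f ω * f (sh x ω) ∂P ≤
      C * (√((d : ℝ) - 1))⁻¹ ^ len x := by
    refine ⟨M ^ 2 * √((d : ℝ) - 1) ^ (2 * R), by positivity, fun x => ?_⟩
    by_cases hx : 2 * R < len x
    · rw [h0 x hx]; positivity
    · have i1 : ∫ ω, f ω * f (sh x ω) ∂P ≤ ∫ _, M ^ 2 ∂P := by
        refine integral_mono (hf.mul (hf.comp (mp x).measurable)).integrable (integrable_const _)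
          fun ω => (le_abs_self _).trans ?_
        rw [abs_mul, sq]
        exact mul_le_mul (hM _) (hM _) (abs_nonneg _) ((abs_nonneg _).trans (hM ω))
      rw [integral_const, probReal_univ, one_smul] at i1
      refine i1.trans ?_
      rw [mul_assoc, inv_pow, ← div_eq_mul_inv]
      refine le_mul_of_one_le_right (sq_nonneg _) ((one_le_div (by positivity)).2 ?_)
      exact pow_le_pow_right₀ hs1 (not_lt.1 hx)
  have hu : ∀ n x, ∫ ω, f ω * (SS sh Q)^[n] f (sh x ω) ∂P ≤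
      C * NN d k ^ n * (√((d : ℝ) - 1))⁻¹ ^ len x := by
    intro n
    induction n with
    | zero => simpa using hC
    | succ n ih =>
      intro x
      rw [Function.iterate_succ_apply', int_SS mp hm (SSn_BM mp hf n) hf]
      refine (sum_le_sum fun q _ => sum_le_sum fun q' _ => ih _).trans ?_
      simp only [← mul_sum]
      rw [pow_succ, mul_assoc C (_ * _), mul_assoc (NN d k ^ n), ← mul_assoc C]
      exact mul_le_mul_of_nonneg_left (schur2 hd x hQ) (by positivity)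
  rw [sq_SS mp h1 hm hf]
  refine moment_le (b := fun n => ∫ ω, f ω * (SS sh Q)^[2 ^ n] f ω ∂P) (C := C)
    (integral_nonneg fun ω => sq_nonneg _) hN (fun n => ?_) fun n => ?_
  · refine (cs_int hf (SSn_BM mp hf _)).trans (le_of_eq ?_)
    congr 1
    rw [pow_succ, mul_two, Function.iterate_add_apply, SSn_adj mp h1 hm (SSn_BM mp hf _) _ hf]
    simp only [sq]
  · simpa [h1] using hu (2 ^ n) 1

theorem temper (hd : 3 ≤ d) {sh : V d → Ω → Ω} (mp : ∀ x, MeasurePreserving (sh x) P P)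
    (h1 : ∀ ω, sh 1 ω = ω) (hm : ∀ x y ω, sh y (sh x ω) = sh (x * y) ω)
    {E : ℕ → MeasurableSpace Ω} (hE : Monotone E) (hle : ∀ R, E R ≤ m0)
    (hind : ∀ (R : ℕ) (x : V d), 2 * R < len x → Indep (E R) ((E R).comap (sh x)) P) {f : Ω → ℝ}
    (hf : BM (⨆ R, E R) f) (h0 : ∫ ω, f ω ∂P = 0) {k : ℕ} {Q : Finset (V d)} (hQ : Q ⊆ sph d k) :
    ∫ ω, (∑ q ∈ Q, f (sh q ω)) ^ 2 ∂P ≤ NN d k * ∫ ω, f ω ^ 2 ∂P := by
  have hf0 : BM m0 f := hf.mono (iSup_le hle)
  obtain ⟨M, hM⟩ := hf.bdd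
  choose g hgm hgb hg using fun R =>
    exists_condExp (P := P) (hle R) hf0.meas fun ω => abs_le.1 (hM ω)
  have hgB : ∀ R, BM m0 (g R) := fun R =>
    ⟨(hgm R).mono (hle R) le_rfl, M, fun ω => abs_le.2 (hgb R ω)⟩
  have hfin : ∀ R, ∫ ω, (∑ q ∈ Q, g R (sh q ω)) ^ 2 ∂P ≤ NN d k * ∫ ω, g R ω ^ 2 ∂P := by
    intro R
    refine temper_fin hd mp h1 hm (hgB R) (R := R) (fun x hx => ?_) hQ
    have hi : IndepFun (g R) (fun ω => g R (sh x ω)) P := by
      rw [IndepFun_iff_Indep]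
      refine indep_of_indep_of_le_right (indep_of_indep_of_le_left (hind R x hx)
        (hgm R).comap_le) ?_
      exact Measurable.comap_le ((hgm R).comp (comap_measurable (sh x)))
    have e := hi.integral_fun_mul_eq_mul_integral (hgB R).meas.aestronglyMeasurable
      ((hgB R).comp (mp x).measurable).meas.aestronglyMeasurable
    rw [e, integral_congr_ae (hg R), integral_condExp (hle R), h0, zero_mul]
  have hlim : ∀ᵐ ω ∂P, Filter.Tendsto (fun R => g R ω) Filter.atTop (nhds (f ω)) := by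
    have := (hf0.integrable (P := P)).tendsto_ae_condExp (ℱ := ⟨E, hE, hle⟩)
      hf.meas.stronglyMeasurable
    filter_upwards [this, ae_all_iff.2 hg] with ω h2 h3
    exact h2.congr fun R => (h3 R).symm
  have hlim2 : ∀ᵐ ω ∂P, ∀ x, Filter.Tendsto (fun R => g R (sh x ω)) Filter.atTop
      (nhds (f (sh x ω))) := ae_all_iff.2 fun x => (mp x).quasiMeasurePreserving.ae hlim
  have t1 : Filter.Tendsto (fun R => ∫ ω, (∑ q ∈ Q, g R (sh q ω)) ^ 2 ∂P) Filter.atTop
      (nhds (∫ ω, (∑ q ∈ Q, f (sh q ω)) ^ 2 ∂P)) := by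
    refine tendsto_integral_of_dominated_convergence (fun _ => (∑ q ∈ Q, M) ^ 2)
      (fun R => ((BM.sum Q fun q _ =>
        (hgB R).comp (mp q).measurable).pow 2).meas.aestronglyMeasurable) (integrable_const _)
      (fun R => ae_of_all _ fun ω => ?_) ?_
    · rw [Real.norm_eq_abs, abs_pow]
      exact pow_le_pow_left₀ (abs_nonneg _) ((abs_sum_le_sum_abs _ _).trans
        (sum_le_sum fun q _ => abs_le.2 (hgb R _))) 2
    · filter_upwards [hlim2] with ω hω
      exact (tendsto_finsetSum Q fun q _ => hω q).pow 2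
  have t2 : Filter.Tendsto (fun R => ∫ ω, g R ω ^ 2 ∂P) Filter.atTop (nhds (∫ ω, f ω ^ 2 ∂P)) := by
    refine tendsto_integral_of_dominated_convergence (fun _ => M ^ 2)
      (fun R => ((hgB R).pow 2).meas.aestronglyMeasurable) (integrable_const _)
      (fun R => ae_of_all _ fun ω => ?_) ?_
    · rw [Real.norm_eq_abs, abs_pow]
      exact pow_le_pow_left₀ (abs_nonneg _) (abs_le.2 (hgb R _)) 2
    · filter_upwards [hlim] with ω hω
      exact hω.pow 2
  exact le_of_tendsto_of_tendsto' t1 (t2.const_mul _) hfin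

end Vale.Agent.P161E
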