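import Vale.Agent.P161E.Site
import Vale.Agent.P161E.Temper
import Vale.Agent.P161E.EnvInst
import Vale.Agent.P161E.Act

/-! The action on `Om` and the systems of cavity fields.
`temp_Om`: apply `temper` with `E R = ⨆ i ∈ near R, co d i`, where `near R` consists of the edge variables
`inl v` with `v ≠ 1`, `len v ≤ R` and the times and noises at `v` with `len v ≤ R`.
Independence: `(E R).comap (pb (lmul x)) ≤ ⨆ i ∈ (near R)ᶜ \ {inl 1}, co d i` (or `(near R)ᶜ`) when `len x > 2R`: indeed
`len (x * v) > R` (`len_le_mul`), and for `v ≠ 1`, `eps (σ ∘ (x * ·)) v = (σ (x v) == σ (x par v))` is `eps σ u` for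
`u` the longer one of the adjacent vertices `x v`, `x * par v` (`exists_kid`, `mul_step`), both of length `> R`;
then `indep_iSup_of_disjoint`, `co_indep`, `indep_of_indep_of_le_right`.
Measurability of an even `f`: `f ω = f (N ω)`, `N (τ, σ, W) = (τ, spin (update (eps σ) 1 true), W)`, because
`spin (update (eps σ) 1 true)` is `σ` if `σ 1 = true` and `fun v => !σ v` otherwise (`spin_eps`, induction on the word);
`N` is measurable from `⨆ R, E R` (`measurable_pi_lambda`, `measurable_spin`).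
`sys`: `abs_hI_le`, `abs_Xc_le`, `Xc_flip`, `hI_neg`, `GG_pb`, `GG_flip`, `conv_Om`, `Conv.rel`, `Xc_pb`, `hI_lmul`. -/

namespace Vale.Agent.P161E

open MeasureTheory ProbabilityTheory Finset Real

variable {d : ℕ} {θ : ℝ} {j J : ℤ} {t : ℝ}

lemma pb_one (ω : Om d) : pb (lmul 1) ω = ω := by
  unfold pb pb1 pbT
  simp

lemma pb_mul (x y : V d) (ω : Om d) : pb (lmul y) (pb (lmul x) ω) = pb (lmul (x * y)) ω := by
  unfold pb pb1 pbT
  simp [mul_assoc]

lemma eps_mul (x : V d) {v : V d} (hv : v ≠ 1) : ∃ u : V d, (u = x * v ∨ u = x * par v) ∧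
    ∀ σ : V d → Bool, eps (fun w => σ (x * w)) v = eps σ u := by
  have ha : (tree d).Adj (x * v) (x * par v) := (lmul x).map_rel_iff.2 (adj_of_ne hv)
  rcases adj_par ha with ⟨h1, h2⟩ | ⟨h1, h2⟩
  · refine ⟨x * par v, Or.inr rfl, fun σ => ?_⟩
    simp only [eps, hv, h1, if_false, h2]
    cases σ (x * v) <;> cases σ (x * par v) <;> rfl
  · refine ⟨x * v, Or.inl rfl, fun σ => ?_⟩
    simp only [eps, hv, h1, if_false, h2]

lemma spin_update (σ : V d → Bool) (v : V d) :
    spin (fun u => if u = 1 then true else eps σ u) v = (σ v == σ 1) := by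
  induction v using par_induction with
  | h1 => simp [spin_one]
  | hs v h ih =>
    rw [spin_ne h, ih]
    simp only [eps, h, if_false]
    cases σ v <;> cases σ (par v) <;> cases σ 1 <;> rfl

/-- The coordinates near the root, except for the spin at the root. -/
def near (d R : ℕ) : Set (V d ⊕ Ix d ⊕ Ix d) :=
  {i | Sum.elim (fun v => v ≠ 1 ∧ len v ≤ R)
    (Sum.elim (fun a => len a.1 ≤ R) fun a => len a.1 ≤ R) i}

/-- The coordinates far from the root. -/
def far (d R : ℕ) : Set (V d ⊕ Ix d ⊕ Ix d) :=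
  {i | Sum.elim (fun v => R < len v) (Sum.elim (fun a => R < len a.1) fun a => R < len a.1) i}

lemma near_mono {R R' : ℕ} (h : R ≤ R') : near d R ⊆ near d R' := by
  rintro (v | a | a) hi
  · exact ⟨hi.1, le_trans hi.2 h⟩
  · exact le_trans (show len a.1 ≤ R from hi) h
  · exact le_trans (show len a.1 ≤ R from hi) h

lemma near_far (R : ℕ) : Disjoint (near d R) (far d R) := by
  rw [Set.disjoint_left]
  rintro (v | a | a) hi hi'
  · exact absurd hi.2 (not_le.2 hi')
  · exact absurd (show len a.1 ≤ R from hi) (not_le.2 hi')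
  · exact absurd (show len a.1 ≤ R from hi) (not_le.2 hi')

lemma comap_near {R : ℕ} {x : V d} (hx : 2 * R < len x) :
    (⨆ i ∈ near d R, co d i).comap (pb (lmul x)) ≤ ⨆ i ∈ far d R, co d i := by
  rw [MeasurableSpace.comap_iSup]
  refine iSup_le fun i => ?_
  rw [MeasurableSpace.comap_iSup]
  refine iSup_le fun hi => ?_
  rcases i with v | a | a
  · obtain ⟨u, hu, he⟩ := eps_mul x hi.1
    have h1 := len_le_mul x v
    have h2 := len_le_mul x (par v)
    have h3 := len_par hi.1
    have h4 : len v ≤ R := hi.2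
    refine le_iSup₂_of_le (Sum.inl u) (show R < len u by rcases hu with rfl | rfl <;> omega) ?_
    have e : ((fun ω : Om d => eps ω.2.1 v) ∘ pb (lmul x)) = fun ω => eps ω.2.1 u :=
      funext fun ω => he ω.2.1
    simp only [Sum.elim_inl]
    rw [MeasurableSpace.comap_comp, e]
  · have h1 := len_le_mul x a.1
    have h4 : len a.1 ≤ R := hi
    refine le_iSup₂_of_le (Sum.inr (Sum.inl (x * a.1, a.2)))
      (show R < len (x * a.1) by omega) ?_
    simp only [Sum.elim_inl, Sum.elim_inr]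
    rw [MeasurableSpace.comap_comp]
    exact le_rfl
  · have h1 := len_le_mul x a.1
    have h4 : len a.1 ≤ R := hi
    refine le_iSup₂_of_le (Sum.inr (Sum.inr (x * a.1, a.2)))
      (show R < len (x * a.1) by omega) ?_
    simp only [Sum.elim_inr]
    rw [MeasurableSpace.comap_comp]
    exact le_rfl

lemma measurable_even {f : Om d → ℝ} (hf : Measurable f) (he : ∀ ω, f (flip ω) = f ω) :
    Measurable[⨆ R, ⨆ i ∈ near d R, co d i] f := by
  have hN : Measurable[⨆ R, ⨆ i ∈ near d R, co d i] fun ω : Om d =>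
      ((ω.1, spin (fun u => if u = 1 then true else eps ω.2.1 u), ω.2.2) : Om d) := by
    have hco : ∀ R, ∀ i ∈ near d R, co d i ≤ ⨆ R, ⨆ i ∈ near d R, co d i := fun R i hi =>
      le_iSup_of_le R (le_iSup₂_of_le i hi le_rfl)
    generalize (⨆ R, ⨆ i ∈ near d R, co d i) = M at hco
    have h1 : Measurable[M] fun ω : Om d => ω.1 :=
      @measurable_pi_lambda _ _ _ M _ _ fun a =>
        Measurable.of_comap_le (hco (len a.1) (.inr (.inl a)) (le_refl (len a.1)))
    have h2 : Measurable[M] fun ω : Om d => ω.2.2 :=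
      @measurable_pi_lambda _ _ _ M _ _ fun a =>
        Measurable.of_comap_le (hco (len a.1) (.inr (.inr a)) (le_refl (len a.1)))
    have h3 : Measurable[M] fun (ω : Om d) (u : V d) => if u = 1 then true else eps ω.2.1 u :=
      @measurable_pi_lambda _ _ _ M _ _ fun u => by
        by_cases hu : u = 1
        · simp only [hu, if_true]
          exact measurable_const
        · simp only [hu, if_false]
          exact Measurable.of_comap_le (hco (len u) (.inl u) ⟨hu, le_rfl⟩)
    exact h1.prodMk ((measurable_spin.comp h3).prodMk h2)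
  have e : f = fun ω : Om d =>
      f (ω.1, spin (fun u => if u = 1 then true else eps ω.2.1 u), ω.2.2) := by
    funext ω
    rw [funext (spin_update ω.2.1)]
    cases h1 : ω.2.1 1
    · rw [← he ω]
      simp [flip]
    · simp
  rw [e]
  exact hf.comp hN

theorem temp_Om (h : Hyp d θ) {f : Om d → ℝ} (hf : BM inferInstance f)
    (he : ∀ ω, f (flip ω) = f ω) (h0 : ∫ ω, f ω ∂PP d θ = 0) {k : ℕ} {Q : Finset (V d)}
    (hQ : Q ⊆ sph d k) : ∫ ω, (∑ q ∈ Q, f (pb (lmul q) ω)) ^ 2 ∂PP d θ ≤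
      NN d k * ∫ ω, f ω ^ 2 ∂PP d θ :=
  temper h.hd (sh := fun x => pb (lmul x)) (fun _ => PP_pb h _) pb_one pb_mul
    (E := fun R => ⨆ i ∈ near d R, co d i) (fun _ _ hR => biSup_mono (near_mono hR))
    (fun _ => iSup₂_le fun i _ => co_le i)
    (fun R _ hx => indep_of_indep_of_le_right
      (indep_iSup_of_disjoint co_le co_indep (near_far R)) (comap_near hx))
    ⟨measurable_even hf.meas he, hf.bdd⟩ h0 hQ

/-- The action of the tree group on `Om`. -/
def act (h : Hyp d θ) : Act d (PP d θ) where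
  sh x := pb (lmul x)
  io := flip
  mp x := PP_pb h _
  sh_one := pb_one
  sh_mul := pb_mul
  mpi := PP_flip
  io_io ω := by simp [flip]
  io_sh _ _ := rfl
  temp _ hf he h0 _ _ hQ := temp_Om h hf he h0 hQ

lemma hI_pb (x : V d) (c : Fin d) (ω : Om d) :
    hI θ (Xc j (fun _ => t) (pb (lmul x) ω)) 1 c = hI θ (Xc j (fun _ => t) ω) x c := by
  rw [Xc_pb]
  exact (hI_lmul x 1 c).trans (by rw [mul_one])

/-- The cavity fields at time `t` of sweep `j`. -/
noncomputable def sys (h : Hyp d θ) (hj : j ≤ J) (ht : t ≤ 1 / 2) : Sys (act h) θ (BB J + d) where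
  G := GG θ j t
  h c ω := hI θ (Xc j (fun _ => t) ω) 1 c
  H ω := HI θ (Xc j (fun _ => t) ω) 1
  hG := GG_le t
  shG x := GG_pb (lmul x) t
  ioG := GG_flip ht
  mh c := (measurable_hI 1 c).comp (measurable_Xc _)
  mH := (measurable_HI 1).comp (measurable_Xc _)
  h_io c ω := (congrArg (fun X => hI θ X 1 c) (Xc_flip _ ω)).trans (hI_neg 1 c)
  H_io ω := (congrArg (fun X => HI θ X 1) (Xc_flip _ ω)).trans (HI_neg 1)
  bh c ω := abs_hI_le h (fun v => (abs_Xc_le _ ω v).trans (BB_mono hj)) 1 c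
  bH ω := abs_HI_le h (fun v => (abs_Xc_le _ ω v).trans (BB_mono hj)) 1
  rel := by
    filter_upwards [conv_Om (j := j) (cut := fun _ => t) h] with ω hω c
    rw [hω.rel h 1 c, ← hI_pb]
    rfl

lemma sys_r (h : Hyp d θ) (hj : j ≤ J) (ht : t ≤ 1 / 2) (w : V d) (ω : Om d) :
    (sys h hj ht).r w ω = rr θ (Xc j (fun _ => t) ω) 1 w.1 :=
  congrArg (fun F => pprod F 1 w.1)
    (funext fun x => funext fun c => congrArg (phi θ) (hI_pb x c ω))

lemma sys_cv (h : Hyp d θ) (hj : j ≤ J) (ht : t ≤ 1 / 2) (w : V d) (ω : Om d) :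
    (sys h hj ht).cv w ω = cov θ (Xc j (fun _ => t) ω) 1 w := by
  rw [Sys.cv, sys_r]
  rfl

lemma sys_m (h : Hyp d θ) (hj : j ≤ J) (ht : t ≤ 1 / 2) (w : V d) (ω : Om d) :
    (sys h hj ht).m ((act h).sh w ω) = mag θ (Xc j (fun _ => t) ω) w := by
  change mag θ (Xc j (fun _ => t) (pb (lmul w) ω)) 1 = _
  rw [Xc_pb, mag_aut, lmul_apply, mul_one]

lemma sys_D (h : Hyp d θ) (hj : j ≤ J) (ht : t ≤ 1 / 2) : (sys h hj ht).D = DD d θ j t := rfl

end Vale.Agent.P161E
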