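import Vale.Agent.P161E.Post

/-! The effect of one new observation `a = (w, j) ∉ I`.  Write `δ = dl j`, `M = mag (XI I) 1`,
`m = mag (XI I) w`, `c = cov (XI I) 1 w`, `Y = YY a`, `Jp = c δ Y / (1 + δ m Y)`.
`pred1`, `pred2`: from `lobs`; the inner integral is `A(η) + B(η) sg(σ w)` resp. times `sg (σ 1)` with
`A = ∫ F/2`, `B = ∫ F δ y / 2` bounded and `FI I`-measurable (functions of `obs I η`), then `test1`,
`test2`.  Here the test functions are `F (y, obs I η)`.
`jump_eq`: both sides are functions of `(Y, obs I η)` (`obs_insert`); `mag (XI (insert a I)) 1` is the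
conditional expectation of `sg σ₁` (`post1`), and `pred1`/`pred2` show that `M + Jp` has the same
integrals against all `F (Y, obs I η)`, because `(M + Jp)(1 + δ m y) = M + δ (M m + c) y`.
`slot_one`: let `U0 = cdf (δ m) Y`, so `psi (δ m) U0 = Y / (1 + δ m Y)` (`psi_cdf` = `qf_cdf`), and
`J0 = ct δ psi (δ mt) U0`.  By `pyth` for `insert a I ⊆ I'` applied to `Z + J0`,
`∫ (M' - Z - J0)² = ∫ (M - Z + (Jp - J0))² + (qq I' - qq (insert a I))`, the cross term vanishes by
`pred1`, `integral_cdf`, `integral_psi`, and `|Jp - J0| ≤ δ (2 |c - ct| + 30 δ |c| |m - mt|)`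
(`psi_lip`, `abs_psi_le`).  Finally replace `U0` by `U = cdf (δ m') Y`, `m' = mag (XI Iw) w`:
`|J0 - J| ≤ 30 δ² |m - m'|` (`cdf_lip`) and `(A + B)² ≤ A² + 8 |B|` when `|A|, |A + B| ≤ 4`. -/

namespace Vale.Agent.P161E

open MeasureTheory Filter Set

variable {d : ℕ} {θ : ℝ} {J : ℤ} {I I' : Set (Ix d)} {a : Ix d}

/-- clipping to `[-1,1]` -/
noncomputable def jmpCl (y : ℝ) : ℝ := max (-1) (min 1 y)

lemma jmp_abs_cl (y : ℝ) : |jmpCl y| ≤ 1 := by
  unfold jmpCl
  rw [abs_le]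
  exact ⟨le_max_left _ _, max_le (by norm_num) (min_le_left _ _)⟩

lemma jmp_cl_eq {y : ℝ} (h : |y| ≤ 1) : jmpCl y = y := by
  unfold jmpCl
  rw [abs_le] at h
  rw [min_eq_right h.2, max_eq_right h.1]

lemma jmp_meas_cl : Measurable jmpCl := by
  unfold jmpCl; fun_prop

lemma jmp_abs_al (j : ℤ) {m : ℝ} (hm : |m| ≤ 1) : |dl j * m| ≤ 1 / 2 := by
  rw [abs_mul, abs_of_pos (dl_pos j)]
  have := dl_le j
  have := dl_pos j
  nlinarith [abs_nonneg m]

lemma jmp_intOn {E : Type} [MeasurableSpace E] {F : ℝ × E → ℝ} (hF : BM inferInstance F) (o : E) :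
    IntegrableOn (fun y => F (y, o)) (Icc (-1 : ℝ) 1) := by
  obtain ⟨C, hC⟩ := hF.bdd
  refine Measure.integrableOn_of_bounded (M := C) (by simp) ?_ (ae_of_all _ fun y => hC _)
  exact (hF.meas.comp (measurable_id.prodMk measurable_const)).aestronglyMeasurable

lemma jmp_BM_int {E : Type} [MeasurableSpace E] {F : ℝ × E → ℝ} (hF : BM inferInstance F)
    {g : ℝ → ℝ} (hg : Continuous g) :
    BM inferInstance fun o => ∫ y in Icc (-1 : ℝ) 1, F (y, o) * g y := by
  obtain ⟨C, hC⟩ := hF.bdd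
  obtain ⟨D, hD⟩ := (isCompact_Icc (a := (-1 : ℝ)) (b := 1)).exists_bound_of_continuousOn
    hg.continuousOn
  refine ⟨?_, ⟨C * D * 2, fun o => ?_⟩⟩
  · have : Measurable fun p : ℝ × E => F p * g p.1 := hF.meas.mul (hg.measurable.comp measurable_fst)
    exact (this.stronglyMeasurable.integral_prod_left'
      (μ := volume.restrict (Icc (-1 : ℝ) 1))).measurable
  · have h := norm_setIntegral_le_of_norm_le_const (μ := volume) (s := Icc (-1 : ℝ) 1)
      (f := fun y => F (y, o) * g y) (C := C * D) (by simp) (fun y hy => by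
        rw [norm_mul]
        exact mul_le_mul (hC _) (hD y hy) (norm_nonneg _) ((abs_nonneg _).trans (hC (y, o))))
    have h2 : volume.real (Icc (-1 : ℝ) 1) = 2 := by simp; norm_num
    rw [h2] at h
    exact h

lemma jmp_split {E : Type} [MeasurableSpace E] {F : ℝ × E → ℝ} (hF : BM inferInstance F) (o : E)
    (p δ c : ℝ) : ∫ y in Icc (-1 : ℝ) 1, F (y, o) * ((p + δ * c * y) / 2) =
      p * (∫ y in Icc (-1 : ℝ) 1, F (y, o) * (1 / 2)) +
        c * ∫ y in Icc (-1 : ℝ) 1, F (y, o) * (δ * y / 2) := by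
  have h1 : IntegrableOn (fun y => F (y, o) * (1 / 2)) (Icc (-1 : ℝ) 1) :=
    (jmp_intOn hF o).mul_continuousOn continuousOn_const isCompact_Icc
  have h2 : IntegrableOn (fun y => F (y, o) * (δ * y / 2)) (Icc (-1 : ℝ) 1) :=
    (jmp_intOn hF o).mul_continuousOn (by fun_prop) isCompact_Icc
  rw [← integral_const_mul, ← integral_const_mul, ← integral_add (h1.const_mul _) (h2.const_mul _)]
  congr 1; ext y; ring

lemma jmp_meas_obs (I : Set (Ix d)) : Measurable[FI I] (obs I) := comap_measurable _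

lemma jmp_BM_sg (x : V d) : BM inferInstance fun η : O1 d => sg (η.1 x) :=
  ⟨(measurable_of_countable sg).comp ((measurable_pi_apply x).comp measurable_fst),
    1, fun _ => (abs_sg _).le⟩

lemma jmp_upto (hI : Upto J I) (a : Ix d) : Upto (max J a.2) (insert a I) := by
  intro b hb
  rcases hb with rfl | hb
  · exact le_max_right _ _
  · exact (hI b hb).trans (le_max_left _ _)

lemma jmp_factor {Z : O1 d → ℝ} (hZ : Measurable[FI I] Z) {C : ℝ} (hC : ∀ η, |Z η| ≤ C) :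
    ∃ z : (Ix d → ℝ) → ℝ, Measurable z ∧ (∀ o, |z o| ≤ C) ∧ ∀ η, Z η = z (obs I η) := by
  obtain ⟨z, hz, he⟩ := hZ.exists_eq_measurable_comp
  have hC0 : 0 ≤ C := (abs_nonneg _).trans (hC (fun _ => true, fun _ => 0))
  refine ⟨fun o => max (-C) (min C (z o)), by fun_prop, fun o => ?_, fun η => ?_⟩
  · rw [abs_le]
    exact ⟨le_max_left _ _, max_le (by linarith) (min_le_left _ _)⟩
  · have h1 : z (obs I η) = Z η := by rw [he]; rfl
    have h2 := abs_le.1 (hC η)
    simp only [h1]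
    rw [min_eq_right h2.2, max_eq_right h2.1]

lemma pred1 (h : Hyp d θ) (hI : Upto J I) (ha : a ∉ I) {F : ℝ × (Ix d → ℝ) → ℝ}
    (hF : BM inferInstance F) : ∫ η, F (YY a η, obs I η) ∂P1 d θ =
      ∫ η, (∫ y in Icc (-1 : ℝ) 1,
        F (y, obs I η) * ((1 + dl a.2 * mag θ (XI I η) a.1 * y) / 2)) ∂P1 d θ := by
  have hF' : BM inferInstance fun p : ℝ × O1 d => F (p.1, obs I p.2) :=
    hF.comp (measurable_fst.prodMk ((measurable_obs I).comp measurable_snd))
  have h1 := lobs (θ := θ) a hF' (fun y u' η => by simp only [obs_update ha])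
  simp only at h1
  rw [h1]
  simp only [jmp_split hF]
  have hA := (jmp_BM_int hF (g := fun _ => 1 / 2) continuous_const).comp (jmp_meas_obs I)
  have hB := (jmp_BM_int hF (g := fun y => dl a.2 * y / 2) (by fun_prop)).comp (jmp_meas_obs I)
  have hA' := hA.mono (FI_le I)
  have hB' := hB.mono (FI_le I)
  rw [integral_add ((BM.const 1).mul hA').integrable ((jmp_BM_sg a.1).mul hB').integrable,
    integral_add ((BM.const 1).mul hA').integrable
      (((BM_mag I a.1).mono (FI_le I)).mul hB').integrable, test1 h hI a.1 hB]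

lemma pred2 (h : Hyp d θ) (hI : Upto J I) (ha : a ∉ I) {F : ℝ × (Ix d → ℝ) → ℝ}
    (hF : BM inferInstance F) : ∫ η, sg (η.1 1) * F (YY a η, obs I η) ∂P1 d θ =
      ∫ η, (∫ y in Icc (-1 : ℝ) 1, F (y, obs I η) * ((mag θ (XI I η) 1 + dl a.2 *
        (mag θ (XI I η) 1 * mag θ (XI I η) a.1 + cov θ (XI I η) 1 a.1) * y) / 2)) ∂P1 d θ := by
  have hF' : BM inferInstance fun p : ℝ × O1 d => sg (p.2.1 1) * F (p.1, obs I p.2) :=
    ((jmp_BM_sg 1).comp measurable_snd).mul
      (hF.comp (measurable_fst.prodMk ((measurable_obs I).comp measurable_snd)))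
  have h1 := lobs (θ := θ) a hF' (fun y u' η => by simp only [obs_update ha])
  simp only at h1
  rw [h1]
  simp only [mul_assoc (sg _), integral_const_mul]
  simp only [jmp_split hF]
  have hA := (jmp_BM_int hF (g := fun _ => 1 / 2) continuous_const).comp (jmp_meas_obs I)
  have hB := (jmp_BM_int hF (g := fun y => dl a.2 * y / 2) (by fun_prop)).comp (jmp_meas_obs I)
  have hA' := hA.mono (FI_le I)
  have hB' := hB.mono (FI_le I)
  have hM := (BM_mag (θ := θ) I 1).mono (FI_le I)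
  have hm := (BM_mag (θ := θ) I a.1).mono (FI_le I)
  have hc := (BM_cov h I 1 a.1).mono (FI_le I)
  simp only [mul_add, one_mul, ← mul_assoc (sg _)]
  rw [integral_add ((jmp_BM_sg 1).mul hA').integrable
      (((jmp_BM_sg 1).mul (jmp_BM_sg a.1)).mul hB').integrable,
    integral_add (hM.mul hA').integrable (((hM.mul hm).add hc).mul hB').integrable,
    test1 h hI 1 hA, test2 h hI a.1 hB]

lemma jmp_den {j : ℤ} {m y : ℝ} (hm : |m| ≤ 1) (hy : |y| ≤ 1) : 1 / 2 ≤ 1 + dl j * m * y := by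
  have h1 := jmp_abs_al j hm
  have h2 : |dl j * m * y| ≤ 1 / 2 := by
    rw [abs_mul]; nlinarith [abs_nonneg y, abs_nonneg (dl j * m)]
  linarith [(abs_le.1 h2).1]

lemma jmp_ratio {j : ℤ} {m y : ℝ} (hm : |m| ≤ 1) (hy : |y| ≤ 1) :
    |y / (1 + dl j * m * y)| ≤ 2 := by
  have h := jmp_den (j := j) hm hy
  rw [abs_div, abs_of_pos (by linarith : 0 < 1 + dl j * m * y), div_le_iff₀ (by linarith)]
  linarith

lemma jmp_meas_pair (a : Ix d) (I : Set (Ix d)) :
    Measurable[FI (insert a I)] fun η => (YY a η, obs I η) :=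
  (measurable_YY_FI (mem_insert a I)).prodMk
    ((jmp_meas_obs I).mono (FI_mono (subset_insert a I)) le_rfl)

lemma jump_eq (h : Hyp d θ) (hI : Upto J I) (ha : a ∉ I) :
    ∀ᵐ η ∂P1 d θ, mag θ (XI (insert a I) η) 1 = mag θ (XI I η) 1 +
      cov θ (XI I η) 1 a.1 * dl a.2 * (YY a η / (1 + dl a.2 * mag θ (XI I η) a.1 * YY a η)) := by
  classical
  set Lf : ℝ × (Ix d → ℝ) → ℝ := fun p => mag θ (fld (Function.update p.2 a p.1)) 1 with hLf
  set Rf : ℝ × (Ix d → ℝ) → ℝ := fun p => mag θ (fld p.2) 1 + cov θ (fld p.2) 1 a.1 * dl a.2 *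
    (jmpCl p.1 / (1 + dl a.2 * mag θ (fld p.2) a.1 * jmpCl p.1)) with hRf
  have mf : Measurable fun p : ℝ × (Ix d → ℝ) => fld p.2 := measurable_fld.comp measurable_snd
  have bL : BM inferInstance Lf := by
    refine ⟨(measurable_mag 1).comp (measurable_fld.comp ?_), 1, fun p => abs_mag_le _⟩
    exact measurable_update'.comp (measurable_snd.prodMk measurable_fst)
  have bR : BM inferInstance Rf := by
    have b1 : BM inferInstance fun p : ℝ × (Ix d → ℝ) => mag θ (fld p.2) 1 :=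
      ⟨(measurable_mag 1).comp mf, 1, fun p => abs_mag_le _⟩
    have b2 : BM inferInstance fun p : ℝ × (Ix d → ℝ) => cov θ (fld p.2) 1 a.1 :=
      ⟨(measurable_cov 1 a.1).comp mf, 1, fun p => abs_cov_le h _ _⟩
    have b3 : BM inferInstance fun p : ℝ × (Ix d → ℝ) =>
        jmpCl p.1 / (1 + dl a.2 * mag θ (fld p.2) a.1 * jmpCl p.1) := by
      refine ⟨?_, 2, fun p => jmp_ratio (abs_mag_le _) (jmp_abs_cl _)⟩
      have : Measurable fun p : ℝ × (Ix d → ℝ) => jmpCl p.1 := jmp_meas_cl.comp measurable_fst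
      exact this.div (measurable_const.add
        ((measurable_const.mul ((measurable_mag a.1).comp mf)).mul this))
    exact b1.add ((b2.mul (BM.const _)).mul b3)
  have bZ := bL.sub bR
  have eL : ∀ η, Lf (YY a η, obs I η) = mag θ (XI (insert a I) η) 1 := fun η => by
    simp only [hLf, XI]; rw [obs_insert]
  have eR : ∀ η, Rf (YY a η, obs I η) = mag θ (XI I η) 1 +
      cov θ (XI I η) 1 a.1 * dl a.2 * (YY a η / (1 + dl a.2 * mag θ (XI I η) a.1 * YY a η)) :=
    fun η => by simp only [hRf, XI, jmp_cl_eq (abs_YY_le a η)]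
  have bZ' := bZ.comp (jmp_meas_pair a I)
  have h1 := test1 h (jmp_upto hI a) 1 bZ'
  have h2 := pred2 h hI ha bZ
  have h3 := pred1 h hI ha (bR.mul bZ)
  have h4 : ∫ η, Lf (YY a η, obs I η) * (Lf (YY a η, obs I η) - Rf (YY a η, obs I η)) ∂P1 d θ =
      ∫ η, Rf (YY a η, obs I η) * (Lf (YY a η, obs I η) - Rf (YY a η, obs I η)) ∂P1 d θ := by
    rw [h3]
    simp only [eL] at h1 h2 ⊢
    rw [← h1, h2]
    refine integral_congr_ae (ae_of_all _ fun η => ?_)
    refine setIntegral_congr_fun measurableSet_Icc fun y hy => ?_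
    have hy' : |y| ≤ 1 := abs_le.2 hy
    have hd := jmp_den (j := a.2) (abs_mag_le (θ := θ) (X := XI I η) a.1) hy'
    have e : Rf (y, obs I η) = mag θ (XI I η) 1 + cov θ (XI I η) 1 a.1 * dl a.2 *
        (y / (1 + dl a.2 * mag θ (XI I η) a.1 * y)) := by
      simp only [hRf, XI, jmp_cl_eq hy']
    have e2 : Rf (y, obs I η) * (1 + dl a.2 * mag θ (XI I η) a.1 * y) = mag θ (XI I η) 1 + dl a.2 *
        (mag θ (XI I η) 1 * mag θ (XI I η) a.1 + cov θ (XI I η) 1 a.1) * y := by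
      have hne : 1 + dl a.2 * mag θ (XI I η) a.1 * y ≠ 0 := by linarith
      rw [e, add_mul, mul_assoc (_ * dl a.2), div_mul_cancel₀ _ hne]; ring
    rw [← e2]; ring
  have pm := (jmp_meas_pair a I).mono (FI_le _) le_rfl
  have h5 : ∫ η, (Lf (YY a η, obs I η) - Rf (YY a η, obs I η)) ^ 2 ∂P1 d θ = 0 := by
    have := integral_sub (μ := P1 d θ) ((bL.mul bZ).comp pm).integrable
      ((bR.mul bZ).comp pm).integrable
    rw [h4, sub_self] at this
    rw [← this]; congr 1; ext η; ring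
  rw [integral_eq_zero_iff_of_nonneg (fun η => sq_nonneg _) ((bZ.pow 2).comp pm).integrable] at h5
  filter_upwards [h5] with η hη
  have : Lf (YY a η, obs I η) - Rf (YY a η, obs I η) = 0 := by simpa using hη
  rw [← eL, ← eR]; linarith

theorem jump_var (h : Hyp d θ) (hI : Upto J I) (ha : a ∉ I) :
    qq θ (insert a I) 1 - qq θ I 1 ≤ 4 * dl a.2 ^ 2 * ∫ η, cov θ (XI I η) 1 a.1 ^ 2 ∂P1 d θ := by
  rw [← qq_sub h (jmp_upto hI a) (subset_insert a I), ← integral_const_mul]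
  have hc := (BM_cov h I 1 a.1).mono (FI_le I)
  refine integral_mono_ae ?_ ((BM.const _).mul (hc.pow 2)).integrable ?_
  · exact ((((BM_mag _ 1).mono (FI_le _)).sub ((BM_mag _ 1).mono (FI_le _))).pow 2).integrable
  · filter_upwards [jump_eq h hI ha] with η hη
    rw [hη]
    have h1 := jmp_ratio (j := a.2) (abs_mag_le (θ := θ) (X := XI I η) a.1) (abs_YY_le a η)
    set r := YY a η / (1 + dl a.2 * mag θ (XI I η) a.1 * YY a η)
    have h2 : r ^ 2 ≤ 4 := by nlinarith [abs_nonneg r, sq_abs r]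
    have h3 : 0 ≤ (cov θ (XI I η) 1 a.1 * dl a.2) ^ 2 := sq_nonneg _
    nlinarith

/-- The innovation is uniform and independent of the past. -/
theorem innov_test (h : Hyp d θ) (hI : Upto J I) (ha : a ∉ I) {φ : ℝ → ℝ}
    (hφ : BM inferInstance φ) {Z : O1 d → ℝ} (hZ : BM (FI I) Z) :
    ∫ η, φ (cdf (dl a.2 * mag θ (XI I η) a.1) (YY a η)) * Z η ∂P1 d θ =
      (∫ u : unitInterval, φ u) * ∫ η, Z η ∂P1 d θ := by
  obtain ⟨C, hC⟩ := hZ.bdd
  obtain ⟨z, hz, bz, ez⟩ := jmp_factor hZ.meas hC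
  have mf : Measurable fun p : ℝ × (Ix d → ℝ) => fld p.2 := measurable_fld.comp measurable_snd
  have bF : BM inferInstance fun p : ℝ × (Ix d → ℝ) =>
      φ (cdf (dl a.2 * mag θ (fld p.2) a.1) p.1) * z p.2 := by
    refine BM.mul (hφ.comp ?_) ⟨hz.comp measurable_snd, C, fun p => bz _⟩
    exact continuous_cdf.measurable.comp
      ((measurable_const.mul ((measurable_mag a.1).comp mf)).prodMk measurable_fst)
  have h1 := pred1 h hI ha bF
  simp only [ez]
  refine h1.trans ?_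
  rw [← integral_const_mul]
  refine integral_congr_ae (ae_of_all _ fun η => ?_)
  have h2 := integral_cdf (jmp_abs_al a.2 (abs_mag_le (θ := θ) (X := XI I η) a.1)) hφ.meas
  simp only
  rw [← h2, ← integral_mul_const]
  congr 1; ext y; simp only [XI]; ring

lemma jmp_cross (h : Hyp d θ) (hI : Upto J I) (ha : a ∉ I) {H β : O1 d → ℝ} (hH : BM (FI I) H)
    (hβ : Measurable[FI I] β) (bβ : ∀ η, |β η| ≤ 1) :
    ∫ η, H η * psi (dl a.2 * β η) (cdf (dl a.2 * mag θ (XI I η) a.1) (YY a η)) ∂P1 d θ = 0 := by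
  obtain ⟨C, hC⟩ := hH.bdd
  obtain ⟨z, hz, bz, ez⟩ := jmp_factor hH.meas hC
  obtain ⟨b, hb, bb, eb⟩ := jmp_factor hβ bβ
  have mf : Measurable fun p : ℝ × (Ix d → ℝ) => fld p.2 := measurable_fld.comp measurable_snd
  have bF : BM inferInstance fun p : ℝ × (Ix d → ℝ) =>
      z p.2 * psi (dl a.2 * b p.2) (cdf (dl a.2 * mag θ (fld p.2) a.1) (jmpCl p.1)) := by
    refine BM.mul ⟨hz.comp measurable_snd, C, fun p => bz _⟩ ⟨?_, 2, fun p => ?_⟩
    · refine measurable_psi.comp ((measurable_const.mul (hb.comp measurable_snd)).prodMk ?_)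
      exact continuous_cdf.measurable.comp
        ((measurable_const.mul ((measurable_mag a.1).comp mf)).prodMk
          (jmp_meas_cl.comp measurable_fst))
    · exact abs_psi_le (jmp_abs_al _ (bb _))
        (cdf_mem (jmp_abs_al _ (abs_mag_le _)) (jmp_abs_cl _))
  have h1 := pred1 h hI ha bF
  simp only [jmp_cl_eq (abs_YY_le a _)] at h1
  simp only [ez, eb]
  refine h1.trans ?_
  refine integral_eq_zero_of_ae (ae_of_all _ fun η => ?_)
  have hm : Measurable (psi (dl a.2 * b (obs I η))) :=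
    measurable_psi.comp (measurable_const.prodMk measurable_id)
  have h2 := integral_cdf (jmp_abs_al a.2 (abs_mag_le (θ := θ) (X := XI I η) a.1)) hm
  rw [integral_psi (jmp_abs_al _ (bb _))] at h2
  have h3 := congrArg (fun t => z (obs I η) * t) h2
  simp only [mul_zero, ← integral_const_mul] at h3
  simp only [Pi.zero_apply]
  rw [← h3]
  refine setIntegral_congr_fun measurableSet_Icc fun y hy => ?_
  simp only [jmp_cl_eq (abs_le.2 hy), XI]; ring

lemma jmp_BM_psi (a : Ix d) {G : MeasurableSpace (O1 d)} {β m : O1 d → ℝ}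
    (hβ : Measurable[G] β) (bβ : ∀ η, |β η| ≤ 1) (hm : Measurable[G] m) (bm : ∀ η, |m η| ≤ 1)
    (hY : Measurable[G] (YY a)) :
    BM G fun η => psi (dl a.2 * β η) (cdf (dl a.2 * m η) (YY a η)) := by
  refine ⟨?_, 2, fun η => abs_psi_le (jmp_abs_al _ (bβ _))
    (cdf_mem (jmp_abs_al _ (bm _)) (abs_YY_le a η))⟩
  exact measurable_psi.comp ((measurable_const.mul hβ).prodMk
    (continuous_cdf.measurable.comp ((measurable_const.mul hm).prodMk hY)))

theorem slot_one (h : Hyp d θ) (hI : Upto J I') (ha : a ∉ I) (hs : insert a I ⊆ I')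
    {Iw : Set (Ix d)} {Z ct mt : O1 d → ℝ} (hZ : Measurable[FI I] Z) (hct : Measurable[FI I] ct)
    (hmt : Measurable[FI I] mt) (bZ : ∀ η, |Z η| ≤ 1) (bct : ∀ η, |ct η| ≤ 1)
    (bmt : ∀ η, |mt η| ≤ 1) :
    ∫ η, (mag θ (XI I' η) 1 - Z η - ct η * dl a.2 *
        psi (dl a.2 * mt η) (cdf (dl a.2 * mag θ (XI Iw η) a.1) (YY a η))) ^ 2 ∂P1 d θ ≤
      ∫ η, (mag θ (XI I η) 1 - Z η) ^ 2 ∂P1 d θ + (qq θ I' 1 - qq θ (insert a I) 1) +
        500 * dl a.2 ^ 2 * ∫ η, ((cov θ (XI I η) 1 a.1 - ct η) ^ 2 +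
          cov θ (XI I η) 1 a.1 ^ 2 * (mag θ (XI I η) a.1 - mt η) ^ 2) ∂P1 d θ +
        60 * ∫ η, |mag θ (XI Iw η) a.1 - mag θ (XI I η) a.1| ∂P1 d θ := by
  have hII : Upto J I := fun b hb => hI b (hs (mem_insert_of_mem _ hb))
  have hle : FI I ≤ FI (insert a I) := FI_mono (subset_insert a I)
  have dp := dl_pos a.2
  have dle := dl_le a.2
  set δ := dl a.2 with hδ
  set M : O1 d → ℝ := fun η => mag θ (XI I η) 1 with hM
  set m : O1 d → ℝ := fun η => mag θ (XI I η) a.1 with hm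
  set m' : O1 d → ℝ := fun η => mag θ (XI Iw η) a.1 with hm'
  set c : O1 d → ℝ := fun η => cov θ (XI I η) 1 a.1 with hc
  set M' : O1 d → ℝ := fun η => mag θ (XI I' η) 1 with hM'
  set p0 : O1 d → ℝ := fun η => psi (δ * mt η) (cdf (δ * m η) (YY a η)) with hp0
  set p1 : O1 d → ℝ := fun η => psi (δ * mt η) (cdf (δ * m' η) (YY a η)) with hp1
  set pp : O1 d → ℝ := fun η => psi (δ * m η) (cdf (δ * m η) (YY a η)) with hpp
  have bM : BM (FI I) M := BM_mag I 1
  have bm : BM (FI I) m := BM_mag I a.1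
  have bc : BM (FI I) c := BM_cov h I 1 a.1
  have am : ∀ η, |m η| ≤ 1 := fun η => abs_mag_le _
  have am' : ∀ η, |m' η| ≤ 1 := fun η => abs_mag_le _
  have bZ0 : BM (FI I) Z := ⟨hZ, 1, bZ⟩
  have bct0 : BM (FI I) ct := ⟨hct, 1, bct⟩
  have bmt0 : BM (FI I) mt := ⟨hmt, 1, bmt⟩
  have bp0 : BM (FI (insert a I)) p0 := jmp_BM_psi a (hmt.mono hle le_rfl) bmt
    (bm.meas.mono hle le_rfl) am (measurable_YY_FI (mem_insert a I))
  have bp0' := bp0.mono (FI_le _)
  have bm' : BM inferInstance m' := (BM_mag Iw a.1).mono (FI_le _)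
  have bp1 : BM inferInstance p1 := jmp_BM_psi a (hmt.mono (FI_le I) le_rfl) bmt
    bm'.meas am' (measurable_YY a)
  have bpp : BM inferInstance pp := jmp_BM_psi a (bm.meas.mono (FI_le I) le_rfl) am
    (bm.meas.mono (FI_le I) le_rfl) am (measurable_YY a)
  have bM' : BM inferInstance M' := (BM_mag I' 1).mono (FI_le _)
  have bM1 := bM.mono (FI_le I)
  have bm1 := bm.mono (FI_le I)
  have bc1 := bc.mono (FI_le I)
  have bZ1 := bZ0.mono (FI_le I)
  have bct1 := bct0.mono (FI_le I)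
  have bmt1 := bmt0.mono (FI_le I)
  have u0 : ∀ η, cdf (δ * m η) (YY a η) ∈ Icc (0 : ℝ) 1 := fun η =>
    cdf_mem (jmp_abs_al _ (am η)) (abs_YY_le a η)
  have u1 : ∀ η, cdf (δ * m' η) (YY a η) ∈ Icc (0 : ℝ) 1 := fun η =>
    cdf_mem (jmp_abs_al _ (am' η)) (abs_YY_le a η)
  have ap0 : ∀ η, |p0 η| ≤ 2 := fun η => abs_psi_le (jmp_abs_al _ (bmt η)) (u0 η)
  have ap1 : ∀ η, |p1 η| ≤ 2 := fun η => abs_psi_le (jmp_abs_al _ (bmt η)) (u1 η)
  -- step 1
  have s1 : ∫ η, (M' η - Z η - ct η * δ * p1 η) ^ 2 ∂P1 d θ ≤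
      ∫ η, (M' η - (Z η + ct η * δ * p0 η)) ^ 2 ∂P1 d θ + 60 * ∫ η, |m' η - m η| ∂P1 d θ := by
    have i1 := ((bM'.sub (bZ1.add ((bct1.mul (BM.const δ)).mul bp0'))).pow 2).integrable
      (P := P1 d θ)
    have i2 := ((BM.const 60).mul (bm'.sub bm1).abs).integrable (P := P1 d θ)
    rw [← integral_const_mul, ← integral_add i1 i2]
    refine integral_mono (((bM'.sub bZ1).sub ((bct1.mul (BM.const δ)).mul bp1)).pow 2).integrable
      (i1.add i2) fun η => ?_
    have l1 : |p1 η - p0 η| ≤ 30 * (δ * |m' η - m η|) := by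
      have := psi_lip (jmp_abs_al a.2 (bmt η)) (jmp_abs_al a.2 (bmt η)) (u1 η) (u0 η)
      have h2 := cdf_lip (δ * m' η) (δ * m η) (abs_YY_le a η)
      rw [← mul_sub, abs_mul, abs_of_pos dp] at h2
      simp only [sub_self, abs_zero, zero_add] at this
      exact this.trans (by linarith)
    have aJ : ∀ p : ℝ, |p| ≤ 2 → |ct η * δ * p| ≤ 1 := fun p hp => by
      rw [abs_mul, abs_mul, abs_of_pos dp]
      have := mul_le_mul (bct η) dle dp.le zero_le_one
      nlinarith [abs_nonneg p, mul_nonneg (abs_nonneg (ct η)) dp.le]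
    have a0 := abs_le.1 (aJ _ (ap0 η))
    have a1 := abs_le.1 (aJ _ (ap1 η))
    have aM : |M' η| ≤ 1 := abs_mag_le _
    have aM2 := abs_le.1 aM
    have aZ := abs_le.1 (bZ η)
    have l2 : |ct η * δ * p1 η - ct η * δ * p0 η| ≤ 15 / 2 * |m' η - m η| := by
      rw [← mul_sub, abs_mul, abs_mul, abs_of_pos dp]
      have h3 : |ct η| * δ ≤ 1 / 2 := by nlinarith [bct η, abs_nonneg (ct η)]
      have h4 : δ * |m' η - m η| ≤ 1 / 2 * |m' η - m η| :=
        mul_le_mul_of_nonneg_right dle (abs_nonneg _)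
      have h5 := mul_le_mul h3 l1 (abs_nonneg _) (by norm_num)
      linarith
    set x := ct η * δ * p1 η
    set y := ct η * δ * p0 η
    have l3 : (M' η - Z η - x) ^ 2 - (M' η - (Z η + y)) ^ 2 =
        (y - x) * (2 * (M' η - Z η) - x - y) := by ring
    have l4 : (y - x) * (2 * (M' η - Z η) - x - y) ≤ |x - y| * 8 := by
      refine (le_abs_self _).trans ?_
      rw [abs_mul, abs_sub_comm]
      exact mul_le_mul_of_nonneg_left (abs_le.2 ⟨by linarith, by linarith⟩) (abs_nonneg _)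
    simp only
    linarith
  -- step 2
  have s2 := pyth h hI hs 1 ((bZ0.mono hle).add (((bct0.mono hle).mul (BM.const δ)).mul bp0))
  -- step 3
  have s3 : ∫ η, (mag θ (XI (insert a I) η) 1 - (Z η + ct η * δ * p0 η)) ^ 2 ∂P1 d θ =
      ∫ η, (M η - Z η) ^ 2 ∂P1 d θ + ∫ η, (c η * δ * pp η - ct η * δ * p0 η) ^ 2 ∂P1 d θ := by
    have c1 := jmp_cross h hII ha (((BM.const 2).mul (bM.sub bZ0)).mul (bc.mul (BM.const δ)))
      bm.meas am
    have c2 := jmp_cross h hII ha (((BM.const 2).mul (bM.sub bZ0)).mul (bct0.mul (BM.const δ)))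
      hmt bmt
    have i1 := ((bM1.sub bZ1).pow 2).integrable (P := P1 d θ)
    have i2 := ((((bc1.mul (BM.const δ)).mul bpp).sub
      ((bct1.mul (BM.const δ)).mul bp0')).pow 2).integrable (P := P1 d θ)
    have i3 := ((((BM.const 2).mul (bM1.sub bZ1)).mul (bc1.mul (BM.const δ))).mul bpp).integrable
      (P := P1 d θ)
    have i4 := ((((BM.const 2).mul (bM1.sub bZ1)).mul (bct1.mul (BM.const δ))).mul bp0').integrable
      (P := P1 d θ)
    have e1 := integral_add (i1.add i2) (i3.sub i4)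
    have e2 := integral_add i1 i2
    have e3 := integral_sub i3 i4
    simp only [Pi.add_apply, Pi.sub_apply] at e1
    rw [e2, e3] at e1
    change ∫ η, 2 * (M η - Z η) * (c η * δ) * pp η ∂P1 d θ = 0 at c1
    change ∫ η, 2 * (M η - Z η) * (ct η * δ) * p0 η ∂P1 d θ = 0 at c2
    rw [c1, c2, sub_zero, add_zero] at e1
    rw [← e1]
    refine integral_congr_ae ?_
    filter_upwards [jump_eq h hII ha] with η hη
    have e4 : pp η = YY a η / (1 + δ * m η * YY a η) := by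
      simp only [hpp, psi, qf_cdf (jmp_abs_al a.2 (am η)) (abs_YY_le a η), hδ]
    rw [hη]
    change (M η + c η * δ * (YY a η / (1 + δ * m η * YY a η)) - _) ^ 2 = _
    rw [← e4]; ring
  -- step 4
  have s4 : ∫ η, (c η * δ * pp η - ct η * δ * p0 η) ^ 2 ∂P1 d θ ≤
      500 * δ ^ 2 * ∫ η, ((c η - ct η) ^ 2 + c η ^ 2 * (m η - mt η) ^ 2) ∂P1 d θ := by
    rw [← integral_const_mul]
    refine integral_mono ((((bc1.mul (BM.const δ)).mul bpp).sub
      ((bct1.mul (BM.const δ)).mul bp0')).pow 2).integrable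
      ((BM.const _).mul (((bc1.sub bct1).pow 2).add
        ((bc1.pow 2).mul ((bm1.sub bmt1).pow 2)))).integrable fun η => ?_
    have l1 : |pp η - p0 η| ≤ 15 * |m η - mt η| := by
      have := psi_lip (jmp_abs_al a.2 (am η)) (jmp_abs_al a.2 (bmt η)) (u0 η) (u0 η)
      rw [← mul_sub, abs_mul, abs_of_pos dp] at this
      simp only [sub_self, abs_zero, add_zero] at this
      have h4 : δ * |m η - mt η| ≤ 1 / 2 * |m η - mt η| :=
        mul_le_mul_of_nonneg_right dle (abs_nonneg _)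
      exact this.trans (by linarith)
    have l2 : (pp η - p0 η) ^ 2 ≤ 225 * (m η - mt η) ^ 2 := by
      rw [← sq_abs, ← sq_abs (m η - mt η)]
      nlinarith [abs_nonneg (pp η - p0 η)]
    have l3 : p0 η ^ 2 ≤ 4 := by nlinarith [ap0 η, abs_nonneg (p0 η), sq_abs (p0 η)]
    have l4 : c η * δ * pp η - ct η * δ * p0 η =
        δ * ((c η - ct η) * p0 η + c η * (pp η - p0 η)) := by ring
    simp only
    rw [l4, mul_pow]
    have l5 : ((c η - ct η) * p0 η + c η * (pp η - p0 η)) ^ 2 ≤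
        500 * ((c η - ct η) ^ 2 + c η ^ 2 * (m η - mt η) ^ 2) := by
      have k1 := mul_le_mul_of_nonneg_left l3 (sq_nonneg (c η - ct η))
      have k2 := mul_le_mul_of_nonneg_left l2 (sq_nonneg (c η))
      nlinarith [sq_nonneg ((c η - ct η) * p0 η - c η * (pp η - p0 η)), sq_nonneg (c η - ct η),
        mul_nonneg (sq_nonneg (c η)) (sq_nonneg (m η - mt η))]
    nlinarith [mul_le_mul_of_nonneg_left l5 (sq_nonneg δ)]
  change ∫ η, (M' η - (Z η + ct η * δ * p0 η)) ^ 2 ∂P1 d θ = _ at s2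
  rw [s3] at s2
  change ∫ η, (M' η - Z η - ct η * δ * p1 η) ^ 2 ∂P1 d θ ≤ ∫ η, (M η - Z η) ^ 2 ∂P1 d θ + _ +
    500 * δ ^ 2 * ∫ η, ((c η - ct η) ^ 2 + c η ^ 2 * (m η - mt η) ^ 2) ∂P1 d θ +
    60 * ∫ η, |m' η - m η| ∂P1 d θ
  linarith

end Vale.Agent.P161E
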