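import Vale.Agent.P161E.Wrap
import Vale.Agent.P161E.Converse

namespace Vale.Agent.P161E

open MeasureTheory

theorem main (d : ℕ) (hd : 3 ≤ d) :
    (tree d).IsTree ∧ (∀ v, ((tree d).neighborSet v).ncard = d) ∧
    ∀ β : ℝ, 0 ≤ β → (∃ μ, IsFreeIsing (tree d) (Real.tanh β) μ) ∧
      ∀ μ, IsFreeIsing (tree d) (Real.tanh β) μ →
        (IsFIID (tree d) μ ↔ Real.tanh β ≤ ((d : ℝ) - 1) ^ (-(1 / 2) : ℝ)) := by
  refine ⟨isTree, regular, fun β hβ => ?_⟩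
  have h0 : 0 ≤ Real.tanh β := by
    rw [Real.tanh_eq_sinh_div_cosh]
    exact div_nonneg (Real.sinh_nonneg_iff.2 hβ) (Real.cosh_pos β).le
  have h1 : Real.tanh β ≤ 1 := (Real.tanh_lt_one β).le
  refine ⟨⟨_, isFree h0 h1⟩, fun μ hμ => ?_⟩
  rw [unique hμ (isFree h0 h1)]
  have hb : (0 : ℝ) < (d : ℝ) - 1 := by
    have : (3 : ℝ) ≤ d := by exact_mod_cast hd
    linarith
  have key : Real.tanh β ≤ ((d : ℝ) - 1) ^ (-(1 / 2) : ℝ) ↔ ((d : ℝ) - 1) * Real.tanh β ^ 2 ≤ 1 := by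
    have hp : 0 < ((d : ℝ) - 1) ^ (-(1 / 2) : ℝ) := Real.rpow_pos_of_pos hb _
    have hs : (((d : ℝ) - 1) ^ (-(1 / 2) : ℝ)) ^ 2 = ((d : ℝ) - 1)⁻¹ := by
      rw [← Real.rpow_natCast, ← Real.rpow_mul hb.le, ← Real.rpow_neg_one]
      norm_num
    rw [← pow_le_pow_iff_left₀ h0 hp.le two_ne_zero, hs, ← one_div, le_div_iff₀ hb, mul_comm]
  rw [key]
  exact ⟨converse hd h0 h1, fun h => fiid ⟨hd, h0, h⟩⟩

end Vale.Agent.P161E
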