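import Vale.Agent.P161E.Alg
import Vale.Agent.P161E.Tools

/-! Calculus of aligned log-likelihood ratios (`Nish`).
`Nish.sym`: `χ(H) = χ(H)(1+t)/2 + χ(H)(1-t)/2` with `t = tanh H`, and `1 - t = (1 + t) exp (-2H)`;
apply the definition to `x ↦ χ(-x)`-type test functions: `E[χ(H)(1-t)] = E[χ(-H)(1-t)]`.
Two-variable statements: `freeze` (integrate out one variable at a time) and `Nish.sym`; with
`A = tanh² H₁`, `B = tanh² H₂` one gets `qv (H₁+H₂) = E[(A+B-2AB)/(1-AB)]` (`qv_add`), and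
`(A+B-2AB)/(1-AB) - A = B(1-A)²/(1-AB)`, `= A+B - AB(2-A-B)/(1-AB)`,
`1 - (A+B-2AB)/(1-AB) = (1-A)(1-B)/(1-AB) ≤ (1-A)(1 - B(1-A))`; `E[AB] = E A E B`.
`Nish.msg`: `E χ(-s f(H)) = p E χ(-f H) + (1-p) E χ(f H)`, use `msg_neg`, the definition, `exp_msg`.
`mgf_msg`: `E exp(λ s f) = E cosh(λ f) ± θ E sinh(λ f)`, `E sinh(λ f H) = E[tanh H sinh(λ f H)]`
(`Nish.odd`), `cosh A + B sinh A ≤ cosh (A + B)` for `A, B ≥ 0`, `abs_msg_le`, `abs_tanh_le`.
`gap_step`: `phi² ≤ phi ≤ 1 - tanh²/2` and one of `|η ± a|` is at least `|η|`; `(1-θ)/2 ≥ 1/8`. -/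

namespace Vale.Agent.P161E

open MeasureTheory ProbabilityTheory Filter Real

/-- `H` is distributed as an aligned log-likelihood ratio. -/
def Nish {Ω : Type} [MeasurableSpace Ω] (P : Measure Ω) (H : Ω → ℝ) : Prop :=
  ∀ χ : ℝ → ℝ, Continuous χ → ∫ ω, χ (-H ω) ∂P = ∫ ω, χ (H ω) * exp (-2 * H ω) ∂P

/-- Mean square magnetization. -/
noncomputable def qv {Ω : Type} [MeasurableSpace Ω] (P : Measure Ω) (H : Ω → ℝ) : ℝ :=
  ∫ ω, tanh (H ω) ^ 2 ∂P

/-- `e` is an edge variable. -/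
def Edge {Ω : Type} [MeasurableSpace Ω] (P : Measure Ω) (θ : ℝ) (e : Ω → Bool) : Prop :=
  Measurable e ∧ ∀ f : Bool → ℝ, ∫ ω, f (e ω) ∂P = (1 + θ) / 2 * f true + (1 - θ) / 2 * f false

variable {Ω : Type} [m0 : MeasurableSpace Ω] {P : Measure Ω} [IsProbabilityMeasure P]
  {H H' : Ω → ℝ} {d : ℕ} {θ : ℝ} {e : Ω → Bool}

lemma one_add_tanh_mul (x : ℝ) : (1 + tanh x) * exp (-2 * x) = 1 - tanh x := by
  have h1 : exp (-2 * x) = exp (-x) * exp (-x) := by rw [← exp_add]; ring_nf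
  have h2 : exp x * exp (-x) = 1 := by rw [← exp_add]; simp
  have h3 : exp x + exp (-x) ≠ 0 := by positivity
  have h4 : tanh x * (exp x + exp (-x)) = exp x - exp (-x) := by
    rw [tanh_eq]; field_simp
  apply mul_right_cancel₀ h3
  rw [h1]
  linear_combination (exp (-x) * exp (-x) + 1) * h4 + 2 * exp (-x) * h2

omit [IsProbabilityMeasure P] in
lemma BM.cont2 (b : BM m0 H) (b' : BM m0 H') {F : ℝ × ℝ → ℝ} (hF : Continuous F) :
    BM m0 fun ω => F (H ω, H' ω) := by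
  obtain ⟨C, hC⟩ := b.bdd
  obtain ⟨C', hC'⟩ := b'.bdd
  obtain ⟨D, hD⟩ := ((isCompact_Icc (a := -C) (b := C)).prod
    (isCompact_Icc (a := -C') (b := C'))).exists_bound_of_continuousOn hF.continuousOn
  exact ⟨hF.measurable.comp (b.meas.prodMk b'.meas), D,
    fun ω => hD _ ⟨abs_le.1 (hC ω), abs_le.1 (hC' ω)⟩⟩

lemma freeze' (b : BM m0 H) (b' : BM m0 H') (hi : IndepFun H H' P) {F : ℝ × ℝ → ℝ}
    (hF : Continuous F) :
    ∫ ω, F (H ω, H' ω) ∂P = ∫ ω, (∫ ω', F (H ω', H' ω) ∂P) ∂P := by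
  obtain ⟨C, hC⟩ := b.bdd
  obtain ⟨C', hC'⟩ := b'.bdd
  have k : ∀ C : ℝ, 0 ≤ C → ∀ x : ℝ, |max (-C) (min C x)| ≤ C := fun C h x =>
    abs_le.2 ⟨le_max_left _ _, max_le (by linarith) (min_le_left _ _)⟩
  have k' : ∀ C x : ℝ, |x| ≤ C → max (-C) (min C x) = x := fun C x h => by
    rw [min_eq_right (abs_le.1 h).2, max_eq_right (abs_le.1 h).1]
  obtain ⟨ω0⟩ : Nonempty Ω := nonempty_of_isProbabilityMeasure P
  have c1 : BM inferInstance fun p : ℝ × ℝ => max (-C) (min C p.1) :=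
    ⟨by fun_prop, C, fun p => k C ((abs_nonneg _).trans (hC ω0)) _⟩
  have c2 : BM inferInstance fun p : ℝ × ℝ => max (-C') (min C' p.2) :=
    ⟨by fun_prop, C', fun p => k C' ((abs_nonneg _).trans (hC' ω0)) _⟩
  have := freeze b.meas b'.meas hi (c1.cont2 c2 hF)
  simpa only [k' C _ (hC _), k' C' _ (hC' _)] using this

lemma swap1 (b : BM m0 H) (b' : BM m0 H') (hi : IndepFun H H' P) {F G : ℝ × ℝ → ℝ}
    (hF : Continuous F) (hG : Continuous G)
    (h : ∀ y, ∫ ω, F (H ω, y) ∂P = ∫ ω, G (H ω, y) ∂P) :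
    ∫ ω, F (H ω, H' ω) ∂P = ∫ ω, G (H ω, H' ω) ∂P := by
  rw [freeze' b b' hi hF, freeze' b b' hi hG]
  simp only [h]

lemma swap2 (b : BM m0 H) (b' : BM m0 H') (hi : IndepFun H H' P) {F G : ℝ × ℝ → ℝ}
    (hF : Continuous F) (hG : Continuous G)
    (h : ∀ x, ∫ ω, F (x, H' ω) ∂P = ∫ ω, G (x, H' ω) ∂P) :
    ∫ ω, F (H ω, H' ω) ∂P = ∫ ω, G (H ω, H' ω) ∂P :=
  swap1 b' b hi.symm (F := fun p => F (p.2, p.1)) (G := fun p => G (p.2, p.1)) (by fun_prop)
    (by fun_prop) h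

omit [IsProbabilityMeasure P] in
lemma BM_sg (he : Measurable e) : BM m0 fun ω => sg (e ω) :=
  ⟨(measurable_of_countable sg).comp he, 1, fun _ => (abs_sg _).le⟩

lemma edge_int (b : BM m0 H) (he : Edge P θ e) (hi : IndepFun (fun ω => sg (e ω)) H P)
    {F : ℝ × ℝ → ℝ} (hF : Continuous F) :
    ∫ ω, F (sg (e ω), H ω) ∂P =
      ∫ ω, ((1 + θ) / 2 * F (1, H ω) + (1 - θ) / 2 * F (-1, H ω)) ∂P := by
  rw [freeze' (BM_sg he.1) b hi hF]
  congr 1
  ext ω
  simpa [sg] using he.2 fun s => F (sg s, H ω)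

lemma Nish.zero : Nish P fun _ => 0 := by
  intro χ _
  simp

lemma Nish.sym (h : Nish P H) (b : BM m0 H) {χ : ℝ → ℝ} (hχ : Continuous χ) :
    ∫ ω, χ (H ω) ∂P =
      ∫ ω, (χ (H ω) * (1 + tanh (H ω)) + χ (-H ω) * (1 - tanh (H ω))) / 2 ∂P := by
  have ht := continuous_tanh'
  have h1 := h (fun x => χ x * (1 + tanh x)) (by fun_prop)
  simp only [tanh_neg, mul_assoc, one_add_tanh_mul, ← sub_eq_add_neg] at h1
  have i1 : Integrable (fun ω => χ (H ω) * (1 + tanh (H ω))) P :=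
    (b.cont (φ := fun x => χ x * (1 + tanh x)) (by fun_prop)).integrable
  have i2 : Integrable (fun ω => χ (-H ω) * (1 - tanh (H ω))) P :=
    (b.cont (φ := fun x => χ (-x) * (1 - tanh x)) (by fun_prop)).integrable
  have i3 : Integrable (fun ω => χ (H ω) * (1 - tanh (H ω))) P :=
    (b.cont (φ := fun x => χ x * (1 - tanh x)) (by fun_prop)).integrable
  rw [integral_div, integral_add i1 i2, h1, ← integral_add i1 i3, ← integral_div]
  congr 1
  ext ω
  ring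

lemma Nish.odd (h : Nish P H) (b : BM m0 H) {χ : ℝ → ℝ} (hχ : Continuous χ)
    (ho : ∀ x, χ (-x) = -χ x) : ∫ ω, χ (H ω) ∂P = ∫ ω, tanh (H ω) * χ (H ω) ∂P := by
  rw [h.sym b hχ]
  congr 1
  ext ω
  rw [ho]
  ring

lemma Nish.add (h : Nish P H) (h' : Nish P H') (b : BM m0 H) (b' : BM m0 H')
    (hi : IndepFun H H' P) : Nish P fun ω => H ω + H' ω := by
  intro χ hχ
  have h1 := swap1 b b' hi (F := fun p => χ (-(p.1 + p.2)))
    (G := fun p => χ (p.1 - p.2) * exp (-2 * p.1)) (by fun_prop) (by fun_prop) fun y => by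
      have := h (fun x => χ (x - y)) (by fun_prop)
      simpa only [neg_add, sub_eq_add_neg] using this
  have h2 := swap2 b b' hi (F := fun p => χ (p.1 - p.2) * exp (-2 * p.1))
    (G := fun p => χ (p.1 + p.2) * exp (-2 * (p.1 + p.2))) (by fun_prop) (by fun_prop) fun x => by
      have := h' (fun y => χ (x + y) * exp (-2 * x)) (by fun_prop)
      simpa only [mul_add, exp_add, mul_assoc, sub_eq_add_neg] using this
  exact h1.trans h2

lemma Nish.msg (hp : Hyp d θ) (h : Nish P H) (b : BM m0 H) (he : Edge P θ e)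
    (hi : IndepFun (fun ω => sg (e ω)) H P) : Nish P fun ω => sg (e ω) * msg θ (H ω) := by
  intro χ hχ
  have hf := continuous_msg hp
  have h1 := edge_int b he hi (F := fun p => χ (-(p.1 * P161E.msg θ p.2))) (by fun_prop)
  have h2 := edge_int b he hi
    (F := fun p => χ (p.1 * P161E.msg θ p.2) * exp (-2 * (p.1 * P161E.msg θ p.2))) (by fun_prop)
  have h3 := h.sym b (χ := fun x => (1 + θ) / 2 * χ (-(1 * P161E.msg θ x)) +
    (1 - θ) / 2 * χ (-(-1 * P161E.msg θ x))) (by fun_prop)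
  have h4 := h.sym b (χ := fun x => (1 + θ) / 2 * (χ (1 * P161E.msg θ x) *
    exp (-2 * (1 * P161E.msg θ x))) + (1 - θ) / 2 * (χ (-1 * P161E.msg θ x) *
    exp (-2 * (-1 * P161E.msg θ x)))) (by fun_prop)
  refine h1.trans (h3.trans (Eq.symm (h2.trans (h4.trans ?_))))
  congr 1
  ext ω
  have a1 := one_add_tanh_mul (P161E.msg θ (H ω))
  have a2 := one_add_tanh_mul (-P161E.msg θ (H ω))
  rw [tanh_neg] at a2
  rw [tanh_msg hp] at a1 a2
  simp only [msg_neg, one_mul, neg_mul, neg_neg, mul_neg] at a1 a2 ⊢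
  linear_combination (χ (P161E.msg θ (H ω)) / 2) * a1 + (χ (-P161E.msg θ (H ω)) / 2) * a2

lemma Nish.lim {Hn : ℕ → Ω → ℝ} {C : ℝ} (h : ∀ n, Nish P (Hn n)) (hm : ∀ n, Measurable (Hn n))
    (hC : ∀ n ω, |Hn n ω| ≤ C) (hl : ∀ ω, Tendsto (fun n => Hn n ω) atTop (nhds (H ω))) :
    Nish P H := by
  have key : ∀ ψ : ℝ → ℝ, Continuous ψ →
      Tendsto (fun n => ∫ ω, ψ (Hn n ω) ∂P) atTop (nhds (∫ ω, ψ (H ω) ∂P)) := by
    intro ψ hψ
    obtain ⟨D, hD⟩ := (isCompact_Icc (a := -C) (b := C)).exists_bound_of_continuousOn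
      hψ.continuousOn
    refine tendsto_integral_of_dominated_convergence (fun _ => D)
      (fun n => (hψ.measurable.comp (hm n)).aestronglyMeasurable) (integrable_const D)
      (fun n => ae_of_all _ fun ω => hD _ (abs_le.1 (hC n ω)))
      (ae_of_all _ fun ω => (hψ.tendsto _).comp (hl ω))
  intro χ hχ
  have h1 := key (fun x => χ (-x)) (by fun_prop)
  have h2 := key (fun x => χ x * exp (-2 * x)) (by fun_prop)
  simp only [h _ χ hχ] at h1
  exact tendsto_nhds_unique h1 h2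

omit [IsProbabilityMeasure P] in
lemma BM_tanh_sq (hm : Measurable H) : BM m0 fun ω => tanh (H ω) ^ 2 :=
  ⟨(continuous_tanh'.measurable.comp hm).pow_const 2, 1, fun ω => by
    rw [abs_of_nonneg (sq_nonneg _)]; exact (tanh_sq_lt_one _).le⟩

lemma qv_mem (hm : Measurable H) : 0 ≤ qv P H ∧ qv P H ≤ 1 := by
  refine ⟨integral_nonneg fun ω => sq_nonneg _, ?_⟩
  have := integral_mono (μ := P) (BM_tanh_sq hm).integrable (integrable_const (1 : ℝ))
    fun ω => (tanh_sq_lt_one _).le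
  simpa [qv] using this

lemma qv_msg (hp : Hyp d θ) : qv P (fun ω => sg (e ω) * msg θ (H ω)) = θ ^ 2 * qv P H := by
  rw [qv, qv, ← integral_const_mul]
  congr 1
  ext ω
  cases e ω <;> simp [sg, tanh_msg hp, mul_pow]

lemma one_sub_sq_pos (x y : ℝ) : 0 < 1 - tanh x ^ 2 * tanh y ^ 2 := by
  have h1 := tanh_sq_lt_one x
  have h2 := tanh_sq_lt_one y
  nlinarith [sq_nonneg (tanh x), sq_nonneg (tanh y)]

lemma sym_alg (x y : ℝ) :
    ((tanh (x + y) ^ 2 * (1 + tanh x) + tanh (-x + y) ^ 2 * (1 - tanh x)) / 2 * (1 + tanh y) +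
      (tanh (x + -y) ^ 2 * (1 + tanh x) + tanh (-x + -y) ^ 2 * (1 - tanh x)) / 2 * (1 - tanh y)) / 2
    = (tanh x ^ 2 + tanh y ^ 2 - 2 * tanh x ^ 2 * tanh y ^ 2) / (1 - tanh x ^ 2 * tanh y ^ 2) := by
  have h0 := one_sub_sq_pos x y
  simp only [tanh_add', tanh_neg]
  generalize tanh x = u at *
  generalize tanh y = v at *
  have e : 1 - u ^ 2 * v ^ 2 = (1 + u * v) * (1 - u * v) := by ring
  rw [e] at h0
  have h1 : 1 + u * v ≠ 0 := fun h => by rw [h] at h0; simp at h0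
  have h2 : 1 - u * v ≠ 0 := fun h => by rw [h] at h0; simp at h0
  have e1 : 1 + -u * v = 1 - u * v := by ring
  have e2 : 1 + u * -v = 1 - u * v := by ring
  have e3 : 1 + -u * -v = 1 + u * v := by ring
  rw [e, e1, e2, e3]
  field_simp
  ring

lemma qv_add (h : Nish P H) (h' : Nish P H') (b : BM m0 H) (b' : BM m0 H') (hi : IndepFun H H' P) :
    qv P (fun ω => H ω + H' ω) = ∫ ω, (tanh (H ω) ^ 2 + tanh (H' ω) ^ 2 -
      2 * tanh (H ω) ^ 2 * tanh (H' ω) ^ 2) / (1 - tanh (H ω) ^ 2 * tanh (H' ω) ^ 2) ∂P := by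
  have ht := continuous_tanh'
  have h1 := swap1 b b' hi (F := fun p => tanh (p.1 + p.2) ^ 2)
    (G := fun p => (tanh (p.1 + p.2) ^ 2 * (1 + tanh p.1) +
      tanh (-p.1 + p.2) ^ 2 * (1 - tanh p.1)) / 2) (by fun_prop) (by fun_prop)
    fun y => h.sym b (χ := fun x => tanh (x + y) ^ 2) (by fun_prop)
  have h2 := swap2 b b' hi (F := fun p => (tanh (p.1 + p.2) ^ 2 * (1 + tanh p.1) +
      tanh (-p.1 + p.2) ^ 2 * (1 - tanh p.1)) / 2)
    (G := fun p => ((tanh (p.1 + p.2) ^ 2 * (1 + tanh p.1) +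
      tanh (-p.1 + p.2) ^ 2 * (1 - tanh p.1)) / 2 * (1 + tanh p.2) +
      (tanh (p.1 + -p.2) ^ 2 * (1 + tanh p.1) +
      tanh (-p.1 + -p.2) ^ 2 * (1 - tanh p.1)) / 2 * (1 - tanh p.2)) / 2) (by fun_prop)
    (by fun_prop) fun x => h'.sym b' (χ := fun y => (tanh (x + y) ^ 2 * (1 + tanh x) +
      tanh (-x + y) ^ 2 * (1 - tanh x)) / 2) (by fun_prop)
  refine h1.trans (h2.trans ?_)
  simp only [sym_alg]

lemma int_lin (b : BM m0 H) (b' : BM m0 H') (hi : IndepFun H H' P) (c0 c1 c2 c3 : ℝ) :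
    ∫ ω, (c0 + c1 * tanh (H ω) ^ 2 + c2 * tanh (H' ω) ^ 2 +
      c3 * (tanh (H ω) ^ 2 * tanh (H' ω) ^ 2)) ∂P =
      c0 + c1 * qv P H + c2 * qv P H' + c3 * (qv P H * qv P H') := by
  have a := BM_tanh_sq b.meas
  have a' := BM_tanh_sq b'.meas
  have ht := continuous_tanh'
  have hm : Measurable fun x : ℝ => tanh x ^ 2 := by fun_prop
  have h1 := hi.integral_fun_comp_mul_comp (f := fun x => tanh x ^ 2) (g := fun x => tanh x ^ 2)
    b.meas.aemeasurable b'.meas.aemeasurable hm.aestronglyMeasurable hm.aestronglyMeasurable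
  have i0 : Integrable (fun _ : Ω => c0) P := integrable_const _
  have i1 := a.integrable.const_mul (μ := P) c1
  have i2 := a'.integrable.const_mul (μ := P) c2
  have i3 := (a.mul a').integrable.const_mul (μ := P) c3
  have i4 : Integrable (fun ω => c0 + c1 * tanh (H ω) ^ 2) P := i0.add i1
  have i5 : Integrable (fun ω => c0 + c1 * tanh (H ω) ^ 2 + c2 * tanh (H' ω) ^ 2) P := i4.add i2
  rw [integral_add i5 i3, integral_add i4 i2, integral_add i0 i1,
    integral_const_mul, integral_const_mul, integral_const_mul, h1]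
  simp [qv]

lemma qv_add_cmp (h : Nish P H) (h' : Nish P H') (b : BM m0 H) (b' : BM m0 H')
    (hi : IndepFun H H' P) (s c0 c1 c2 c3 : ℝ)
    (hc : ∀ A B : ℝ, 0 ≤ A → A < 1 → 0 ≤ B → B < 1 →
      s * (A + B - 2 * A * B) ≤ (c0 + c1 * A + c2 * B + c3 * (A * B)) * (1 - A * B)) :
    s * qv P (fun ω => H ω + H' ω) ≤ c0 + c1 * qv P H + c2 * qv P H' + c3 * (qv P H * qv P H') := by
  have ht := continuous_tanh'
  rw [qv_add h h' b b' hi, ← int_lin b b' hi, ← integral_const_mul]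
  refine integral_mono ?_ ?_ fun ω => ?_
  · refine Integrable.const_mul (b.cont2 b' (F := fun p => (tanh p.1 ^ 2 + tanh p.2 ^ 2 -
      2 * tanh p.1 ^ 2 * tanh p.2 ^ 2) / (1 - tanh p.1 ^ 2 * tanh p.2 ^ 2)) ?_).integrable _
    exact Continuous.div (by fun_prop) (by fun_prop) fun p => (one_sub_sq_pos _ _).ne'
  · exact (b.cont2 b' (F := fun p => c0 + c1 * tanh p.1 ^ 2 + c2 * tanh p.2 ^ 2 +
      c3 * (tanh p.1 ^ 2 * tanh p.2 ^ 2)) (by fun_prop)).integrable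
  · simp only
    rw [← mul_div_assoc, div_le_iff₀ (one_sub_sq_pos _ _)]
    exact hc _ _ (sq_nonneg _) (tanh_sq_lt_one _) (sq_nonneg _) (tanh_sq_lt_one _)

lemma qv_add_ge_left (h : Nish P H) (h' : Nish P H') (b : BM m0 H) (b' : BM m0 H')
    (hi : IndepFun H H' P) : qv P H ≤ qv P fun ω => H ω + H' ω := by
  have := qv_add_cmp h h' b b' hi (-1) 0 (-1) 0 0 fun A B _ _ hB _ => by
    nlinarith [mul_nonneg hB (sq_nonneg (1 - A))]
  linarith

lemma qv_add_ge (h : Nish P H) (h' : Nish P H') (b : BM m0 H) (b' : BM m0 H')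
    (hi : IndepFun H H' P) :
    qv P H + qv P H' - 2 * qv P H * qv P H' ≤ qv P fun ω => H ω + H' ω := by
  have := qv_add_cmp h h' b b' hi (-1) 0 (-1) (-1) 2 fun A B hA hA' hB hB' => by
    have h1 : 0 ≤ A + B - 2 * A * B := by nlinarith
    nlinarith [mul_nonneg h1 (mul_nonneg hA hB)]
  linarith

lemma qv_add_le (h : Nish P H) (h' : Nish P H') (b : BM m0 H) (b' : BM m0 H')
    (hi : IndepFun H H' P) : qv P (fun ω => H ω + H' ω) ≤ qv P H + qv P H' := by
  have := qv_add_cmp h h' b b' hi 1 0 1 1 0 fun A B hA hA' hB hB' => by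
    nlinarith [mul_nonneg (mul_nonneg hA hB) (by linarith : 0 ≤ 2 - A - B)]
  linarith

lemma qv_add_le' (h : Nish P H) (h' : Nish P H') (b : BM m0 H) (b' : BM m0 H')
    (hi : IndepFun H H' P) (s : ∀ ω, tanh (H ω) ^ 2 ≤ 1 / 2) (s' : ∀ ω, tanh (H' ω) ^ 2 ≤ 1 / 2) :
    qv P (fun ω => H ω + H' ω) ≤ qv P H + qv P H' - qv P H * qv P H' := by
  have _ := s
  have _ := s'
  have := qv_add_cmp h h' b b' hi 1 0 1 1 (-1) fun A B hA hA' hB hB' => by
    nlinarith [mul_nonneg (mul_nonneg hA hB)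
      (mul_nonneg (by linarith : 0 ≤ 1 - A) (by linarith : 0 ≤ 1 - B))]
  linarith

lemma qv_add_one (h : Nish P H) (h' : Nish P H') (b : BM m0 H) (b' : BM m0 H')
    (hi : IndepFun H H' P) :
    1 - qv P (fun ω => H ω + H' ω) ≤ (1 - qv P H) - qv P H' * (1 - qv P H) ^ 2 := by
  have := qv_add_cmp h h' b b' hi (-1) 0 (-1) (-(2 * (1 - qv P H) - (1 - qv P H) ^ 2))
    (2 * (1 - qv P H)) fun A B hA hA' hB hB' => by
    generalize 1 - qv P H = m
    have h1 : 0 ≤ 1 - A * B := by nlinarith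
    have h2 := mul_nonneg (mul_nonneg hB (sq_nonneg (1 - A - m))) h1
    have h3 := mul_nonneg (mul_nonneg hA (sq_nonneg B)) (sq_nonneg (1 - A))
    nlinarith
  nlinarith

lemma cosh_add_le {x y z : ℝ} (h : |x| + |y| ≤ |z|) : cosh x + y * sinh x ≤ cosh z := by
  have h1 : y * sinh x ≤ |y| * sinh |x| := by
    rw [← abs_sinh, ← abs_mul]; exact le_abs_self _
  have h2 : |y| ≤ sinh |y| := self_le_sinh_iff.2 (abs_nonneg _)
  have h3 : 0 ≤ sinh |x| := sinh_nonneg_iff.2 (abs_nonneg _)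
  have h4 : cosh (|x| + |y|) ≤ cosh z :=
    cosh_le_cosh.2 (by rwa [abs_of_nonneg (by positivity)])
  rw [cosh_add, cosh_abs] at h4
  have h5 := one_le_cosh |y|
  have h6 := cosh_pos x
  nlinarith

lemma mgf_msg (hp : Hyp d θ) (h : Nish P H) (b : BM m0 H) (he : Edge P θ e)
    (hi : IndepFun (fun ω => sg (e ω)) H P) (l : ℝ) :
    ∫ ω, exp (l * (sg (e ω) * msg θ (H ω))) ∂P ≤ ∫ ω, cosh ((|l| + 1) * θ * H ω) ∂P := by
  have hf := continuous_msg hp
  have ht := continuous_tanh'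
  have h1 := edge_int b he hi (F := fun p => exp (l * (p.1 * msg θ p.2))) (by fun_prop)
  have h2 := h.odd b (χ := fun x => sinh (l * msg θ x)) (by fun_prop) fun x => by
    simp [msg_neg]
  have i1 : Integrable (fun ω => cosh (l * msg θ (H ω))) P :=
    (b.cont (φ := fun x => cosh (l * msg θ x)) (by fun_prop)).integrable
  have i2 : Integrable (fun ω => sinh (l * msg θ (H ω))) P :=
    (b.cont (φ := fun x => sinh (l * msg θ x)) (by fun_prop)).integrable
  have i3 : Integrable (fun ω => tanh (H ω) * sinh (l * msg θ (H ω))) P :=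
    (b.cont (φ := fun x => tanh x * sinh (l * msg θ x)) (by fun_prop)).integrable
  have h3 : ∫ ω, exp (l * (sg (e ω) * msg θ (H ω))) ∂P =
      ∫ ω, (cosh (l * msg θ (H ω)) + θ * sinh (l * msg θ (H ω))) ∂P := by
    refine h1.trans ?_
    congr 1
    ext ω
    simp only [cosh_eq, sinh_eq, one_mul, neg_mul, mul_neg]
    ring
  rw [h3, integral_add i1 (i2.const_mul θ), integral_const_mul, h2, ← integral_const_mul,
    ← integral_add i1 (i3.const_mul θ)]
  refine integral_mono (i1.add (i3.const_mul θ))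
    (b.cont (φ := fun x => cosh ((|l| + 1) * θ * x)) (by fun_prop)).integrable fun ω => ?_
  simp only
  rw [← mul_assoc θ]
  apply cosh_add_le
  have a1 := abs_msg_le hp (H ω)
  have a2 := abs_tanh_le (H ω)
  have a3 := hp.h0
  rw [abs_mul, abs_mul, abs_mul, abs_mul, abs_of_nonneg a3,
    abs_of_nonneg (by positivity : 0 ≤ |l| + 1)]
  nlinarith [mul_le_mul_of_nonneg_left a1 (abs_nonneg l), mul_le_mul_of_nonneg_left a2 a3]

lemma gap_step (hp : Hyp d θ) (b : BM m0 H) (he : Edge P θ e)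
    (hi : IndepFun (fun ω => sg (e ω)) H P) (a : ℝ) :
    ∫ ω, phi θ (H ω + sg (e ω) * a) ^ 2 ∂P ≤ 1 - qv P H / 16 := by
  have hf := continuous_phi hp
  have h1 := edge_int b he hi (F := fun p => phi θ (p.2 + p.1 * a) ^ 2) (by fun_prop)
  have i1 := (BM_tanh_sq b.meas).integrable (P := P)
  have h2 : 1 - qv P H / 16 = ∫ ω, (1 - tanh (H ω) ^ 2 / 16) ∂P := by
    rw [integral_sub (integrable_const _) (i1.div_const _), integral_div]
    simp [qv]
  rw [h1, h2]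
  refine integral_mono (b.cont (φ := fun x => (1 + θ) / 2 * phi θ (x + 1 * a) ^ 2 +
    (1 - θ) / 2 * phi θ (x + -1 * a) ^ 2) (by fun_prop)).integrable
    ((integrable_const _).sub (i1.div_const _)) fun ω => ?_
  simp only
  have k1 : ∀ y, phi θ y ^ 2 ≤ 1 - tanh y ^ 2 / 2 := fun y => by
    nlinarith [phi_pos hp y, phi_le_one hp y, phi_le hp y]
  have k2 : ∀ y, phi θ y ^ 2 ≤ 1 := fun y => by linarith [k1 y, sq_nonneg (tanh y)]
  have a0 := hp.h0
  have a1 := hp.le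
  have a2 := sq_nonneg (tanh (H ω))
  have hc : |H ω| ≤ |H ω + 1 * a| ∨ |H ω| ≤ |H ω + -1 * a| := by
    by_contra hn
    push Not at hn
    have := abs_add_le (H ω + 1 * a) (H ω + -1 * a)
    have e : H ω + 1 * a + (H ω + -1 * a) = 2 * H ω := by ring
    rw [e, abs_mul, abs_two] at this
    linarith [hn.1, hn.2]
  rcases hc with hc | hc
  · have b1 : phi θ (H ω + 1 * a) ^ 2 ≤ 1 - tanh (H ω) ^ 2 / 2 := by
      linarith [k1 (H ω + 1 * a), tanh_sq_mono hc]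
    have b2 := k2 (H ω + -1 * a)
    have c1 := mul_le_mul_of_nonneg_left b1 (by linarith : 0 ≤ (1 + θ) / 2)
    have c2 := mul_le_mul_of_nonneg_left b2 (by linarith : 0 ≤ (1 - θ) / 2)
    nlinarith
  · have b1 : phi θ (H ω + -1 * a) ^ 2 ≤ 1 - tanh (H ω) ^ 2 / 2 := by
      linarith [k1 (H ω + -1 * a), tanh_sq_mono hc]
    have b2 := k2 (H ω + 1 * a)
    have c1 := mul_le_mul_of_nonneg_left b1 (by linarith : 0 ≤ (1 - θ) / 2)
    have c2 := mul_le_mul_of_nonneg_left b2 (by linarith : 0 ≤ (1 + θ) / 2)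
    nlinarith

end Vale.Agent.P161E
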