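import Mathlib

/-! Pure real analysis.
`gron`: induction.  `sweep_num`: apply `gron` to `x i = D (i / (2 n))`, `i ≤ n`, with `1 + c ≤ exp c`; the increments of
`Q` telescope to at most `1`; take `ε = 1 / √n` and let `n → ∞` (or fix `ε`, let `n → ∞`, then `ε → 0`).
`final_num`: with `N = n⁴`, `gron` along `j = -N, …, J - 1` gives
`D J ≤ exp (C N³ 2^(-n) + C n² (n + J)) (C 2^(-N) + (N + J) C N² exp (-N))`, which tends to `0`
(`n^12 2^(-n)` is bounded, `n³ = o(n⁴)`). -/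

namespace Vale.Agent.P161E

open Finset Real Filter

lemma gron {x c b : ℕ → ℝ} {n : ℕ} (h0 : 0 ≤ x 0) (hc : ∀ i < n, 0 ≤ c i) (hb : ∀ i < n, 0 ≤ b i)
    (h : ∀ i < n, x (i + 1) ≤ exp (c i) * (x i + b i)) :
    x n ≤ exp (∑ i ∈ range n, c i) * (x 0 + ∑ i ∈ range n, b i) := by
  induction n with
  | zero => simp
  | succ n ih =>
    have h1 := ih (fun i hi => hc i (by omega)) (fun i hi => hb i (by omega))
      fun i hi => h i (by omega)
    have h2 : 1 ≤ exp (∑ i ∈ range n, c i) :=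
      one_le_exp (sum_nonneg fun i hi => hc i (by have := mem_range.mp hi; omega))
    have h3 := hb n (by omega)
    refine (h n (by omega)).trans ?_
    rw [sum_range_succ, sum_range_succ, add_comm _ (c n), exp_add, mul_assoc]
    refine mul_le_mul_of_nonneg_left ?_ (exp_pos _).le
    nlinarith

lemma gron_const {x : ℕ → ℝ} {c b : ℝ} {n : ℕ} (h0 : 0 ≤ x 0) (hc : 0 ≤ c) (hb : 0 ≤ b)
    (h : ∀ i < n, x (i + 1) ≤ exp c * (x i + b)) : x n ≤ exp (n * c) * (x 0 + n * b) := by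
  simpa using gron (c := fun _ => c) (b := fun _ => b) h0 (fun _ _ => hc) (fun _ _ => hb) h

lemma sweep_num {D Q : ℝ → ℝ} {ρ σ C : ℝ} (hρ : 0 ≤ ρ) (hσ : 0 ≤ σ) (hC : 0 ≤ C) (hD : ∀ t, 0 ≤ D t)
    (hQ : ∀ t, 0 ≤ Q t ∧ Q t ≤ 1) (hm : Monotone Q)
    (h : ∀ a a' ε : ℝ, 0 ≤ a → a ≤ a' → a' ≤ 1 / 2 → 0 < ε →
      D a' ≤ D a + (a' - a) * (ρ * D a + σ) + C * (a' - a) * (ε + (Q a' - Q a) / ε) +
        C * (a' - a) ^ 2) :
    D (1 / 2) ≤ exp (ρ / 2) * (D 0 + σ / 2) := by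
  have key : ∀ ε : ℝ, 0 < ε → ε ≤ 1 → D (1 / 2) ≤ exp (ρ / 2) * (D 0 + σ / 2 + 2 * C * ε) := by
    intro ε hε hε1
    obtain ⟨n, hn⟩ := exists_nat_gt (1 / ε ^ 2)
    have hn0 : (0 : ℝ) < n := lt_trans (by positivity) hn
    set t : ℝ := 1 / (2 * n) with ht
    have ht0 : 0 < t := by positivity
    have hnt : n * t = 1 / 2 := by rw [ht]; field_simp
    have htε : t ≤ ε ^ 2 := by
      rw [div_lt_iff₀ (by positivity)] at hn
      nlinarith [sq_nonneg ε]
    have hQ' : ∀ i : ℕ, 0 ≤ Q (((i + 1 : ℕ) : ℝ) * t) - Q (i * t) := fun i =>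
      sub_nonneg.mpr (hm (by push_cast; nlinarith))
    have h1 := gron (x := fun i => D (i * t)) (c := fun _ => t * ρ)
      (b := fun i => t * σ + C * t * (ε + (Q (((i + 1 : ℕ) : ℝ) * t) - Q (i * t)) / ε) + C * t ^ 2)
      (n := n) (hD _) (fun _ _ => by positivity) (fun i _ => by have := hQ' i; positivity)
      (fun i hi => by
        have h2 : ((i + 1 : ℕ) : ℝ) ≤ n := by exact_mod_cast hi
        have h3 := h (i * t) (((i + 1 : ℕ) : ℝ) * t) ε (by positivity) (by push_cast; nlinarith)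
          (by nlinarith) hε
        have h4 : ((i + 1 : ℕ) : ℝ) * t - i * t = t := by push_cast; ring
        rw [h4] at h3
        have h5 := add_one_le_exp (t * ρ)
        have h6 := hD (i * t)
        have h7 := hQ' i
        have h8 : 0 ≤ t * σ + C * t * (ε + (Q (((i + 1 : ℕ) : ℝ) * t) - Q (i * t)) / ε) +
          C * t ^ 2 := by positivity
        have h9 : 0 ≤ t * ρ := by positivity
        refine h3.trans ?_
        rw [mul_add]
        have h10 := mul_le_mul_of_nonneg_right h5 h6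
        have h11 := mul_le_mul_of_nonneg_right (one_le_exp h9) h8
        linarith)
    simp only [sum_add_distrib, sum_const, card_range, nsmul_eq_mul, ← mul_sum, ← sum_div,
      Nat.cast_zero, zero_mul] at h1
    rw [sum_range_sub (fun i : ℕ => Q (i * t)), ← mul_assoc, ← mul_assoc, hnt] at h1
    refine h1.trans ?_
    rw [show 1 / 2 * ρ = ρ / 2 by ring]
    refine mul_le_mul_of_nonneg_left ?_ (exp_pos _).le
    have h2 : t * ((Q (1 / 2) - Q ((0 : ℕ) * t)) / ε) ≤ ε := by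
      rw [← mul_div_assoc, div_le_iff₀ hε]
      have h3 : Q (1 / 2) - Q ((0 : ℕ) * t) ≤ 1 := (sub_le_self _ (hQ _).1).trans (hQ _).2
      nlinarith [mul_le_mul_of_nonneg_left h3 ht0.le]
    have h3 : C * t * (n * ε + (Q (1 / 2) - Q ((0 : ℕ) * t)) / ε) =
        C * (n * t * ε + t * ((Q (1 / 2) - Q ((0 : ℕ) * t)) / ε)) := by ring
    have h4 : n * (C * t ^ 2) = C * (n * t * t) := by ring
    rw [h3, h4, hnt]
    have h5 : t ≤ ε := by nlinarith
    nlinarith [mul_le_mul_of_nonneg_left h2 hC, mul_le_mul_of_nonneg_left h5 hC]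
  have h1 : Tendsto (fun ε : ℝ => exp (ρ / 2) * (D 0 + σ / 2 + 2 * C * ε)) (nhdsWithin 0 (Set.Ioi 0))
      (nhds (exp (ρ / 2) * (D 0 + σ / 2 + 2 * C * 0))) :=
    tendsto_nhdsWithin_of_tendsto_nhds (Continuous.tendsto (by fun_prop) _)
  rw [mul_zero, add_zero] at h1
  refine ge_of_tendsto h1 ?_
  filter_upwards [Ioc_mem_nhdsGT (zero_lt_one (α := ℝ))] with ε hε using key ε hε.1 hε.2

theorem final_num {D : ℤ → ℝ} {C : ℝ} (hC : 0 ≤ C) (J : ℕ) (hD : ∀ j, 0 ≤ D j)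
    (h : ∀ᶠ n : ℕ in atTop, D (-(n : ℤ) ^ 4) ≤ C / 2 ^ n ^ 4 ∧
      (∀ j : ℤ, -(n : ℤ) ^ 4 ≤ j → j < -n → D (j + 1) ≤
        exp (C * n ^ 12 * 2 ^ j) * (D j + C * n ^ 8 * exp (-(n : ℝ) ^ 4))) ∧
      (∀ j : ℤ, -(n : ℤ) ≤ j → j < J → D (j + 1) ≤
        exp (C * n ^ 2) * (D j + C * n ^ 8 * exp (-(n : ℝ) ^ 4)))) : D J ≤ 0 := by
  have t1 : Tendsto (fun n : ℕ => (n : ℝ) ^ 16 / 2 ^ n) atTop (nhds 0) :=
    tendsto_pow_const_div_const_pow_of_one_lt 16 one_lt_two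
  have t2 : Tendsto (fun n : ℕ => exp C * (145 * C) * exp (-(n : ℝ))) atTop
      (nhds (exp C * (145 * C) * 0)) :=
    (tendsto_exp_neg_atTop_nhds_zero.comp tendsto_natCast_atTop_atTop).const_mul _
  rw [mul_zero] at t2
  refine ge_of_tendsto t2 ?_
  filter_upwards [h, t1.eventually (ge_mem_nhds zero_lt_one), eventually_ge_atTop J,
    eventually_ge_atTop 1,
    tendsto_natCast_atTop_atTop.eventually (eventually_ge_atTop (4 * C + 2))] with
    n ⟨h0, h1, h2⟩ h3 hJ hn1 hnC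
  have hn : (1 : ℝ) ≤ n := by exact_mod_cast hn1
  have hJ' : (J : ℝ) ≤ n := by exact_mod_cast hJ
  have hN : n ≤ n ^ 4 := Nat.le_self_pow (by norm_num) n
  have hN' : (n : ℝ) ≤ (n : ℝ) ^ 4 := by exact_mod_cast hN
  set b : ℝ := C * n ^ 8 * exp (-(n : ℝ) ^ 4) with hb
  have hb0 : 0 ≤ b := by positivity
  set u : ℝ := exp (-(n : ℝ) ^ 4 / 2) with hu
  have hu0 : 0 < u := exp_pos _
  have a1 := gron_const (x := fun i => D (-(n : ℤ) ^ 4 + i)) (c := C * n ^ 12 / 2 ^ n) (b := b)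
    (n := n ^ 4 - n) (hD _) (by positivity) hb0 fun i hi => by
      have e1 : (i : ℤ) < (n : ℤ) ^ 4 - n := by
        have : i + n < n ^ 4 := by omega
        have : (i : ℤ) + n < (n : ℤ) ^ 4 := by exact_mod_cast this
        omega
      have e2 := h1 (-(n : ℤ) ^ 4 + i) (by omega) (by omega)
      push_cast
      rw [← add_assoc]
      refine e2.trans (mul_le_mul_of_nonneg_right (exp_le_exp.mpr ?_)
        (add_nonneg (hD _) hb0))
      rw [div_eq_mul_inv, ← zpow_natCast (2 : ℝ) n, ← zpow_neg]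
      exact mul_le_mul_of_nonneg_left (zpow_le_zpow_right₀ one_le_two (by omega)) (by positivity)
  have a2 := gron_const (x := fun i => D (-(n : ℤ) + i)) (c := C * n ^ 2) (b := b)
    (n := n + J) (hD _) (by positivity) hb0 fun i hi => by
      have e2 := h2 (-(n : ℤ) + i) (by omega) (by omega)
      push_cast
      rw [← add_assoc]
      exact e2
  simp only [Nat.cast_sub hN, Nat.cast_add, Nat.cast_pow, Nat.cast_zero, add_zero,
    neg_add_cancel_left] at a1 a2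
  rw [show -(n : ℤ) ^ 4 + ((n : ℤ) ^ 4 - n) = -n by ring] at a1
  have b1 : ((n : ℝ) ^ 4 - n) * (C * n ^ 12 / 2 ^ n) ≤ C := by
    calc ((n : ℝ) ^ 4 - n) * (C * n ^ 12 / 2 ^ n) ≤ (n : ℝ) ^ 4 * (C * n ^ 12 / 2 ^ n) :=
          mul_le_mul_of_nonneg_right (by linarith) (by positivity)
      _ = C * ((n : ℝ) ^ 16 / 2 ^ n) := by ring
      _ ≤ C * 1 := mul_le_mul_of_nonneg_left h3 hC
      _ = C := mul_one C
  have b2 : C / 2 ^ n ^ 4 ≤ C * u := by
    rw [div_eq_mul_inv]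
    refine mul_le_mul_of_nonneg_left ?_ hC
    rw [hu, neg_div, exp_neg]
    refine inv_anti₀ (exp_pos _) ?_
    have e1 : exp (1 / 2) ≤ 2 := by
      have e2 := exp_one_lt_d9
      have e3 : exp (1 / 2) * exp (1 / 2) = exp 1 := by rw [← exp_add]; norm_num
      nlinarith [exp_pos (1 / 2)]
    calc exp ((n : ℝ) ^ 4 / 2) = exp (1 / 2) ^ n ^ 4 := by
          rw [← exp_nat_mul]
          push_cast
          ring_nf
      _ ≤ 2 ^ n ^ 4 := pow_le_pow_left₀ (exp_pos _).le e1 _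
  have b3 : (n : ℝ) ^ 4 * b ≤ 48 * C * u := by
    have e1 := pow_div_factorial_le_exp ((n : ℝ) ^ 4 / 2) (by positivity) 3
    have e2 : exp ((n : ℝ) ^ 4 / 2) * exp (-(n : ℝ) ^ 4) = u := by
      rw [hu, ← exp_add]
      ring_nf
    have e3 : (n : ℝ) ^ 12 ≤ 48 * exp ((n : ℝ) ^ 4 / 2) := by
      have e4 : ((n : ℝ) ^ 4 / 2) ^ 3 / (Nat.factorial 3 : ℝ) = (n : ℝ) ^ 12 / 48 := by
        norm_num [Nat.factorial]
        ring
      rw [e4] at e1
      linarith
    calc (n : ℝ) ^ 4 * b = C * exp (-(n : ℝ) ^ 4) * n ^ 12 := by rw [hb]; ring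
      _ ≤ C * exp (-(n : ℝ) ^ 4) * (48 * exp ((n : ℝ) ^ 4 / 2)) :=
          mul_le_mul_of_nonneg_left e3 (by positivity)
      _ = 48 * C * u := by rw [← e2]; ring
  have b4 : D (-n) ≤ exp C * (49 * C * u) := by
    refine a1.trans (mul_le_mul (exp_le_exp.mpr b1) ?_
      (add_nonneg (hD _) (mul_nonneg (by linarith) hb0)) (exp_pos _).le)
    nlinarith
  have b5 : D (-n) + (n + J) * b ≤ exp C * (145 * C * u) := by
    have e1 : (n + J) * b ≤ 2 * ((n : ℝ) ^ 4 * b) := by nlinarith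
    have e2 := mul_le_mul_of_nonneg_right (one_le_exp hC) (show 0 ≤ C * u by positivity)
    nlinarith
  have b6 : exp ((n + J) * (C * n ^ 2)) * u ≤ exp (-(n : ℝ)) := by
    rw [hu, ← exp_add, exp_le_exp]
    have e1 : (n + J) * (C * n ^ 2) ≤ 2 * n * (C * n ^ 2) :=
      mul_le_mul_of_nonneg_right (by linarith) (by positivity)
    have e2 : (n : ℝ) ≤ (n : ℝ) ^ 3 := by exact_mod_cast Nat.le_self_pow (by norm_num) n
    have e3 : (n : ℝ) ^ 3 * (4 * C + 2) ≤ (n : ℝ) ^ 3 * n :=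
      mul_le_mul_of_nonneg_left hnC (by positivity)
    nlinarith
  calc D J ≤ _ := a2
    _ ≤ exp ((n + J) * (C * n ^ 2)) * (exp C * (145 * C * u)) :=
        mul_le_mul_of_nonneg_left b5 (exp_pos _).le
    _ = exp C * (145 * C) * (exp ((n + J) * (C * n ^ 2)) * u) := by ring
    _ ≤ _ := mul_le_mul_of_nonneg_left b6 (by positivity)

end Vale.Agent.P161E
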