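import Vale.Agent.P161E.Fld
import Vale.Agent.P161E.Ising
import Vale.Agent.P161E.Tools

/-! One observation, and the posterior given finitely many observations.
`lraw`: Fubini over the spins (`integral_prod`) and `integral_coord`.
`lobs`: `lraw` with `F (sg σ * qf (dl) u) η`, then `integral_qf`.
`post_test`: induction on `A`.  For `σ' : V d → Bool` put `L A σ' η = ∏ a ∈ A, (1 + dl a.2 * YY a η * sg (σ' a.1))`
and `⟨H⟩_A η = (∫ H σ' L) / ∫ L`.  By `XI_finset` and `exp_artanh_sg`, `⟨H⟩_A η = gib θ n (XI A η) H`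
(the factors `√(1 - x²)` cancel).  Step `A' = insert a A`, `a = (w, j)`: by `obs_insert` and `lobs`,
`E[H(σ) G(obs A')] = E ∫ H(σ) G(update (obs A) a y) (1 + δ sg(σ w) y)/2 dy`; Fubini and the induction
hypothesis for `H(σ)(1 + δ sg(σ w) y)` give `∫ dy/2 E[⟨H (1+δ σ_w y)⟩_A G(update ..)]`, and
`⟨H (1+δσ_w y)⟩_A = ⟨H⟩_{A'}(y) ⟨1+δσ_w y⟩_A`.  Run the same computation backwards with `H = 1`
and test function `⟨H⟩_{A'} G`.  (It is convenient to view `⟨H⟩_A` as a function of the vector `obs A η`.)
`post_fin`: `ae_eq_condExp_of_forall_setIntegral_eq` with `G` an indicator. -/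

namespace Vale.Agent.P161E

open MeasureTheory Filter Set Function

variable {d : ℕ} {θ : ℝ}

lemma BM.integral_left {E E' : Type} [MeasurableSpace E] [MeasurableSpace E'] (μ : Measure E)
    [IsProbabilityMeasure μ] {F : E × E' → ℝ} (hF : BM inferInstance F) :
    BM inferInstance fun e => ∫ u, F (u, e) ∂μ := by
  obtain ⟨C, hC⟩ := hF.bdd
  refine ⟨hF.meas.stronglyMeasurable.integral_prod_left'.measurable, C, fun e => ?_⟩
  have := norm_integral_le_of_norm_le_const (μ := μ) (f := fun u => F (u, e)) (C := C)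
    (ae_of_all _ fun u => hC _)
  simpa using this

lemma BM.finprod {Ω ι : Type} {G : MeasurableSpace Ω} (s : Finset ι) {F : ι → Ω → ℝ}
    (h : ∀ i ∈ s, BM G (F i)) : BM G fun ω => ∏ i ∈ s, F i ω := by
  classical
  induction s using Finset.induction_on with
  | empty => simpa using BM.const 1
  | insert a s ha ih =>
    simp only [Finset.prod_insert ha]
    exact (h a (Finset.mem_insert_self _ _)).mul
      (ih fun i hi => h i (Finset.mem_insert_of_mem hi))

lemma measurable_sg : Measurable sg := measurable_of_countable sg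

lemma bm_sg (v : V d) : BM inferInstance fun σ : V d → Bool => sg (σ v) :=
  ⟨measurable_sg.comp (measurable_pi_apply v), 1, fun _ => (abs_sg _).le⟩

lemma abs_dl_le (j : ℤ) : |dl j| ≤ 1 / 2 := by
  rw [abs_of_pos (dl_pos j)]; exact dl_le j

lemma lraw (a : Ix d) {F : unitInterval × O1 d → ℝ} (hF : BM inferInstance F)
    (hu : ∀ u u' η, F (u, (η.1, update η.2 a u')) = F (u, η)) :
    ∫ η, F (η.2 a, η) ∂P1 d θ = ∫ η, (∫ u, F (u, η)) ∂P1 d θ := by
  have h1 : BM inferInstance fun η : O1 d => F (η.2 a, η) :=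
    hF.comp (((measurable_pi_apply a).comp measurable_snd).prodMk measurable_id)
  have h2 := hF.integral_left (volume : Measure unitInterval)
  have i1 := h1.integrable (P := P1 d θ)
  have i2 := h2.integrable (P := P1 d θ)
  unfold P1 at i1 i2 ⊢
  rw [integral_prod _ i1, integral_prod _ i2]
  refine integral_congr_ae (ae_of_all _ fun σ => ?_)
  exact integral_coord a (F := fun p => F (p.1, (σ, p.2)))
    (hF.comp (measurable_fst.prodMk (measurable_const.prodMk measurable_snd)))
    fun u u' τ => hu u u' (σ, τ)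

lemma measurable_sq (a : Ix d) :
    Measurable fun p : unitInterval × (V d → Bool) => sg (p.2 a.1) * qf (dl a.2) p.1 :=
  (measurable_sg.comp ((measurable_pi_apply a.1).comp measurable_snd)).mul
    (measurable_qf.comp (measurable_const.prodMk (measurable_subtype_coe.comp measurable_fst)))

lemma lobs (a : Ix d) {F : ℝ × O1 d → ℝ} (hF : BM inferInstance F)
    (hu : ∀ y u' η, F (y, (η.1, update η.2 a u')) = F (y, η)) :
    ∫ η, F (YY a η, η) ∂P1 d θ =
      ∫ η, (∫ y in Icc (-1 : ℝ) 1, F (y, η) * ((1 + dl a.2 * sg (η.1 a.1) * y) / 2)) ∂P1 d θ := by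
  have h := lraw (θ := θ) a (F := fun p => F (sg (p.2.1 a.1) * qf (dl a.2) p.1, p.2))
    (hF.comp (((measurable_sq a).comp (measurable_fst.prodMk measurable_snd.fst)).prodMk
      measurable_snd)) fun u u' η => hu _ u' η
  refine h.trans (integral_congr_ae (ae_of_all _ fun η => ?_))
  exact integral_qf (abs_dl_le a.2) (φ := fun y => F (y, η))
    (hF.meas.comp (measurable_id.prodMk measurable_const)) (η.1 a.1)

lemma bm_exp (n : ℕ) (X : V d → ℝ) :
    BM inferInstance fun σ : V d → Bool => Real.exp (∑ v ∈ ball d n, X v * sg (σ v)) :=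
  (BM.sum _ fun v _ => (BM.const (X v)).mul (bm_sg v)).cont Real.continuous_exp

lemma part_pos (n : ℕ) (X : V d → ℝ) :
    0 < ∫ σ, Real.exp (∑ v ∈ ball d n, X v * sg (σ v)) ∂ising d θ :=
  integral_exp_pos (bm_exp n X).integrable

lemma abs_gib_le (n : ℕ) (X : V d → ℝ) {H : (V d → Bool) → ℝ} {C : ℝ} (hH : Measurable H)
    (hC : ∀ σ, |H σ| ≤ C) : |gib θ n X H| ≤ C := by
  rw [gib, abs_div, abs_of_pos (part_pos n X), div_le_iff₀ (part_pos n X), ← integral_const_mul]
  have hb : BM inferInstance H := ⟨hH, C, hC⟩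
  refine abs_integral_le_integral_abs.trans (integral_mono (hb.mul (bm_exp n X)).abs.integrable
    ((BM.const C).mul (bm_exp n X)).integrable fun σ => ?_)
  dsimp only
  rw [abs_mul, abs_of_pos (Real.exp_pos _)]
  exact mul_le_mul_of_nonneg_right (hC σ) (Real.exp_pos _).le

lemma continuous_num (n : ℕ) {H : (V d → Bool) → ℝ} (hH : BM inferInstance H) :
    Continuous fun X : V d → ℝ =>
      ∫ σ, H σ * Real.exp (∑ v ∈ ball d n, X v * sg (σ v)) ∂ising d θ := by
  obtain ⟨C, hC⟩ := hH.bdd
  refine continuous_iff_continuousAt.2 fun X₀ => ?_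
  refine continuousAt_of_dominated
    (bound := fun _ => C * Real.exp (∑ v ∈ ball d n, (|X₀ v| + 1)))
    (Eventually.of_forall fun X => (hH.mul (bm_exp n X)).meas.aestronglyMeasurable) ?_
    (integrable_const _) (ae_of_all _ fun σ => Continuous.continuousAt (by fun_prop))
  have hev : ∀ᶠ X in nhds X₀, ∀ v ∈ ball d n, |X v| < |X₀ v| + 1 := by
    rw [Finset.eventually_all]
    intro v _
    exact ((continuous_apply v).abs.tendsto X₀).eventually_lt_const (lt_add_one _)
  filter_upwards [hev] with X hX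
  refine ae_of_all _ fun σ => ?_
  rw [Real.norm_eq_abs, abs_mul, abs_of_pos (Real.exp_pos _)]
  refine mul_le_mul (hC σ) (Real.exp_le_exp.2 (Finset.sum_le_sum fun v hv => ?_))
    (Real.exp_pos _).le ((abs_nonneg _).trans (hC σ))
  refine (le_abs_self _).trans ?_
  rw [abs_mul, abs_sg, mul_one]
  exact (hX v hv).le

lemma continuous_gib (n : ℕ) {H : (V d → Bool) → ℝ} (hH : BM inferInstance H) :
    Continuous fun X : V d → ℝ => gib θ n X H := by
  have h1 := continuous_num (θ := θ) n (BM.const (G := (inferInstance :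
    MeasurableSpace (V d → Bool))) 1)
  simp only [one_mul] at h1
  exact (continuous_num n hH).div h1 fun X => (part_pos n X).ne'

lemma gib_congr (n : ℕ) {X X' : V d → ℝ} (h : ∀ v, len v ≤ n → X v = X' v)
    (H : (V d → Bool) → ℝ) : gib θ n X H = gib θ n X' H := by
  have : ∀ σ : V d → Bool, ∑ v ∈ ball d n, X v * sg (σ v) = ∑ v ∈ ball d n, X' v * sg (σ v) :=
    fun σ => Finset.sum_congr rfl fun v hv => by rw [h v (mem_ball.1 hv)]
  simp only [gib, this]

open Classical in
/-- Uniform reference observations. -/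
noncomputable def ob0 (A : Finset (Ix d)) (τ : T d) : Ix d → ℝ :=
  fun a => if a ∈ A then 2 * (τ a : ℝ) - 1 else 0

/-- Likelihood of the reference observations. -/
noncomputable def lik (A : Finset (Ix d)) (η : O1 d) : ℝ :=
  ∏ a ∈ A, (1 + dl a.2 * sg (η.1 a.1) * (2 * (η.2 a : ℝ) - 1))

lemma abs_two_sub (u : unitInterval) : |2 * (u : ℝ) - 1| ≤ 1 :=
  abs_le.2 ⟨by linarith [u.2.1], by linarith [u.2.2]⟩

lemma bm_two_sub : BM inferInstance fun u : unitInterval => 2 * (u : ℝ) - 1 :=
  ⟨by fun_prop, 1, abs_two_sub⟩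

lemma measurable_ob0 (A : Finset (Ix d)) : Measurable (ob0 A) := by
  refine measurable_pi_lambda _ fun a => ?_
  by_cases h : a ∈ A
  · simp only [ob0, if_pos h]
    exact bm_two_sub.meas.comp (measurable_pi_apply a)
  · simp only [ob0, if_neg h]
    exact measurable_const

lemma bm_lik (A : Finset (Ix d)) : BM inferInstance (lik A) :=
  BM.finprod A fun a _ => (BM.const 1).add (((BM.const (dl a.2)).mul
    ((bm_sg a.1).comp measurable_fst)).mul
      (bm_two_sub.comp ((measurable_pi_apply a).comp measurable_snd)))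

lemma ob0_insert (A : Finset (Ix d)) (a : Ix d) (τ : T d) :
    ob0 (insert a A) τ = update (ob0 A τ) a (2 * (τ a : ℝ) - 1) := by
  funext b
  by_cases h : b = a
  · subst h; simp [ob0]
  · simp [ob0, h]

lemma ob0_update {A : Finset (Ix d)} {a : Ix d} (h : a ∉ A) (τ : T d) (u : unitInterval) :
    ob0 A (update τ a u) = ob0 A τ := by
  funext b
  by_cases hb : b ∈ A
  · have : b ≠ a := fun e => h (e ▸ hb)
    simp [ob0, hb, this]
  · simp [ob0, hb]

lemma lik_update {A : Finset (Ix d)} {a : Ix d} (h : a ∉ A) (η : O1 d) (u : unitInterval) :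
    lik A (η.1, update η.2 a u) = lik A η := by
  refine Finset.prod_congr rfl fun b hb => ?_
  have : b ≠ a := fun e => h (e ▸ hb)
  simp [this]

lemma integral_qf_ref {α : ℝ} (h : |α| ≤ 1 / 2) {φ : ℝ → ℝ} (hφ : Measurable φ) (b : Bool) :
    ∫ u : unitInterval, φ (sg b * qf α u) =
      ∫ u : unitInterval, φ (2 * u - 1) * (1 + α * sg b * (2 * u - 1)) := by
  have h0 := integral_qf (α := 0) (by norm_num) (φ := fun y => φ y * (1 + α * sg b * y))
    (hφ.mul (by fun_prop)) true
  have h1 : ∀ u : ℝ, sg true * qf 0 u = 2 * u - 1 := fun u => by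
    simp only [sg, qf, if_true]
    norm_num
    ring
  simp only [h1] at h0
  rw [integral_qf h hφ b, h0]
  refine integral_congr_ae (ae_of_all _ fun y => ?_)
  ring

lemma measurable_upd {E : Type} [MeasurableSpace E] (a : Ix d) {f : E → Ix d → ℝ} {g : E → ℝ}
    (hf : Measurable f) (hg : Measurable g) : Measurable fun e => update (f e) a (g e) :=
  (measurable_update' (a := a)).comp (hf.prodMk hg)

lemma joint_law (A : Finset (Ix d)) {K : (V d → Bool) × (Ix d → ℝ) → ℝ}
    (hK : BM inferInstance K) :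
    ∫ η, K (η.1, obs (A : Set (Ix d)) η) ∂P1 d θ =
      ∫ η, K (η.1, ob0 A η.2) * lik A η ∂P1 d θ := by
  induction A using Finset.induction_on generalizing K with
  | empty =>
    have h1 : ∀ η : O1 d, obs ((∅ : Finset (Ix d)) : Set (Ix d)) η = ob0 ∅ η.2 := fun η => by
      funext a; simp [obs, ob0]
    simp only [h1, lik, Finset.prod_empty, mul_one]
  | insert a A ha ih =>
    have hF : BM inferInstance fun p : unitInterval × (V d → Bool) × (Ix d → ℝ) =>
        K (p.2.1, update p.2.2 a (sg (p.2.1 a.1) * qf (dl a.2) p.1)) :=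
      hK.comp (measurable_snd.fst.prodMk (measurable_upd a measurable_snd.snd
        ((measurable_sq a).comp (measurable_fst.prodMk measurable_snd.fst))))
    have h1 := lraw (θ := θ) a (F := fun p : unitInterval × O1 d =>
        K (p.2.1, update (obs (A : Set (Ix d)) p.2) a (sg (p.2.1 a.1) * qf (dl a.2) p.1)))
      (hF.comp (Tm := fun p : unitInterval × O1 d => (p.1, p.2.1, obs (A : Set (Ix d)) p.2))
        (measurable_fst.prodMk (measurable_snd.fst.prodMk
          ((measurable_obs _).comp measurable_snd))))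
      fun u u' η => by
        dsimp only
        rw [obs_update (by simpa using ha)]
    have h2 := ih (hF.integral_left (volume : Measure unitInterval))
    have h3 := lraw (θ := θ) a (F := fun p : unitInterval × O1 d =>
        K (p.2.1, update (ob0 A p.2.2) a (2 * (p.1 : ℝ) - 1)) *
          (1 + dl a.2 * sg (p.2.1 a.1) * (2 * (p.1 : ℝ) - 1)) * lik A p.2)
      (((hK.comp (measurable_snd.fst.prodMk (measurable_upd a
          ((measurable_ob0 A).comp measurable_snd.snd) (bm_two_sub.meas.comp measurable_fst)))).mul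
        ((BM.const 1).add (((BM.const (dl a.2)).mul ((bm_sg a.1).comp measurable_snd.fst)).mul
          (bm_two_sub.comp measurable_fst)))).mul ((bm_lik A).comp measurable_snd))
      fun u u' η => by
        dsimp only
        rw [ob0_update ha, lik_update ha]
    dsimp only at h1 h2 h3
    calc _ = ∫ η, K (η.1, update (obs (A : Set (Ix d)) η) a
          (sg (η.1 a.1) * qf (dl a.2) (η.2 a))) ∂P1 d θ := by
          simp only [Finset.coe_insert, obs_insert, YY]
      _ = _ := h1
      _ = _ := h2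
      _ = ∫ η, (∫ u : unitInterval, K (η.1, update (ob0 A η.2) a (2 * (u : ℝ) - 1)) *
          (1 + dl a.2 * sg (η.1 a.1) * (2 * (u : ℝ) - 1)) * lik A η) ∂P1 d θ := by
          refine integral_congr_ae (ae_of_all _ fun η => ?_)
          dsimp only
          rw [integral_mul_const, integral_qf_ref (abs_dl_le _)
            (φ := fun y => K (η.1, update (ob0 A η.2) a y))
            (hK.meas.comp (measurable_const.prodMk
              (measurable_upd a measurable_const measurable_id)))]
      _ = _ := h3.symm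
      _ = _ := by
          refine integral_congr_ae (ae_of_all _ fun η => ?_)
          dsimp only
          rw [ob0_insert, lik, lik, Finset.prod_insert ha, mul_assoc]

lemma fld_ob0 (A : Finset (Ix d)) (τ : T d) (v : V d) : fld (ob0 A τ) v =
    ∑ a ∈ A.filter (fun a => a.1 = v), Real.artanh (dl a.2 * (2 * (τ a : ℝ) - 1)) := by
  set η : O1 d := (fun _ => true, fun a =>
    ⟨cdf (dl a.2) (2 * (τ a : ℝ) - 1), cdf_mem (abs_dl_le _) (abs_two_sub _)⟩) with hη
  have h1 : ∀ a, YY a η = 2 * (τ a : ℝ) - 1 := fun a => by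
    simp only [YY, hη, sg, if_true, one_mul]
    exact qf_cdf (abs_dl_le _) (abs_two_sub _)
  have h2 : obs (A : Set (Ix d)) η = ob0 A τ := by
    funext a
    simp [obs, ob0, h1]
  have h3 := XI_finset A η v
  simp only [XI, h2, h1] at h3
  exact h3

lemma lik_eq (n : ℕ) (A : Finset (Ix d)) (hA : ∀ a ∈ A, len a.1 ≤ n) (τ : T d) :
    ∃ c : ℝ, ∀ σ, lik A (σ, τ) =
      Real.exp (∑ v ∈ ball d n, fld (ob0 A τ) v * sg (σ v)) * c := by
  refine ⟨∏ a ∈ A, √(1 - (dl a.2 * (2 * (τ a : ℝ) - 1)) ^ 2), fun σ => ?_⟩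
  have h1 : ∑ v ∈ ball d n, fld (ob0 A τ) v * sg (σ v) =
      ∑ a ∈ A, Real.artanh (dl a.2 * (2 * (τ a : ℝ) - 1)) * sg (σ a.1) := by
    rw [← Finset.sum_fiberwise_of_maps_to (g := Prod.fst) fun a ha => mem_ball.2 (hA a ha)]
    refine Finset.sum_congr rfl fun v _ => ?_
    rw [fld_ob0, Finset.sum_mul]
    refine Finset.sum_congr rfl fun a ha => ?_
    rw [(Finset.mem_filter.1 ha).2]
  rw [h1, Real.exp_sum, ← Finset.prod_mul_distrib]
  refine Finset.prod_congr rfl fun a _ => ?_
  rw [exp_artanh_sg]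
  · ring
  · rw [abs_mul]
    nlinarith [abs_dl_le a.2, abs_two_sub (τ a), abs_nonneg (dl a.2),
      abs_nonneg (2 * (τ a : ℝ) - 1)]

lemma bm_gib (n : ℕ) {H : (V d → Bool) → ℝ} (hH : BM inferInstance H) :
    BM inferInstance fun X : V d → ℝ => gib θ n X H := by
  obtain ⟨C, hC⟩ := hH.bdd
  exact ⟨(continuous_gib n hH).measurable, C, fun X => abs_gib_le n X hH.meas hC⟩

lemma post_test (n : ℕ) (A : Finset (Ix d)) (hA : ∀ a ∈ A, len a.1 ≤ n)
    {H : (V d → Bool) → ℝ} (hH : BM inferInstance H) {G : (Ix d → ℝ) → ℝ}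
    (hG : BM inferInstance G) :
    ∫ η, H η.1 * G (obs (A : Set (Ix d)) η) ∂P1 d θ =
      ∫ η, gib θ n (XI (A : Set (Ix d)) η) H * G (obs (A : Set (Ix d)) η) ∂P1 d θ := by
  have hK1 : BM inferInstance fun p : (V d → Bool) × (Ix d → ℝ) => H p.1 * G p.2 :=
    (hH.comp measurable_fst).mul (hG.comp measurable_snd)
  have hK2 : BM inferInstance fun p : (V d → Bool) × (Ix d → ℝ) =>
      gib θ n (fld p.2) H * G p.2 :=
    ((bm_gib n hH).comp (measurable_fld.comp measurable_snd)).mul (hG.comp measurable_snd)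
  have hT : Measurable fun η : O1 d => (η.1, ob0 A η.2) :=
    measurable_fst.prodMk ((measurable_ob0 A).comp measurable_snd)
  have h1 := joint_law (θ := θ) A hK1
  have h2 := joint_law (θ := θ) A hK2
  have i1 := ((hK1.comp hT).mul (bm_lik A)).integrable (P := P1 d θ)
  have i2 := ((hK2.comp hT).mul (bm_lik A)).integrable (P := P1 d θ)
  refine h1.trans (Eq.trans ?_ h2.symm)
  unfold P1 at i1 i2 ⊢
  rw [integral_prod_symm _ i1, integral_prod_symm _ i2]
  refine integral_congr_ae (ae_of_all _ fun τ => ?_)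
  obtain ⟨c, hc⟩ := lik_eq n A hA τ
  simp only [hc]
  have h3 : ∀ σ, H σ * G (ob0 A τ) *
      (Real.exp (∑ v ∈ ball d n, fld (ob0 A τ) v * sg (σ v)) * c) =
      H σ * Real.exp (∑ v ∈ ball d n, fld (ob0 A τ) v * sg (σ v)) * (G (ob0 A τ) * c) :=
    fun σ => by ring
  simp only [h3]
  rw [integral_mul_const, integral_const_mul, integral_mul_const, gib]
  field_simp [(part_pos (θ := θ) n (fld (ob0 A τ))).ne']

theorem post_fin (n : ℕ) (A : Finset (Ix d)) (hA : ∀ a ∈ A, len a.1 ≤ n)
    {H : (V d → Bool) → ℝ} (hH : BM inferInstance H) :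
    (P1 d θ)[fun η => H η.1|FI (A : Set (Ix d))] =ᵐ[P1 d θ]
      fun η => gib θ n (XI (A : Set (Ix d)) η) H := by
  have hg : BM (FI (A : Set (Ix d))) fun η => gib θ n (XI (A : Set (Ix d)) η) H :=
    (bm_gib n hH).comp (measurable_XI_FI _)
  have hg' := hg.mono (FI_le _)
  refine (ae_eq_condExp_of_forall_setIntegral_eq (FI_le _) (hH.comp measurable_fst).integrable
    (fun s _ _ => hg'.integrable.integrableOn) ?_ hg.meas.aestronglyMeasurable).symm
  rintro s ⟨t, ht, rfl⟩ -
  have hs : MeasurableSet (obs (A : Set (Ix d)) ⁻¹' t) := measurable_obs _ ht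
  have h := post_test (θ := θ) n A hA hH (G := t.indicator 1)
    ⟨measurable_one.indicator ht, 1, fun y => by by_cases hy : y ∈ t <;> simp [hy]⟩
  rw [← integral_indicator hs, ← integral_indicator hs]
  have h1 : ∀ f : O1 d → ℝ, (obs (A : Set (Ix d)) ⁻¹' t).indicator f =
      fun η => f η * t.indicator 1 (obs (A : Set (Ix d)) η) := fun f => by
    funext η
    by_cases hy : obs (A : Set (Ix d)) η ∈ t <;> simp [indicator, hy]
  rw [h1, h1]
  exact h.symm

end Vale.Agent.P161E
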