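import Vale.Agent.P161E.Act

/-! The conditional variance of the logarithmic decay factors, and proxies.
`exists_even`: take `g` from `exists_condExp` and use `(g + g ∘ io) / 2` (`condExp_comp'` with `Tm = S = io`).
`dv_tanh`: let `u = tanh (h c)`, `y = step c 1`, `m̃` a bounded version of `P[m|G]`.  By `rel` at `ω` and
at `sh y ω` (`sh_mul`, `y * y = 1`, `step_step`), `colip` gives `u = Ψ (m, m ∘ sh y)` a.e.; use `dv_le` with
`Z = Ψ (m̃, m̃ ∘ sh y)` (bounded since `Ψ` is Lipschitz) and `Act.integral_sh`.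
`rateA`: let `ũ` be a version of `P[u|G]` with `|ũ| ≤ tanh R`; `dv_le` with `Z = lph θ ũ` and `lph_lip`:
`(la - Z)² ≤ L² (|u| + |ũ|)² (u - ũ)² ≤ L² ((3 lam)² (u-ũ)² + 16 (1_{|u| > lam} + 1_{|ũ| > 2 lam}))`, and
`|ũ| ≤ P[|u| | G]` a.e. (`condExp_mono`, or `abs_condExp`-type lemma), `tail_condExp`.
`dom_f`: `path_id` (from `rel` and `Act.ae_sh`, with `F x = H (sh x ω)`; `x * step c 1 = step c x`) and
`1 - tanh² H ≥ 1 - tanh² R = 1 / cosh² R`; `walk 1 w.1 = w`, `w.1.reverse = w⁻¹.1`.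
`tilde_sq`: `pprod (ext (exp ∘ lt)) x l ^ 2 = exp (2 psum (ext lt) x l)` (`exp_psum`), by induction on `l`
`P[psum (ext la) x l | G] = psum (ext lt) x l` a.e. (`condExp_add`, `condExp_comp'`), then
`exp_condExp_le`, `exp_lph`.  `dom_tilde`: `tilde_sq`, `condExp_finset_sum`, `condExp_mono`, `dom_f`. -/

namespace Vale.Agent.P161E

open MeasureTheory Finset Real

variable {d : ℕ} {θ R : ℝ} {Ω : Type} {m0 : MeasurableSpace Ω} {P : Measure Ω}
  [IsProbabilityMeasure P] {A : Act d P}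

lemma Sys.exists_even (S : Sys A θ R) {F : Ω → ℝ} {a b : ℝ} (hF : Measurable F)
    (hab : ∀ ω, a ≤ F ω ∧ F ω ≤ b) (he : ∀ ω, F (A.io ω) = F ω) :
    ∃ g : Ω → ℝ, Measurable[S.G] g ∧ (∀ ω, a ≤ g ω ∧ g ω ≤ b) ∧ (∀ ω, g (A.io ω) = g ω) ∧
      g =ᵐ[P] P[F|S.G] := by
  obtain ⟨g, hgm, hgb, hg⟩ := exists_condExp (P := P) S.hG hF hab
  have hint : Integrable F P := BM.integrable ⟨hF, max |a| |b|, fun ω =>
    abs_le_max_abs_abs (hab ω).1 (hab ω).2⟩
  have h1 := condExp_comp' S.hG A.mpi S.ioG S.ioG A.io_io hint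
  simp only [he] at h1
  have h2 := A.mpi.quasiMeasurePreserving.ae hg
  refine ⟨fun ω => (g ω + g (A.io ω)) / 2, (hgm.add (hgm.comp S.ioG)).div_const 2,
    fun ω => ?_, fun ω => ?_, ?_⟩
  · have := hgb ω
    have := hgb (A.io ω)
    constructor <;> linarith [this.1, this.2]
  · simp only [A.io_io]
    ring
  · filter_upwards [hg, h1, h2] with ω e1 e2 e3
    have e4 : g (A.io ω) = g ω := by
      rw [e3, e1]
      exact e2.symm
    rw [e4, e1]
    ring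

lemma step_mul_stepr (c : Fin d) : step c (1 : V d) * step c 1 = 1 := by
  rw [mul_step, mul_one, step_step]

lemma dv_eq_of_aer {G : MeasurableSpace Ω} {m0 : MeasurableSpace Ω} {P : Measure Ω} {f g : Ω → ℝ}
    (hg : g =ᵐ[P] P[f|G]) : dv P G f = ∫ ω, (f ω - g ω) ^ 2 ∂P := by
  refine integral_congr_ae ?_
  filter_upwards [hg] with ω hω
  rw [hω]

lemma Sys.abs_tanh_h (S : Sys A θ R) (c : Fin d) (ω : Ω) : |tanh (S.h c ω)| ≤ tanh R := by
  rw [abs_tanh']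
  exact tanh_mono (S.bh c ω)

lemma Sys.tanh_h_BM (S : Sys A θ R) (c : Fin d) : BM m0 fun ω => tanh (S.h c ω) :=
  ⟨continuous_tanh'.measurable.comp (S.mh c), tanh R, S.abs_tanh_h c⟩

lemma Sys.la_BMr (S : Sys A θ R) (h : Hyp d θ) (c : Fin d) : BM m0 (S.la c) := by
  obtain ⟨L, -, hL⟩ := lph_lip R
  exact ⟨measurable_lph.comp (S.tanh_h_BM c).meas, L, fun ω =>
    (hL θ h.sq_le _ _ (S.abs_tanh_h c ω) (S.abs_tanh_h c ω)).2⟩

lemma Sys.dv_tanh (S : Sys A θ R) (h : Hyp d θ) (c : Fin d) :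
    dv P S.G (fun ω => tanh (S.h c ω)) ≤ 2 * 10000 ^ 2 * S.D := by
  obtain ⟨Ψ, hΨ, hΨe⟩ := colip h
  obtain ⟨g, hgm, hgb, hg⟩ := exists_condExp (P := P) S.hG S.m_BM.meas
    (a := -1) (b := 1) fun ω => ⟨(neg_one_lt_tanh _).le, (tanh_lt_one _).le⟩
  set y : V d := step c 1 with hy
  have hgG : BM S.G g := ⟨hgm, 1, fun ω => abs_le.2 (hgb ω)⟩
  have hZ : BM S.G fun ω => Ψ (g ω, g (A.sh y ω)) := by
    refine ⟨hΨ.continuous.measurable.comp (hgm.prodMk (hgm.comp (S.shG y))), |Ψ 0| + 10000,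
      fun ω => ?_⟩
    have h1 := hΨ.dist_le_mul (g ω, g (A.sh y ω)) 0
    have h2 : dist (g ω, g (A.sh y ω)) (0 : ℝ × ℝ) ≤ 1 := by
      rw [Prod.dist_eq]
      simp only [Prod.fst_zero, Prod.snd_zero, dist_zero_right, norm_eq_abs]
      exact max_le (abs_le.2 (hgb _)) (abs_le.2 (hgb _))
    rw [Real.dist_eq] at h1
    have h3 := abs_sub_abs_le_abs_sub (Ψ (g ω, g (A.sh y ω))) (Ψ 0)
    push_cast at h1
    linarith
  have hk : BM m0 fun ω => (S.m ω - g ω) ^ 2 := (S.m_BM.sub (hgG.mono S.hG)).pow 2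
  have hk2 : BM m0 fun ω => (S.m (A.sh y ω) - g (A.sh y ω)) ^ 2 := hk.comp (A.mp y).measurable
  have e1 : S.D = ∫ ω, (S.m ω - g ω) ^ 2 ∂P := dv_eq_of_aer hg
  have e2 : ∫ ω, (S.m (A.sh y ω) - g (A.sh y ω)) ^ 2 ∂P = S.D :=
    (A.integral_sh y hk.meas).trans e1.symm
  have e3 : ∫ ω, 10000 ^ 2 * ((S.m ω - g ω) ^ 2 + (S.m (A.sh y ω) - g (A.sh y ω)) ^ 2) ∂P
      = 2 * 10000 ^ 2 * S.D := by
    rw [integral_const_mul, integral_add hk.integrable hk2.integrable, e2, ← e1]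
    ring
  refine (dv_le S.hG (S.tanh_h_BM c) hZ).trans ?_
  rw [← e3]
  refine integral_mono_ae (((S.tanh_h_BM c).sub (hZ.mono S.hG)).pow 2).integrable
    ((hk.add hk2).integrable.const_mul _) ?_
  filter_upwards [S.rel, (A.mp y).quasiMeasurePreserving.ae S.rel] with ω r1 r2
  have r3 := r2 c
  rw [A.sh_mul, ← hy, hy, step_mul_stepr, A.sh_one, ← hy] at r3
  have r4 := hΨe (S.h c ω) (S.h c (A.sh y ω))
  rw [← r1 c, ← r3] at r4
  have h1 := hΨ.dist_le_mul (S.m ω, S.m (A.sh y ω)) (g ω, g (A.sh y ω))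
  have r5 : Ψ (S.m ω, S.m (A.sh y ω)) = tanh (S.h c ω) := r4
  rw [r5, Real.dist_eq, Prod.dist_eq, Real.dist_eq, Real.dist_eq] at h1
  push_cast at h1
  have h2 := pow_le_pow_left₀ (abs_nonneg _) h1 2
  rw [sq_abs, mul_pow] at h2
  refine h2.trans (mul_le_mul_of_nonneg_left ?_ (by norm_num))
  rcases max_cases |S.m ω - g ω| |S.m (A.sh y ω) - g (A.sh y ω)| with h3 | h3
  · rw [h3.1, sq_abs]
    exact le_add_of_nonneg_right (sq_nonneg _)
  · rw [h3.1, sq_abs]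
    exact le_add_of_nonneg_left (sq_nonneg _)

lemma Sys.dv_la (S : Sys A θ R) (h : Hyp d θ) {L lam pu : ℝ}
    (hL : ∀ s t : ℝ, |s| ≤ tanh R → |t| ≤ tanh R → |lph θ s - lph θ t| ≤ L * (|s| + |t|) * |s - t|)
    (hlam : 0 < lam) (c : Fin d) (hpu : P.real {ω | lam < |tanh (S.h c ω)|} ≤ pu) :
    dv P S.G (S.la c) ≤ L ^ 2 * (9 * lam ^ 2 * (2 * 10000 ^ 2 * S.D) + 16 * (pu * (1 + 1 / lam))) := by
  have hu := S.tanh_h_BM c
  set u : Ω → ℝ := fun ω => tanh (S.h c ω) with hudef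
  have hub : ∀ ω, |u ω| ≤ tanh R := S.abs_tanh_h c
  have hR1 : tanh R ≤ 1 := (tanh_lt_one R).le
  obtain ⟨g, hgm, hgb, hg⟩ := exists_condExp (P := P) S.hG hu.meas fun ω => abs_le.1 (hub ω)
  have hgb' : ∀ ω, |g ω| ≤ tanh R := fun ω => abs_le.2 (hgb ω)
  have hgG : BM S.G g := ⟨hgm, _, hgb'⟩
  have hg0 : BM m0 g := hgG.mono S.hG
  obtain ⟨L', -, hL'⟩ := lph_lip R
  have hZ : BM S.G fun ω => lph θ (g ω) :=
    ⟨measurable_lph.comp hgm, L', fun ω => (hL' θ h.sq_le _ _ (hgb' ω) (hgb' ω)).2⟩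
  have hf1 : BM m0 fun ω => (u ω - g ω) ^ 2 := (hu.sub hg0).pow 2
  have hf2 : BM m0 fun ω => (|u ω| + |g ω|) ^ 2 := (hu.abs.add hg0.abs).pow 2
  have h1 : dv P S.G (S.la c) ≤ L ^ 2 * ∫ ω, (u ω - g ω) ^ 2 * (|u ω| + |g ω|) ^ 2 ∂P := by
    refine (dv_le S.hG (S.la_BMr h c) hZ).trans ?_
    rw [← integral_const_mul]
    refine integral_mono (((S.la_BMr h c).sub (hZ.mono S.hG)).pow 2).integrable
      ((hf1.mul hf2).integrable.const_mul _) fun ω => ?_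
    have h2 := pow_le_pow_left₀ (abs_nonneg _) (hL _ _ (hub ω) (hgb' ω)) 2
    rw [sq_abs, mul_pow, mul_pow, sq_abs] at h2
    refine h2.trans (le_of_eq ?_)
    ring
  have h2 := integral_mul_le (P := P) hf1 hf2 (C := 4) (D := 4) (l := 9 * lam ^ 2) (by positivity)
    (fun ω => ⟨sq_nonneg _, by
      have a1 := abs_le.1 ((hub ω).trans hR1)
      have a2 := abs_le.1 ((hgb' ω).trans hR1)
      nlinarith [a1.1, a1.2, a2.1, a2.2]⟩)
    (fun ω => ⟨sq_nonneg _, by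
      have a1 := (hub ω).trans hR1
      have a2 := (hgb' ω).trans hR1
      nlinarith [abs_nonneg (u ω), abs_nonneg (g ω)]⟩)
  have h3 : ∫ ω, (u ω - g ω) ^ 2 ∂P ≤ 2 * 10000 ^ 2 * S.D :=
    (dv_eq_of_aer hg).symm.le.trans (S.dv_tanh h c)
  have h4 := tail_condExp (P := P) S.hG hu.abs.meas (C := 1) (l := lam) (t := lam)
    (fun ω => ⟨abs_nonneg _, (hub ω).trans hR1⟩) hlam.le hlam
  have h5 : P.real {ω | 9 * lam ^ 2 < (|u ω| + |g ω|) ^ 2} ≤
      P.real ({ω | lam < |u ω|} ∪ {ω | lam + lam < (P[fun ω => abs (u ω)|S.G]) ω}) := by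
    refine ENNReal.toReal_mono (measure_ne_top _ _) (measure_mono_ae ?_)
    filter_upwards [hg, abs_condExp_ae_le_condExp_abs (μ := P) (m := S.G) u] with ω e1 e2 hω
    have e3 : 9 * lam ^ 2 < (|u ω| + |g ω|) ^ 2 := hω
    have e4 : |g ω| ≤ (P[fun ω => abs (u ω)|S.G]) ω := by
      rw [e1]
      exact e2
    change lam < |u ω| ∨ lam + lam < (P[fun ω => abs (u ω)|S.G]) ω
    by_contra hcon
    simp only [not_or, not_lt] at hcon
    have e5 : |u ω| + |g ω| ≤ 3 * lam := by linarith [hcon.1, hcon.2]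
    have := pow_le_pow_left₀ (by positivity) e5 2
    nlinarith
  have h6 := h5.trans (measureReal_union_le _ _)
  have h7 : 1 / lam * P.real {ω | lam < |u ω|} ≤ 1 / lam * pu :=
    mul_le_mul_of_nonneg_left hpu (by positivity)
  refine h1.trans (mul_le_mul_of_nonneg_left (h2.trans ?_) (sq_nonneg _))
  have h8 := mul_le_mul_of_nonneg_left h3 (show 0 ≤ 9 * lam ^ 2 by positivity)
  have h9 : P.real {ω | lam < |u ω|} ≤ pu := hpu
  nlinarith

theorem rateA (A : Act d P) (h : Hyp d θ) (R : ℝ) : ∃ C : ℝ, 1 ≤ C ∧ ∀ (S : Sys A θ R) (lam pu : ℝ),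
    0 < lam → (∀ c, P.real {ω | lam < |tanh (S.h c ω)|} ≤ pu) →
    (∀ c ω, -C ≤ S.la c ω ∧ S.la c ω ≤ 0) ∧
      ∑ c, dv P S.G (S.la c) ≤ C * (lam ^ 2 * S.D + pu * (1 + 1 / lam)) := by
  obtain ⟨L, hL0, hL⟩ := lph_lip R
  have hM : 0 ≤ (d : ℝ) * L ^ 2 * (18 * 10000 ^ 2) := by positivity
  refine ⟨1 + L + d * L ^ 2 * (18 * 10000 ^ 2), by linarith, fun S lam pu hlam hpu =>
    ⟨fun c ω => ⟨?_, ?_⟩, ?_⟩⟩
  · have := abs_le.1 (hL θ h.sq_le _ _ (S.abs_tanh_h c ω) (S.abs_tanh_h c ω)).2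
    have e : S.la c ω = lph θ (tanh (S.h c ω)) := rfl
    linarith [this.1]
  · have := phi_le_one h (S.h c ω)
    rw [← exp_lph h, exp_le_one_iff] at this
    exact this
  · have h0 : 0 ≤ pu := measureReal_nonneg.trans (hpu ⟨0, by have := h.hd; omega⟩)
    have hD : 0 ≤ S.D := dv_nonneg
    have h1 := sum_le_card_nsmul univ _ _ fun c _ =>
      S.dv_la h (fun s t hs ht => (hL θ h.sq_le s t hs ht).1) hlam c (hpu c)
    rw [card_univ, Fintype.card_fin, nsmul_eq_mul] at h1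
    refine h1.trans ?_
    have a1 : 0 ≤ lam ^ 2 * S.D := by positivity
    have a2 : 0 ≤ pu * (1 + 1 / lam) := by positivity
    have a3 : 0 ≤ (d : ℝ) * L ^ 2 := by positivity
    nlinarith [mul_nonneg a3 a2, mul_nonneg hL0 a1, mul_nonneg hL0 a2]

lemma Gsum_le (h : Hyp d θ) (K : ℕ) {ρ : V d → ℝ} (hρ : ∀ w, 0 ≤ ρ w ∧ ρ w ≤ 1) :
    0 ≤ Gsum θ K ρ ∧ Gsum θ K ρ ≤ 3 / 2 * (K + 1) := by
  refine ⟨sum_nonneg fun w _ => mul_nonneg (pow_nonneg h.h0 _) (sq_nonneg _), ?_⟩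
  unfold Gsum
  rw [sum_ball]
  refine (sum_le_card_nsmul _ _ (3 / 2 : ℝ) fun k _ => ?_).trans (le_of_eq ?_)
  · refine le_trans ?_ (sph_weight h k)
    refine (sum_le_card_nsmul _ _ (θ ^ (2 * k)) fun w hw => ?_).trans (le_of_eq ?_)
    · rw [mem_sph.1 hw]
      exact mul_le_of_le_one_right (pow_nonneg h.h0 _) (pow_le_one₀ (hρ w).1 (hρ w).2)
    · rw [nsmul_eq_mul, mul_comm]
  · rw [card_range, nsmul_eq_mul]
    push_cast
    ring

lemma Act.pprod_BMr (A : Act d P) {f : Fin d → Ω → ℝ} (hf : Unit01 m0 f) (x : V d)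
    (l : List (Fin d)) : BM m0 fun ω => pprod (A.ext f ω) x l :=
  ⟨A.measurable_pprod (fun x => (A.mp x).measurable) (fun c => (hf c).1) x l, 1, fun ω =>
    abs_le.2 ⟨by linarith [(A.pprod_mem hf x l ω).1], (A.pprod_mem hf x l ω).2⟩⟩

lemma Gsum_BMr {G : MeasurableSpace Ω} (K : ℕ) {ρ : V d → Ω → ℝ} (hρ : ∀ w, BM G (ρ w)) :
    BM G fun ω => Gsum θ K fun w => ρ w ω :=
  BM.sum _ fun w _ => (BM.const _).mul ((hρ w).pow 2)

lemma one_le_cosh_four (R : ℝ) : 1 ≤ cosh R ^ 4 := one_le_pow₀ (one_le_cosh R)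

lemma Sys.dom_f (S : Sys A θ R) (h : Hyp d θ) (K : ℕ) :
    A.Dom θ K S.f fun ω => cosh R ^ 4 * Gsum θ K fun w => S.r w ω := by
  have hB : BM m0 fun ω => Gsum θ K fun w => S.r w ω :=
    Gsum_BMr K fun w => A.pprod_BMr (S.unit01 h) 1 w.1
  have h0 : ∀ ω, 0 ≤ Gsum θ K fun w => S.r w ω := fun ω =>
    (Gsum_le h K fun w => A.pprod_mem (S.unit01 h) 1 w.1 ω).1
  refine ⟨measurable_const.mul hB.meas, fun ω => mul_nonneg (by positivity) (h0 ω), fun ω => ?_,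
    ae_of_all _ fun ω => le_mul_of_one_le_left (h0 ω) (one_le_cosh_four R), ?_⟩
  · simp only [Sys.r, A.ext_io S.f_io]
  · filter_upwards [A.ae_sh S.rel] with ω hω
    unfold Gsum
    rw [mul_sum]
    refine sum_le_sum fun w _ => ?_
    have e := path_id h (f := fun x c => S.h c (A.sh x ω)) (F := fun x => S.H (A.sh x ω))
      (fun x c => by
        have := hω x c
        rwa [A.sh_mul, mul_step, mul_one] at this) 1 w.1
    rw [walk_one] at e
    have e2 : (1 - tanh (S.H (A.sh 1 ω)) ^ 2) * S.r w ω =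
        (1 - tanh (S.H (A.sh w ω)) ^ 2) * pprod (A.ext S.f ω) w w⁻¹.1 := e
    have b1 := (A.pprod_mem (S.unit01 h) 1 w.1 ω).1
    have b1' : 0 ≤ S.r w ω := b1
    have b2 := (A.pprod_mem (S.unit01 h) w w⁻¹.1 ω).1
    have b3 : tanh (S.H (A.sh w ω)) ^ 2 ≤ tanh R ^ 2 :=
      tanh_sq_mono ((S.bH _).trans (le_abs_self R))
    have b4 : cosh R ^ 2 * (1 - tanh R ^ 2) = 1 := by
      have := (cosh_pos R).ne'
      rw [tanh_eq_sinh_div_cosh, div_pow]
      field_simp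
      exact cosh_sq_sub_sinh_sq R
    have b5 : (1 - tanh R ^ 2) * pprod (A.ext S.f ω) w w⁻¹.1 ≤ S.r w ω := by
      nlinarith [mul_nonneg (sq_nonneg (tanh (S.H (A.sh 1 ω)))) b1',
        mul_nonneg (sub_nonneg.2 b3) b2]
    have b6 : pprod (A.ext S.f ω) w w⁻¹.1 ≤ cosh R ^ 2 * S.r w ω := by
      have := mul_le_mul_of_nonneg_left b5 (sq_nonneg (cosh R))
      rwa [← mul_assoc, b4, one_mul] at this
    have b7 := pow_le_pow_left₀ b2 b6 2
    have b8 := mul_le_mul_of_nonneg_left b7 (pow_nonneg h.h0 (2 * len w))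
    refine b8.trans (le_of_eq ?_)
    ring

lemma Act.psum_BMr (A : Act d P) {e : Fin d → Ω → ℝ} (he : ∀ c, BM m0 (e c)) (x : V d)
    (l : List (Fin d)) : BM m0 fun ω => psum (A.ext e ω) x l := by
  induction l with
  | nil => exact BM.const 0
  | cons c l ih => exact ih.add ((he c).comp (A.mp _).measurable)

lemma Sys.condExp_psum (S : Sys A θ R) {e lt : Fin d → Ω → ℝ} (he : ∀ c, BM m0 (e c))
    (hlt : ∀ c, lt c =ᵐ[P] P[e c|S.G]) (x : V d) (l : List (Fin d)) :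
    P[fun ω => psum (A.ext e ω) x l|S.G] =ᵐ[P] fun ω => psum (A.ext lt ω) x l := by
  induction l with
  | nil =>
    simp only [psum]
    rw [condExp_const S.hG]
  | cons c l ih =>
    have h1 := condExp_add (A.psum_BMr he x l).integrable
      ((he c).comp (A.mp (walk x l)).measurable).integrable (μ := P) S.G
    have h2 := condExp_comp' S.hG (A.mp (walk x l)) (S.shG _) (S.shG _) (A.sh_inv _)
      (he c).integrable
    have h3 := (A.mp (walk x l)).quasiMeasurePreserving.ae (hlt c)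
    filter_upwards [ih, h1, h2, h3] with ω e1 e2 e3 e4
    refine e2.trans ?_
    rw [Pi.add_apply, e1, e3, ← e4]
    rfl

lemma Sys.tilde_sq (S : Sys A θ R) (h : Hyp d θ) {lt : Fin d → Ω → ℝ}
    (hlt : ∀ c, lt c =ᵐ[P] P[S.la c|S.G]) (x : V d) (l : List (Fin d)) :
    ∀ᵐ ω ∂P, pprod (A.ext (fun c ω => exp (lt c ω)) ω) x l ^ 2 ≤
      (P[fun ω => pprod (A.ext S.f ω) x l ^ 2|S.G]) ω := by
  have hB := A.psum_BMr (S.la_BMr h) x l
  have h1 := S.condExp_psum (S.la_BMr h) hlt x l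
  have h2 := condExp_add hB.integrable hB.integrable (μ := P) S.G
  have h3 := exp_condExp_le (P := P) S.hG (hB.add hB)
  have e : (fun ω => exp (psum (A.ext S.la ω) x l + psum (A.ext S.la ω) x l)) =
      fun ω => pprod (A.ext S.f ω) x l ^ 2 := by
    funext ω
    rw [exp_add, exp_psum, sq]
    simp only [Act.ext, Sys.la, exp_lph h]
    rfl
  rw [e] at h3
  filter_upwards [h1, h2, h3] with ω e1 e2 e3
  refine le_trans (le_of_eq ?_) e3
  have e4 : (P[fun ω => psum (A.ext S.la ω) x l + psum (A.ext S.la ω) x l|S.G]) ω =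
      psum (A.ext lt ω) x l + psum (A.ext lt ω) x l := by
    refine e2.trans ?_
    rw [Pi.add_apply, e1]
  rw [e4, exp_add, exp_psum, sq]
  rfl

lemma Sys.tilde_Gsum (S : Sys A θ R) (h : Hyp d θ) (K : ℕ) {lt : Fin d → Ω → ℝ}
    (hlt : ∀ c, lt c =ᵐ[P] P[S.la c|S.G]) (x : V d → V d) (l : V d → List (Fin d)) :
    ∀ᵐ ω ∂P, Gsum θ K (fun w => pprod (A.ext (fun c ω => exp (lt c ω)) ω) (x w) (l w)) ≤
      (P[fun ω => Gsum θ K fun w => pprod (A.ext S.f ω) (x w) (l w)|S.G]) ω := by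
  have hB : ∀ w, BM m0 fun ω => pprod (A.ext S.f ω) (x w) (l w) ^ 2 := fun w =>
    (A.pprod_BMr (S.unit01 h) _ _).pow 2
  have h1 := condExp_finsetSum (μ := P) (s := ball d K)
    (f := fun w => θ ^ (2 * len w) • fun ω => pprod (A.ext S.f ω) (x w) (l w) ^ 2)
    (fun w _ => (hB w).integrable.smul _) S.G
  have h2 := ae_all_iff.2 fun w => condExp_smul (μ := P) (θ ^ (2 * len w))
    (fun ω => pprod (A.ext S.f ω) (x w) (l w) ^ 2) S.G
  have h3 := ae_all_iff.2 fun w => S.tilde_sq h hlt (x w) (l w)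
  have e : (fun ω => Gsum θ K fun w => pprod (A.ext S.f ω) (x w) (l w)) =
      ∑ w ∈ ball d K, θ ^ (2 * len w) • fun ω => pprod (A.ext S.f ω) (x w) (l w) ^ 2 := by
    funext ω
    simp only [Gsum, Finset.sum_apply, Pi.smul_apply, smul_eq_mul]
  rw [e]
  filter_upwards [h1, h2, h3] with ω e1 e2 e3
  rw [e1, Finset.sum_apply]
  refine sum_le_sum fun w _ => ?_
  rw [e2 w, Pi.smul_apply, smul_eq_mul]
  exact mul_le_mul_of_nonneg_left (e3 w) (pow_nonneg h.h0 _)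

lemma Sys.dom_tilde (S : Sys A θ R) (h : Hyp d θ) (K : ℕ) {lt : Fin d → Ω → ℝ}
    (hlt : ∀ c, lt c =ᵐ[P] P[S.la c|S.G]) {g : Ω → ℝ} (hg : Measurable g) (h0 : ∀ ω, 0 ≤ g ω)
    (he : ∀ ω, g (A.io ω) = g ω) (hc : g =ᵐ[P] P[fun ω => Gsum θ K fun w => S.r w ω|S.G]) :
    A.Dom θ K (fun c ω => exp (lt c ω)) fun ω => cosh R ^ 4 * g ω := by
  have hB : BM m0 fun ω => Gsum θ K fun w => S.r w ω :=
    Gsum_BMr K fun w => A.pprod_BMr (S.unit01 h) 1 w.1
  refine ⟨measurable_const.mul hg, fun ω => mul_nonneg (by positivity) (h0 ω), fun ω => by rw [he],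
    ?_, ?_⟩
  · filter_upwards [S.tilde_Gsum h K hlt (fun _ => 1) (fun w => w.1), hc] with ω e1 e2
    refine le_trans ?_ (le_mul_of_one_le_left (h0 ω) (one_le_cosh_four R))
    rw [e2]
    exact e1
  · have hB2 : BM m0 fun ω => Gsum θ K fun w => pprod (A.ext S.f ω) w w⁻¹.1 :=
      Gsum_BMr K fun w => A.pprod_BMr (S.unit01 h) w w⁻¹.1
    have h1 := condExp_mono (m := S.G) hB2.integrable (hB.integrable.smul (cosh R ^ 4))
      (S.dom_f h K).bwd
    have h2 := condExp_smul (μ := P) (cosh R ^ 4) (fun ω => Gsum θ K fun w => S.r w ω) S.G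
    filter_upwards [S.tilde_Gsum h K hlt (fun w => w) (fun w => w⁻¹.1), hc, h1, h2]
      with ω e1 e2 e3 e4
    refine e1.trans (e3.trans (le_of_eq ?_))
    rw [e4, e2, Pi.smul_apply, smul_eq_mul]

end Vale.Agent.P161E
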