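import Vale.Agent.P161E.W4
import Vale.Agent.P161E.RateA

/-! The rate estimate.  Let `m̃` be a version of `P[m|G]` with `|m̃| ≤ 1` (`exists_condExp`; `∫ (m - m̃)² = D`),
`lt c` even versions of `P[la c|G]` with values in `[-C, 0]` (`exists_even`, `rateA`), `a c = la c - lt c`
(even, centred, `|a| ≤ C`, `∑ ∫ a² = ∑ dv ≤ A0 := C (lam² D + pu (1 + 1/lam))`), `f̃ c = exp (lt c)`,
`r̃ w = pprod (ext f̃) 1 w`, `ct w = (1 - m̃²) θ^len w r̃ w`, `mt w = m̃ ∘ sh w`, `Γ = cosh⁴ R * Gs`,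
`Γ̃ = cosh⁴ R * g̃` with `g̃` an even version of `P[Gs|G]` in `[0, 3/2 (K+1)]`; by `tail_condExp`
`P(g̃ > 2 lG) ≤ 3/2 (K+1) pG`.  Since `r = exp (psum la)`, `r̃ = exp (psum lt)`,
`(r - r̃)² ≤ (r² + r̃²) (psum a)²`, so
`(cv - ct)² ≤ θ^(2k) (8 (m - m̃)² r̃² + 2 (r² + r̃²) (psum a)²)`.  Use `W4` twice (`dom_f`, `dom_tilde`; the
decay hypothesis for `f̃` follows from `tilde_sq` and `integral_condExp`), and `integral_mul_le` for
`∫ (m - m̃)² Γ̃`.  Finally `cv² (m ∘ sh w - mt w)² ≤ θ^(2k) F (sh w ω)` with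
`F = pprod (ext f) w⁻¹ w.1 ^ 2 (m - m̃)²`; `Act.integral_sh`, `sum_ball_inv` and `Dom.bwd` bound the sum by
`∫ (m - m̃)² Γ`. -/

namespace Vale.Agent.P161E

open MeasureTheory Finset Real

variable {d : ℕ} {θ : ℝ} {Ω : Type} {m0 : MeasurableSpace Ω} {P : Measure Ω}
  [IsProbabilityMeasure P]

lemma rate_exp (x y : ℝ) : (exp x - exp y) ^ 2 ≤ (exp x ^ 2 + exp y ^ 2) * (x - y) ^ 2 := by
  have key : ∀ x y : ℝ, y ≤ x → (exp x - exp y) ^ 2 ≤ exp x ^ 2 * (x - y) ^ 2 := by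
    intro x y hxy
    have h1 : exp y = exp x * exp (y - x) := by rw [← exp_add]; ring_nf
    have h2 := add_one_le_exp (y - x)
    have h3 := exp_pos x
    have h4 : exp x - exp y ≤ exp x * (x - y) := by rw [h1]; nlinarith
    have h5 : 0 ≤ exp x - exp y := sub_nonneg.2 (exp_le_exp.2 hxy)
    rw [← mul_pow]
    exact pow_le_pow_left₀ h5 h4 2
  rcases le_total y x with h | h
  · have := key x y h
    nlinarith [mul_nonneg (sq_nonneg (exp y)) (sq_nonneg (x - y))]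
  · have := key y x h
    nlinarith [mul_nonneg (sq_nonneg (exp x)) (sq_nonneg (x - y))]

lemma rate_psum_sub (f g : V d → Fin d → ℝ) (x : V d) (l : List (Fin d)) :
    psum (fun y c => f y c - g y c) x l = psum f x l - psum g x l := by
  induction l with
  | nil => simp [psum]
  | cons c l ih => simp only [psum, ih]; ring

lemma rate_pt {m mt r rt u s : ℝ} (hm : |m| ≤ 1) (hmt : |mt| ≤ 1)
    (hr : (r - rt) ^ 2 ≤ (r ^ 2 + rt ^ 2) * s ^ 2) :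
    ((1 - m ^ 2) * u * r - (1 - mt ^ 2) * u * rt) ^ 2 ≤
      u ^ 2 * (8 * ((m - mt) ^ 2 * rt ^ 2) + 2 * (r ^ 2 * s ^ 2) + 2 * (rt ^ 2 * s ^ 2)) := by
  have e : (1 - m ^ 2) * u * r - (1 - mt ^ 2) * u * rt =
      u * ((1 - m ^ 2) * (r - rt) + (mt + m) * ((mt - m) * rt)) := by ring
  rw [e, mul_pow]
  refine mul_le_mul_of_nonneg_left ?_ (sq_nonneg u)
  have a1 := abs_le.1 hm
  have a2 := abs_le.1 hmt
  have h1 : (1 - m ^ 2) ^ 2 ≤ 1 := by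
    have : 0 ≤ 1 - m ^ 2 := by nlinarith
    nlinarith [sq_nonneg m]
  have h2 : (mt + m) ^ 2 ≤ 4 := by nlinarith
  have h3 := mul_le_mul_of_nonneg_right h1 (sq_nonneg (r - rt))
  have h4 := mul_le_mul_of_nonneg_right h2 (sq_nonneg ((mt - m) * rt))
  nlinarith [sq_nonneg ((1 - m ^ 2) * (r - rt) - (mt + m) * ((mt - m) * rt))]

lemma rate_a1 {m mt : ℝ} (h : -1 ≤ m ∧ m ≤ 1) (h' : -1 ≤ mt ∧ mt ≤ 1) : (m - mt) ^ 2 ≤ 4 := by
  nlinarith [h.1, h.2, h'.1, h'.2]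

lemma rate_a2 {m : ℝ} (h : -1 ≤ m ∧ m ≤ 1) : |1 - m ^ 2| ≤ 1 := by
  rw [abs_le]; constructor <;> nlinarith [sq_nonneg m, h.1, h.2]

lemma rate_a3 {m : ℝ} (h : -1 ≤ m ∧ m ≤ 1) (u r : ℝ) :
    ((1 - m ^ 2) * u * r) ^ 2 ≤ u ^ 2 * r ^ 2 := by
  have h1 : (1 - m ^ 2) ^ 2 ≤ 1 := by
    have : 0 ≤ 1 - m ^ 2 := by nlinarith [h.1, h.2]
    nlinarith [sq_nonneg m]
  nlinarith [mul_le_mul_of_nonneg_right h1 (sq_nonneg (u * r))]

lemma rate_num {CW CA κ k1 lG E K pG Y D W1 W2 I1 I2 P1 P2 T s3 s4 : ℝ} (hCW : 0 ≤ CW) (hCA : 1 ≤ CA)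
    (κ1 : 1 ≤ κ) (hlG : 1 ≤ lG) (E0 : 0 ≤ E) (K1 : 1 ≤ K) (pG0 : 0 ≤ pG) (Y0 : 0 < Y) (D0 : 0 ≤ D)
    (hW1 : W1 ≤ CW * ((k1 ^ 2 + (κ * lG) ^ 2 + E) * (CA * Y) + (CA * (κ * (3 * K))) ^ 2 * pG))
    (hW2 : W2 ≤ CW * ((k1 ^ 2 + (κ * (2 * lG)) ^ 2 + E) * (CA * Y) +
      (CA * (κ * (3 * K))) ^ 2 * (3 * K * pG)))
    (hI1 : I1 ≤ κ * lG * D + 4 * (κ * (3 * K)) * P1)
    (hI2 : I2 ≤ κ * (2 * lG) * D + 4 * (κ * (3 * K)) * P2) (t1 : P1 ≤ pG) (t2 : P2 ≤ 3 * K * pG)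
    (h3 : s3 ≤ I2) (h4 : s4 ≤ I1) (hT : T ≤ 8 * s3 + 2 * W1 + 2 * W2 + s4) :
    T ≤ (1 + 16 * (CW * CA * κ ^ 2) + 108 * (CW * CA ^ 2 * κ ^ 2) + 300 * κ) *
      ((k1 ^ 2 + lG ^ 2 + E) * Y + lG * D + K ^ 3 * pG) := by
  have κ0 : 0 < κ := by linarith
  have CA0 : 0 ≤ CA := by linarith
  have p1 : 0 ≤ CW * CA * κ ^ 2 := by positivity
  have p2 : 0 ≤ CW * CA ^ 2 * κ ^ 2 := by positivity
  obtain ⟨X, hX⟩ : ∃ X, X = k1 ^ 2 + lG ^ 2 + E := ⟨_, rfl⟩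
  have X0 : 0 ≤ X := by rw [hX]; positivity
  have κ2 : 1 ≤ κ ^ 2 := one_le_pow₀ κ1
  have a1 := mul_nonneg (sub_nonneg.2 κ2) (sq_nonneg k1)
  have a2 := mul_nonneg (sub_nonneg.2 κ2) E0
  have a3 := sq_nonneg (κ * lG)
  have a4 := sq_nonneg k1
  have x1 : k1 ^ 2 + (κ * lG) ^ 2 + E ≤ 4 * κ ^ 2 * X := by rw [hX]; linarith
  have x2 : k1 ^ 2 + (κ * (2 * lG)) ^ 2 + E ≤ 4 * κ ^ 2 * X := by rw [hX]; linarith
  have K2 : K ^ 2 ≤ K ^ 3 := pow_le_pow_right₀ K1 (by norm_num)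
  have K3 : K ≤ K ^ 3 := by simpa using pow_le_pow_right₀ K1 (by norm_num : 1 ≤ 3)
  have Z0 : 0 ≤ K ^ 3 * pG := by positivity
  have z2 : K ^ 2 * pG ≤ K ^ 3 * pG := mul_le_mul_of_nonneg_right K2 pG0
  have z1 : K * pG ≤ K ^ 3 * pG := mul_le_mul_of_nonneg_right K3 pG0
  have y1 : W1 ≤ 4 * (CW * CA * κ ^ 2) * (X * Y) + 27 * (CW * CA ^ 2 * κ ^ 2) * (K ^ 3 * pG) := by
    have h1 := mul_le_mul_of_nonneg_left x1 (by positivity : 0 ≤ CW * CA * Y)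
    have h2 := mul_le_mul_of_nonneg_left z2 p2
    have h3 := mul_nonneg p2 Z0
    linarith
  have y2 : W2 ≤ 4 * (CW * CA * κ ^ 2) * (X * Y) + 27 * (CW * CA ^ 2 * κ ^ 2) * (K ^ 3 * pG) := by
    have h1 := mul_le_mul_of_nonneg_left x2 (by positivity : 0 ≤ CW * CA * Y)
    linarith
  have y3 : 4 * (κ * (3 * K)) * P1 ≤ 12 * κ * (K ^ 3 * pG) := by
    have h1 := mul_le_mul_of_nonneg_left t1 (by positivity : 0 ≤ 4 * (κ * (3 * K)))
    have h2 := mul_le_mul_of_nonneg_left z1 κ0.le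
    linarith
  have y4 : 4 * (κ * (3 * K)) * P2 ≤ 36 * κ * (K ^ 3 * pG) := by
    have h1 := mul_le_mul_of_nonneg_left t2 (by positivity : 0 ≤ 4 * (κ * (3 * K)))
    have h2 := mul_le_mul_of_nonneg_left z2 κ0.le
    linarith
  have XY : 0 ≤ X * Y := by positivity
  have LD : 0 ≤ lG * D := by positivity
  have q1 := mul_nonneg p1 LD
  have q2 := mul_nonneg p1 Z0
  have q3 := mul_nonneg p2 LD
  have q4 := mul_nonneg p2 XY
  have q5 := mul_nonneg κ0.le LD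
  have q6 := mul_nonneg κ0.le XY
  rw [← hX]
  linarith


theorem rate (A : Act d P) (h : Hyp d θ) (R : ℝ) : ∃ C : ℝ, 1 ≤ C ∧
    ∀ (S : Sys A θ R) (K k1 : ℕ) (g lam lG pu pG : ℝ), 1 ≤ K → 0 ≤ g → 0 < lam → 1 ≤ lG → 0 < pu →
    (∀ w : V d, (((d : ℝ) - 1) * θ ^ 2) ^ len w * ∫ ω, S.r w ω ^ 2 ∂P ≤ exp (-g * len w)) →
    P.real {ω | lG < Gsum θ K fun w => S.r w ω} ≤ pG →
    (∀ c, P.real {ω | lam < |tanh (S.h c ω)|} ≤ pu) →
    ∃ ct mt : V d → Ω → ℝ, (∀ w, Measurable[S.G] (ct w)) ∧ (∀ w, Measurable[S.G] (mt w)) ∧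
      (∀ w ω, |ct w ω| ≤ 1) ∧ (∀ w ω, |mt w ω| ≤ 1) ∧
      ∑ w ∈ ball d K, ∫ ω, ((S.cv w ω - ct w ω) ^ 2 +
          S.cv w ω ^ 2 * (S.m (A.sh w ω) - mt w ω) ^ 2) ∂P ≤
        C * (((k1 : ℝ) ^ 2 + lG ^ 2 + (K : ℝ) ^ 4 * exp (-g * k1)) *
          (lam ^ 2 * S.D + pu * (1 + 1 / lam)) + lG * S.D + (K : ℝ) ^ 3 * pG) := by
  obtain ⟨CA, hCA, HA⟩ := rateA A h R
  obtain ⟨CW, hCW, HW⟩ := A.W4 h
  set κ := cosh R ^ 4 with hκ
  have κ1 : 1 ≤ κ := one_le_pow₀ (one_le_cosh R)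
  have κ0 : 0 < κ := by linarith
  have p1 : 0 ≤ CW * CA * κ ^ 2 := by positivity
  have p2 : 0 ≤ CW * CA ^ 2 * κ ^ 2 := by positivity
  refine ⟨1 + 16 * (CW * CA * κ ^ 2) + 108 * (CW * CA ^ 2 * κ ^ 2) + 300 * κ, by linarith,
    fun S K k1 g lam lG pu pG hK hg hlam hlG hpu hdec hG hu => ?_⟩
  obtain ⟨hla, hdv⟩ := HA S lam pu hlam hu
  have am : ∀ ω, -1 ≤ S.m ω ∧ S.m ω ≤ 1 := fun ω =>
    ⟨(neg_one_lt_tanh _).le, (tanh_lt_one _).le⟩
  obtain ⟨mt, mtm, mtb, mte⟩ := exists_condExp (P := P) S.hG S.m_BM.meas am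
  have mla : ∀ c, Measurable (S.la c) := fun c =>
    measurable_lph.comp (continuous_tanh'.measurable.comp (S.mh c))
  choose lt ltm ltb lti lte using fun c => S.exists_even (mla c) (hla c) (S.la_io c)
  have msh : ∀ x, Measurable (A.sh x) := fun x => (A.mp x).measurable
  have u1 := S.unit01 h
  have br : ∀ w, BM m0 (S.r w) := fun w => w3_BM_pprod A u1 _ _
  have r01 : ∀ w ω, 0 ≤ S.r w ω ∧ S.r w ω ≤ 1 := fun w ω => A.pprod_mem u1 _ _ ω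
  set Gs : Ω → ℝ := fun ω => Gsum θ K fun w => S.r w ω with hGs
  have bGs : BM m0 Gs := BM.sum _ fun w _ => (BM.const _).mul ((br w).pow 2)
  have Gb : ∀ ω, 0 ≤ Gs ω ∧ Gs ω ≤ 3 / 2 * (K + 1) := fun ω => Gsum_le h K fun w => r01 w ω
  have Gi : ∀ ω, Gs (A.io ω) = Gs ω := fun ω => by
    simp only [hGs, Sys.r, A.ext_io S.f_io]
  obtain ⟨gt, gtm, gtb, gti, gte⟩ := S.exists_even bGs.meas Gb Gi
  have gtm' : Measurable gt := gtm.mono S.hG le_rfl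
  have ltm' : ∀ c, Measurable (lt c) := fun c => (ltm c).mono S.hG le_rfl
  have K1 : (1 : ℝ) ≤ K := by exact_mod_cast hK
  have M0 : 3 / 2 * ((K : ℝ) + 1) ≤ 3 * K := by linarith
  have pG0 : 0 ≤ pG := measureReal_nonneg.trans hG
  have D0 : 0 ≤ S.D := dv_nonneg
  set ft : Fin d → Ω → ℝ := fun c ω => exp (lt c ω) with hft
  have u2 : Unit01 m0 ft := fun c => ⟨measurable_exp.comp (ltm' c), fun ω =>
    ⟨(exp_pos _).le, exp_le_one_iff.2 (ltb c ω).2⟩⟩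
  set a : Fin d → Ω → ℝ := fun c ω => S.la c ω - lt c ω with ha
  have ma : ∀ c, Measurable (a c) := fun c => (mla c).sub (ltm' c)
  have aa : ∀ c ω, |a c ω| ≤ CA := fun c ω => by
    have := hla c ω; have := ltb c ω
    simp only [ha]; rw [abs_le]; constructor <;> linarith
  have ba : ∀ c, BM m0 (a c) := fun c => ⟨ma c, CA, aa c⟩
  have bla : ∀ c, BM m0 (S.la c) := fun c => ⟨mla c, CA, fun ω => by
    have := hla c ω; rw [abs_le]; constructor <;> linarith⟩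
  have ai : ∀ c ω, a c (A.io ω) = a c ω := fun c ω => by simp only [ha, S.la_io, lti]
  have a0 : ∀ c, ∫ ω, a c ω ∂P = 0 := fun c => by
    have : ∫ ω, a c ω ∂P = ∫ ω, (S.la c ω - (P[S.la c|S.G]) ω) ∂P :=
      integral_congr_ae (by filter_upwards [lte c] with ω hω; simp only [ha, hω])
    rw [this, integral_sub (bla c).integrable integrable_condExp, integral_condExp S.hG, sub_self]
  set Y := lam ^ 2 * S.D + pu * (1 + 1 / lam) with hY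
  have Y0 : 0 < Y := by positivity
  have a2 : ∑ c, ∫ ω, a c ω ^ 2 ∂P ≤ CA * Y := by
    refine le_trans (le_of_eq (sum_congr rfl fun c _ => ?_)) hdv
    exact integral_congr_ae (by filter_upwards [lte c] with ω hω; simp only [ha, hω])
  have d1 := S.dom_f h K
  have d2 := S.dom_tilde h K lte gtm' (fun ω => (gtb ω).1) gti gte
  have t1 : P.real {ω | κ * lG < κ * Gs ω} ≤ pG := by
    simp only [mul_lt_mul_iff_right₀ κ0]; exact hG
  have t2 : P.real {ω | κ * (2 * lG) < κ * gt ω} ≤ 3 * K * pG := by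
    simp only [mul_lt_mul_iff_right₀ κ0]
    have h1 := tail_condExp (P := P) S.hG bGs.meas Gb (l := lG) (t := lG) (by linarith)
      (by linarith)
    have h2 : P.real {ω | 2 * lG < gt ω} = P.real {ω | lG + lG < (P[Gs|S.G]) ω} := by
      refine measureReal_congr ?_
      filter_upwards [gte] with ω hω
      change (2 * lG < gt ω) = (lG + lG < _)
      rw [hω, two_mul]
    rw [h2]
    refine h1.trans (mul_le_mul ?_ hG measureReal_nonneg (by positivity))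
    exact (div_le_self (by positivity) hlG).trans M0
  have g1 : ∀ ω, κ * Gs ω ≤ κ * (3 * K) := fun ω =>
    mul_le_mul_of_nonneg_left ((Gb ω).2.trans M0) κ0.le
  have g2 : ∀ ω, κ * gt ω ≤ κ * (3 * K) := fun ω =>
    mul_le_mul_of_nonneg_left ((gtb ω).2.trans M0) κ0.le
  set rt : V d → Ω → ℝ := fun w ω => pprod (A.ext ft ω) 1 w.1 with hrt
  have brt : ∀ w, BM m0 (rt w) := fun w => w3_BM_pprod A u2 _ _
  have hb : (0 : ℝ) ≤ (d : ℝ) - 1 := by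
    have : (3 : ℝ) ≤ d := by exact_mod_cast h.hd
    linarith
  have hdec' : ∀ w : V d, (((d : ℝ) - 1) * θ ^ 2) ^ len w * ∫ ω, rt w ω ^ 2 ∂P ≤
      exp (-g * len w) := fun w => by
    refine le_trans (mul_le_mul_of_nonneg_left ?_ (by positivity)) (hdec w)
    have h1 := integral_mono_ae ((brt w).pow 2).integrable integrable_condExp
      (S.tilde_sq h lte 1 w.1)
    rw [integral_condExp S.hG] at h1
    exact h1
  have W1 := HW S.f a (fun ω => κ * Gs ω) K k1 g (CA * Y) CA (κ * (3 * K)) (κ * lG) pG u1 ma aa ai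
    a0 a2 (by positivity) hK hg (by positivity) d1 g1 t1 hdec
  have W2 := HW ft a (fun ω => κ * gt ω) K k1 g (CA * Y) CA (κ * (3 * K)) (κ * (2 * lG))
    (3 * K * pG) u2 ma aa ai a0 a2 (by positivity) hK hg (by positivity) d2 g2 t2 hdec'
  have amt : ∀ ω, |mt ω| ≤ 1 := fun ω => abs_le.2 (mtb ω)
  have bmt : BM m0 mt := ⟨mtm.mono S.hG le_rfl, 1, amt⟩
  set δ : Ω → ℝ := fun ω => (S.m ω - mt ω) ^ 2 with hδ
  have bδ : BM m0 δ := (S.m_BM.sub bmt).pow 2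
  have δb : ∀ ω, 0 ≤ δ ω ∧ δ ω ≤ 4 := fun ω => ⟨sq_nonneg _, rate_a1 (am ω) (mtb ω)⟩
  have δD : ∫ ω, δ ω ∂P = S.D :=
    integral_congr_ae (by filter_upwards [mte] with ω hω; simp only [hδ, hω])
  have bgt : BM m0 gt := ⟨gtm', 3 / 2 * (K + 1), fun ω => by
    rw [abs_of_nonneg (gtb ω).1]; exact (gtb ω).2⟩
  have I1 := integral_mul_le (P := P) bδ ((BM.const κ).mul bGs) (l := κ * lG) (by positivity) δb
    fun ω => ⟨mul_nonneg κ0.le (Gb ω).1, g1 ω⟩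
  have I2 := integral_mul_le (P := P) bδ ((BM.const κ).mul bgt) (l := κ * (2 * lG))
    (by positivity) δb fun ω => ⟨mul_nonneg κ0.le (gtb ω).1, g2 ω⟩
  rw [δD] at I1 I2
  have θ1 : ∀ k : ℕ, |θ ^ k| ≤ 1 := fun k => by
    rw [abs_of_nonneg (pow_nonneg h.h0 k)]
    exact pow_le_one₀ h.h0 (h.le.trans (by norm_num))
  refine ⟨fun w ω => (1 - mt ω ^ 2) * θ ^ len w * rt w ω, fun w ω => mt (A.sh w ω),
    fun w => ?_, fun w => mtm.comp (S.shG w), fun w ω => ?_, fun w ω => amt _, ?_⟩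
  · exact ((measurable_const.sub (mtm.pow_const 2)).mul measurable_const).mul
      (A.measurable_pprod S.shG (fun c => measurable_exp.comp (ltm c)) _ _)
  · have h1 := A.pprod_mem u2 1 w.1 ω
    have h2 : |1 - mt ω ^ 2| ≤ 1 := rate_a2 (mtb ω)
    have h3 : |rt w ω| ≤ 1 := by rw [abs_of_nonneg h1.1]; exact h1.2
    rw [abs_mul, abs_mul]
    exact mul_le_one₀ (mul_le_one₀ h2 (abs_nonneg _) (θ1 _)) (abs_nonneg _) h3
  set ps : V d → Ω → ℝ := fun w ω => psum (A.ext a ω) 1 w.1 with hps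
  have bps : ∀ w, BM m0 (ps w) := fun w => w3_BM_psum A ba _ _
  set F : V d → Ω → ℝ := fun w ω => pprod (A.ext S.f ω) w⁻¹ w.1 ^ 2 * δ ω with hF
  have bF : ∀ w, BM m0 (F w) := fun w => ((w3_BM_pprod A u1 _ _).pow 2).mul bδ
  have s1 : ∀ w : V d, ∫ ω, ((S.cv w ω - (1 - mt ω ^ 2) * θ ^ len w * rt w ω) ^ 2 +
      S.cv w ω ^ 2 * (S.m (A.sh w ω) - mt (A.sh w ω)) ^ 2) ∂P ≤
      8 * ∫ ω, δ ω * (θ ^ (2 * len w) * rt w ω ^ 2) ∂P +
        2 * (θ ^ (2 * len w) * ∫ ω, S.r w ω ^ 2 * ps w ω ^ 2 ∂P) +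
        2 * (θ ^ (2 * len w) * ∫ ω, rt w ω ^ 2 * ps w ω ^ 2 ∂P) +
        ∫ ω, θ ^ (2 * len w) * F w ω ∂P := by
    intro w
    have bcv : BM m0 (S.cv w) := (((BM.const 1).sub (S.m_BM.pow 2)).mul (BM.const _)).mul (br w)
    have j1 := (BM.const 8).mul (bδ.mul ((BM.const (θ ^ (2 * len w))).mul ((brt w).pow 2)))
    have j2 := (BM.const 2).mul ((BM.const (θ ^ (2 * len w))).mul
      (((br w).pow 2).mul ((bps w).pow 2)))
    have j3 := (BM.const 2).mul ((BM.const (θ ^ (2 * len w))).mul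
      (((brt w).pow 2).mul ((bps w).pow 2)))
    have j4 := (BM.const (θ ^ (2 * len w))).mul (bF w)
    have j5 := w3_BM_sh A j4 w
    rw [← A.integral_sh w j4.meas]
    simp only [← integral_const_mul]
    rw [← integral_add j1.integrable j2.integrable,
      ← integral_add (j1.add j2).integrable j3.integrable,
      ← integral_add ((j1.add j2).add j3).integrable j5.integrable]
    refine integral_mono ?_ (((j1.add j2).add j3).add j5).integrable fun ω => ?_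
    · exact (((bcv.sub ((((BM.const 1).sub (bmt.pow 2)).mul (BM.const _)).mul (brt w))).pow 2).add
        ((bcv.pow 2).mul (((w3_BM_sh A S.m_BM w).sub (w3_BM_sh A bmt w)).pow 2))).integrable
    have e1 : S.r w ω = exp (psum (A.ext S.la ω) 1 w.1) := by
      rw [exp_psum]; simp only [Sys.r, Act.ext, Sys.la, exp_lph h]; rfl
    have e2 : rt w ω = exp (psum (A.ext lt ω) 1 w.1) := by rw [exp_psum]; rfl
    have e3 : ps w ω = psum (A.ext S.la ω) 1 w.1 - psum (A.ext lt ω) 1 w.1 :=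
      rate_psum_sub _ _ _ _
    have e4 : (S.r w ω - rt w ω) ^ 2 ≤ (S.r w ω ^ 2 + rt w ω ^ 2) * ps w ω ^ 2 := by
      rw [e1, e2, e3]; exact rate_exp _ _
    have e5 := rate_pt (u := θ ^ len w) (abs_le.2 (am ω)) (amt ω) e4
    have e6 : F w (A.sh w ω) = S.r w ω ^ 2 * (S.m (A.sh w ω) - mt (A.sh w ω)) ^ 2 := by
      simp only [hF, A.pprod_sh, mul_inv_cancel]; rfl
    have e7 : S.cv w ω ^ 2 ≤ (θ ^ len w) ^ 2 * S.r w ω ^ 2 := rate_a3 (am ω) _ _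
    have e8 := mul_le_mul_of_nonneg_right e7 (sq_nonneg (S.m (A.sh w ω) - mt (A.sh w ω)))
    have e9 : θ ^ (2 * len w) = (θ ^ len w) ^ 2 := by rw [← pow_mul, mul_comm]
    simp only [e6, e9, hδ]
    simp only [Sys.cv] at e8 ⊢
    linarith
  have s2 := sum_le_sum fun w (_ : w ∈ ball d K) => s1 w
  simp only [sum_add_distrib, ← mul_sum] at s2
  have s3 : ∑ w ∈ ball d K, ∫ ω, δ ω * (θ ^ (2 * len w) * rt w ω ^ 2) ∂P ≤
      ∫ ω, δ ω * (κ * gt ω) ∂P := by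
    have bw := fun w => bδ.mul ((BM.const (θ ^ (2 * len w))).mul ((brt w).pow 2))
    rw [← integral_finsetSum _ fun w _ => (bw w).integrable]
    refine integral_mono_ae (BM.sum _ fun w _ => bw w).integrable
      (bδ.mul ((BM.const κ).mul bgt)).integrable ?_
    filter_upwards [d2.fwd] with ω hω
    rw [← mul_sum]
    exact mul_le_mul_of_nonneg_left hω (δb ω).1
  have s4 : ∑ w ∈ ball d K, ∫ ω, θ ^ (2 * len w) * F w ω ∂P ≤ ∫ ω, δ ω * (κ * Gs ω) ∂P := by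
    have bw := fun w => (BM.const (θ ^ (2 * len w))).mul (bF w)
    rw [← integral_finsetSum _ fun w _ => (bw w).integrable]
    refine integral_mono_ae (BM.sum _ fun w _ => bw w).integrable
      (bδ.mul ((BM.const κ).mul bGs)).integrable ?_
    filter_upwards [d1.bwd] with ω hω
    have h1 : ∑ x ∈ ball d K, θ ^ (2 * len x) * pprod (A.ext S.f ω) x⁻¹ x.1 ^ 2 =
        Gsum θ K fun w => pprod (A.ext S.f ω) w w⁻¹.1 := by
      rw [Gsum, ← sum_ball_inv]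
      simp only [inv_inv, len_inv]
    simp only [hF, ← mul_assoc]
    rw [← sum_mul, h1, mul_comm, mul_assoc]
    exact mul_le_mul_of_nonneg_left hω (δb ω).1
  change ∑ w ∈ ball d K, θ ^ (2 * len w) * ∫ ω, S.r w ω ^ 2 * ps w ω ^ 2 ∂P ≤ _ at W1
  change ∑ w ∈ ball d K, θ ^ (2 * len w) * ∫ ω, rt w ω ^ 2 * ps w ω ^ 2 ∂P ≤ _ at W2
  exact rate_num hCW hCA κ1 hlG (by positivity) K1 pG0 Y0 D0 W1 W2 I1 I2 t1 t2 s3 s4 s2

end Vale.Agent.P161E
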