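import Vale.Agent.P161E.Fld
import Vale.Agent.P161E.Ising
import Vale.Agent.P161E.Nish

/-! Independent coordinates of `Om`, and the aligned site fields.
`co_indep`: `iIndep_iff`; a finite intersection of coordinate events is a rectangle
`A ×ˢ (B ×ˢ C)`; use `Measure.prod_prod`, `iIndep_eps`, `iIndepFun_infinitePi` and split the finset of
indices into its three parts (`Finset.toLeft`, `Finset.toRight`, `Finset.prod_sum_elim`, or induction with a
general lemma: independent families on `μ` and on `ν` give an independent family `Sum.elim` on `μ.prod ν`).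
`iIndep_group`: `iIndep_iff`, induction on the finset with `indep_iSup_of_disjoint`.
`xi`: `sg σ_v * artanh (dl i * obs) = xi` (`sg_sq`, `artanh_neg'`), so `af = mid` of the partial sums of `xi`
(`mid_sg`), and these converge to `af` everywhere (`tendsto_partial`).
`xi_nish`: condition on the time (`freeze` or Fubini; if the index is not in `idx` then `xi = 0`), use
`integral_qf` with `b = true`, the substitution `y ↦ -y`, and `exp (-2 artanh x) = (1-x)/(1+x)`.
`af_nish`: finite sums by `Nish.add` (a partial sum is measurable for the coordinates with `i ∈ s`), then `Nish.lim`.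
`af_qv`: `qv (xi (j-1)) = (1/2) dl² (1/3)` (`Real.tanh_artanh`, `integral_qf_sq`); `qv_add_ge_left` for the
partial sums, bounded convergence.  `af_succ`: for the partial sums, `af (J+1) 0 = af J 0 + xi (J+1) 0 v J`
(by `XI_eq_tsum` or limits), `af J 0 v` is independent of `xi .. J`; `qv_add_one` with `qv xi = 1/24`. -/

namespace Vale.Agent.P161E

open MeasureTheory ProbabilityTheory Filter Finset

variable {d : ℕ} {θ : ℝ} {j : ℤ} {cut : V d → ℝ}

/-- The sigma-algebras of the single coordinates: edge variables, times, noise. -/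
noncomputable abbrev co (d : ℕ) : V d ⊕ Ix d ⊕ Ix d → MeasurableSpace (Om d) :=
  Sum.elim (fun v => MeasurableSpace.comap (fun ω => eps ω.2.1 v) inferInstance)
    (Sum.elim (fun a => MeasurableSpace.comap (fun ω => ω.1 a) inferInstance)
      (fun a => MeasurableSpace.comap (fun ω => ω.2.2 a) inferInstance))

lemma co_le (i : V d ⊕ Ix d ⊕ Ix d) : co d i ≤ (inferInstance : MeasurableSpace (Om d)) := by
  rcases i with v | a | a
  · exact ((measurable_eps_apply v).comp measurable_snd.fst).comap_le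
  · exact ((measurable_pi_apply a).comp measurable_fst).comap_le
  · exact ((measurable_pi_apply a).comp measurable_snd.snd).comap_le

lemma iIndep_pull {Ω Ω' ι : Type} {m0 : MeasurableSpace Ω} {m0' : MeasurableSpace Ω'}
    {P : Measure Ω} {P' : Measure Ω'} {m : ι → MeasurableSpace Ω'} {Tm : Ω → Ω'}
    (hT : MeasurePreserving Tm P P') (hle : ∀ i, m i ≤ m0') (h : iIndep m P') :
    iIndep (fun i => (m i).comap Tm) P := by
  rw [iIndep_iff]
  intro s f hf
  choose! g hg hfg using hf
  have h1 : ⋂ i ∈ s, f i = Tm ⁻¹' ⋂ i ∈ s, g i := by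
    rw [Set.preimage_iInter₂]
    exact Set.iInter₂_congr fun i hi => (hfg i hi).symm
  rw [h1, hT.measure_preimage
    (s.measurableSet_biInter fun i hi => hle i _ (hg i hi)).nullMeasurableSet, h.meas_biInter hg]
  refine prod_congr rfl fun i hi => ?_
  rw [← hfg i hi, hT.measure_preimage (hle i _ (hg i hi)).nullMeasurableSet]

lemma iIndep_sum {Ω ι κ : Type} {m0 : MeasurableSpace Ω} {P : Measure Ω}
    {m : ι → MeasurableSpace Ω} {m' : κ → MeasurableSpace Ω} (h : iIndep m P) (h' : iIndep m' P)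
    {A B : MeasurableSpace Ω} (hAB : Indep A B P) (hA : ∀ i, m i ≤ A) (hB : ∀ k, m' k ≤ B) :
    iIndep (Sum.elim m m') P := by
  rw [iIndep_iff]
  intro s f hf
  have h1 : ⋂ i ∈ s, f i = (⋂ i ∈ s.toLeft, f (.inl i)) ∩ ⋂ k ∈ s.toRight, f (.inr k) := by
    ext ω
    simp only [Set.mem_iInter, Set.mem_inter_iff, mem_toLeft, mem_toRight, Sum.forall]
  have hl : ∀ i ∈ s.toLeft, MeasurableSet[m i] (f (.inl i)) := fun i hi => hf _ (mem_toLeft.1 hi)
  have hr : ∀ k ∈ s.toRight, MeasurableSet[m' k] (f (.inr k)) :=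
    fun i hi => hf _ (mem_toRight.1 hi)
  rw [h1, (Indep_iff _ _ _).1 hAB _ _
    (Finset.measurableSet_biInter (m := A) _ fun i hi => hA i _ (hl i hi))
    (Finset.measurableSet_biInter (m := B) _ fun i hi => hB i _ (hr i hi)),
    h.meas_biInter hl, h'.meas_biInter hr, prod_sum_eq_prod_toLeft_mul_prod_toRight]

lemma iIndep_prod {Ω Ω' ι κ : Type} {m0 : MeasurableSpace Ω} {m0' : MeasurableSpace Ω'}
    {P : Measure Ω} {P' : Measure Ω'} [IsProbabilityMeasure P] [IsProbabilityMeasure P']
    {m : ι → MeasurableSpace Ω} {m' : κ → MeasurableSpace Ω'} (hle : ∀ i, m i ≤ m0)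
    (hle' : ∀ k, m' k ≤ m0') (h : iIndep m P) (h' : iIndep m' P') :
    iIndep (Sum.elim (fun i => (m i).comap Prod.fst) fun k => (m' k).comap Prod.snd)
      (P.prod P') :=
  iIndep_sum (iIndep_pull measurePreserving_fst hle h) (iIndep_pull measurePreserving_snd hle' h')
    ((IndepFun_iff_Indep _ _ _).1 (indepFun_prod measurable_id measurable_id))
    (fun i => MeasurableSpace.comap_mono (hle i)) fun k => MeasurableSpace.comap_mono (hle' k)

lemma iid_indep (ι : Type) : iIndepFun (fun (i : ι) (τ : ι → unitInterval) => τ i) (iid ι) :=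
  iIndepFun_infinitePi (P := fun _ : ι => (volume : Measure unitInterval))
    (X := fun _ x => x) fun _ => measurable_id

theorem co_indep : iIndep (co d) (PP d θ) := by
  have h1 := iIndep_prod (fun v => (measurable_eps_apply v).comap_le)
    (fun a => (measurable_pi_apply a).comap_le) (iIndep_eps (d := d) (θ := θ)).iIndep
    (iid_indep (Ix d)).iIndep
  have h2 := iIndep_prod (fun a => (measurable_pi_apply a).comap_le) (by
      rintro (v | a)
      · exact (MeasurableSpace.comap_mono (measurable_eps_apply v).comap_le).trans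
          measurable_fst.comap_le
      · exact (MeasurableSpace.comap_mono (measurable_pi_apply a).comap_le).trans
          measurable_snd.comap_le) (iid_indep (Ix d)).iIndep h1
  have h3 := h2.precomp (g := (Sum.elim (fun v => .inr (.inl v))
    (Sum.elim .inl fun a => .inr (.inr a)) : V d ⊕ Ix d ⊕ Ix d → Ix d ⊕ V d ⊕ Ix d)) (by
      rintro (v | a | a) (v' | a' | a') h <;> simp_all)
  refine iIndep_of_iIndep_of_le h3 ?_
  rintro (v | a | a) <;>
    simp only [Function.comp, Sum.elim_inl, Sum.elim_inr, MeasurableSpace.comap_comp] <;>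
    exact le_rfl

lemma iIndep_group {Ω ι κ : Type} {m0 : MeasurableSpace Ω} {P : Measure Ω} {m : ι → MeasurableSpace Ω}
    (hle : ∀ i, m i ≤ m0) (h : iIndep m P) {S : κ → Set ι}
    (hS : Pairwise fun k k' => Disjoint (S k) (S k')) : iIndep (fun k => ⨆ i ∈ S k, m i) P := by
  classical
  have := h.isProbabilityMeasure
  rw [iIndep_iff]
  intro s f hf
  induction s using Finset.induction_on with
  | empty => simp
  | insert k s hk ih =>
    have hd : Disjoint (S k) (⋃ k' ∈ s, S k') := by
      simp only [Set.disjoint_iUnion_right]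
      exact fun k' hk' => hS fun e => hk (e ▸ hk')
    rw [set_biInter_insert, prod_insert hk, ← ih fun i hi => hf i (mem_insert_of_mem hi)]
    refine (Indep_iff _ _ _).1 (indep_iSup_of_disjoint hle h hd) _ _ (hf k (mem_insert_self _ _))
      (Finset.measurableSet_biInter (m := ⨆ i ∈ ⋃ k' ∈ s, S k', m i) _ fun k' hk' => ?_)
    exact (biSup_mono (f := m) fun i hi => Set.mem_biUnion (mem_coe.2 hk') hi) _
      (hf k' (mem_insert_of_mem hk'))

open Classical in
/-- The aligned contribution of one observation. -/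
noncomputable def xi (j : ℤ) (cut : V d → ℝ) (v : V d) (i : ℤ) (ω : Om d) : ℝ :=
  if (v, i) ∈ idx j cut ω.1 then Real.artanh (dl i * qf (dl i) (ω.2.2 (v, i))) else 0

/-- The aligned field at a site. -/
noncomputable def af (j : ℤ) (cut : V d → ℝ) (v : V d) (ω : Om d) : ℝ :=
  sg (ω.2.1 v) * Xc j cut ω v

lemma sg_obs (v : V d) (i : ℤ) (ω : Om d) :
    sg (ω.2.1 v) * Real.artanh (dl i * obs (idx j cut ω.1) ω.2 (v, i)) = xi j cut v i ω := by
  unfold obs xi YY
  split_ifs with h
  · dsimp only
    cases ω.2.1 v <;> simp [sg, artanh_neg']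
  · simp

lemma af_eq (v : V d) (ω : Om d) :
    af j cut v ω = mid fun n => ∑ i ∈ Icc (-(n : ℤ)) n, xi j cut v i ω := by
  simp only [← sg_obs, ← mul_sum, mid_sg]
  rfl

lemma tendsto_af (v : V d) (ω : Om d) :
    Tendsto (fun n : ℕ => ∑ i ∈ Icc (-(n : ℤ)) n, xi j cut v i ω) atTop (nhds (af j cut v ω)) := by
  simp only [← sg_obs, ← mul_sum]
  exact (tendsto_partial (upto_idx cut ω.1) ω.2 v).const_mul _

/-- Times at which an observation is used. -/
def tset (j : ℤ) (c : ℝ) (i : ℤ) : Set unitInterval :=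
  {t | (i < j ∧ (t : ℝ) < 1 / 2) ∨ (i = j ∧ (t : ℝ) < c)}

lemma measurableSet_tset (j : ℤ) (c : ℝ) (i : ℤ) : MeasurableSet (tset j c i) :=
  ((MeasurableSet.const _).inter (measurableSet_lt measurable_subtype_coe measurable_const)).union
    ((MeasurableSet.const _).inter (measurableSet_lt measurable_subtype_coe measurable_const))

open Classical in
/-- The contribution of one observation as a function of its time and noise. -/
noncomputable def xiF (j : ℤ) (c : ℝ) (i : ℤ) (p : unitInterval × unitInterval) : ℝ :=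
  if p.1 ∈ tset j c i then Real.artanh (dl i * qf (dl i) p.2) else 0

lemma xi_eq (v : V d) (i : ℤ) (ω : Om d) :
    xi j cut v i ω = xiF j (cut v) i (ω.1 (v, i), ω.2.2 (v, i)) := rfl

lemma abs_dl_half (i : ℤ) : |dl i| ≤ 1 / 2 := by
  rw [abs_of_pos (dl_pos i)]; exact dl_le i

lemma abs_dl_qf (i : ℤ) (u : unitInterval) : |dl i * qf (dl i) u| ≤ dl i := by
  rw [abs_mul, abs_of_pos (dl_pos i)]
  exact mul_le_of_le_one_right (dl_pos i).le (abs_qf_le (abs_dl_half i) u.2)

lemma abs_xiF_le (j : ℤ) (c : ℝ) (i : ℤ) (p : unitInterval × unitInterval) :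
    |xiF j c i p| ≤ if i ≤ j then 2 * dl i else 0 := by
  unfold xiF
  by_cases h : p.1 ∈ tset j c i
  · have hij : i ≤ j := h.elim (fun h => h.1.le) fun h => h.1.le
    rw [if_pos h, if_pos hij]
    have h1 := abs_dl_qf i p.2
    have h2 := abs_artanh_le (h1.trans (dl_le i))
    linarith
  · rw [if_neg h, abs_zero]
    split_ifs
    · linarith [dl_pos i]
    · exact le_rfl

lemma bm_xiF (j : ℤ) (c : ℝ) (i : ℤ) : BM inferInstance (xiF j c i) :=
  ⟨Measurable.ite (measurable_fst (measurableSet_tset j c i))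
    (measurable_artanh.comp ((measurable_qf.comp (measurable_const.prodMk
      (measurable_subtype_coe.comp measurable_snd))).const_mul _)) measurable_const,
    _, abs_xiF_le j c i⟩

lemma xi_meas (v : V d) (i : ℤ) :
    Measurable[co d (.inr (.inl (v, i))) ⊔ co d (.inr (.inr (v, i)))] (xi j cut v i) := by
  have h1 : Measurable[co d (.inr (.inl (v, i))) ⊔ co d (.inr (.inr (v, i)))]
      fun ω : Om d => ω.1 (v, i) := (comap_measurable _).mono le_sup_left le_rfl
  have h2 : Measurable[co d (.inr (.inl (v, i))) ⊔ co d (.inr (.inr (v, i)))]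
      fun ω : Om d => ω.2.2 (v, i) := (comap_measurable _).mono le_sup_right le_rfl
  exact (bm_xiF j (cut v) i).meas.comp (h1.prodMk h2)

lemma abs_xi_le (v : V d) (i : ℤ) (ω : Om d) :
    |xi j cut v i ω| ≤ if i ≤ j then 2 * dl i else 0 :=
  abs_xiF_le j (cut v) i (ω.1 (v, i), ω.2.2 (v, i))

lemma bm_xi (v : V d) (i : ℤ) : BM inferInstance (xi j cut v i) :=
  ⟨(xi_meas v i).mono (sup_le (co_le _) (co_le _)) le_rfl, _, abs_xi_le v i⟩

open Classical in
lemma integral_xi (v : V d) (i : ℤ) {F : ℝ → ℝ} (hF : Continuous F) :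
    ∫ ω, F (xi j cut v i ω) ∂PP d θ = ∫ t : unitInterval, if t ∈ tset j (cut v) i then
      ∫ u : unitInterval, F (Real.artanh (dl i * qf (dl i) u)) else F 0 := by
  have he := measurePreserving_eval_infinitePi
    (fun _ : Ix d => (volume : Measure unitInterval)) (v, i)
  have hm : MeasurePreserving (fun ω : Om d => (ω.1 (v, i), ω.2.2 (v, i))) (PP d θ)
      ((volume : Measure unitInterval).prod volume) :=
    he.prod (he.comp (measurePreserving_snd (μ := ising d θ) (ν := iid (Ix d))))
  have hb := (bm_xiF j (cut v) i).cont hF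
  have h1 := integral_map (μ := PP d θ) hm.measurable.aemeasurable hb.meas.aestronglyMeasurable
  rw [hm.map_eq] at h1
  simp only [xi_eq]
  rw [← h1, integral_prod _ hb.integrable]
  refine integral_congr_ae (ae_of_all _ fun t => ?_)
  by_cases h : t ∈ tset j (cut v) i <;> simp [xiF, h]

lemma xi_nish (v : V d) (i : ℤ) : Nish (PP d θ) (xi j cut v i) := by
  intro χ hχ
  rw [integral_xi v i (F := fun x => χ (-x)) (by fun_prop),
    integral_xi v i (F := fun x => χ x * Real.exp (-2 * x)) (by fun_prop)]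
  refine integral_congr_ae (ae_of_all _ fun t => ?_)
  dsimp only
  split_ifs
  · have hm : Measurable fun y : ℝ => Real.artanh (dl i * y) :=
      measurable_artanh.comp (measurable_id.const_mul _)
    have h1 := integral_qf (abs_dl_half i) (φ := fun y => χ (Real.artanh (dl i * y)))
      (hχ.measurable.comp hm) false
    have h2 := integral_qf (abs_dl_half i) (φ := fun y => χ (Real.artanh (dl i * y)) *
      Real.exp (-2 * Real.artanh (dl i * y)))
      ((hχ.measurable.comp hm).mul (hm.const_mul _).exp) true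
    simp only [sg, if_true, one_mul, mul_one, Bool.false_eq_true, if_false, neg_mul, mul_neg,
      artanh_neg'] at h1 h2 ⊢
    rw [h1, h2]
    refine setIntegral_congr_fun measurableSet_Icc fun y hy => ?_
    have hx : |dl i * y| < 1 := by
      rw [abs_mul]
      nlinarith [abs_dl_half i, abs_le.2 hy, abs_nonneg (dl i), abs_nonneg y]
    have e1 := exp_artanh_sg hx true
    have e2 := exp_artanh_sg hx false
    simp only [sg, if_true, mul_one, Bool.false_eq_true, if_false, mul_neg] at e1 e2
    have e3 : Real.exp (-(2 * Real.artanh (dl i * y))) * Real.exp (Real.artanh (dl i * y)) =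
        Real.exp (-Real.artanh (dl i * y)) := by
      rw [← Real.exp_add]; ring_nf
    rw [← e1, ← e2, ← e3]
    ring
  · simp

/-- The coordinates of the observations at `v` with sweep in `s`. -/
def crd (v : V d) (s : Set ℤ) : Set (V d ⊕ Ix d ⊕ Ix d) :=
  {x | ∃ i ∈ s, x = .inr (.inl (v, i)) ∨ x = .inr (.inr (v, i))}

lemma xi_meas' (v : V d) {s : Set ℤ} {i : ℤ} (hi : i ∈ s) :
    Measurable[⨆ x ∈ crd v s, co d x] (xi j cut v i) :=
  (xi_meas v i).mono (sup_le
    (le_iSup₂_of_le (f := fun x (_ : x ∈ crd v s) => co d x) _ ⟨i, hi, Or.inl rfl⟩ le_rfl)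
    (le_iSup₂_of_le (f := fun x (_ : x ∈ crd v s) => co d x) _ ⟨i, hi, Or.inr rfl⟩ le_rfl)) le_rfl

lemma indep_crd (v : V d) {s s' : Set ℤ} (h : Disjoint s s') {f g : Om d → ℝ}
    (hf : Measurable[⨆ x ∈ crd v s, co d x] f) (hg : Measurable[⨆ x ∈ crd v s', co d x] g) :
    IndepFun f g (PP d θ) := by
  have hd : Disjoint (crd v s) (crd v s') := by
    rw [Set.disjoint_left] at h ⊢
    rintro x ⟨i, hi, h1 | h1⟩ ⟨i', hi', h2 | h2⟩ <;> rw [h1] at h2 <;> simp at h2 <;>
      exact h hi (h2 ▸ hi')
  rw [IndepFun_iff_Indep]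
  exact indep_of_indep_of_le_right (indep_of_indep_of_le_left
    (indep_iSup_of_disjoint co_le co_indep hd) hf.comap_le) hg.comap_le

lemma sum_meas (v : V d) {s : Set ℤ} {A : Finset ℤ} (h : ∀ i ∈ A, i ∈ s) :
    Measurable[⨆ x ∈ crd v s, co d x] fun ω => ∑ i ∈ A, xi j cut v i ω :=
  Finset.measurable_sum (m := ⨆ x ∈ crd v s, co d x) _ fun i hi => xi_meas' v (h i hi)

lemma sum_nish (v : V d) (A : Finset ℤ) :
    Nish (PP d θ) fun ω => ∑ i ∈ A, xi j cut v i ω := by
  induction A using Finset.induction_on with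
  | empty => simpa using Nish.zero
  | insert k A hk ih =>
    simp only [sum_insert hk]
    exact (xi_nish v k).add ih (bm_xi v k) (BM.sum _ fun i _ => bm_xi v i)
      (indep_crd v (s := {k}) (s' := A) (Set.disjoint_singleton_left.2 hk) (xi_meas' v rfl)
        (sum_meas v fun i hi => hi))

lemma abs_sum_xi (v : V d) (A : Finset ℤ) (ω : Om d) : |∑ i ∈ A, xi j cut v i ω| ≤ BB j := by
  refine (abs_sum_le_sum_abs _ _).trans ((sum_le_sum fun i _ => abs_xi_le v i ω).trans ?_)
  rw [← sum_filter]
  exact sum_dl_le j _ fun i hi => (mem_filter.1 hi).2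

lemma tendsto_rest (v : V d) (k : ℤ) (ω : Om d) :
    Tendsto (fun n : ℕ => ∑ i ∈ (Icc (-(n : ℤ)) n).erase k, xi j cut v i ω) atTop
      (nhds (af j cut v ω - xi j cut v k ω)) := by
  refine ((tendsto_af v ω).sub_const _).congr' ?_
  filter_upwards [eventually_ge_atTop k.natAbs] with n hn
  rw [sum_erase_eq_sub (mem_Icc.2 ⟨by omega, by omega⟩)]

lemma rest_nish (v : V d) (k : ℤ) :
    Nish (PP d θ) fun ω => af j cut v ω - xi j cut v k ω :=
  Nish.lim (fun _ => sum_nish v _) (fun _ => (BM.sum _ fun i _ => bm_xi v i).meas)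
    (fun _ ω => abs_sum_xi v _ ω) (tendsto_rest v k)

lemma rest_meas (v : V d) (k : ℤ) :
    Measurable[⨆ x ∈ crd v {k}ᶜ, co d x] fun ω => af j cut v ω - xi j cut v k ω :=
  @measurable_of_tendsto_metrizable _ _ (⨆ x ∈ crd v {k}ᶜ, co d x) _ _ _ _ _ _
    (fun _ => sum_meas v fun _ hi => (mem_erase.1 hi).1) (tendsto_pi_nhds.2 (tendsto_rest v k))

lemma af_meas (v : V d) : Measurable[⨆ x ∈ crd v Set.univ, co d x] (af j cut v) :=
  @measurable_of_tendsto_metrizable _ _ (⨆ x ∈ crd v Set.univ, co d x) _ _ _ _ _ _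
    (fun _ => sum_meas v fun _ _ => Set.mem_univ _) (tendsto_pi_nhds.2 (tendsto_af v))

lemma bm_af (v : V d) : BM inferInstance (af j cut v) :=
  ⟨(af_meas v).mono (iSup₂_le fun x _ => co_le x) le_rfl, BB j, fun ω =>
    le_of_tendsto' (tendsto_af v ω).abs fun _ => abs_sum_xi v _ ω⟩

lemma qv_xi (v : V d) : qv (PP d θ) (xi j cut v (j - 1)) = dl (j - 1) ^ 2 / 6 := by
  classical
  rw [qv, integral_xi v (j - 1) (F := fun x => Real.tanh x ^ 2) (continuous_tanh'.pow 2)]
  have h1 : ∫ u : unitInterval, Real.tanh (Real.artanh (dl (j - 1) * qf (dl (j - 1)) u)) ^ 2 =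
      dl (j - 1) ^ 2 / 3 := by
    have : ∀ u : unitInterval, Real.tanh (Real.artanh (dl (j - 1) * qf (dl (j - 1)) u)) ^ 2 =
        dl (j - 1) ^ 2 * qf (dl (j - 1)) u ^ 2 := fun u => by
      have := abs_le.1 ((abs_dl_qf (j - 1) u).trans (dl_le _))
      rw [Real.tanh_artanh ⟨by linarith [this.1], by linarith [this.2]⟩, mul_pow]
    simp only [this]
    rw [integral_const_mul, integral_qf_sq (abs_dl_half _)]
    ring
  have h2 : tset j (cut v) (j - 1) = Set.Iio ⟨1 / 2, by norm_num, by norm_num⟩ := by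
    ext t
    simp only [tset, Set.mem_ofPred_eq, Set.mem_Iio, ← Subtype.coe_lt_coe]
    constructor
    · rintro (h | h)
      · exact h.2
      · exact absurd h.1 (by omega)
    · exact fun h => Or.inl ⟨by omega, h⟩
  have h3 := integral_indicator_const (μ := (volume : Measure unitInterval))
    (dl (j - 1) ^ 2 / 3) (measurableSet_tset j (cut v) (j - 1))
  simp only [h1, Real.tanh_zero, ne_eq, OfNat.ofNat_ne_zero, not_false_eq_true, zero_pow]
  refine Eq.trans (integral_congr_ae (ae_of_all _ fun t => ?_)) (h3.trans ?_)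
  · simp only [Set.indicator]
  · rw [h2, measureReal_def, unitInterval.volume_Iio, ENNReal.toReal_ofReal (by norm_num),
      smul_eq_mul]
    ring

lemma af_nish (v : V d) : Nish (PP d θ) (af j cut v) := by
  exact Nish.lim (fun _ => sum_nish v _) (fun _ => (BM.sum _ fun i _ => bm_xi v i).meas)
    (fun _ ω => abs_sum_xi v _ ω) (tendsto_af v)

lemma af_qv (v : V d) : dl (j - 1) ^ 2 / 6 ≤ qv (PP d θ) (af j cut v) := by
  have h := qv_add_ge_left (P := PP d θ) (xi_nish (j := j) (cut := cut) v (j - 1))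
    (rest_nish (j := j) (cut := cut) v (j - 1)) (bm_xi v _) ((bm_af v).sub (bm_xi v _))
    (indep_crd v (s := {j - 1}) disjoint_compl_right (xi_meas' v rfl) (rest_meas v (j - 1)))
  simp only [add_sub_cancel, qv_xi] at h
  exact h

lemma af_succ {J : ℤ} (hJ : 0 ≤ J) (v : V d) :
    1 - qv (PP d θ) (af (J + 1) (fun _ => 0) v) ≤ (1 - qv (PP d θ) (af J (fun _ => 0) v)) -
      1 / 24 * (1 - qv (PP d θ) (af J (fun _ => 0) v)) ^ 2 := by
  have h0 : ∀ ω : Om d, xi J (fun _ => 0) v J ω = 0 := fun ω => by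
    refine if_neg ?_
    rintro (h | h)
    · exact lt_irrefl _ h.1
    · exact absurd h.2 (not_lt.2 (ω.1 _).2.1)
  have h1 : ∀ i, i ≠ J → ∀ ω : Om d,
      xi (J + 1) (fun _ => 0) v i ω = xi J (fun _ => 0) v i ω := fun i hi ω => by
    classical
    unfold xi
    refine if_congr ⟨?_, ?_⟩ rfl rfl
    · rintro (h | h)
      · exact Or.inl ⟨by have := h.1; dsimp only at this ⊢; omega, h.2⟩
      · exact absurd h.2 (not_lt.2 (ω.1 _).2.1)
    · rintro (h | h)
      · exact Or.inl ⟨by have := h.1; dsimp only at this ⊢; omega, h.2⟩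
      · exact absurd h.2 (not_lt.2 (ω.1 _).2.1)
  have h2 : (fun ω => af (J + 1) (fun _ => 0) v ω - xi (J + 1) (fun _ => 0) v J ω) =
      af J (fun _ => 0) v := by
    funext ω
    refine tendsto_nhds_unique (tendsto_rest v J ω) ((tendsto_af v ω).congr fun n => ?_)
    rw [← sum_erase (f := fun i => xi J (fun _ => 0) v i ω) _ (h0 ω)]
    exact sum_congr rfl fun i hi => (h1 i (mem_erase.1 hi).1 ω).symm
  have h3 := qv_xi (θ := θ) (j := J + 1) (cut := fun _ => 0) v
  rw [add_sub_cancel_right, dl_of_nonneg hJ] at h3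
  have h := qv_add_one (P := PP d θ) (rest_nish (j := J + 1) (cut := fun _ => 0) v J)
    (xi_nish (j := J + 1) (cut := fun _ => 0) v J) ((bm_af v).sub (bm_xi v _)) (bm_xi v _)
    (indep_crd v (s' := {J}) disjoint_compl_left (rest_meas v J) (xi_meas' v rfl))
  simp only [sub_add_cancel] at h
  rw [h2, h3] at h
  norm_num at h ⊢
  linarith

lemma af_tendsto (v : V d) :
    Tendsto (fun J : ℕ => qv (PP d θ) (af J (fun _ => 0) v)) atTop (nhds 1) := by
  set a : ℕ → ℝ := fun J => 1 - qv (PP d θ) (af J (fun _ => 0) v) with ha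
  have h0 : ∀ J, 0 ≤ a J := fun J => sub_nonneg.2 (qv_mem (bm_af v).meas).2
  have h1 : ∀ J, a (J + 1) ≤ a J - 1 / 24 * a J ^ 2 := fun J => by
    have := af_succ (θ := θ) (J := J) (Int.natCast_nonneg J) v
    simpa only [ha, Nat.cast_add, Nat.cast_one] using this
  have h2 : Antitone a := antitone_nat_of_succ_le fun J => by
    nlinarith [h1 J, sq_nonneg (a J)]
  have h3 := tendsto_atTop_ciInf h2 ⟨0, by rintro _ ⟨J, rfl⟩; exact h0 J⟩
  have h4 := le_of_tendsto_of_tendsto' (h3.comp (tendsto_add_atTop_nat 1))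
    (h3.sub ((h3.pow 2).const_mul (1 / 24))) h1
  have h5 : ⨅ J, a J = 0 := by nlinarith [sq_nonneg (⨅ J, a J)]
  rw [h5] at h3
  have h6 := h3.const_sub 1
  simpa only [ha, sub_sub_cancel, sub_zero] using h6

theorem site_indep :
    iIndepFun (Sum.elim (fun v (ω : Om d) => sg (eps ω.2.1 v)) (af j cut)) (PP d θ) := by
  have h := iIndep_group co_le (co_indep (d := d) (θ := θ))
    (S := (Sum.elim (fun v => {.inl v}) fun v => crd v Set.univ : V d ⊕ V d → _)) (by
      rintro (v | v) (w | w) hne <;> simp only [Sum.elim_inl, Sum.elim_inr]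
      · exact Set.disjoint_singleton.2 fun e => hne (by rw [Sum.inl.inj e])
      · rw [Set.disjoint_singleton_left]
        rintro ⟨i, -, h | h⟩ <;> cases h
      · rw [Set.disjoint_singleton_right]
        rintro ⟨i, -, h | h⟩ <;> cases h
      · rw [Set.disjoint_left]
        rintro x ⟨i, -, h1 | h1⟩ ⟨i', -, h2 | h2⟩ <;> rw [h1] at h2 <;> simp at h2 <;>
          exact hne (by rw [h2.1]))
  rw [iIndepFun_iff_iIndep]
  refine iIndep_of_iIndep_of_le h ?_
  rintro (v | v)
  · have h1 : Measurable[co d (.inl v)] fun ω : Om d => sg (eps ω.2.1 v) :=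
      (measurable_of_countable sg).comp (comap_measurable fun ω : Om d => eps ω.2.1 v)
    simp only [Sum.elim_inl, _root_.iSup_singleton]
    exact h1.comap_le
  · simp only [Sum.elim_inr]
    exact (af_meas v).comap_le

end Vale.Agent.P161E
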