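import Vale.Agent.P161E.Cut

/-! One time slot `[a, a')` of sweep `j`.  Write `δ = dl j`, `B = ball d K`, `I = idx j a τ`, `I' = idx j a' τ`,
`M = mag (X at a) 1`, `M' = mag (X at a') 1`.
`slot_fixed` (fixed `τ`): let `N = {w ∈ B | slot w τ = 1}`.  If `N = ∅` then `idx j (cutK K a a') τ = I` and
`prox = Z`: use `pyth`.  If `N = {w}` then `idx j (cutK K a a') τ = insert (w, j) I`, and
`UU θ (τ, η) (w, j) = cdf (δ mag (XI Iw η) w) (YY (w, j) η)` with `Iw = idx j (τ (w, j)) τ` (`cdf_mem`,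
`Set.projIcc_of_mem`): use `slot_one`; further `|x| ≤ ε + x² / ε`, `qq_sub`, `qq_mono` for
`I ⊆ Iw ⊆ idx j (update (fun _ => a') w a) τ`.  If `N` has two elements, the left side is at most
`(2 + card B)²` (`abs_psi_le`, `δ ≤ 1/2`) and the last sum is at least `1`.  All terms on the right are `≥ 0` (`qq_mono`).
`prox_meas`: `slot * F (UU)` is a function of `Th θ j a' ω (w, j)`, which is `(τ, UU)` if `τ (w, j) < a'` and
`(1, 0)` otherwise; `GG_mono`.
`slot_ineq`: take for `Z` a bounded version of `P[M | GG j a]` (`exists_condExp`), `dv_le` with `prox`, Fubini,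
`slot_fixed` (`GG_section`), `QQ_eq`, `ltau` (`idx_update`, `GG_update`) for the error terms, `slot_two`,
`QQ_sub`, `QQ_mono`, `QQ_aut`, `far_le`. -/

namespace Vale.Agent.P161E

open MeasureTheory Filter Finset Function Real

variable {d : ℕ} {θ : ℝ} {j : ℤ} {a a' : ℝ}

/-- The proxy for the magnetization at the end of the slot. -/
noncomputable def prox (θ : ℝ) (j : ℤ) (a a' : ℝ) (K : ℕ) (Z : Om d → ℝ) (ct mt : V d → Om d → ℝ)
    (ω : Om d) : ℝ :=
  Z ω + ∑ w ∈ ball d K,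
    slot j a a' w ω.1 * (ct w ω * dl j * psi (dl j * mt w ω) (UU θ ω (w, j)))

/-- The error of the proxies for the covariance and the magnetization. -/
noncomputable def perr (θ : ℝ) (j : ℤ) (a : ℝ) (ct mt : V d → Om d → ℝ) (w : V d) (ω : Om d) : ℝ :=
  (cov θ (Xc j (fun _ => a) ω) 1 w - ct w ω) ^ 2 +
    cov θ (Xc j (fun _ => a) ω) 1 w ^ 2 * (mag θ (Xc j (fun _ => a) ω) w - mt w ω) ^ 2

lemma slot_eq_one {w : V d} {τ : T d} (h : a ≤ (τ (w, j) : ℝ) ∧ (τ (w, j) : ℝ) < a') :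
    slot j a a' w τ = 1 := by simp only [slot, if_pos h]

lemma slot_eq_zero {w : V d} {τ : T d} (h : ¬ (a ≤ (τ (w, j) : ℝ) ∧ (τ (w, j) : ℝ) < a')) :
    slot j a a' w τ = 0 := by simp only [slot, if_neg h]

lemma slot_mem (w : V d) (τ : T d) : 0 ≤ slot j a a' w τ ∧ slot j a a' w τ ≤ 1 := by
  unfold slot; split_ifs <;> norm_num

lemma abs_dl_mul {x : ℝ} (hx : |x| ≤ 1) : |dl j * x| ≤ 1 / 2 := by
  rw [abs_mul, abs_of_pos (dl_pos j)]
  have := dl_le j
  have := dl_pos j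
  nlinarith [abs_nonneg x]

lemma perr_nonneg (ct mt : V d → Om d → ℝ) (w : V d) (ω : Om d) : 0 ≤ perr θ j a ct mt w ω := by
  unfold perr; positivity

lemma abs_prox_le (K : ℕ) {Z : Om d → ℝ} {ct mt : V d → Om d → ℝ} (bZ : ∀ ω, |Z ω| ≤ 1)
    (bct : ∀ w ω, |ct w ω| ≤ 1) (bmt : ∀ w ω, |mt w ω| ≤ 1) (ω : Om d) :
    |prox θ j a a' K Z ct mt ω| ≤ 1 + (ball d K).card := by
  unfold prox
  refine (abs_add_le _ _).trans (add_le_add (bZ ω) ((abs_sum_le_sum_abs _ _).trans ?_))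
  have : ∀ w ∈ ball d K,
      |slot j a a' w ω.1 * (ct w ω * dl j * psi (dl j * mt w ω) (UU θ ω (w, j)))| ≤ 1 := by
    intro w _
    have h1 := slot_mem (j := j) (a := a) (a' := a') w ω.1
    have h2 := abs_psi_le (abs_dl_mul (j := j) (bmt w ω)) (UU θ ω (w, j)).2
    have h3 := abs_dl_mul (j := j) (bct w ω)
    rw [abs_mul, abs_mul, abs_of_nonneg h1.1, mul_comm (ct w ω)]
    have h4 : |dl j * ct w ω| * |psi (dl j * mt w ω) (UU θ ω (w, j))| ≤ 1 / 2 * 2 :=
      mul_le_mul h3 h2 (abs_nonneg _) (by norm_num)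
    have h5 := mul_nonneg (abs_nonneg (dl j * ct w ω))
      (abs_nonneg (psi (dl j * mt w ω) (UU θ ω (w, j))))
    nlinarith
  simpa using sum_le_card_nsmul _ _ 1 this

lemma cutK_le (h1 : a ≤ a') (K : ℕ) : cutK (d := d) K a a' ≤ fun _ => a' := fun v => by
  unfold cutK; split_ifs <;> simp [h1]

lemma mem_idx_cutK (h1 : a ≤ a') (K : ℕ) (τ : T d) (p : Ix d) :
    p ∈ idx j (cutK K a a') τ ↔ p ∈ idx j (fun _ => a) τ ∨ (p.2 = j ∧ p.1 ∈ ball d K ∧
      a ≤ (τ (p.1, j) : ℝ) ∧ (τ (p.1, j) : ℝ) < a') := by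
  obtain ⟨v, i⟩ := p
  simp only [idx, cutK, Set.mem_ofPred_eq, mem_ball]
  constructor
  · rintro (h | ⟨rfl, h⟩)
    · exact Or.inl (Or.inl h)
    · by_cases h3 : (τ (v, i) : ℝ) < a
      · exact Or.inl (Or.inr ⟨rfl, h3⟩)
      · split_ifs at h with h4
        · exact Or.inr ⟨rfl, h4, not_lt.1 h3, h⟩
        · exact absurd h h3
  · rintro ((h | ⟨rfl, h⟩) | ⟨rfl, h3, -, h⟩)
    · exact Or.inl h
    · refine Or.inr ⟨rfl, ?_⟩
      split_ifs
      · exact h.trans_le h1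
      · exact h
    · exact Or.inr ⟨rfl, by rw [if_pos h3]; exact h⟩

lemma BM_mag' (I : Set (Ix d)) (x : V d) : BM inferInstance fun η => mag θ (XI I η) x :=
  (BM_mag I x).mono (FI_le I)

lemma integral_abs_le (h : Hyp d θ) {J : ℤ} {I I1 I2 : Set (Ix d)} (hI : Upto J I2) (h1 : I ⊆ I1)
    (h2 : I1 ⊆ I2) (x : V d) {ε : ℝ} (hε : 0 < ε) :
    ∫ η, |mag θ (XI I1 η) x - mag θ (XI I η) x| ∂P1 d θ ≤
      ε + (∫ η, (mag θ (XI I2 η) x - mag θ (XI I η) x) ^ 2 ∂P1 d θ) / ε := by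
  have hI1 : Upto J I1 := fun p hp => hI p (h2 hp)
  have b := (BM_mag' (θ := θ) I1 x).sub (BM_mag' (θ := θ) I x)
  have e : ∫ η, (ε + (mag θ (XI I1 η) x - mag θ (XI I η) x) ^ 2 / ε) ∂P1 d θ =
      ε + (qq θ I1 x - qq θ I x) / ε := by
    rw [integral_add (integrable_const _) ((b.pow 2).integrable.div_const _), integral_div,
      qq_sub h hI1 h1]
    simp
  rw [qq_sub h hI (h1.trans h2)]
  have := qq_mono h hI h2 x
  refine (integral_mono b.abs.integrable
    ((integrable_const ε).add ((b.pow 2).integrable.div_const ε)) fun η => ?_).trans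
    (e.trans_le (by gcongr))
  simp only [Pi.add_apply]
  generalize mag θ (XI I1 η) x - mag θ (XI I η) x = y
  rw [← sq_abs, ← sub_le_iff_le_add', le_div_iff₀ hε]
  nlinarith [sq_nonneg (|y| - ε), abs_nonneg y]

lemma slot_fixed (h : Hyp d θ) (h0 : 0 ≤ a) (h1 : a ≤ a') (h2 : a' ≤ 1 / 2) (K : ℕ) {Z : Om d → ℝ}
    {ct mt : V d → Om d → ℝ} (τ : T d)
    (hZ : Measurable[FI (idx j (fun _ => a) τ)] fun η => Z (τ, η))
    (hct : ∀ w, Measurable[FI (idx j (fun _ => a) τ)] fun η => ct w (τ, η))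
    (hmt : ∀ w, Measurable[FI (idx j (fun _ => a) τ)] fun η => mt w (τ, η))
    (bZ : ∀ ω, |Z ω| ≤ 1) (bct : ∀ w ω, |ct w ω| ≤ 1) (bmt : ∀ w ω, |mt w ω| ≤ 1) {ε : ℝ}
    (hε : 0 < ε) :
    ∫ η, (mag θ (Xc j (fun _ => a') (τ, η)) 1 - prox θ j a a' K Z ct mt (τ, η)) ^ 2 ∂P1 d θ ≤
      ∫ η, (mag θ (Xc j (fun _ => a) (τ, η)) 1 - Z (τ, η)) ^ 2 ∂P1 d θ +
      (qq θ (idx j (fun _ => a') τ) 1 - qq θ (idx j (cutK K a a') τ) 1) +
      ∑ w ∈ ball d K, slot j a a' w τ * (500 * dl j ^ 2 * ∫ η, perr θ j a ct mt w (τ, η) ∂P1 d θ +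
        60 * (ε + (∫ η, (mag θ (Xc j (update (fun _ => a') w a) (τ, η)) w -
          mag θ (Xc j (fun _ => a) (τ, η)) w) ^ 2 ∂P1 d θ) / ε)) +
      (2 + ((ball d K).card : ℝ)) ^ 2 *
        ∑ p ∈ (ball d K).offDiag, slot j a a' p.1 τ * slot j a a' p.2 τ := by
  classical
  have hI' : Upto j (idx j (fun _ => a') τ) := upto_idx _ τ
  have hs : idx j (fun _ => a) τ ⊆ idx j (fun _ => a') τ := idx_mono (fun _ => h1) τ
  have T1 : 0 ≤ ∫ η, (mag θ (Xc j (fun _ => a) (τ, η)) 1 - Z (τ, η)) ^ 2 ∂P1 d θ :=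
    integral_nonneg fun _ => sq_nonneg _
  have T2 : 0 ≤ qq θ (idx j (fun _ => a') τ) 1 - qq θ (idx j (cutK K a a') τ) 1 :=
    sub_nonneg.2 (qq_mono h hI' (idx_mono (cutK_le h1 K) τ) 1)
  have T3 : ∀ w : V d, 0 ≤ slot j a a' w τ * (500 * dl j ^ 2 * ∫ η, perr θ j a ct mt w (τ, η) ∂P1 d θ +
      60 * (ε + (∫ η, (mag θ (Xc j (update (fun _ => a') w a) (τ, η)) w -
        mag θ (Xc j (fun _ => a) (τ, η)) w) ^ 2 ∂P1 d θ) / ε)) := fun w => by
    have := (slot_mem (j := j) (a := a) (a' := a') w τ).1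
    have : 0 ≤ ∫ η, perr θ j a ct mt w (τ, η) ∂P1 d θ := integral_nonneg fun _ => perr_nonneg _ _ _ _
    have : 0 ≤ ∫ η, (mag θ (Xc j (update (fun _ => a') w a) (τ, η)) w -
        mag θ (Xc j (fun _ => a) (τ, η)) w) ^ 2 ∂P1 d θ := integral_nonneg fun _ => sq_nonneg _
    positivity
  have T3' := sum_nonneg fun w (_ : w ∈ ball d K) => T3 w
  have T4 : ∀ p : V d × V d, 0 ≤ slot j a a' p.1 τ * slot j a a' p.2 τ := fun p =>
    mul_nonneg (slot_mem _ _).1 (slot_mem _ _).1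
  have T4' : 0 ≤ (2 + ((ball d K).card : ℝ)) ^ 2 *
      ∑ p ∈ (ball d K).offDiag, slot j a a' p.1 τ * slot j a a' p.2 τ :=
    mul_nonneg (sq_nonneg _) (sum_nonneg fun p _ => T4 p)
  by_cases hN : ∃ w ∈ ball d K, a ≤ (τ (w, j) : ℝ) ∧ (τ (w, j) : ℝ) < a'
  swap
  · have e1 : idx j (cutK K a a') τ = idx j (fun _ => a) τ := by
      ext p
      rw [mem_idx_cutK h1]
      exact or_iff_left fun hp => hN ⟨p.1, hp.2.1, hp.2.2⟩
    have e2 : ∀ η, prox θ j a a' K Z ct mt (τ, η) = Z (τ, η) := fun η => by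
      unfold prox
      rw [sum_eq_zero, add_zero]
      intro w hw
      rw [slot_eq_zero fun hp => hN ⟨w, hw, hp⟩, zero_mul]
    have e3 := pyth h hI' hs 1 (Z := fun η => Z (τ, η)) ⟨hZ, 1, fun η => bZ _⟩
    simp only [e2, e1]
    exact e3.trans_le (by simp only [Xc] at T3' ⊢; linarith)
  obtain ⟨w, hw, hτ⟩ := hN
  by_cases hN2 : ∃ w' ∈ ball d K, w' ≠ w ∧ a ≤ (τ (w', j) : ℝ) ∧ (τ (w', j) : ℝ) < a'
  · obtain ⟨w', hw', hne, hτ'⟩ := hN2
    have e1 : 1 ≤ ∑ p ∈ (ball d K).offDiag, slot j a a' p.1 τ * slot j a a' p.2 τ := by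
      have := single_le_sum (f := fun p : V d × V d => slot j a a' p.1 τ * slot j a a' p.2 τ)
        (fun p _ => T4 p) (mem_offDiag.2 (⟨hw', hw, hne⟩ : (w', w).1 ∈ _ ∧ _))
      simpa only [slot_eq_one hτ, slot_eq_one hτ', mul_one] using this
    have e2 : ∫ η, (mag θ (Xc j (fun _ => a') (τ, η)) 1 - prox θ j a a' K Z ct mt (τ, η)) ^ 2 ∂P1 d θ ≤
        (2 + ((ball d K).card : ℝ)) ^ 2 := by
      have := integral_mono_of_nonneg (μ := P1 d θ) (g := fun _ => (2 + ((ball d K).card : ℝ)) ^ 2)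
        (f := fun η => (mag θ (Xc j (fun _ => a') (τ, η)) 1 - prox θ j a a' K Z ct mt (τ, η)) ^ 2)
        (ae_of_all _ fun _ => sq_nonneg _) (integrable_const _) (ae_of_all _ fun η => by
          have h3 := abs_prox_le (θ := θ) (j := j) (a := a) (a' := a') K bZ bct bmt (τ, η)
          have h4 := abs_mag_le (θ := θ) (X := Xc j (fun _ => a') (τ, η)) 1
          exact sq_le_sq' (by linarith [abs_le.1 h3, abs_le.1 h4])
            (by linarith [abs_le.1 h3, abs_le.1 h4]))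
      simpa using this
    nlinarith [sq_nonneg (2 + ((ball d K).card : ℝ))]
  have hz : ∀ w' ∈ ball d K, w' ≠ w → slot j a a' w' τ = 0 := fun w' hw' hne =>
    slot_eq_zero fun hp => hN2 ⟨w', hw', hne, hp⟩
  have e1 : idx j (cutK K a a') τ = insert (w, j) (idx j (fun _ => a) τ) := by
    ext p
    rw [mem_idx_cutK h1, Set.mem_insert_iff, or_comm]
    refine or_congr_left ⟨fun hp => ?_, ?_⟩
    · by_contra hne
      exact hN2 ⟨p.1, hp.2.1, fun e => hne (Prod.ext e hp.1), hp.2.2⟩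
    · rintro rfl
      exact ⟨rfl, hw, hτ⟩
  have ha : (w, j) ∉ idx j (fun _ => a) τ := by
    rintro (hp | hp)
    · exact lt_irrefl _ hp.1
    · exact absurd hτ.1 (not_le.2 hp.2)
  have e2 : ∀ η, prox θ j a a' K Z ct mt (τ, η) = Z (τ, η) + ct w (τ, η) * dl j * psi (dl j * mt w (τ, η))
      (cdf (dl j * mag θ (XI (idx j (fun _ => (τ (w, j) : ℝ)) τ) η) w) (YY (w, j) η)) := fun η => by
    unfold prox
    rw [sum_eq_single_of_mem w hw fun w' hw' hne => by rw [hz w' hw' hne, zero_mul],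
      slot_eq_one hτ, one_mul]
    have h3 : ((τ, η) : Om d).1 (w, j) < (1 / 2 : ℝ) := hτ.2.trans_le h2
    rw [UU, if_pos h3, Set.projIcc_of_mem _ (cdf_mem (abs_dl_mul (abs_mag_le _)) (abs_YY_le _ _))]
    rfl
  have e3 := slot_one h hI' ha (e1 ▸ idx_mono (cutK_le h1 K) τ)
    (Iw := idx j (fun _ => (τ (w, j) : ℝ)) τ) hZ (hct w) (hmt w) (fun η => bZ _) (fun η => bct _ _)
    (fun η => bmt _ _)
  have e4 := integral_abs_le h (upto_idx (j := j) (update (fun _ => a') w a) τ)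
    (idx_mono (cut := fun _ => a) (cut' := fun _ => (τ (w, j) : ℝ)) (fun _ => hτ.1) τ) (by
      rintro ⟨v, i⟩ (hp | ⟨rfl, hp⟩)
      · exact Or.inl hp
      · refine Or.inr ⟨rfl, ?_⟩
        have hv : v ≠ w := by rintro rfl; exact lt_irrefl _ hp
        simp only [update_of_ne hv]
        exact hp.trans hτ.2) w hε
  have e5 := single_le_sum (fun w' (_ : w' ∈ ball d K) => T3 w') hw
  rw [slot_eq_one hτ, one_mul] at e5
  simp only [e2, e1, ← sub_sub]
  refine e3.trans ?_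
  simp only [Xc, perr] at e5 ⊢
  linarith

lemma prox_meas (h1 : a ≤ a') (h2 : a' ≤ 1 / 2) (K : ℕ) {Z : Om d → ℝ} {ct mt : V d → Om d → ℝ}
    (hZ : Measurable[GG θ j a] Z) (hct : ∀ w, Measurable[GG θ j a] (ct w))
    (hmt : ∀ w, Measurable[GG θ j a] (mt w)) :
    Measurable[GG θ j a'] (prox θ j a a' K Z ct mt) := by
  classical
  have hm := GG_mono (d := d) (θ := θ) (j := j) h1
  have hT : ∀ w : V d, Measurable[GG θ j a'] fun ω : Om d => Th θ j a' ω (w, j) := fun w =>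
    (measurable_pi_apply (w, j)).comp (comap_measurable (Th θ j a'))
  have e : prox θ j a a' K Z ct mt = fun ω => Z ω + ∑ w ∈ ball d K,
      (if a ≤ ((Th θ j a' ω (w, j)).1 : ℝ) ∧ ((Th θ j a' ω (w, j)).1 : ℝ) < a' then (1 : ℝ) else 0) *
        (ct w ω * dl j * psi (dl j * mt w ω) (Th θ j a' ω (w, j)).2) := by
    funext ω
    unfold prox
    congr 1
    refine sum_congr rfl fun w _ => ?_
    by_cases hw : (ω.1 (w, j) : ℝ) < a'
    · have : (w, j) ∈ idx j (fun _ => a') ω.1 := Or.inr ⟨rfl, hw⟩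
      simp only [Th, if_pos this, slot]
    · have : (w, j) ∉ idx j (fun _ => a') ω.1 := by
        rintro (hp | hp)
        · exact lt_irrefl _ hp.1
        · exact hw hp.2
      have h3 : ¬ (1 : ℝ) < a' := by linarith
      simp [Th, this, slot, hw, h3]
  rw [e]
  let _ : MeasurableSpace (Om d) := GG θ j a'
  refine (hZ.mono hm le_rfl).add (Finset.measurable_sum _ fun w _ => Measurable.mul ?_ ?_)
  · have h3 : Measurable fun ω : Om d => ((Th θ j a' ω (w, j)).1 : ℝ) :=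
      measurable_subtype_coe.comp (measurable_fst.comp (hT w))
    exact Measurable.ite ((measurableSet_le measurable_const h3).inter
      (measurableSet_lt h3 measurable_const)) measurable_const measurable_const
  · exact (((hct w).mono hm le_rfl).mul_const _).mul (measurable_psi.comp
      ((((hmt w).mono hm le_rfl).const_mul _).prodMk
        (measurable_subtype_coe.comp (measurable_snd.comp (hT w)))))

lemma BM_magO (cut : V d → ℝ) (x : V d) : BM inferInstance fun ω : Om d => mag θ (Xc j cut ω) x :=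
  ⟨(measurable_mag x).comp (measurable_Xc cut), 1, fun _ => abs_mag_le _⟩

lemma BM_covO (h : Hyp d θ) (cut : V d → ℝ) (w : V d) :
    BM inferInstance fun ω : Om d => cov θ (Xc j cut ω) 1 w :=
  ⟨(measurable_cov 1 w).comp (measurable_Xc cut), 1, fun _ => abs_cov_le h _ _⟩

lemma fubini {f : Om d → ℝ} (hf : BM inferInstance f) :
    ∫ ω, f ω ∂PP d θ = ∫ τ, ∫ η, f (τ, η) ∂P1 d θ ∂iid (Ix d) :=
  integral_prod _ (hf.integrable (P := PP d θ))

lemma BM_sec {f : Om d → ℝ} (hf : BM inferInstance f) :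
    BM inferInstance fun τ : T d => ∫ η, f (τ, η) ∂P1 d θ := by
  obtain ⟨C, hC⟩ := hf.bdd
  refine ⟨hf.meas.stronglyMeasurable.integral_prod_right'.measurable, C, fun τ => ?_⟩
  have := norm_integral_le_of_norm_le_const (μ := P1 d θ) (f := fun η => f (τ, η)) (C := C)
    (ae_of_all _ fun η => hC _)
  simpa using this

lemma integral_E {Ω : Type} [MeasurableSpace Ω] {P : Measure Ω} [IsProbabilityMeasure P]
    {f g : Ω → ℝ} (hf : BM inferInstance f) (hg : BM inferInstance g) (c ε : ℝ) :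
    ∫ ω, (c * f ω + 60 * (ε + ε⁻¹ * g ω)) ∂P = c * ∫ ω, f ω ∂P + 60 * (ε + ε⁻¹ * ∫ ω, g ω ∂P) := by
  have i1 : Integrable (fun ω => 60 * (ε + ε⁻¹ * g ω)) P :=
    ((integrable_const ε).add (hg.integrable.const_mul _)).const_mul _
  rw [integral_add (hf.integrable.const_mul _) i1, integral_const_mul,
    integral_const_mul, integral_add (integrable_const ε) (hg.integrable.const_mul _),
    integral_const_mul]
  simp

theorem slot_ineq (h : Hyp d θ) (h0 : 0 ≤ a) (h1 : a ≤ a') (h2 : a' ≤ 1 / 2) (K : ℕ)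
    {ct mt : V d → Om d → ℝ} (hct : ∀ w, Measurable[GG θ j a] (ct w))
    (hmt : ∀ w, Measurable[GG θ j a] (mt w)) (bct : ∀ w ω, |ct w ω| ≤ 1)
    (bmt : ∀ w ω, |mt w ω| ≤ 1) {ε : ℝ} (hε : 0 < ε) :
    DD d θ j a' ≤ DD d θ j a + 12 * dl j ^ 2 * (a' - a) * (exp (-gap d j * K) / gap d j) +
      1000 * dl j ^ 2 * (a' - a) * ∑ w ∈ ball d K, ∫ ω, perr θ j a ct mt w ω ∂PP d θ +
      120 * (a' - a) * (ball d K).card *
        (ε + (QQ θ j (fun _ => a') (1 : V d) - QQ θ j (fun _ => a) (1 : V d)) / ε) +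
      (2 + ((ball d K).card : ℝ)) ^ 4 * (a' - a) ^ 2 := by
  classical
  have ha : a ≤ 1 / 2 := h1.trans h2
  obtain ⟨Z, hZ, bZ, eZ⟩ := exists_condExp (P := PP d θ) (GG_le (θ := θ) (j := j) a)
    (a := -1) (b := 1) (BM_magO (θ := θ) (j := j) (fun _ => a) 1).meas
    (fun ω => abs_le.1 (abs_mag_le _))
  have bZ' : ∀ ω, |Z ω| ≤ 1 := fun ω => abs_le.2 (bZ ω)
  have BZ : BM inferInstance Z := ⟨hZ.mono (GG_le a) le_rfl, 1, bZ'⟩
  have Bp : BM (GG θ j a') (prox θ j a a' K Z ct mt) :=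
    ⟨prox_meas h1 h2 K hZ hct hmt, _, abs_prox_le K bZ' bct bmt⟩
  have Bct : ∀ w, BM inferInstance (ct w) := fun w => ⟨(hct w).mono (GG_le a) le_rfl, 1, bct w⟩
  have Bmt : ∀ w, BM inferInstance (mt w) := fun w => ⟨(hmt w).mono (GG_le a) le_rfl, 1, bmt w⟩
  have Bpe : ∀ w, BM inferInstance (perr θ j a ct mt w) := fun w =>
    (((BM_covO h _ w).sub (Bct w)).pow 2).add
      (((BM_covO h _ w).pow 2).mul (((BM_magO _ w).sub (Bmt w)).pow 2))
  set F : V d → Om d → ℝ := fun w ω => (mag θ (Xc j (update (fun _ => a') w a) ω) w -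
    mag θ (Xc j (fun _ => a) ω) w) ^ 2 with hF
  have BF : ∀ w, BM inferInstance (F w) := fun w => ((BM_magO _ w).sub (BM_magO _ w)).pow 2
  set E : V d → Om d → ℝ := fun w ω => 500 * dl j ^ 2 * perr θ j a ct mt w ω +
    60 * (ε + ε⁻¹ * F w ω) with hE
  have BE : ∀ w, BM inferInstance (E w) := fun w => ((BM.const _).mul (Bpe w)).add
    ((BM.const _).mul ((BM.const _).add ((BM.const _).mul (BF w))))
  have Bs : ∀ w, BM inferInstance (slot (d := d) j a a' w) := fun w =>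
    ⟨measurable_slot w, 1, fun τ => by rw [abs_of_nonneg (slot_mem _ _).1]; exact (slot_mem _ _).2⟩
  have BsE : ∀ w, BM inferInstance fun ω : Om d => slot j a a' w ω.1 * E w ω := fun w =>
    ((Bs w).comp measurable_fst).mul (BE w)
  have Bq : ∀ cut : V d → ℝ, BM inferInstance fun τ : T d => qq θ (idx j cut τ) 1 := fun cut =>
    ⟨measurable_qq 1, 1, fun τ => by rw [abs_of_nonneg (qq_mem _ _).1]; exact (qq_mem _ _).2⟩
  have iE : ∀ w, ∫ ω, E w ω ∂PP d θ = 500 * dl j ^ 2 * ∫ ω, perr θ j a ct mt w ω ∂PP d θ +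
      60 * (ε + ε⁻¹ * ∫ ω, F w ω ∂PP d θ) := fun w => integral_E (Bpe w) (BF w) _ _
  have B1 := ((BM_magO (θ := θ) (j := j) (fun _ => a') 1).sub (Bp.mono (GG_le a'))).pow 2
  have B2 := ((BM_magO (θ := θ) (j := j) (fun _ => a) 1).sub BZ).pow 2
  have s1 : DD d θ j a' ≤ _ := dv_le (GG_le a') (BM_magO _ 1) Bp
  have s2 : DD d θ j a = ∫ ω, (mag θ (Xc j (fun _ => a) ω) 1 - Z ω) ^ 2 ∂PP d θ :=
    integral_congr_ae (by filter_upwards [eZ] with ω hω; rw [hω])
  have Bo : BM inferInstance fun τ : T d => (2 + ((ball d K).card : ℝ)) ^ 2 *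
      ∑ p ∈ (ball d K).offDiag, slot j a a' p.1 τ * slot j a a' p.2 τ :=
    (BM.const _).mul (BM.sum _ fun p _ => (Bs p.1).mul (Bs p.2))
  have s3 := integral_mono (μ := iid (Ix d)) (BM_sec B1).integrable
    ((((BM_sec B2).add ((Bq fun _ => a').sub (Bq (cutK K a a')))).add
      (BM.sum (ball d K) fun w _ => BM_sec (BsE w))).add Bo).integrable fun τ => by
      refine (slot_fixed h h0 h1 h2 K τ (GG_section ha hZ τ) (fun w => GG_section ha (hct w) τ)
        (fun w => GG_section ha (hmt w) τ) bZ' bct bmt hε).trans_eq ?_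
      congr 2
      refine sum_congr rfl fun w _ => ?_
      simp only [integral_const_mul, hE]
      rw [integral_E ((Bpe w).comp measurable_prodMk_left) ((BF w).comp measurable_prodMk_left),
        div_eq_inv_mul]
  rw [integral_add (((BM_sec B2).add ((Bq fun _ => a').sub (Bq (cutK K a a')))).add
      (BM.sum (ball d K) fun w _ => BM_sec (BsE w))).integrable Bo.integrable,
    integral_add ((BM_sec B2).add ((Bq fun _ => a').sub (Bq (cutK K a a')))).integrable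
      (BM.sum (ball d K) fun w _ => BM_sec (BsE w)).integrable,
    integral_add (BM_sec B2).integrable ((Bq fun _ => a').sub (Bq (cutK K a a'))).integrable,
    integral_sub (Bq fun _ => a').integrable (Bq (cutK K a a')).integrable,
    integral_finsetSum _ fun w _ => (BM_sec (BsE w)).integrable, integral_const_mul,
    integral_finsetSum _ fun p _ => ((Bs p.1).mul (Bs p.2)).integrable, ← fubini B1, ← fubini B2,
    ← QQ_eq, ← QQ_eq, ← s2] at s3
  simp only [← fubini (BsE _)] at s3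
  have s4 := far_le h h0 h1 h2 K (j := j)
  have s5 : ∑ p ∈ (ball d K).offDiag, ∫ τ, slot j a a' p.1 τ * slot j a a' p.2 τ ∂iid (Ix d) ≤
      (2 + ((ball d K).card : ℝ)) ^ 2 * (a' - a) ^ 2 := by
    rw [sum_congr rfl fun p hp => slot_two h0 h1 h2 (mem_offDiag.1 hp).2.2, sum_const, nsmul_eq_mul]
    have : ((ball d K).offDiag.card : ℝ) ≤ (ball d K).card * (ball d K).card := by
      rw [offDiag_card]; exact_mod_cast Nat.sub_le _ _
    gcongr
    nlinarith [Nat.cast_nonneg (α := ℝ) (ball d K).card]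
  have s6 : ∀ w ∈ ball d K, ∫ ω, slot j a a' w ω.1 * E w ω ∂PP d θ ≤
      1000 * dl j ^ 2 * (a' - a) * ∫ ω, perr θ j a ct mt w ω ∂PP d θ + 120 * (a' - a) *
        (ε + (QQ θ j (fun _ => a') (1 : V d) - QQ θ j (fun _ => a) (1 : V d)) / ε) := by
    intro w _
    have hc : (fun _ => a) ≤ update (fun _ : V d => a') w a := fun v => by
      by_cases hv : v = w
      · subst hv; simp
      · simp [update_of_ne hv, h1]
    have hc' : update (fun _ : V d => a') w a ≤ fun _ => a' := fun v => by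
      by_cases hv : v = w
      · subst hv; simp [h1]
      · simp [update_of_ne hv]
    have t1 := ltau (θ := θ) h0 h1 h2 w (BE w) (fun ω => by
      have := perr_nonneg (θ := θ) (j := j) (a := a) ct mt w ω
      simp only [hE, hF]; positivity) (fun ω u hu hu' => by
      have x1 : Xc j (fun _ => a) (update ω.1 (w, j) u, ω.2) = Xc j (fun _ => a) ω := by
        simp only [Xc]; rw [idx_update ω.1 hu hu']
      have x2 : Xc j (update (fun _ => a') w a) (update ω.1 (w, j) u, ω.2) =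
          Xc j (update (fun _ => a') w a) ω := by
        simp only [Xc]; rw [idx_update ω.1 (by simpa using hu) (by simpa using hu')]
      simp only [hE, hF, perr, x1, x2, GG_update ha (hct w) ω hu hu', GG_update ha (hmt w) ω hu hu'])
    have t2 : ∫ ω, F w ω ∂PP d θ ≤ QQ θ j (fun _ => a') (1 : V d) - QQ θ j (fun _ => a) (1 : V d) := by
      rw [← QQ_aut h a' w, ← QQ_aut h a w]
      exact (QQ_sub h hc w).trans_le (sub_le_sub_right (QQ_mono h hc' w) _)
    have t3 := mul_le_mul_of_nonneg_left t2 (inv_pos.2 hε).le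
    rw [iE] at t1
    rw [div_eq_inv_mul]
    nlinarith [mul_le_mul_of_nonneg_left t3 (sub_nonneg.2 h1)]
  have s7 := sum_le_sum s6
  rw [sum_add_distrib, ← mul_sum, sum_const, nsmul_eq_mul] at s7
  have s8 := mul_le_mul_of_nonneg_left s5 (sq_nonneg (2 + ((ball d K).card : ℝ)))
  linarith

end Vale.Agent.P161E
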