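import Vale.Agent.P161E.Slot
import Vale.Agent.P161E.Inst
import Vale.Agent.P161E.Rate
import Vale.Agent.P161E.Num

/-! One sweep, and the vanishing of `DD`.
`params`: `K = ⌈N/g⌉₊ ≤ exp ℓ`, `k1 = ⌈4ℓ/g⌉₊ ≤ 5ℓ/g`, `m = ⌈5ℓ+3⌉₊`; `2^m ≥ 8 * 32^ℓ ≥ 8 exp (3ℓ)` (`log 2 > 0.6931`),
so `2^m / K² ≥ 8 exp ℓ ≥ N + 4ℓ`.
`sweep`: `sweep_num` with `D = DD d θ j`, `Q t = QQ θ j (fun _ => t) 1`, using `slot_ineq` and `rate (act h) h (BB J + d)` for
`sys h hj ht` (`H1` with `z = 1`, `H2`, `sys_r`, `sys_cv`, `sys_m`); `dl j ≤ 400 d gap` (`dl_le_two`); `DD_half`.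
`DD_zero`: `final_num` with `N = n⁴`.  Start: `dv_le` with `Z = 0`, `QQ_le`, `BB j = 2 * 2^j` for `j ≤ 0`.
Early sweeps: `ℓ = 2N`, `lam = √(8 C₃ N BB j)`, `l = lam / (2 C₃ BB j)`, `pu = 2 exp (-2N)` (`H3`), `1/lam ≤ exp N`,
`1 / gap d j ≤ 800 d 2^N`.  Late sweeps: `ℓ = 2n`, `lam = 1`, `pu = exp (-N)`, `1 / gap d j ≤ 800 d 2^n` (`dl_mono`). -/

namespace Vale.Agent.P161E

open MeasureTheory Filter Finset Real

variable {d : ℕ} {θ : ℝ}

lemma params {g N ℓ : ℝ} (hg : 0 < g) (hg1 : g ≤ 1) (hN : 1 ≤ N) (hℓ : 1 ≤ ℓ)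
    (h : N / g + 1 ≤ exp ℓ) : ∃ K k1 m : ℕ, 1 ≤ K ∧ 1 ≤ m ∧ exp (-g * K) ≤ exp (-N) ∧
      2 * ((m : ℝ) + 2 + 1 / g) ≤ 24 * ℓ / g ∧
      (k1 : ℝ) ^ 2 + (2 * ((m : ℝ) + 2 + 1 / g)) ^ 2 + (K : ℝ) ^ 4 * exp (-g * k1) ≤
        602 * ℓ ^ 2 / g ^ 2 ∧
      (K : ℝ) ^ 3 * (K * exp (-(2 : ℝ) ^ m / (K : ℝ) ^ 2)) ≤ exp (-N) := by
  have hg' : 1 ≤ 1 / g := by rw [le_div_iff₀ hg]; linarith
  have hNg : N ≤ N / g := by rw [le_div_iff₀ hg]; nlinarith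
  have hlg : ℓ ≤ ℓ / g := by rw [le_div_iff₀ hg]; nlinarith
  have h1g : 1 / g ≤ ℓ / g := by gcongr
  set K := ⌈N / g⌉₊
  set k1 := ⌈4 * ℓ / g⌉₊
  set m := ⌈5 * ℓ + 3⌉₊
  have K1 : N / g ≤ K := Nat.le_ceil _
  have K2 : (K : ℝ) ≤ exp ℓ := (Nat.ceil_lt_add_one (by linarith)).le.trans h
  have K0 : (1 : ℝ) ≤ K := by linarith
  have k11 : 4 * ℓ / g ≤ k1 := Nat.le_ceil _
  have k12 : (k1 : ℝ) ≤ 5 * (ℓ / g) := by
    have := (Nat.ceil_lt_add_one (show 0 ≤ 4 * ℓ / g by positivity)).le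
    rw [mul_div_assoc] at this
    rw [← mul_div_assoc] at this
    have e : 4 * ℓ / g = 4 * (ℓ / g) := mul_div_assoc _ _ _
    linarith
  have m1 : 5 * ℓ + 3 ≤ m := Nat.le_ceil _
  have m2 : (m : ℝ) ≤ 5 * ℓ + 3 + 1 := (Nat.ceil_lt_add_one (by linarith)).le
  have l1 : 2 * ((m : ℝ) + 2 + 1 / g) ≤ 24 * (ℓ / g) := by linarith
  have K4 : (K : ℝ) ^ 4 ≤ exp (4 * ℓ) := by
    rw [show 4 * ℓ = (4 : ℕ) * ℓ by norm_num, exp_nat_mul]; gcongr
  refine ⟨K, k1, m, by exact_mod_cast K0, by exact_mod_cast (show (1 : ℝ) ≤ m by linarith), ?_,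
    by rwa [mul_div_assoc], ?_, ?_⟩
  · rw [div_le_iff₀ hg] at K1
    exact exp_le_exp.2 (by linarith)
  · rw [div_le_iff₀ hg] at k11
    have e1 : (K : ℝ) ^ 4 * exp (-g * k1) ≤ 1 := by
      refine (mul_le_mul_of_nonneg_right K4 (exp_pos _).le).trans ?_
      rw [← exp_add]
      exact exp_le_one_iff.2 (by linarith)
    have e2 : (k1 : ℝ) ^ 2 ≤ (5 * (ℓ / g)) ^ 2 := by gcongr
    have e3 : (2 * ((m : ℝ) + 2 + 1 / g)) ^ 2 ≤ (24 * (ℓ / g)) ^ 2 := by gcongr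
    rw [mul_div_assoc, ← div_pow]
    nlinarith
  · have e1 : 8 * exp (3 * ℓ) ≤ (2 : ℝ) ^ m := by
      have l2 := log_two_gt_d9
      have : (2 : ℝ) ^ m = exp (m * log 2) := by rw [exp_nat_mul, exp_log two_pos]
      have e8 : (8 : ℝ) = exp (3 * log 2) := by
        rw [show 3 * log 2 = (3 : ℕ) * log 2 by norm_num, exp_nat_mul, exp_log two_pos]; norm_num
      rw [this, e8, ← exp_add]
      exact exp_le_exp.2 (by nlinarith)
    have e2 : (K : ℝ) ^ 2 ≤ exp (2 * ℓ) := by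
      rw [show 2 * ℓ = (2 : ℕ) * ℓ by norm_num, exp_nat_mul]; gcongr
    have e3 : 8 * exp ℓ ≤ (2 : ℝ) ^ m / (K : ℝ) ^ 2 := by
      rw [le_div_iff₀ (by positivity)]
      refine (mul_le_mul_of_nonneg_left e2 (by positivity)).trans ?_
      rw [mul_assoc, ← exp_add]
      exact le_of_eq_of_le (by ring_nf) e1
    have e4 := add_one_le_exp ℓ
    rw [← mul_assoc, ← pow_succ]
    refine (mul_le_mul_of_nonneg_right K4 (exp_pos _).le).trans ?_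
    rw [← exp_add, neg_div]
    exact exp_le_exp.2 (by linarith)

lemma sweep_raw (h : Hyp d θ) (J : ℤ) : ∃ C : ℝ, 1 ≤ C ∧ ∀ j ≤ J, ∀ (K k1 m : ℕ) (lam pu lG pG Λ : ℝ),
    1 ≤ K → 1 ≤ m → 0 < lam → 0 < pu → lG = 2 * ((m : ℝ) + 2 + 1 / gap d j) →
    pG = K * exp (-(2 : ℝ) ^ m / (K : ℝ) ^ 2) →
    Λ = (k1 : ℝ) ^ 2 + lG ^ 2 + (K : ℝ) ^ 4 * exp (-gap d j * k1) →
    (∀ (t : ℝ) (c : Fin d),
      (PP d θ).real {ω | lam < |tanh (hI θ (Xc j (fun _ => t) ω) 1 c)|} ≤ pu) →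
    DD d θ (j + 1) 0 ≤ exp (1000 * dl j ^ 2 * C * (Λ * lam ^ 2 + lG) / 2) *
      (DD d θ j 0 + (1000 * dl j ^ 2 * C * (Λ * (pu * (1 + 1 / lam)) + (K : ℝ) ^ 3 * pG) +
        12 * dl j ^ 2 * (exp (-gap d j * K) / gap d j)) / 2) := by
  obtain ⟨C, hC, hr⟩ := rate (act h) h (BB J + d)
  refine ⟨C, hC, ?_⟩
  intro j hj K k1 m lam pu lG pG Λ hK1 hm1 hlam hpu hlG hpG hΛ h3
  have hg := gap_pos h j
  have hlG1 : 1 ≤ lG := by
    have : 0 ≤ (m : ℝ) := Nat.cast_nonneg _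
    have : 0 < 1 / gap d j := by positivity
    linarith
  have hΛ0 : 0 ≤ Λ := by rw [hΛ]; positivity
  have hpG0 : 0 ≤ pG := by rw [hpG]; positivity
  rw [← DD_half]
  refine sweep_num (D := DD d θ j) (Q := fun t => QQ θ j (fun _ => t) (1 : V d))
    (C := 120 * (2 + ((ball d K).card : ℝ)) ^ 4) (by positivity) (by positivity) (by positivity)
    (fun _ => dv_nonneg) (fun _ => QQ_mem _) (fun _ _ hst => QQ_mono h (fun _ => hst) _) ?_
  intro a a' ε h0 h1 h2 hε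
  have ha : a ≤ 1 / 2 := h1.trans h2
  obtain ⟨ct, mt, m1, m2, b1, b2, hb⟩ := hr (sys h hj ha) K k1 (gap d j) lam lG pu pG hK1 hg.le hlam
    hlG1 hpu (fun w => by
      simp only [sys_r]
      exact H1 h 1 w.1 (by simpa using w.2)) (by
      simp only [sys_r, hlG, hpG]
      exact H2 h hK1 hm1) (h3 a)
  simp only [sys_cv, sys_m, sys_D] at hb
  rw [← hΛ] at hb
  have s1 := slot_ineq h h0 h1 h2 K m1 m2 b1 b2 hε
  have s2 := mul_le_mul_of_nonneg_left hb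
    (show 0 ≤ 1000 * dl j ^ 2 * (a' - a) by have := sub_nonneg.2 h1; positivity)
  have hB : (0 : ℝ) ≤ (ball d K).card := Nat.cast_nonneg _
  have hB1 : ((ball d K).card : ℝ) ≤ (2 + ((ball d K).card : ℝ)) ^ 4 :=
    le_trans (by linarith) (le_self_pow₀ (by linarith) (by norm_num))
  have hq : 0 ≤ (a' - a) * (ε + (QQ θ j (fun _ => a') (1 : V d) -
      QQ θ j (fun _ => a) (1 : V d)) / ε) := by
    have := sub_nonneg.2 h1
    have := sub_nonneg.2 (QQ_mono h (j := j) (cut := fun _ => a) (cut' := fun _ => a')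
      (fun _ => h1) (1 : V d))
    positivity
  have s3 := mul_le_mul_of_nonneg_right hB1 hq
  have s4 : 0 ≤ (2 + ((ball d K).card : ℝ)) ^ 4 * (a' - a) ^ 2 := by positivity
  simp only [perr] at s1
  linarith

lemma sweep_arith {C D δ g ℓ lam pl lG Λ x y z : ℝ} (hC : 1 ≤ C) (hD : 3 ≤ D) (hδ : 0 < δ)
    (hδ2 : δ ≤ 1 / 2) (hg : 0 < g) (hδg : δ / g ≤ 400 * D) (hℓ : 1 ≤ ℓ) (hpl : 0 ≤ pl)
    (p2 : lG ≤ 24 * ℓ / g) (p3 : Λ ≤ 602 * ℓ ^ 2 / g ^ 2) (hx : 0 ≤ x) (p4 : x ≤ z) (hy : 0 ≤ y)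
    (p1 : y ≤ z) :
    1000 * δ ^ 2 * C * (Λ * lam ^ 2 + lG) / 2 ≤
      500 * C * (602 * (400 * D) ^ 2) * (ℓ ^ 2 * lam ^ 2 + ℓ * δ) ∧
    (1000 * δ ^ 2 * C * (Λ * pl + x) + 12 * δ ^ 2 * (y / g)) / 2 ≤
      500 * C * (602 * (400 * D) ^ 2) * (ℓ ^ 2 * pl + z) := by
  have q1 : δ ^ 2 * Λ ≤ 602 * (400 * D) ^ 2 * ℓ ^ 2 := by
    refine (mul_le_mul_of_nonneg_left p3 (sq_nonneg _)).trans ?_
    have : (δ / g) ^ 2 ≤ (400 * D) ^ 2 := by gcongr
    calc δ ^ 2 * (602 * ℓ ^ 2 / g ^ 2) = 602 * (δ / g) ^ 2 * ℓ ^ 2 := by ring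
      _ ≤ _ := by gcongr
  have q2 : δ ^ 2 * lG ≤ 602 * (400 * D) ^ 2 * (ℓ * δ) := by
    refine (mul_le_mul_of_nonneg_left p2 (sq_nonneg _)).trans ?_
    calc δ ^ 2 * (24 * ℓ / g) = 24 * (δ / g) * (ℓ * δ) := by ring
      _ ≤ 24 * (400 * D) * (ℓ * δ) := by gcongr
      _ ≤ _ := by gcongr ?_ * _; nlinarith
  have q3 : δ ^ 2 * x ≤ z := by
    have : δ ^ 2 ≤ 1 := by nlinarith
    exact (mul_le_of_le_one_left hx this).trans p4
  have q4 : δ ^ 2 * (y / g) ≤ 200 * D * z := by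
    calc δ ^ 2 * (y / g) = δ * (δ / g) * y := by ring
      _ ≤ 1 / 2 * (400 * D) * z := by gcongr
      _ = _ := by ring
  constructor
  · have := mul_le_mul_of_nonneg_right q1 (sq_nonneg lam)
    have := mul_le_mul_of_nonneg_left (add_le_add this q2) (show 0 ≤ 500 * C by positivity)
    linarith
  · have t1 := mul_le_mul_of_nonneg_right q1 hpl
    have t2 := mul_le_mul_of_nonneg_left (add_le_add t1 q3) (show 0 ≤ 500 * C by positivity)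
    have t3 : 500 * C + 1200 * D ≤ 500 * C * (602 * (400 * D) ^ 2) := by
      have : (1 : ℝ) + 1200 * D ≤ 602 * (400 * D) ^ 2 := by nlinarith
      nlinarith
    have t4 := mul_le_mul_of_nonneg_right t3 (hx.trans p4)
    linarith

theorem sweep (h : Hyp d θ) (J : ℤ) : ∃ C : ℝ, 1 ≤ C ∧ ∀ j ≤ J, ∀ N ℓ lam pu : ℝ, 1 ≤ N → 1 ≤ ℓ →
    N / gap d j + 1 ≤ exp ℓ → 0 < lam → 0 < pu →
    (∀ (t : ℝ) (c : Fin d),
      (PP d θ).real {ω | lam < |tanh (hI θ (Xc j (fun _ => t) ω) 1 c)|} ≤ pu) →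
    DD d θ (j + 1) 0 ≤ exp (C * (ℓ ^ 2 * lam ^ 2 + ℓ * dl j)) *
      (DD d θ j 0 + C * (ℓ ^ 2 * (pu * (1 + 1 / lam)) + exp (-N))) := by
  obtain ⟨C, hC, hr⟩ := sweep_raw h J
  have hd : (3 : ℝ) ≤ d := by exact_mod_cast h.hd
  refine ⟨500 * C * (602 * (400 * d) ^ 2), by nlinarith, ?_⟩
  intro j hj N ℓ lam pu hN hℓ hK hlam hpu h3
  have hg := gap_pos h j
  have hδg : dl j / gap d j ≤ 400 * d := by
    rw [div_le_iff₀ hg, gap]
    have := dl_le_two j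
    field_simp
    linarith
  have hg1 : gap d j ≤ 1 := by
    rw [gap, div_le_one (by positivity)]
    linarith [dl_le (j - 1)]
  obtain ⟨K, k1, m, hK1, hm1, p1, p2, p3, p4⟩ := params hg hg1 hN hℓ hK
  obtain ⟨q1, q2⟩ := sweep_arith (lam := lam) (pl := pu * (1 + 1 / lam)) hC hd (dl_pos j) (dl_le j) hg
    hδg hℓ (by positivity) p2 p3 (by positivity) p4 (exp_pos _).le p1
  exact (hr j hj K k1 m lam pu _ _ _ hK1 hm1 hlam hpu rfl rfl rfl h3).trans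
    (mul_le_mul (exp_le_exp.2 q1) (add_le_add_right q2 _)
      (add_nonneg dv_nonneg (by positivity)) (exp_pos _).le)

lemma inv_gap_le (h : Hyp d θ) {j : ℤ} {n : ℕ} (hj : -(n : ℤ) ≤ j) :
    1 / gap d j ≤ 800 * d * 2 ^ n := by
  have hd : (3 : ℝ) ≤ d := by exact_mod_cast h.hd
  have e1 : dl (-(n : ℤ) - 1) ≤ dl (j - 1) := dl_mono (by linarith)
  have e2 : dl (-(n : ℤ) - 1) = 1 / (4 * 2 ^ n) := by
    rw [dl_of_nonpos (by omega), zpow_sub₀ two_ne_zero, zpow_neg, zpow_natCast]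
    field_simp
    norm_num
  rw [e2, div_le_iff₀ (by positivity)] at e1
  rw [gap, one_div_div, div_le_iff₀ (dl_pos _)]
  nlinarith

lemma ev_exp (c : ℝ) : ∀ᶠ n : ℕ in atTop, (n : ℝ) ^ 4 * (c * 2 ^ n) + 1 ≤ exp (2 * n) := by
  have h1 := (tendsto_exp_div_pow_atTop 4).comp tendsto_natCast_atTop_atTop
  filter_upwards [h1.eventually_ge_atTop (|c| + 1), eventually_ge_atTop 1] with n hn hn1
  have hn1 : (1 : ℝ) ≤ n := by exact_mod_cast hn1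
  simp only [Function.comp] at hn
  rw [le_div_iff₀ (by positivity)] at hn
  have e1 : (2 : ℝ) ^ n ≤ exp n := by
    rw [← mul_one (n : ℝ), exp_nat_mul]
    gcongr
    linarith [add_one_le_exp 1]
  have e2 : (1 : ℝ) ≤ 2 ^ n := one_le_pow₀ one_le_two
  have e3 : (1 : ℝ) ≤ n ^ 4 := one_le_pow₀ hn1
  have e4 := mul_le_mul hn e1 (by positivity) (exp_pos _).le
  rw [← exp_add, ← two_mul] at e4
  have e5 : c * 2 ^ n ≤ |c| * 2 ^ n := by gcongr; exact le_abs_self c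
  nlinarith [mul_le_mul_of_nonneg_left e5 (zero_le_one.trans e3), mul_le_mul e3 e2 zero_le_one
    (zero_le_one.trans e3)]

lemma BB_neg {j : ℤ} (hj : j ≤ 0) : BB j = 2 * 2 ^ j := by
  rw [BB, dl_of_nonpos hj, max_eq_right (by exact_mod_cast hj)]; ring

lemma early (h : Hyp d θ) (J : ℕ) : ∃ C : ℝ, 1 ≤ C ∧ ∀ᶠ N : ℕ in atTop, ∀ j : ℤ, -(N : ℤ) ≤ j → j < 0 →
    DD d θ (j + 1) 0 ≤ exp (C * N ^ 3 * 2 ^ j) * (DD d θ j 0 + C * N ^ 2 * exp (-(N : ℝ))) := by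
  obtain ⟨C, hC, hs⟩ := sweep h J
  obtain ⟨C3, hC3, h3⟩ := H3 h
  refine ⟨65 * C * C3, by nlinarith, ?_⟩
  filter_upwards [ev_exp (800 * d), tendsto_natCast_atTop_atTop.eventually_ge_atTop C3]
    with N hN hN3 j hj hj0
  have hN1 : (1 : ℝ) ≤ N := hC3.trans hN3
  have hB := BB_neg hj0.le
  have hp : (0 : ℝ) < 2 ^ j := by positivity
  have hp1 : (2 : ℝ) ^ j ≤ 1 / 2 := by
    have : (2 : ℝ) ^ j ≤ 2 ^ (-1 : ℤ) := zpow_le_zpow_right₀ one_le_two (by omega)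
    simpa using this
  have hp2 : exp (-(N : ℝ)) ≤ 2 ^ j := by
    refine le_trans ?_ (zpow_le_zpow_right₀ one_le_two hj)
    rw [zpow_neg, zpow_natCast, exp_neg]
    gcongr
    rw [← mul_one (N : ℝ), exp_nat_mul]
    gcongr
    linarith [add_one_le_exp 1]
  have hB0 : 0 < BB j := by rw [hB]; positivity
  have hB1 : BB j ≤ 1 := by rw [hB]; linarith
  set lam := √(8 * C3 * N * BB j) with hlam
  have l0 : 0 < lam := sqrt_pos.2 (by positivity)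
  have l2 : lam ^ 2 = 8 * C3 * N * BB j := sq_sqrt (by positivity)
  have l3 : 1 ≤ lam / (2 * C3 * BB j) := by
    rw [le_div_iff₀ (by positivity), one_mul]
    refine le_sqrt_of_sq_le ?_
    have : C3 * BB j ≤ N := by nlinarith
    nlinarith [mul_le_mul_of_nonneg_left this (show 0 ≤ C3 * BB j by positivity),
      show 0 ≤ C3 * N * BB j by positivity]
  have l4 : C3 * BB j * (lam / (2 * C3 * BB j)) ^ 2 - lam / (2 * C3 * BB j) * lam = -(2 * N) := by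
    field_simp
    rw [l2]; ring
  have l5 : 1 + 1 / lam ≤ 2 * exp N := by
    have e1 : 1 ≤ exp (N : ℝ) := one_le_exp (by linarith)
    have e2 : exp (-(N : ℝ)) ≤ lam := by
      refine le_sqrt_of_sq_le ?_
      have e3 : exp (-(N : ℝ)) ≤ 1 := exp_le_one_iff.2 (by linarith)
      have e4 : 1 ≤ C3 * N := by nlinarith
      rw [hB]
      nlinarith [exp_pos (-(N : ℝ))]
    have : 1 / lam ≤ exp N := by
      rw [div_le_iff₀ l0]
      have := mul_le_mul_of_nonneg_left e2 (exp_pos (N : ℝ)).le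
      rwa [← exp_add, add_neg_cancel, exp_zero] at this
    linarith
  have key := hs j (by omega) N (2 * N) lam (2 * exp (-(2 * N))) hN1 (by linarith) (by
    refine le_trans ?_ hN
    have := mul_le_mul (le_self_pow₀ hN1 (by norm_num : 4 ≠ 0)) (inv_gap_le h hj)
      (by have := gap_pos h j; positivity) (by positivity)
    rw [mul_one_div] at this
    linarith) l0 (by positivity) fun t c => by
      have := h3 j (fun _ => t) hB1 c _ lam l3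
      rwa [l4] at this
  refine key.trans (mul_le_mul (exp_le_exp.2 ?_) (add_le_add_right ?_ _)
    (add_nonneg dv_nonneg (by positivity)) (exp_pos _).le)
  · rw [l2, hB, dl_of_nonpos hj0.le]
    have e1 : (N : ℝ) ≤ C3 * N ^ 3 :=
      (le_self_pow₀ hN1 (by norm_num)).trans (le_mul_of_one_le_left (by positivity) hC3)
    nlinarith [mul_le_mul_of_nonneg_left e1 (show 0 ≤ C * 2 ^ j by positivity)]
  · have e1 : exp (-(2 * (N : ℝ))) * exp N = exp (-(N : ℝ)) := by rw [← exp_add]; ring_nf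
    have e2 : 2 * exp (-(2 * (N : ℝ))) * (1 + 1 / lam) ≤ 4 * exp (-(N : ℝ)) := by
      nlinarith [mul_le_mul_of_nonneg_left l5 (exp_pos (-(2 * (N : ℝ)))).le]
    have e3 : (1 : ℝ) ≤ N ^ 2 := one_le_pow₀ hN1
    have e4 : (2 * (N : ℝ)) ^ 2 * (2 * exp (-(2 * (N : ℝ))) * (1 + 1 / lam)) + exp (-(N : ℝ)) ≤
        65 * C3 * N ^ 2 * exp (-(N : ℝ)) := by
      have := exp_pos (-(N : ℝ))
      nlinarith [mul_le_mul_of_nonneg_left e2 (sq_nonneg (2 * (N : ℝ))),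
        mul_le_mul_of_nonneg_right e3 this.le,
        mul_le_mul_of_nonneg_right hC3 (show 0 ≤ (N : ℝ) ^ 2 * exp (-(N : ℝ)) by positivity)]
    nlinarith [mul_le_mul_of_nonneg_left e4 (zero_le_one.trans hC)]

lemma late (h : Hyp d θ) (J : ℕ) : ∃ C : ℝ, 1 ≤ C ∧ ∀ᶠ n : ℕ in atTop, ∀ j : ℤ, -(n : ℤ) ≤ j → j < J →
    DD d θ (j + 1) 0 ≤ exp (C * n ^ 2) * (DD d θ j 0 + C * n ^ 8 * exp (-(n : ℝ) ^ 4)) := by
  obtain ⟨C, hC, hs⟩ := sweep h J
  refine ⟨9 * C, by linarith, ?_⟩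
  filter_upwards [ev_exp (800 * d), eventually_ge_atTop 1] with n hn hn1 j hj hjJ
  have hn1 : (1 : ℝ) ≤ n := by exact_mod_cast hn1
  have key := hs j hjJ.le (n ^ 4) (2 * n) 1 (exp (-(n : ℝ) ^ 4)) (one_le_pow₀ hn1) (by linarith) (by
    refine le_trans ?_ hn
    have := mul_le_mul_of_nonneg_left (inv_gap_le h hj) (show (0 : ℝ) ≤ n ^ 4 by positivity)
    rw [mul_one_div] at this
    linarith) one_pos (exp_pos _) fun t c => by
      have : {ω : Om d | 1 < |tanh (hI θ (Xc j (fun _ => t) ω) 1 c)|} = ∅ :=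
        Set.eq_empty_of_forall_notMem fun ω hω => absurd hω (not_lt.2
          (abs_le.2 ⟨(neg_one_lt_tanh _).le, (tanh_lt_one _).le⟩))
      rw [this, measureReal_empty]
      exact (exp_pos _).le
  refine key.trans (mul_le_mul (exp_le_exp.2 ?_) (add_le_add_right ?_ _)
    (add_nonneg dv_nonneg (by positivity)) (exp_pos _).le)
  · have e1 := mul_le_mul_of_nonneg_left (dl_le j) (show (0 : ℝ) ≤ 2 * n by positivity)
    have e2 : (2 * (n : ℝ)) ^ 2 * 1 ^ 2 + 2 * n * dl j ≤ 9 * n ^ 2 := by nlinarith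
    nlinarith [mul_le_mul_of_nonneg_left e2 (zero_le_one.trans hC)]
  · have e1 : (n : ℝ) ^ 2 ≤ n ^ 8 := pow_le_pow_right₀ hn1 (by norm_num)
    have e3 : (1 : ℝ) ≤ n ^ 8 := one_le_pow₀ hn1
    have := exp_pos (-(n : ℝ) ^ 4)
    have e2 : (2 * (n : ℝ)) ^ 2 * (exp (-(n : ℝ) ^ 4) * (1 + 1 / 1)) + exp (-(n : ℝ) ^ 4) ≤
        9 * n ^ 8 * exp (-(n : ℝ) ^ 4) := by
      nlinarith [mul_le_mul_of_nonneg_right e1 this.le, mul_le_mul_of_nonneg_right e3 this.le]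
    nlinarith [mul_le_mul_of_nonneg_left e2 (zero_le_one.trans hC)]

lemma DD_start (h : Hyp d θ) {N : ℕ} (hN : 1 ≤ N) :
    DD d θ (-(N : ℤ)) 0 ≤ 2 * ((d : ℝ) + 1) / 2 ^ N := by
  have hB := BB_neg (j := -(N : ℤ)) (by omega)
  rw [zpow_neg, zpow_natCast] at hB
  have e1 : (2 : ℝ) ≤ 2 ^ N := le_self_pow₀ one_le_two (by omega)
  have e2 := QQ_le h (j := -(N : ℤ)) (cut := fun _ => 0) (by
    rw [hB, ← div_eq_mul_inv, div_le_one (by positivity)]; exact e1)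
  have e3 := dv_le (P := PP d θ) (GG_le (θ := θ) (j := -(N : ℤ)) 0)
    (BM_magO (θ := θ) (j := -(N : ℤ)) (fun _ => 0) 1) (BM.const 0)
  simp only [sub_zero] at e3
  refine (e3.trans e2).trans_eq ?_
  rw [hB]; ring

theorem DD_zero (h : Hyp d θ) (J : ℕ) : DD d θ J 0 ≤ 0 := by
  obtain ⟨C1, hC1, h1⟩ := early h J
  obtain ⟨C2, hC2, h2⟩ := late h J
  have hd : (0 : ℝ) ≤ d := Nat.cast_nonneg _
  refine final_num (D := fun j => DD d θ j 0) (C := C1 + C2 + 2 * (d + 1)) (by positivity) J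
    (fun _ => dv_nonneg) ?_
  have ht : Tendsto (fun n : ℕ => n ^ 4) atTop atTop := tendsto_pow_atTop (by norm_num)
  filter_upwards [ht.eventually h1, h2, eventually_ge_atTop 1] with n e1 e2 hn
  refine ⟨?_, fun j hj hj' => ?_, fun j hj hj' => ?_⟩
  · have := DD_start h (N := n ^ 4) (Nat.one_le_pow _ _ hn)
    push_cast at this
    refine this.trans ?_
    gcongr
    linarith
  · have := e1 j (by push_cast; exact hj) (by omega)
    push_cast at this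
    simp only [← pow_mul] at this
    have := dv_nonneg (P := PP d θ) (G := GG θ j 0) (f := fun ω => mag θ (Xc j (fun _ => 0) ω) 1)
    refine le_trans ‹_› ?_
    gcongr <;> linarith
  · have := dv_nonneg (P := PP d θ) (G := GG θ j 0) (f := fun ω => mag θ (Xc j (fun _ => 0) ω) 1)
    refine (e2 j hj hj').trans ?_
    gcongr <;> linarith

end Vale.Agent.P161E
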