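import Vale.Agent.P161E.Act

/-! Second moment of path sums of an even centred edge function.  Put `b = d - 1`, `‖F‖ = √(∫ F²)`,
`s = ∑ c, ‖e c‖` (so `s² ≤ d ∑ c, ∫ (e c)²`), `S k` = the left-hand side.
By `sum_sph_succ`, `S (k+1) = ∑_{z ∈ sph k} ∑_{c ∈ kids z} ∫ (psum z + e c (sh z ω))²`.  The squares give
at most `b S k` (`card_kids`; `S 0 = 0`) and `card (sph k) ∑ ∫ (e c)²`.  For the cross term shift by `z`
(`Act.integral_sh`, `Act.psum_sh`): `∫ psum (ext e ω) 1 z * e c (sh z ω) = ∫ psum (ext e ω) z⁻¹ z * e c ω`.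
So the cross term is `2 ∑_c ∫ e c * B k c` with `B k c = ∑_{y ∈ sph k, last letter of y.1 ≠ c} psum (ext e ω) y y⁻¹.1`
(`y = z⁻¹`; the sum of `e` along the path from `y` back to the root).  For `y = step c' u`, `c' ∈ kids u`:
`psum (ext e ω) y y⁻¹.1 = e c' (sh y ω) + psum (ext e ω) u u⁻¹.1` (`psum_append`), hence
`B (k+1) c = b B k c + ∑_{c'} ∑_{y ∈ Q c'} e c' (sh y ω)` with `Q c' ⊆ sph (k+1)` (`B 0 c = 0`), and
`A.temp` gives `‖B (k+1) c‖ ≤ b ‖B k c‖ + 2 (k+2) √b^(k+1) s`.  So `‖B k c‖ ≤ C b^k s` (e.g. prove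
`‖B k c‖ ≤ (C b^k - C' (k + C'') √b^k) s`, or sum the series `∑ (j+1) 2^(-j/2)`), and
`S (k+1) ≤ b S k + C b^k ∑ ∫ (e c)²`.  Working in `Lp ℝ 2 P` or with the inequality
`∫ (F + G)² ≤ (1 + t) ∫ F² + (1 + 1/t) ∫ G²` avoids square roots. -/

namespace Vale.Agent.P161E

open MeasureTheory Finset

variable {d : ℕ} {Ω : Type} {m0 : MeasurableSpace Ω} {P : Measure Ω} [IsProbabilityMeasure P]

lemma w1_amgm {g h : Ω → ℝ} (hg : BM m0 g) (hh : BM m0 h) {t a : ℝ} (ht : 0 < t)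
    (H : ∫ ω, h ω ^ 2 ∂P ≤ t ^ 2 * a) :
    ∫ ω, g ω * h ω ∂P ≤ t / 2 * (∫ ω, g ω ^ 2 ∂P + a) := by
  have i1 : Integrable (fun ω => t / 2 * g ω ^ 2) P := (hg.pow 2).integrable.const_mul _
  have i2 : Integrable (fun ω => 1 / (2 * t) * h ω ^ 2) P := (hh.pow 2).integrable.const_mul _
  have h1 : ∫ ω, g ω * h ω ∂P ≤ ∫ ω, (t / 2 * g ω ^ 2 + 1 / (2 * t) * h ω ^ 2) ∂P := by
    refine integral_mono (hg.mul hh).integrable (i1.add i2) fun ω => ?_
    have e : t / 2 * g ω ^ 2 + 1 / (2 * t) * h ω ^ 2 - g ω * h ω =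
        (t * g ω - h ω) ^ 2 / (2 * t) := by field_simp; ring
    have : 0 ≤ (t * g ω - h ω) ^ 2 / (2 * t) := by positivity
    show g ω * h ω ≤ t / 2 * g ω ^ 2 + 1 / (2 * t) * h ω ^ 2
    linarith
  rw [integral_add i1 i2, integral_const_mul, integral_const_mul] at h1
  have h2 : 1 / (2 * t) * ∫ ω, h ω ^ 2 ∂P ≤ 1 / (2 * t) * (t ^ 2 * a) :=
    mul_le_mul_of_nonneg_left H (by positivity)
  have e : 1 / (2 * t) * (t ^ 2 * a) = t / 2 * a := by field_simp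
  rw [e] at h2
  linarith

omit [IsProbabilityMeasure P] in
lemma Act.psum_BM (A : Act d P) {e : Fin d → Ω → ℝ} (he : ∀ c, BM m0 (e c)) (x : V d)
    (l : List (Fin d)) : BM m0 fun ω => psum (A.ext e ω) x l := by
  induction l with
  | nil => exact BM.const 0
  | cons c l ih => exact ih.add ((he c).comp (A.mp _).measurable)

lemma w1_kids_inv {u : V d} (hu : u ≠ 1) {c : Fin d} (hc : c ∈ kids u) :
    kids (step c u)⁻¹ = kids u⁻¹ := by
  ext a
  have h1 : u.1.reverse ≠ [] := fun h => hu (Subtype.ext (List.reverse_eq_nil_iff.1 h))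
  simp only [kids, mem_filter, mem_univ, true_and, inv_val, step_kid hc, List.reverse_cons]
  rw [List.head?_append_of_ne_nil _ h1]

lemma w1_psum_back (f : V d → Fin d → ℝ) {u : V d} {c : Fin d} (hc : c ∈ kids u) :
    psum f (step c u) (step c u)⁻¹.1 = f (step c u) c + psum f u u⁻¹.1 := by
  rw [inv_val, step_kid hc, List.reverse_cons, psum_append]
  simp [psum]

/-- Sum of the backward path sums over a sphere, avoiding the colour `c` at the root. -/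
noncomputable def w1B (f : V d → Fin d → ℝ) (k : ℕ) (c : Fin d) : ℝ :=
  ∑ y ∈ sph d k, if c ∈ kids y⁻¹ then psum f y y⁻¹.1 else 0

/-- Vertices with a given last colour and a forbidden first colour. -/
def w1Q (k : ℕ) (c c' : Fin d) : Finset (V d) :=
  (sph d k).filter fun y => y.1.head? = some c' ∧ c ∈ kids y⁻¹

lemma w1_card (hd : 3 ≤ d) {u : V d} (hu : u ≠ 1) : ((kids u).card : ℝ) = (d : ℝ) - 1 := by
  rw [card_kids hu, Nat.cast_sub (by omega), Nat.cast_one]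

lemma w1B_succ (hd : 3 ≤ d) (f : V d → Fin d → ℝ) (k : ℕ) (c : Fin d) :
    w1B f (k + 1) c = ((d : ℝ) - 1) * w1B f k c + ∑ c', ∑ y ∈ w1Q (k + 1) c c', f y c' := by
  have e1 : ∑ c', ∑ y ∈ w1Q (k + 1) c c', f y c' = ∑ u ∈ sph d k, ∑ a ∈ kids u,
      if c ∈ kids (step a u)⁻¹ then f (step a u) a else 0 := by
    simp only [w1Q, sum_filter]
    rw [sum_comm, sum_sph_succ]
    refine sum_congr rfl fun u _ => sum_congr rfl fun a ha => ?_
    rw [sum_eq_single a]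
    · simp [step_kid ha]
    · intro b _ hb
      rw [if_neg]
      rw [step_kid ha]
      exact fun h => hb (Option.some.inj h.1).symm
    · simp
  rw [e1, w1B, w1B, sum_sph_succ, mul_sum, ← sum_add_distrib]
  refine sum_congr rfl fun u _ => ?_
  by_cases hu : u = 1
  · subst hu
    have h0 : psum f 1 (1 : V d)⁻¹.1 = 0 := by simp [psum]
    rw [h0, ite_self, mul_zero, zero_add]
    refine sum_congr rfl fun a ha => ?_
    rw [w1_psum_back f ha, h0, add_zero]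
  · rw [← w1_card hd hu, ← nsmul_eq_mul, ← sum_const, ← sum_add_distrib]
    refine sum_congr rfl fun a ha => ?_
    rw [w1_psum_back f ha, w1_kids_inv hu ha]
    split_ifs <;> ring

omit [IsProbabilityMeasure P] in
lemma Act.w1B_BM (A : Act d P) {e : Fin d → Ω → ℝ} (he : ∀ c, BM m0 (e c)) (k : ℕ) (c : Fin d) :
    BM m0 fun ω => w1B (A.ext e ω) k c := by
  refine BM.sum _ fun y _ => ?_
  by_cases h : c ∈ kids y⁻¹
  · simp only [h, if_true]; exact A.psum_BM he _ _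
  · simp only [h, if_false]; exact BM.const 0

lemma Act.w1J_succ (A : Act d P) (hd : 3 ≤ d) {e : Fin d → Ω → ℝ} (he : ∀ c, BM m0 (e c))
    (hio : ∀ c ω, e c (A.io ω) = e c ω) (h0 : ∀ c, ∫ ω, e c ω ∂P = 0) (k : ℕ) :
    ∑ c, ∫ ω, e c ω * w1B (A.ext e ω) (k + 1) c ∂P ≤
      ((d : ℝ) - 1) * ∑ c, ∫ ω, e c ω * w1B (A.ext e ω) k c ∂P +
        2 * (k + 2) * √((d : ℝ) - 1) ^ (k + 1) * (d * ∑ c, ∫ ω, e c ω ^ 2 ∂P) := by
  have h3 : (3 : ℝ) ≤ d := by exact_mod_cast hd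
  set t : ℝ := 2 * (k + 2) * √((d : ℝ) - 1) ^ (k + 1) with ht
  have hr : 0 < √((d : ℝ) - 1) := Real.sqrt_pos.2 (by linarith)
  have ht0 : 0 < t := by positivity
  have hN : NN d (k + 1) = t ^ 2 := by
    rw [ht, NN, mul_pow, mul_pow, ← pow_mul, mul_comm (k + 1) 2, pow_mul,
      Real.sq_sqrt (by linarith)]
    push_cast
    ring
  have hQ : ∀ c c', BM m0 fun ω => ∑ y ∈ w1Q (k + 1) c c', e c' (A.sh y ω) := fun c c' =>
    BM.sum _ fun y _ => (he c').comp (A.mp y).measurable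
  have h1 : ∀ c, ∫ ω, e c ω * w1B (A.ext e ω) (k + 1) c ∂P ≤
      ((d : ℝ) - 1) * ∫ ω, e c ω * w1B (A.ext e ω) k c ∂P +
        ∑ c', t / 2 * (∫ ω, e c ω ^ 2 ∂P + ∫ ω, e c' ω ^ 2 ∂P) := fun c => by
    have e1 : (fun ω => e c ω * w1B (A.ext e ω) (k + 1) c) = fun ω =>
        ((d : ℝ) - 1) * (e c ω * w1B (A.ext e ω) k c) +
          ∑ c', e c ω * ∑ y ∈ w1Q (k + 1) c c', e c' (A.sh y ω) := by
      funext ω
      rw [w1B_succ hd, ← mul_sum]
      simp only [Act.ext]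
      ring
    have i1 : Integrable (fun ω => ((d : ℝ) - 1) * (e c ω * w1B (A.ext e ω) k c)) P :=
      ((he c).mul (A.w1B_BM he k c)).integrable.const_mul _
    have i2 : ∀ c', Integrable
        (fun ω => e c ω * ∑ y ∈ w1Q (k + 1) c c', e c' (A.sh y ω)) P := fun c' =>
      ((he c).mul (hQ c c')).integrable
    rw [e1, integral_add i1 (integrable_finsetSum _ fun c' _ => i2 c'), integral_const_mul,
      integral_finsetSum _ fun c' _ => i2 c']
    refine add_le_add le_rfl (sum_le_sum fun c' _ => w1_amgm (he c) (hQ c c') ht0 ?_)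
    rw [← hN]
    exact A.temp _ (he c') (hio c') (h0 c') _ _ (filter_subset _ _)
  refine (sum_le_sum fun c _ => h1 c).trans (le_of_eq ?_)
  rw [sum_add_distrib, ← mul_sum]
  congr 1
  simp only [← mul_sum, sum_add_distrib, sum_const, card_univ, Fintype.card_fin, nsmul_eq_mul]
  ring

lemma Act.w1J_le (A : Act d P) (hd : 3 ≤ d) {e : Fin d → Ω → ℝ} (he : ∀ c, BM m0 (e c))
    (hio : ∀ c ω, e c (A.io ω) = e c ω) (h0 : ∀ c, ∫ ω, e c ω ∂P = 0) (k : ℕ) :
    ∑ c, ∫ ω, e c ω * w1B (A.ext e ω) k c ∂P ≤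
      (25 * ((d : ℝ) - 1) ^ k - 5 * (k + 5) * √((d : ℝ) - 1) ^ k) *
        (d * ∑ c, ∫ ω, e c ω ^ 2 ∂P) := by
  have h3 : (3 : ℝ) ≤ d := by exact_mod_cast hd
  have hE : 0 ≤ d * ∑ c, ∫ ω, e c ω ^ 2 ∂P :=
    mul_nonneg (by linarith) (sum_nonneg fun c _ => integral_nonneg fun ω => sq_nonneg _)
  induction k with
  | zero => simp [w1B, sph, psum]; norm_num
  | succ k ih =>
    refine (A.w1J_succ hd he hio h0 k).trans ?_
    have h1 := mul_le_mul_of_nonneg_left ih (by linarith : (0 : ℝ) ≤ (d : ℝ) - 1)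
    refine (add_le_add h1 le_rfl).trans ?_
    rw [← mul_assoc, ← add_mul]
    refine mul_le_mul_of_nonneg_right ?_ hE
    have hr : 7 / 5 ≤ √((d : ℝ) - 1) := Real.le_sqrt_of_sq_le (by linarith)
    have hs : √((d : ℝ) - 1) ^ 2 = (d : ℝ) - 1 := Real.sq_sqrt (by linarith)
    generalize √((d : ℝ) - 1) = r at hr hs
    have hk : (0 : ℝ) ≤ k := Nat.cast_nonneg k
    have hp : 0 ≤ r ^ (k + 1) := by positivity
    have h2 : 0 ≤ r ^ (k + 1) * (5 * (k + 5) * r - 5 * (k + 6) - 2 * (k + 2)) :=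
      mul_nonneg hp (by nlinarith)
    have e1 : ((d : ℝ) - 1) * r ^ k = r ^ (k + 1) * r := by rw [← hs]; ring
    push_cast
    have e2 : ((d : ℝ) - 1) * (25 * ((d : ℝ) - 1) ^ k - 5 * (k + 5) * r ^ k) =
        25 * ((d : ℝ) - 1) ^ (k + 1) - 5 * (k + 5) * (((d : ℝ) - 1) * r ^ k) := by ring
    rw [e2, e1]
    nlinarith

lemma Act.w1S_succ (A : Act d P) (hd : 3 ≤ d) {e : Fin d → Ω → ℝ} (he : ∀ c, BM m0 (e c))
    (k : ℕ) :
    ∑ w ∈ sph d (k + 1), ∫ ω, psum (A.ext e ω) 1 w.1 ^ 2 ∂P ≤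
      ((d : ℝ) - 1) * ∑ w ∈ sph d k, ∫ ω, psum (A.ext e ω) 1 w.1 ^ 2 ∂P +
        2 * ∑ c, ∫ ω, e c ω * w1B (A.ext e ω) k c ∂P +
          (sph d k).card * ∑ c, ∫ ω, e c ω ^ 2 ∂P := by
  have h1 : ∀ z : V d, ∀ c ∈ kids z, ∫ ω, psum (A.ext e ω) 1 (step c z).1 ^ 2 ∂P =
      ∫ ω, psum (A.ext e ω) 1 z.1 ^ 2 ∂P + 2 * ∫ ω, e c ω * psum (A.ext e ω) z⁻¹ z.1 ∂P +
        ∫ ω, e c ω ^ 2 ∂P := fun z c hc => by
    have b1 := A.psum_BM he 1 z.1
    have b2 : BM m0 fun ω => e c (A.sh z ω) := (he c).comp (A.mp z).measurable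
    have e1 : (fun ω => psum (A.ext e ω) 1 (step c z).1 ^ 2) = fun ω =>
        psum (A.ext e ω) 1 z.1 ^ 2 + 2 * (e c (A.sh z ω) * psum (A.ext e ω) 1 z.1) +
          e c (A.sh z ω) ^ 2 := by
      funext ω
      rw [step_kid hc, psum, walk_one]
      simp only [Act.ext]
      ring
    have i1 : Integrable (fun ω => 2 * (e c (A.sh z ω) * psum (A.ext e ω) 1 z.1)) P :=
      (b2.mul b1).integrable.const_mul _
    have i2 : Integrable (fun ω => psum (A.ext e ω) 1 z.1 ^ 2 +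
        2 * (e c (A.sh z ω) * psum (A.ext e ω) 1 z.1)) P := (b1.pow 2).integrable.add i1
    rw [e1, integral_add i2 (b2.pow 2).integrable, integral_add (b1.pow 2).integrable i1,
      integral_const_mul, A.integral_sh z ((he c).pow 2).meas,
      ← A.integral_sh z ((he c).mul (A.psum_BM he z⁻¹ z.1)).meas]
    simp only [A.psum_sh, mul_inv_cancel]
  rw [sum_sph_succ (fun w => ∫ ω, psum (A.ext e ω) 1 w.1 ^ 2 ∂P),
    sum_congr rfl fun z _ => sum_congr rfl (h1 z)]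
  simp only [sum_add_distrib]
  refine add_le_add (add_le_add (le_of_eq ?_) (le_of_eq ?_)) ?_
  · rw [mul_sum]
    refine sum_congr rfl fun z _ => ?_
    by_cases hz : z = 1
    · subst hz; simp [psum]
    · rw [sum_const, nsmul_eq_mul, w1_card hd hz]
  · simp only [← mul_sum]
    congr 1
    have e2 : ∀ c, ∫ ω, e c ω * w1B (A.ext e ω) k c ∂P = ∑ y ∈ sph d k,
        if c ∈ kids y⁻¹ then ∫ ω, e c ω * psum (A.ext e ω) y y⁻¹.1 ∂P else 0 := fun c => by
      simp only [w1B, mul_sum]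
      rw [integral_finsetSum]
      · refine sum_congr rfl fun y _ => ?_
        by_cases h : c ∈ kids y⁻¹ <;> simp only [h, if_true, if_false, mul_zero, integral_zero]
      · intro y _
        by_cases h : c ∈ kids y⁻¹
        · simp only [h, if_true]; exact ((he c).mul (A.psum_BM he _ _)).integrable
        · simp only [h, if_false, mul_zero]; exact integrable_zero _ _ _
    simp only [e2]
    rw [sum_comm, ← sum_sph_inv]
    refine sum_congr rfl fun y _ => ?_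
    rw [← sum_filter, filter_mem_eq_inter, univ_inter, inv_inv]
  · rw [← nsmul_eq_mul]
    refine sum_le_card_nsmul _ _ _ fun z _ => ?_
    exact sum_le_sum_of_subset_of_nonneg (subset_univ _)
      fun c _ _ => integral_nonneg fun ω => sq_nonneg _

theorem Act.W1 (A : Act d P) (hd : 3 ≤ d) : ∃ C : ℝ, 0 ≤ C ∧ ∀ e : Fin d → Ω → ℝ,
    (∀ c, BM m0 (e c)) → (∀ c ω, e c (A.io ω) = e c ω) → (∀ c, ∫ ω, e c ω ∂P = 0) → ∀ k : ℕ,
    ∑ w ∈ sph d k, ∫ ω, psum (A.ext e ω) 1 w.1 ^ 2 ∂P ≤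
      C * k * ((d : ℝ) - 1) ^ k * ∑ c, ∫ ω, e c ω ^ 2 ∂P := by
  refine ⟨50 * d + 2, by positivity, fun e he hio h0 k => ?_⟩
  have h3 : (3 : ℝ) ≤ d := by exact_mod_cast hd
  have hE : 0 ≤ ∑ c, ∫ ω, e c ω ^ 2 ∂P :=
    sum_nonneg fun c _ => integral_nonneg fun ω => sq_nonneg _
  induction k with
  | zero => simp [sph, psum]
  | succ k ih =>
    have h1 := A.w1S_succ hd he k
    have h2 := A.w1J_le hd he hio h0 k
    have h4 := mul_le_mul_of_nonneg_right (card_sph_le hd k) hE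
    have h5 := mul_le_mul_of_nonneg_left ih (by linarith : (0 : ℝ) ≤ (d : ℝ) - 1)
    have hp : 0 ≤ ((d : ℝ) - 1) ^ k := pow_nonneg (by linarith) _
    have h6 : 0 ≤ 5 * ((k : ℝ) + 5) * √((d : ℝ) - 1) ^ k * (d * ∑ c, ∫ ω, e c ω ^ 2 ∂P) := by
      positivity
    generalize ∑ c, ∫ ω, e c ω ^ 2 ∂P = E at *
    have h7 : 0 ≤ ((d : ℝ) - 1) ^ k * E := mul_nonneg hp hE
    have h8 : (50 * d + 2) * (((d : ℝ) - 1) ^ k * E) ≤
        (50 * d + 2) * (((d : ℝ) - 1) ^ k * E) * ((d : ℝ) - 1) :=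
      le_mul_of_one_le_right (by positivity) (by linarith)
    push_cast
    rw [pow_succ]
    nlinarith

end Vale.Agent.P161E
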