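import Vale.Agent.P161E.Act

/-! Weighted second moment of path sums of a nonnegative edge function (mass transport).
`path_split` is deterministic.  For a reduced word `w` with vertices `v₀ = 1, …, v_k = w` and edges
`(v_{i-1}, c_i)`: `(∑ α_i)² ≤ 2 ∑_{i ≤ i'} α_i α_{i'}`; for `i ≤ i'` write `w = x p s` with `x = v_{i-1}`,
`x p = v_{i'}`; then `pprod f 1 w ≤ pprod f 1 x * pprod f (x p) s` (`pprod_append`, `pprod_mem`),
`α_i ≤ ∑_c α x c`, `α_{i'} ≤ ∑_c α (step c (x p)) c`, `len w = len x + len p + len s`, and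
`(w, i, i') ↦ (x, p, s)` is injective (`Finset.sum_le_sum_of_injOn`-type lemmas, or two applications
of a one-cut lemma `∑_{w ∈ ball K} ∑_{cuts w = x y} F x y ≤ ∑_{x ∈ ball K} ∑_{y ∈ ball K} F x y`).
`W3`: integrate `path_split`; the sum over `s` is at most `Γ (sh (x p) ω)` (`Dom.fwd`, `Act.ae_sh`,
`Act.pprod_sh`); shift by `x` (`Act.integral_sh`), sum over `x` (`sum_ball_inv`, `Dom.bwd`) to get
`2 ∑_{p ∈ ball K} θ^(2 len p) ∫ β ω * β (sh p ω)`.  Write `β = β₀ + ∫ β`; the constant part gives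
`3/2 (K+1) (∫ β)²` (`sph_weight`), and by Cauchy-Schwarz and `A.temp`,
`θ^(2j) ∫ β₀ ∑_{p ∈ sph j} β₀ (sh p ·) ≤ θ^(2j) √(NN d j) ∫ β₀² ≤ 2 (j+1) 2^(-j/2) ∫ β²`, which is summable. -/

namespace Vale.Agent.P161E

open MeasureTheory Finset

variable {d : ℕ} {θ : ℝ}

/-- the part of the word walked first -/
def w3suf (i : ℕ) (w : V d) : V d := ⟨w.1.drop i, w.2.drop i⟩

/-- the part of the word walked last -/
def w3pre (i : ℕ) (w : V d) : V d := ⟨w.1.take i, w.2.take i⟩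

lemma w3_walk (i : ℕ) (w : V d) : walk 1 (w.1.drop i) = w3suf i w := walk_one (w3suf i w)

lemma w3_mul (i : ℕ) (w : V d) : w3suf i w * w3pre i w = w := by
  rw [mul_def, ← w3_walk]
  change walk _ (w.1.take i) = w
  rw [← walk_append, List.take_append_drop, walk_one]

lemma w3_len (i : ℕ) (w : V d) : len w = len (w3suf i w) + len (w3pre i w) := by
  simp only [len, w3suf, w3pre, List.length_drop, List.length_take]; omega

lemma w3_pprod (f : V d → Fin d → ℝ) (i : ℕ) (w : V d) :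
    pprod f 1 w.1 = pprod f 1 (w3suf i w).1 * pprod f (w3suf i w) (w3pre i w).1 := by
  conv_lhs => rw [← List.take_append_drop i w.1]
  rw [pprod_append, w3_walk]; rfl

lemma w3_cut {F : V d → V d → ℝ} (hF : ∀ x y, 0 ≤ F x y) (K : ℕ) :
    ∑ w ∈ ball d K, ∑ i ∈ range (len w + 1), F (w3suf i w) (w3pre i w) ≤
      ∑ x ∈ ball d K, ∑ y ∈ ball d K, F x y := by
  classical
  rw [sum_sigma', ← sum_product']
  have hinj : Set.InjOn (fun p : (_ : V d) × ℕ => (w3suf p.2 p.1, w3pre p.2 p.1))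
      ((ball d K).sigma fun w => range (len w + 1) : Finset _) := by
    rintro ⟨w, i⟩ hw ⟨w', i'⟩ hw' h
    simp only [coe_sigma, Set.mem_sigma_iff, mem_coe, mem_range, Prod.mk.injEq] at hw hw' h
    have e : w = w' := by rw [← w3_mul i w, ← w3_mul i' w', h.1, h.2]
    subst e
    have := congrArg len h.2
    simp only [len, w3pre, List.length_take] at this hw hw'
    have : i = i' := by omega
    rw [this]
  rw [← sum_image (f := fun q : V d × V d => F q.1 q.2) hinj]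
  refine sum_le_sum_of_subset_of_nonneg ?_ fun q _ _ => hF _ _
  intro q hq
  obtain ⟨⟨w, i⟩, hw, rfl⟩ := mem_image.1 hq
  have h1 := mem_ball.1 (mem_sigma.1 hw).1
  have h2 := w3_len i w
  simp only [mem_product, mem_ball] at h1 ⊢
  constructor <;> omega

lemma w3_one {α : V d → Fin d → ℝ} (hα : ∀ y c, 0 ≤ α y c) (l : List (Fin d)) :
    psum α 1 l ≤ ∑ i ∈ range (l.length + 1), ∑ c, α (walk 1 (l.drop i)) c - ∑ c, α (walk 1 l) c := by
  induction l with
  | nil => simp [psum]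
  | cons c l ih =>
    rw [List.length_cons, sum_range_succ']
    simp only [psum, List.drop_succ_cons, List.drop_zero]
    have := single_le_sum (f := fun c' => α (walk 1 l) c') (fun c' _ => hα _ c') (mem_univ c)
    linarith

lemma w3_psum_nonneg {α : V d → Fin d → ℝ} (hα : ∀ y c, 0 ≤ α y c) (l : List (Fin d)) :
    0 ≤ psum α 1 l := by
  induction l with
  | nil => simp [psum]
  | cons c l ih => exact add_nonneg ih (hα _ _)

lemma w3_two {α : V d → Fin d → ℝ} (hα : ∀ y c, 0 ≤ α y c) (l : List (Fin d)) :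
    psum α 1 l ^ 2 ≤ 2 * ∑ j ∈ range (l.length + 1), (∑ c, α (step c (walk 1 (l.drop j))) c) *
      ∑ i ∈ range ((l.drop j).length + 1), ∑ c, α (walk 1 ((l.drop j).drop i)) c := by
  induction l with
  | nil =>
    simp only [psum]
    have : 0 ≤ ∑ j ∈ range (([] : List (Fin d)).length + 1),
        (∑ c, α (step c (walk 1 (([] : List (Fin d)).drop j))) c) *
      ∑ i ∈ range ((([] : List (Fin d)).drop j).length + 1),
        ∑ c, α (walk 1 ((([] : List (Fin d)).drop j).drop i)) c :=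
      sum_nonneg fun _ _ => mul_nonneg (sum_nonneg fun _ _ => hα _ _)
        (sum_nonneg fun _ _ => sum_nonneg fun _ _ => hα _ _)
    linarith
  | cons c l ih =>
    rw [List.length_cons, sum_range_succ']
    simp only [List.drop_succ_cons, List.drop_zero]
    have h1 := w3_one hα (c :: l)
    have h2 : 0 ≤ ∑ c', α (walk 1 (c :: l)) c' := sum_nonneg fun _ _ => hα _ _
    have h3 := single_le_sum (f := fun c' => α (step c' (walk 1 (c :: l))) c')
      (fun c' _ => hα _ c') (mem_univ c)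
    simp only [walk_cons, step_step] at h3
    have h4 := w3_psum_nonneg hα l
    have h5 := hα (walk 1 l) c
    have h6 : psum α 1 (c :: l) = psum α 1 l + α (walk 1 l) c := rfl
    have h7 := mul_le_mul h3 (h1.trans (sub_le_self _ h2)) (w3_psum_nonneg hα _) (h5.trans h3)
    simp only [walk_cons] at h7 ⊢
    rw [h6] at h7 ⊢
    nlinarith [mul_nonneg h5 h5]

lemma w3_pow (θ : ℝ) (k : ℕ) : 0 ≤ θ ^ (2 * k) := (even_two_mul k).pow_nonneg θ

lemma w3_Gsum_nonneg (K : ℕ) (ρ : V d → ℝ) : 0 ≤ Gsum θ K ρ :=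
  sum_nonneg fun _ _ => mul_nonneg (w3_pow _ _) (sq_nonneg _)

lemma path_split {f α : V d → Fin d → ℝ} (hf : ∀ y c, 0 ≤ f y c ∧ f y c ≤ 1)
    (hα : ∀ y c, 0 ≤ α y c) (K : ℕ) :
    ∑ w ∈ ball d K, θ ^ (2 * len w) * (pprod f 1 w.1 ^ 2 * psum α 1 w.1 ^ 2) ≤
      2 * ∑ x ∈ ball d K, ∑ p ∈ ball d K, θ ^ (2 * len x) * pprod f 1 x.1 ^ 2 * (∑ c, α x c) *
        (θ ^ (2 * len p) * (∑ c, α (step c (x * p)) c) *
          Gsum θ K fun s => pprod f (x * p) s.1) := by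
  have ha : ∀ y, 0 ≤ ∑ c, α y c := fun y => sum_nonneg fun _ _ => hα _ _
  have ha' : ∀ y, 0 ≤ ∑ c, α (step c y) c := fun y => sum_nonneg fun _ _ => hα _ _
  set F : V d → V d → ℝ := fun y s => θ ^ (2 * len y) * pprod f 1 y.1 ^ 2 *
    ((∑ c, α (step c y) c) * ∑ i ∈ range (len y + 1), ∑ c, α (w3suf i y) c) *
      (θ ^ (2 * len s) * pprod f y s.1 ^ 2) with hF
  have F0 : ∀ y s, 0 ≤ F y s := fun y s =>
    mul_nonneg (mul_nonneg (mul_nonneg (w3_pow _ _) (sq_nonneg _))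
      (mul_nonneg (ha' _) (sum_nonneg fun _ _ => ha _))) (mul_nonneg (w3_pow _ _) (sq_nonneg _))
  have s1 : ∑ w ∈ ball d K, θ ^ (2 * len w) * (pprod f 1 w.1 ^ 2 * psum α 1 w.1 ^ 2) ≤
      2 * ∑ w ∈ ball d K, ∑ j ∈ range (len w + 1), F (w3suf j w) (w3pre j w) := by
    rw [mul_sum]
    refine sum_le_sum fun w _ => ?_
    have h1 := mul_le_mul_of_nonneg_left (w3_two hα w.1)
      (mul_nonneg (w3_pow θ (len w)) (sq_nonneg (pprod f 1 w.1)))
    rw [← mul_assoc]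
    refine h1.trans (le_of_eq ?_)
    rw [mul_left_comm, mul_sum]
    congr 1
    refine sum_congr rfl fun j _ => ?_
    have e1 : ∀ i, walk 1 ((w.1.drop j).drop i) = w3suf i (w3suf j w) := fun i =>
      w3_walk i (w3suf j w)
    simp only [e1, w3_walk, hF]
    rw [w3_pprod f j w, w3_len j w, mul_add, pow_add]
    change _ * (_ * ∑ i ∈ range (len (w3suf j w) + 1), _) = _
    ring
  set F2 : V d → V d → ℝ := fun x p => θ ^ (2 * len x) * pprod f 1 x.1 ^ 2 * (∑ c, α x c) *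
        (θ ^ (2 * len p) * (∑ c, α (step c (x * p)) c) *
          Gsum θ K fun s => pprod f (x * p) s.1) with hF2
  have F20 : ∀ x p, 0 ≤ F2 x p := fun x p =>
    mul_nonneg (mul_nonneg (mul_nonneg (w3_pow _ _) (sq_nonneg _)) (ha _))
      (mul_nonneg (mul_nonneg (w3_pow _ _) (ha' _)) (w3_Gsum_nonneg _ _))
  have s2 : ∑ y ∈ ball d K, ∑ s ∈ ball d K, F y s ≤
      ∑ y ∈ ball d K, ∑ i ∈ range (len y + 1), F2 (w3suf i y) (w3pre i y) := by
    refine sum_le_sum fun y _ => ?_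
    simp only [hF]
    rw [← mul_sum, mul_sum (range (len y + 1)), mul_sum (range (len y + 1)), sum_mul]
    refine sum_le_sum fun i _ => ?_
    simp only [hF2, w3_mul]
    rw [w3_pprod f i y, w3_len i y, mul_add, pow_add]
    have h1 := pprod_mem hf (w3suf i y) (w3pre i y).1
    have h2 : pprod f (w3suf i y) (w3pre i y).1 ^ 2 ≤ 1 := by nlinarith [h1.1, h1.2]
    have h3 := F20 (w3suf i y) (w3pre i y)
    simp only [hF2, w3_mul] at h3
    have h4 := mul_le_mul_of_nonneg_left h2 h3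
    refine le_trans (le_of_eq ?_) (h4.trans (le_of_eq (mul_one _)))
    simp only [Gsum]
    ring
  have s3 := w3_cut F0 K
  have s4 := w3_cut F20 K
  linarith

variable {Ω : Type} {m0 : MeasurableSpace Ω} {P : Measure Ω} [IsProbabilityMeasure P]

/-- The weighted size of `α` around the root. -/
noncomputable def Act.beta (A : Act d P) (α : Fin d → Ω → ℝ) (Γ : Ω → ℝ) (ω : Ω) : ℝ :=
  (∑ c, α c ω + ∑ c, α c (A.sh (step c 1) ω)) * Γ ω

lemma w3_summable : Summable fun j : ℕ => (3 / 4 : ℝ) ^ j + 4 * ((j : ℝ) + 1) ^ 2 * (2 / 3) ^ j := by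
  have hr : ‖(2 / 3 : ℝ)‖ < 1 := by norm_num
  have h2 := summable_pow_mul_geometric_of_norm_lt_one 2 hr
  have h1 := summable_pow_mul_geometric_of_norm_lt_one 1 hr
  have h0 := summable_pow_mul_geometric_of_norm_lt_one 0 hr
  refine (summable_geometric_of_lt_one (by norm_num) (by norm_num)).add ?_
  refine (((h2.add (h1.mul_left 2)).add h0).mul_left 4).congr fun j => ?_
  ring

omit [IsProbabilityMeasure P] in
lemma w3_BM_sh (A : Act d P) {F : Ω → ℝ} (hF : BM m0 F) (x : V d) :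
    BM m0 fun ω => F (A.sh x ω) := hF.comp (A.mp x).measurable

omit [IsProbabilityMeasure P] in
lemma w3_BM_pprod (A : Act d P) {f : Fin d → Ω → ℝ} (hf : Unit01 m0 f) (x : V d)
    (l : List (Fin d)) : BM m0 fun ω => pprod (A.ext f ω) x l :=
  ⟨A.measurable_pprod (fun y => (A.mp y).measurable) (fun c => (hf c).1) x l, 1, fun ω => by
    have := A.pprod_mem hf x l ω
    rw [abs_of_nonneg this.1]; exact this.2⟩

omit [IsProbabilityMeasure P] in
lemma w3_BM_psum (A : Act d P) {e : Fin d → Ω → ℝ} (he : ∀ c, BM m0 (e c)) (x : V d)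
    (l : List (Fin d)) : BM m0 fun ω => psum (A.ext e ω) x l := by
  induction l with
  | nil => exact BM.const 0
  | cons c l ih => exact ih.add (w3_BM_sh A (he c) _)

lemma w3_corr (A : Act d P) (h : Hyp d θ) {β : Ω → ℝ} (hβ : BM m0 β)
    (he : ∀ ω, β (A.io ω) = β ω) (j : ℕ) :
    ∑ p ∈ sph d j, θ ^ (2 * len p) * ∫ ω, β ω * β (A.sh p ω) ∂P ≤
      3 / 2 * (∫ ω, β ω ∂P) ^ 2 +
        ((3 / 4 : ℝ) ^ j + 4 * ((j : ℝ) + 1) ^ 2 * (2 / 3) ^ j) / 2 * ∫ ω, β ω ^ 2 ∂P := by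
  set μ := ∫ ω, β ω ∂P with hμ
  have b0 : BM m0 fun ω => β ω - μ := hβ.sub (BM.const μ)
  have z0 : ∫ ω, (β ω - μ) ∂P = 0 := by
    rw [integral_sub hβ.integrable (integrable_const _)]; simp [hμ]
  have e1 : ∀ p, ∫ ω, β ω * β (A.sh p ω) ∂P =
      ∫ ω, (β ω - μ) * (β (A.sh p ω) - μ) ∂P + μ ^ 2 := by
    intro p
    have hs := w3_BM_sh A hβ p
    have : ∀ ω, (β ω - μ) * (β (A.sh p ω) - μ) =
        β ω * β (A.sh p ω) - μ * β ω - μ * β (A.sh p ω) + μ ^ 2 := fun ω => by ring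
    simp only [this]
    rw [integral_add (((hβ.mul hs).sub ((BM.const μ).mul hβ)).sub ((BM.const μ).mul hs)).integrable
      (integrable_const _), integral_sub ((hβ.mul hs).sub ((BM.const μ).mul hβ)).integrable
      ((BM.const μ).mul hs).integrable, integral_sub (hβ.mul hs).integrable
      ((BM.const μ).mul hβ).integrable, integral_const_mul, integral_const_mul,
      A.integral_sh p hβ.meas]
    simp only [integral_const, probReal_univ, smul_eq_mul, one_mul, ← hμ]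
    ring
  have e2 : ∫ ω, (β ω - μ) ^ 2 ∂P ≤ ∫ ω, β ω ^ 2 ∂P := by
    have := e1 1
    simp only [A.sh_one, ← sq] at this
    nlinarith [sq_nonneg μ]
  have e3 := A.temp _ b0 (fun ω => by simp only [he]) z0 j _ subset_rfl
  have bS : BM m0 fun ω => ∑ q ∈ sph d j, (β (A.sh q ω) - μ) :=
    BM.sum _ fun q _ => w3_BM_sh A b0 q
  have e4 : ∑ p ∈ sph d j, θ ^ (2 * len p) * ∫ ω, β ω * β (A.sh p ω) ∂P =
      θ ^ (2 * j) * (sph d j).card * μ ^ 2 +
        ∫ ω, θ ^ (2 * j) * ((β ω - μ) * ∑ q ∈ sph d j, (β (A.sh q ω) - μ)) ∂P := by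
    rw [integral_const_mul]
    simp only [mul_sum]
    rw [integral_finsetSum _ fun q _ => (b0.mul (w3_BM_sh A b0 q)).integrable]
    rw [sum_congr rfl fun p hp => by rw [mem_sph.1 hp, e1 p]]
    simp only [mul_add, sum_add_distrib, sum_const, nsmul_eq_mul, ← mul_sum]
    ring
  have t0 : (0 : ℝ) < (3 / 4) ^ j := by positivity
  have e5 : ∫ ω, θ ^ (2 * j) * ((β ω - μ) * ∑ q ∈ sph d j, (β (A.sh q ω) - μ)) ∂P ≤
      (3 / 4) ^ j / 2 * ∫ ω, (β ω - μ) ^ 2 ∂P + (θ ^ (2 * j)) ^ 2 / (3 / 4) ^ j / 2 *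
        ∫ ω, (∑ q ∈ sph d j, (β (A.sh q ω) - μ)) ^ 2 ∂P := by
    rw [← integral_const_mul, ← integral_const_mul, ← integral_add
      ((BM.const _).mul (b0.pow 2)).integrable ((BM.const _).mul (bS.pow 2)).integrable]
    refine integral_mono ((BM.const _).mul (b0.mul bS)).integrable
      (((BM.const _).mul (b0.pow 2)).add ((BM.const _).mul (bS.pow 2))).integrable fun ω => ?_
    simp only
    set x := β ω - μ
    set y := ∑ q ∈ sph d j, (β (A.sh q ω) - μ)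
    set t : ℝ := (3 / 4) ^ j
    set u := θ ^ (2 * j)
    have : t / 2 * x ^ 2 + u ^ 2 / t / 2 * y ^ 2 - u * (x * y) = (t * x - u * y) ^ 2 / (2 * t) := by
      field_simp; ring
    have h2 : 0 ≤ (t * x - u * y) ^ 2 / (2 * t) := by positivity
    linarith
  have e6 : (θ ^ (2 * j)) ^ 2 / (3 / 4) ^ j * NN d j ≤ 4 * ((j : ℝ) + 1) ^ 2 * (2 / 3) ^ j := by
    have hb : (0 : ℝ) ≤ (d : ℝ) - 1 := by
      have : (3 : ℝ) ≤ d := by exact_mod_cast h.hd
      linarith
    have k1 : θ ^ 2 * θ ^ 2 * ((d : ℝ) - 1) ≤ 1 / 2 := by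
      have := h.h1; have := h.sq_le; nlinarith [sq_nonneg θ]
    have k2 : (θ ^ 2 * θ ^ 2 * ((d : ℝ) - 1)) ^ j ≤ (1 / 2) ^ j :=
      pow_le_pow_left₀ (by positivity) k1 j
    have k3 : (θ ^ (2 * j)) ^ 2 / (3 / 4) ^ j * NN d j =
        4 * ((j : ℝ) + 1) ^ 2 * ((θ ^ 2 * θ ^ 2 * ((d : ℝ) - 1)) ^ j / (3 / 4) ^ j) := by
      simp only [NN, mul_pow, pow_mul]; ring
    rw [k3]
    refine mul_le_mul_of_nonneg_left ?_ (by positivity)
    rw [div_le_iff₀ t0, ← mul_pow (2 / 3 : ℝ)]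
    norm_num
    simpa using k2
  have v0 : 0 ≤ ∫ ω, (β ω - μ) ^ 2 ∂P := integral_nonneg fun _ => sq_nonneg _
  have e7 := mul_le_mul_of_nonneg_left e3
    (by positivity : 0 ≤ (θ ^ (2 * j)) ^ 2 / (3 / 4) ^ j / 2)
  have e8 := mul_le_mul_of_nonneg_right e6 v0
  have e9 := mul_le_mul_of_nonneg_right (sph_weight h j) (sq_nonneg μ)
  have e10 := mul_le_mul_of_nonneg_left e2
    (by positivity : 0 ≤ ((3 / 4 : ℝ) ^ j + 4 * ((j : ℝ) + 1) ^ 2 * (2 / 3) ^ j) / 2)
  rw [e4]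
  nlinarith

theorem Act.W3 (A : Act d P) (h : Hyp d θ) : ∃ C : ℝ, 0 ≤ C ∧
    ∀ (f α : Fin d → Ω → ℝ) (Γ : Ω → ℝ) (K : ℕ), Unit01 m0 f → (∀ c, BM m0 (α c)) →
    (∀ c ω, 0 ≤ α c ω) → (∀ c ω, α c (A.io ω) = α c ω) → A.Dom θ K f Γ → BM m0 Γ →
    ∑ w ∈ ball d K, θ ^ (2 * len w) *
        ∫ ω, pprod (A.ext f ω) 1 w.1 ^ 2 * psum (A.ext α ω) 1 w.1 ^ 2 ∂P ≤
      C * ((K + 1) * (∫ ω, A.beta α Γ ω ∂P) ^ 2 + ∫ ω, A.beta α Γ ω ^ 2 ∂P) := by
  set C0 := ∑' j : ℕ, ((3 / 4 : ℝ) ^ j + 4 * ((j : ℝ) + 1) ^ 2 * (2 / 3) ^ j) with hC0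
  have C00 : 0 ≤ C0 := tsum_nonneg fun j => by positivity
  refine ⟨3 + C0, by linarith, fun f α Γ K hf hα h0 he hD hΓ => ?_⟩
  set a : Ω → ℝ := fun ω => ∑ c, α c ω with ha
  set a' : Ω → ℝ := fun ω => ∑ c, α c (A.sh (step c 1) ω) with ha'
  have ba : BM m0 a := BM.sum _ fun c _ => hα c
  have ba' : BM m0 a' := BM.sum _ fun c _ => w3_BM_sh A (hα c) _
  have a0 : ∀ ω, 0 ≤ a ω := fun ω => sum_nonneg fun c _ => h0 _ _
  have a0' : ∀ ω, 0 ≤ a' ω := fun ω => sum_nonneg fun c _ => h0 _ _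
  have bβ : BM m0 (A.beta α Γ) := (ba.add ba').mul hΓ
  have eβ : ∀ ω, A.beta α Γ (A.io ω) = A.beta α Γ ω := fun ω => by
    simp only [Act.beta, A.io_sh, he, hD.even]
  set U : V d → V d → Ω → ℝ := fun x p ω => θ ^ (2 * len x) * pprod (A.ext f ω) x⁻¹ x.1 ^ 2 *
    a ω * (θ ^ (2 * len p) * a' (A.sh p ω) * Γ (A.sh p ω)) with hU
  have bU : ∀ x p, BM m0 (U x p) := fun x p =>
    (((BM.const _).mul ((w3_BM_pprod A hf _ _).pow 2)).mul ba).mul
      (((BM.const _).mul (w3_BM_sh A ba' p)).mul (w3_BM_sh A hΓ p))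
  have s1 : ∑ w ∈ ball d K, θ ^ (2 * len w) *
        ∫ ω, pprod (A.ext f ω) 1 w.1 ^ 2 * psum (A.ext α ω) 1 w.1 ^ 2 ∂P ≤
      ∫ ω, 2 * ∑ x ∈ ball d K, ∑ p ∈ ball d K, U x p (A.sh x ω) ∂P := by
    simp only [← integral_const_mul]
    have bw : ∀ w : V d, BM m0 fun ω => θ ^ (2 * len w) *
        (pprod (A.ext f ω) 1 w.1 ^ 2 * psum (A.ext α ω) 1 w.1 ^ 2) := fun w =>
      (BM.const _).mul (((w3_BM_pprod A hf _ _).pow 2).mul ((w3_BM_psum A hα _ _).pow 2))
    rw [← integral_finsetSum _ fun w _ => (bw w).integrable]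
    refine integral_mono_ae (BM.sum _ fun w _ => bw w).integrable
      ((BM.const 2).mul (BM.sum _ fun x _ => BM.sum _ fun p _ =>
        w3_BM_sh A (bU x p) x)).integrable ?_
    filter_upwards [A.ae_sh hD.fwd] with ω hω
    refine (path_split (f := A.ext f ω) (α := A.ext α ω) (fun y c => (hf c).2 _)
      (fun y c => h0 _ _) K).trans ?_
    refine mul_le_mul_of_nonneg_left (sum_le_sum fun x _ => sum_le_sum fun p _ => ?_) zero_le_two
    have h1 := hω (x * p)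
    simp only [A.pprod_sh, mul_one] at h1
    simp only [hU, A.pprod_sh, mul_inv_cancel, A.sh_mul, ha, ha', mul_step, mul_one]
    refine mul_le_mul_of_nonneg_left (mul_le_mul_of_nonneg_left h1
      (mul_nonneg (w3_pow _ _) (sum_nonneg fun c _ => h0 _ _))) ?_
    exact mul_nonneg (mul_nonneg (w3_pow _ _) (sq_nonneg _)) (sum_nonneg fun c _ => h0 _ _)
  have s2 : ∫ ω, 2 * ∑ x ∈ ball d K, ∑ p ∈ ball d K, U x p (A.sh x ω) ∂P =
      2 * ∑ p ∈ ball d K, ∫ ω, ∑ x ∈ ball d K, U x p ω ∂P := by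
    rw [integral_const_mul, integral_finsetSum _ fun x _ =>
      (BM.sum _ fun p _ => w3_BM_sh A (bU x p) x).integrable]
    congr 1
    rw [sum_congr rfl fun x _ => integral_finsetSum _ fun p _ =>
      (w3_BM_sh A (bU x p) x).integrable, sum_comm]
    refine sum_congr rfl fun p _ => ?_
    rw [integral_finsetSum _ fun x _ => (bU x p).integrable]
    exact sum_congr rfl fun x _ => A.integral_sh x (bU x p).meas
  have s3 : ∀ p, ∫ ω, ∑ x ∈ ball d K, U x p ω ∂P ≤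
      θ ^ (2 * len p) * ∫ ω, A.beta α Γ ω * A.beta α Γ (A.sh p ω) ∂P := by
    intro p
    rw [← integral_const_mul]
    refine integral_mono_ae (BM.sum _ fun x _ => bU x p).integrable
      ((BM.const _).mul (bβ.mul (w3_BM_sh A bβ p))).integrable ?_
    filter_upwards [hD.bwd] with ω hω
    simp only [hU]
    rw [← sum_mul, ← sum_mul]
    have h1 : ∑ x ∈ ball d K, θ ^ (2 * len x) * pprod (A.ext f ω) x⁻¹ x.1 ^ 2 =
        Gsum θ K fun w => pprod (A.ext f ω) w w⁻¹.1 := by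
      rw [Gsum, ← sum_ball_inv]
      simp only [inv_inv]
      refine sum_congr rfl fun x _ => ?_
      simp [len]
    rw [h1]
    have h2 : Gsum θ K (fun w => pprod (A.ext f ω) w w⁻¹.1) * a ω ≤ A.beta α Γ ω := by
      have := mul_le_mul_of_nonneg_right hω (a0 ω)
      have h3 := mul_nonneg (a0' ω) (hD.nonneg ω)
      change _ ≤ (a ω + a' ω) * Γ ω
      linarith
    have h3 : a' (A.sh p ω) * Γ (A.sh p ω) ≤ A.beta α Γ (A.sh p ω) := by
      have h3 := mul_nonneg (a0 (A.sh p ω)) (hD.nonneg (A.sh p ω))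
      change _ ≤ (a (A.sh p ω) + a' (A.sh p ω)) * Γ (A.sh p ω)
      linarith
    have h4 := mul_le_mul h2 h3 (mul_nonneg (a0' _) (hD.nonneg _))
      ((mul_nonneg (w3_Gsum_nonneg _ _) (a0 ω)).trans h2)
    have h5 := mul_le_mul_of_nonneg_left h4 (w3_pow θ (len p))
    refine le_trans (le_of_eq ?_) h5
    ring
  have s4 := sum_le_sum fun p (_ : p ∈ ball d K) => s3 p
  rw [sum_ball (fun p => θ ^ (2 * len p) * ∫ ω, A.beta α Γ ω * A.beta α Γ (A.sh p ω) ∂P)] at s4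
  have s5 := sum_le_sum fun j (_ : j ∈ range (K + 1)) => w3_corr A h bβ eβ j
  rw [sum_add_distrib, sum_const, card_range, nsmul_eq_mul, ← sum_mul, ← sum_div] at s5
  have s6 := w3_summable.sum_le_tsum (range (K + 1)) fun j _ => by positivity
  rw [← hC0] at s6
  have v0 : 0 ≤ ∫ ω, A.beta α Γ ω ^ 2 ∂P := integral_nonneg fun _ => sq_nonneg _
  have s7 := mul_le_mul_of_nonneg_right s6 v0
  have s8 : 0 ≤ C0 * (((K : ℝ) + 1) * (∫ ω, A.beta α Γ ω ∂P) ^ 2) := by positivity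
  push_cast at s5
  nlinarith

end Vale.Agent.P161E
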