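import Vale.Agent.P161E.W1
import Vale.Agent.P161E.W3

/-! Weighted second moment of path sums of an even centred edge function.  Put `b = d - 1`.
Split the ball into levels (`sum_ball`).  Levels `k ≤ k1`: drop the weight (`Act.pprod_mem`), use
`W1` and `b θ² ≤ 1`: at most `C k A0`, in total `C k1² A0`.  Levels `k > k1`: let `Λ = √(K A0)`,
`α c = |a c|` where `|a c| > Λ` and `0` elsewhere.  Then `|psum a| ≤ k Λ + psum α` (induction on the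
list), so `(psum a)² ≤ 2 K³ A0 + 2 (psum α)²`.  The first part gives
`2 K³ A0 * card (sph k) b^(-k) exp (-g k) ≤ 3 K³ A0 exp (-g k1)` per level (`card_sph_le`).  The second
is bounded by `W3`.  With `β = A.beta α Γ = s Γ`: `P(β ≠ 0) ≤ 2 ∑_c P(|a c| > Λ) ≤ 2 / K` (Markov), so by
Cauchy-Schwarz `(K+1) (∫ β)² ≤ 4 ∫ β²`, and `∫ β² ≤ l² ∫ s² + (2 d L M)² p`, `∫ s² ≤ 4 d A0`. -/

namespace Vale.Agent.P161E

open MeasureTheory Finset

variable {d : ℕ} {θ : ℝ} {Ω : Type} {m0 : MeasurableSpace Ω} {P : Measure Ω}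
  [IsProbabilityMeasure P]

/-- The large part of a number. -/
noncomputable def w4tr (T x : ℝ) : ℝ := if T < x ^ 2 then |x| else 0

lemma w4tr_nonneg (T x : ℝ) : 0 ≤ w4tr T x := by
  unfold w4tr; split_ifs
  · exact abs_nonneg _
  · exact le_rfl

lemma w4tr_le (T x : ℝ) : w4tr T x ≤ |x| := by
  unfold w4tr; split_ifs
  · exact le_rfl
  · exact abs_nonneg _

lemma w4tr_ge (T x : ℝ) : |x| ≤ √T + w4tr T x := by
  unfold w4tr; split_ifs with h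
  · linarith [Real.sqrt_nonneg T]
  · rw [add_zero]; exact Real.abs_le_sqrt (not_lt.1 h)

lemma w4tr_ne {T x : ℝ} (h : w4tr T x ≠ 0) : T ≤ x ^ 2 := by
  unfold w4tr at h; split_ifs at h with h1
  · exact h1.le
  · exact absurd rfl h

lemma w4tr_meas (T : ℝ) : Measurable (w4tr T) :=
  Measurable.ite (measurableSet_lt measurable_const (measurable_id.pow_const 2))
    continuous_abs.measurable measurable_const

lemma w4_psum (T : ℝ) (e : V d → Fin d → ℝ) (x : V d) (l : List (Fin d)) :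
    |psum e x l| ≤ l.length * √T + psum (fun y c => w4tr T (e y c)) x l := by
  induction l with
  | nil => simp [psum]
  | cons c l ih =>
    have h1 := w4tr_ge T (e (walk x l) c)
    have h2 := abs_add_le (psum e x l) (e (walk x l) c)
    simp only [psum, List.length_cons, Nat.cast_add, Nat.cast_one]
    linarith

lemma w4_psum_sq {T : ℝ} (hT : 0 ≤ T) (e : V d → Fin d → ℝ) (w : V d) {K : ℕ} (hw : len w ≤ K) :
    psum e 1 w.1 ^ 2 ≤
      2 * (K : ℝ) ^ 2 * T + 2 * psum (fun y c => w4tr T (e y c)) 1 w.1 ^ 2 := by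
  have h1 := w4_psum T e 1 w.1
  have h2 : (w.1.length : ℝ) ≤ K := by exact_mod_cast hw
  have h3 := mul_le_mul_of_nonneg_right h2 (Real.sqrt_nonneg T)
  have h4 : |psum e 1 w.1| ≤ K * √T + psum (fun y c => w4tr T (e y c)) 1 w.1 := by linarith
  have h5 := pow_le_pow_left₀ (abs_nonneg _) h4 2
  rw [sq_abs] at h5
  have h6 : (K * √T) ^ 2 = (K : ℝ) ^ 2 * T := by rw [mul_pow, Real.sq_sqrt hT]
  nlinarith [sq_nonneg (K * √T - psum (fun y c => w4tr T (e y c)) 1 w.1)]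

lemma w4_levels (K k1 : ℕ) :
    ∑ k ∈ range (K + 1), (if k ≤ k1 then (k : ℝ) else 0) ≤ (k1 : ℝ) ^ 2 := by
  have h : ∀ n : ℕ, ∑ k ∈ range (n + 1), (if k ≤ k1 then (k : ℝ) else 0) ≤
      (min n k1 : ℕ) * (k1 : ℝ) := by
    intro n
    induction n with
    | zero => simp
    | succ n ih =>
      rw [sum_range_succ]
      split_ifs with hn
      · have e1 : min n k1 = n := by omega
        have e2 : min (n + 1) k1 = n + 1 := by omega
        rw [e1] at ih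
        rw [e2]
        have : ((n + 1 : ℕ) : ℝ) ≤ k1 := by exact_mod_cast hn
        push_cast at this ⊢
        linarith
      · have e1 : min n k1 = min (n + 1) k1 := by omega
        rw [← e1]; linarith
  have h2 : ((min K k1 : ℕ) : ℝ) ≤ k1 := by exact_mod_cast min_le_right K k1
  have h3 := mul_le_mul_of_nonneg_right h2 (Nat.cast_nonneg (α := ℝ) k1)
  have h4 := h K
  nlinarith

lemma w4_sq_two (u v : Fin d → ℝ) :
    (∑ c, |u c| + ∑ c, |v c|) ^ 2 ≤ 2 * d * (∑ c, u c ^ 2 + ∑ c, v c ^ 2) := by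
  have h1 := sq_sum_le_card_mul_sum_sq (s := (univ : Finset (Fin d))) (f := fun c => |u c|)
  have h2 := sq_sum_le_card_mul_sum_sq (s := (univ : Finset (Fin d))) (f := fun c => |v c|)
  simp only [card_univ, Fintype.card_fin, sq_abs] at h1 h2
  nlinarith [sq_nonneg (∑ c, |u c| - ∑ c, |v c|)]

lemma w4_beta (A : Act d P) {a : Fin d → Ω → ℝ} {Γ : Ω → ℝ} {K : ℕ} {A0 L M l p : ℝ}
    (ha : ∀ c, Measurable (a c)) (hL : ∀ c ω, |a c ω| ≤ L)
    (hA : ∑ c, ∫ ω, a c ω ^ 2 ∂P ≤ A0) (hA0 : 0 < A0) (hK : 1 ≤ K) (hl : 0 ≤ l)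
    (hΓ : Measurable Γ) (hΓ0 : ∀ ω, 0 ≤ Γ ω) (hM : ∀ ω, Γ ω ≤ M)
    (hp : P.real {ω | l < Γ ω} ≤ p) :
    (K + 1) * (∫ ω, A.beta (fun c ω => w4tr (K * A0) (a c ω)) Γ ω ∂P) ^ 2 +
        ∫ ω, A.beta (fun c ω => w4tr (K * A0) (a c ω)) Γ ω ^ 2 ∂P ≤
      20 * d * (l ^ 2 * A0) + 20 * d ^ 2 * ((L * M) ^ 2 * p) := by
  have hK' : (1 : ℝ) ≤ K := by exact_mod_cast hK
  have ba : ∀ c, BM m0 (a c) := fun c => ⟨ha c, L, hL c⟩
  have bα : ∀ c, BM m0 fun ω => w4tr (K * A0) (a c ω) := fun c =>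
    ⟨(w4tr_meas _).comp (ha c), L, fun ω => by
      rw [abs_of_nonneg (w4tr_nonneg _ _)]; exact (w4tr_le _ _).trans (hL c ω)⟩
  have bΓ : BM m0 Γ := ⟨hΓ, M, fun ω => by rw [abs_of_nonneg (hΓ0 ω)]; exact hM ω⟩
  obtain ⟨s, hs⟩ : ∃ s : Ω → ℝ, s = fun ω => ∑ c, w4tr (K * A0) (a c ω) +
      ∑ c, w4tr (K * A0) (a c (A.sh (step c 1) ω)) := ⟨_, rfl⟩
  obtain ⟨N, hN⟩ : ∃ N : Ω → ℝ, N = fun ω => ∑ c, a c ω ^ 2 +
      ∑ c, a c (A.sh (step c 1) ω) ^ 2 := ⟨_, rfl⟩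
  have eβ : ∀ ω, A.beta (fun c ω => w4tr (K * A0) (a c ω)) Γ ω = s ω * Γ ω := fun ω => by
    rw [hs]; rfl
  have bs : BM m0 s := by
    rw [hs]
    exact (BM.sum _ fun c _ => bα c).add (BM.sum _ fun c _ => w3_BM_sh A (bα c) _)
  have bN1 : BM m0 fun ω => ∑ c, a c ω ^ 2 := BM.sum _ fun c _ => (ba c).pow 2
  have bN2 : BM m0 fun ω => ∑ c, a c (A.sh (step c 1) ω) ^ 2 :=
    BM.sum _ fun c _ => (w3_BM_sh A (ba c) _).pow 2
  have bN : BM m0 N := by rw [hN]; exact bN1.add bN2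
  have s0 : ∀ ω, 0 ≤ s ω := fun ω => by
    rw [hs]
    exact add_nonneg (sum_nonneg fun _ _ => w4tr_nonneg _ _) (sum_nonneg fun _ _ => w4tr_nonneg _ _)
  have N0 : ∀ ω, 0 ≤ N ω := fun ω => by
    rw [hN]
    exact add_nonneg (sum_nonneg fun _ _ => sq_nonneg _) (sum_nonneg fun _ _ => sq_nonneg _)
  have iN : ∫ ω, N ω ∂P ≤ 2 * A0 := by
    rw [hN, integral_add bN1.integrable bN2.integrable,
      integral_finsetSum _ fun c _ => ((ba c).pow 2).integrable,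
      integral_finsetSum _ fun c _ => ((w3_BM_sh A (ba c) _).pow 2).integrable]
    have : ∑ c, ∫ ω, a c (A.sh (step c 1) ω) ^ 2 ∂P = ∑ c, ∫ ω, a c ω ^ 2 ∂P :=
      sum_congr rfl fun c _ => A.integral_sh (step c 1) ((ba c).pow 2).meas
    linarith
  have sabs : ∀ ω, s ω ≤ ∑ c, |a c ω| + ∑ c, |a c (A.sh (step c 1) ω)| := fun ω => by
    rw [hs]
    exact add_le_add (sum_le_sum fun _ _ => w4tr_le _ _) (sum_le_sum fun _ _ => w4tr_le _ _)
  have sN : ∀ ω, s ω ^ 2 ≤ 2 * d * N ω := fun ω => by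
    refine (pow_le_pow_left₀ (s0 ω) (sabs ω) 2).trans ?_
    rw [hN]
    exact w4_sq_two _ _
  have sL : ∀ ω, s ω ≤ 2 * d * L := fun ω => by
    have h1 : ∑ c, |a c ω| ≤ ∑ _c : Fin d, L := sum_le_sum fun c _ => hL c ω
    have h2 : ∑ c, |a c (A.sh (step c 1) ω)| ≤ ∑ _c : Fin d, L := sum_le_sum fun c _ => hL c _
    simp only [sum_const, card_univ, Fintype.card_fin, nsmul_eq_mul] at h1 h2
    linarith [sabs ω]
  have sne : ∀ ω, s ω ≠ 0 → K * A0 ≤ N ω := fun ω hω => by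
    by_contra hc
    apply hω
    have k1 : ∀ c, a c ω ^ 2 ≤ N ω := fun c => by
      rw [hN]
      have := single_le_sum (f := fun c => a c ω ^ 2) (fun _ _ => sq_nonneg _) (mem_univ c)
      have h2 : 0 ≤ ∑ c, a c (A.sh (step c 1) ω) ^ 2 := sum_nonneg fun _ _ => sq_nonneg _
      simp only
      linarith
    have k2 : ∀ c, a c (A.sh (step c 1) ω) ^ 2 ≤ N ω := fun c => by
      rw [hN]
      have := single_le_sum (f := fun c => a c (A.sh (step c 1) ω) ^ 2)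
        (fun _ _ => sq_nonneg _) (mem_univ c)
      have h2 : 0 ≤ ∑ c, a c ω ^ 2 := sum_nonneg fun _ _ => sq_nonneg _
      simp only
      linarith
    rw [hs]
    simp only
    rw [sum_eq_zero, sum_eq_zero, add_zero]
    · intro c _
      by_contra h2
      exact hc ((w4tr_ne h2).trans (k2 c))
    · intro c _
      by_contra h2
      exact hc ((w4tr_ne h2).trans (k1 c))
  simp only [eβ]
  have bβ : BM m0 fun ω => s ω * Γ ω := bs.mul bΓ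
  obtain ⟨μ, hμ⟩ : ∃ μ, μ = ∫ ω, s ω * Γ ω ∂P := ⟨_, rfl⟩
  obtain ⟨B, hB⟩ : ∃ B, B = ∫ ω, (s ω * Γ ω) ^ 2 ∂P := ⟨_, rfl⟩
  rw [← hμ, ← hB]
  have B0 : 0 ≤ B := by rw [hB]; exact integral_nonneg fun _ => sq_nonneg _
  have e1 : K * μ * μ ≤ B + K * μ ^ 2 / (4 * A0) * ∫ ω, N ω ∂P := by
    have e0 : K * μ * μ = ∫ ω, K * μ * (s ω * Γ ω) ∂P := by rw [integral_const_mul, ← hμ]
    rw [e0, hB, ← integral_const_mul, ← integral_add (bβ.pow 2).integrable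
      ((BM.const _).mul bN).integrable]
    refine integral_mono ((BM.const _).mul bβ).integrable
      ((bβ.pow 2).add ((BM.const _).mul bN)).integrable fun ω => ?_
    simp only
    have c0 : 0 ≤ K * μ ^ 2 / (4 * A0) := by positivity
    by_cases hω : s ω = 0
    · rw [hω]
      have := mul_nonneg c0 (N0 ω)
      simpa using this
    · have h1 := mul_le_mul_of_nonneg_left (sne ω hω) c0
      have h2 : K * μ ^ 2 / (4 * A0) * (K * A0) = (K * μ / 2) ^ 2 := by field_simp; ring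
      nlinarith [sq_nonneg (s ω * Γ ω - K * μ / 2)]
  have e2 : (K + 1) * μ ^ 2 ≤ 4 * B := by
    have c0 : 0 ≤ K * μ ^ 2 / (4 * A0) := by positivity
    have h1 := mul_le_mul_of_nonneg_left iN c0
    have h2 : K * μ ^ 2 / (4 * A0) * (2 * A0) = K * μ ^ 2 / 2 := by field_simp; ring
    have h3 := mul_le_mul_of_nonneg_right hK' (sq_nonneg μ)
    nlinarith
  have e3 : B ≤ l ^ 2 * ∫ ω, s ω ^ 2 ∂P + (2 * d * L) ^ 2 * M ^ 2 * P.real {ω | l < Γ ω} := by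
    have h1 := integral_mul_le (P := P) (bs.pow 2) (bΓ.pow 2) (C := (2 * d * L) ^ 2) (D := M ^ 2)
      (sq_nonneg l) (fun ω => ⟨sq_nonneg _, pow_le_pow_left₀ (s0 ω) (sL ω) 2⟩)
      (fun ω => ⟨sq_nonneg _, pow_le_pow_left₀ (hΓ0 ω) (hM ω) 2⟩)
    have h2 : {ω | l ^ 2 < Γ ω ^ 2} = {ω | l < Γ ω} := by
      ext ω
      exact pow_lt_pow_iff_left₀ hl (hΓ0 ω) two_ne_zero
    rw [h2] at h1
    rw [hB]
    simp only [mul_pow (s _)]
    exact h1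
  have e4 : ∫ ω, s ω ^ 2 ∂P ≤ 4 * d * A0 := by
    have h1 : ∫ ω, s ω ^ 2 ∂P ≤ ∫ ω, 2 * d * N ω ∂P :=
      integral_mono (bs.pow 2).integrable ((BM.const _).mul bN).integrable sN
    rw [integral_const_mul] at h1
    have h2 := mul_le_mul_of_nonneg_left iN (by positivity : (0 : ℝ) ≤ 2 * d)
    linarith
  have e5 := mul_le_mul_of_nonneg_left e4 (sq_nonneg l)
  have e6 := mul_le_mul_of_nonneg_left hp (by positivity : (0 : ℝ) ≤ (2 * d * L) ^ 2 * M ^ 2)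
  have e7 : (2 * d * L) ^ 2 * M ^ 2 * p = 4 * d ^ 2 * ((L * M) ^ 2 * p) := by ring
  have e8 : l ^ 2 * (4 * d * A0) = 4 * d * (l ^ 2 * A0) := by ring
  linarith

lemma w4_far (A : Act d P) (h : Hyp d θ) {f : Fin d → Ω → ℝ} {g : ℝ} (hg : 0 ≤ g)
    (hw : ∀ w : V d, (((d : ℝ) - 1) * θ ^ 2) ^ len w * ∫ ω, pprod (A.ext f ω) 1 w.1 ^ 2 ∂P ≤
      Real.exp (-g * len w)) {k k1 : ℕ} (hk : k1 ≤ k) :
    ∑ w ∈ sph d k, θ ^ (2 * len w) * ∫ ω, pprod (A.ext f ω) 1 w.1 ^ 2 ∂P ≤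
      3 / 2 * Real.exp (-g * k1) := by
  have h3 : (3 : ℝ) ≤ d := by exact_mod_cast h.hd
  have hb : (0 : ℝ) < ((d : ℝ) - 1) ^ k := pow_pos (by linarith) _
  have h1 : ∀ w ∈ sph d k, θ ^ (2 * len w) * ∫ ω, pprod (A.ext f ω) 1 w.1 ^ 2 ∂P ≤
      Real.exp (-g * k1) / ((d : ℝ) - 1) ^ k := fun w hm => by
    have h2 := hw w
    rw [mem_sph.1 hm] at h2 ⊢
    have h4 : (k1 : ℝ) ≤ k := by exact_mod_cast hk
    have h5 : Real.exp (-g * k) ≤ Real.exp (-g * k1) :=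
      Real.exp_le_exp.2 (by nlinarith)
    rw [le_div_iff₀ hb]
    rw [mul_pow] at h2
    rw [pow_mul]
    linarith
  have h6 := sum_le_card_nsmul _ _ _ h1
  rw [nsmul_eq_mul] at h6
  have h7 := mul_le_mul_of_nonneg_right (card_sph_le h.hd k)
    (div_nonneg (Real.exp_pos (-g * k1)).le hb.le)
  have h8 : 3 / 2 * ((d : ℝ) - 1) ^ k * (Real.exp (-g * k1) / ((d : ℝ) - 1) ^ k) =
      3 / 2 * Real.exp (-g * k1) := by field_simp
  linarith

theorem Act.W4 (A : Act d P) (h : Hyp d θ) : ∃ C : ℝ, 0 ≤ C ∧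
    ∀ (f a : Fin d → Ω → ℝ) (Γ : Ω → ℝ) (K k1 : ℕ) (g A0 L M l p : ℝ), Unit01 m0 f →
    (∀ c, Measurable (a c)) → (∀ c ω, |a c ω| ≤ L) → (∀ c ω, a c (A.io ω) = a c ω) →
    (∀ c, ∫ ω, a c ω ∂P = 0) → ∑ c, ∫ ω, a c ω ^ 2 ∂P ≤ A0 → 0 < A0 → 1 ≤ K → 0 ≤ g → 0 ≤ l →
    A.Dom θ K f Γ → (∀ ω, Γ ω ≤ M) → P.real {ω | l < Γ ω} ≤ p →
    (∀ w : V d, (((d : ℝ) - 1) * θ ^ 2) ^ len w * ∫ ω, pprod (A.ext f ω) 1 w.1 ^ 2 ∂P ≤
      Real.exp (-g * len w)) →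
    ∑ w ∈ ball d K, θ ^ (2 * len w) *
        ∫ ω, pprod (A.ext f ω) 1 w.1 ^ 2 * psum (A.ext a ω) 1 w.1 ^ 2 ∂P ≤
      C * (((k1 : ℝ) ^ 2 + l ^ 2 + (K : ℝ) ^ 4 * Real.exp (-g * k1)) * A0 + (L * M) ^ 2 * p) := by
  obtain ⟨C1, C10, H1⟩ := A.W1 h.hd
  obtain ⟨C3, C30, H3⟩ := A.W3 h
  have h3 : (3 : ℝ) ≤ d := by exact_mod_cast h.hd
  refine ⟨C1 + 6 + 40 * C3 * d ^ 2, by positivity,
    fun f a Γ K k1 g A0 L M l p hf ha hL he hz hA hA0 hK hg hl hD hM hp hw => ?_⟩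
  have hK' : (1 : ℝ) ≤ K := by exact_mod_cast hK
  have ba : ∀ c, BM m0 (a c) := fun c => ⟨ha c, L, hL c⟩
  have bα : ∀ c, BM m0 fun ω => w4tr (K * A0) (a c ω) := fun c =>
    ⟨(w4tr_meas _).comp (ha c), L, fun ω => by
      rw [abs_of_nonneg (w4tr_nonneg _ _)]; exact (w4tr_le _ _).trans (hL c ω)⟩
  have bΓ : BM m0 Γ := ⟨hD.meas, M, fun ω => by rw [abs_of_nonneg (hD.nonneg ω)]; exact hM ω⟩
  have k3 := H3 f (fun c ω => w4tr (K * A0) (a c ω)) Γ K hf bα (fun c ω => w4tr_nonneg _ _)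
    (fun c ω => by simp only [he]) hD bΓ
  have k4 := w4_beta A ha hL hA hA0 hK hl hD.meas hD.nonneg hM hp
  have k5 := k3.trans (mul_le_mul_of_nonneg_left k4 C30)
  rw [sum_ball] at k5 ⊢
  have lev : ∀ k ∈ range (K + 1), ∑ w ∈ sph d k, θ ^ (2 * len w) *
        ∫ ω, pprod (A.ext f ω) 1 w.1 ^ 2 * psum (A.ext a ω) 1 w.1 ^ 2 ∂P ≤
      C1 * A0 * (if k ≤ k1 then (k : ℝ) else 0) + 3 * (K : ℝ) ^ 3 * A0 * Real.exp (-g * k1) +
        2 * ∑ w ∈ sph d k, θ ^ (2 * len w) * ∫ ω, pprod (A.ext f ω) 1 w.1 ^ 2 *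
          psum (A.ext (fun c ω => w4tr (K * A0) (a c ω)) ω) 1 w.1 ^ 2 ∂P := by
    intro k hk
    have z3 : 0 ≤ ∑ w ∈ sph d k, θ ^ (2 * len w) * ∫ ω, pprod (A.ext f ω) 1 w.1 ^ 2 *
          psum (A.ext (fun c ω => w4tr (K * A0) (a c ω)) ω) 1 w.1 ^ 2 ∂P :=
      sum_nonneg fun w _ => mul_nonneg (w3_pow _ _)
        (integral_nonneg fun ω => mul_nonneg (sq_nonneg _) (sq_nonneg _))
    have z2 : 0 ≤ 3 * (K : ℝ) ^ 3 * A0 * Real.exp (-g * k1) := by positivity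
    split_ifs with hk1
    · have m1 : ∑ w ∈ sph d k, θ ^ (2 * len w) *
          ∫ ω, pprod (A.ext f ω) 1 w.1 ^ 2 * psum (A.ext a ω) 1 w.1 ^ 2 ∂P ≤
          θ ^ (2 * k) * ∑ w ∈ sph d k, ∫ ω, psum (A.ext a ω) 1 w.1 ^ 2 ∂P := by
        rw [mul_sum]
        refine sum_le_sum fun w hm => ?_
        rw [mem_sph.1 hm]
        refine mul_le_mul_of_nonneg_left (integral_mono
          (((w3_BM_pprod A hf _ _).pow 2).mul ((w3_BM_psum A ba _ _).pow 2)).integrable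
          ((w3_BM_psum A ba _ _).pow 2).integrable fun ω => ?_) (w3_pow _ _)
        have q1 := A.pprod_mem hf 1 w.1 ω
        have q2 : pprod (A.ext f ω) 1 w.1 ^ 2 ≤ 1 := pow_le_one₀ q1.1 q1.2
        exact mul_le_of_le_one_left (sq_nonneg _) q2
      have m2 := mul_le_mul_of_nonneg_left (H1 a ba he hz k) (w3_pow θ k)
      have m3 : (((d : ℝ) - 1) * θ ^ 2) ^ k ≤ 1 :=
        pow_le_one₀ (mul_nonneg (by linarith) (sq_nonneg _)) h.h1
      have m0' : 0 ≤ ∑ c, ∫ ω, a c ω ^ 2 ∂P :=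
        sum_nonneg fun c _ => integral_nonneg fun _ => sq_nonneg _
      have m4 : (((d : ℝ) - 1) * θ ^ 2) ^ k * ∑ c, ∫ ω, a c ω ^ 2 ∂P ≤ A0 :=
        (mul_le_of_le_one_left m0' m3).trans hA
      have m5 := mul_le_mul_of_nonneg_left m4 (by positivity : 0 ≤ C1 * k)
      have m6 : θ ^ (2 * k) * (C1 * k * ((d : ℝ) - 1) ^ k * ∑ c, ∫ ω, a c ω ^ 2 ∂P) =
          C1 * k * ((((d : ℝ) - 1) * θ ^ 2) ^ k * ∑ c, ∫ ω, a c ω ^ 2 ∂P) := by
        rw [mul_pow, pow_mul]; ring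
      linarith
    · have m1 : ∑ w ∈ sph d k, θ ^ (2 * len w) *
          ∫ ω, pprod (A.ext f ω) 1 w.1 ^ 2 * psum (A.ext a ω) 1 w.1 ^ 2 ∂P ≤
          2 * (K : ℝ) ^ 3 * A0 *
            ∑ w ∈ sph d k, θ ^ (2 * len w) * ∫ ω, pprod (A.ext f ω) 1 w.1 ^ 2 ∂P +
          2 * ∑ w ∈ sph d k, θ ^ (2 * len w) * ∫ ω, pprod (A.ext f ω) 1 w.1 ^ 2 *
          psum (A.ext (fun c ω => w4tr (K * A0) (a c ω)) ω) 1 w.1 ^ 2 ∂P := by
        rw [mul_sum, mul_sum, ← sum_add_distrib]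
        refine sum_le_sum fun w hm => ?_
        have b1 := (w3_BM_pprod A hf 1 w.1).pow 2
        have b2 := b1.mul ((w3_BM_psum A bα 1 w.1).pow 2)
        have q0 : ∫ ω, pprod (A.ext f ω) 1 w.1 ^ 2 * psum (A.ext a ω) 1 w.1 ^ 2 ∂P ≤
            2 * (K : ℝ) ^ 3 * A0 * ∫ ω, pprod (A.ext f ω) 1 w.1 ^ 2 ∂P +
            2 * ∫ ω, pprod (A.ext f ω) 1 w.1 ^ 2 *
              psum (A.ext (fun c ω => w4tr (K * A0) (a c ω)) ω) 1 w.1 ^ 2 ∂P := by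
          rw [← integral_const_mul, ← integral_const_mul, ← integral_add
            ((BM.const _).mul b1).integrable ((BM.const _).mul b2).integrable]
          refine integral_mono (b1.mul ((w3_BM_psum A ba _ _).pow 2)).integrable
            (((BM.const _).mul b1).add ((BM.const _).mul b2)).integrable fun ω => ?_
          have hlen : len w ≤ K := by
            rw [mem_sph.1 hm]; exact Nat.lt_succ_iff.1 (mem_range.1 hk)
          have q1 := w4_psum_sq (T := K * A0) (by positivity) (A.ext a ω) w hlen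
          have q2 := mul_le_mul_of_nonneg_left q1 (sq_nonneg (pprod (A.ext f ω) 1 w.1))
          refine q2.trans (le_of_eq ?_)
          have q3 : (fun y c => w4tr (K * A0) (A.ext a ω y c)) =
              A.ext (fun c ω => w4tr (K * A0) (a c ω)) ω := rfl
          rw [q3]
          ring
        have q4 := mul_le_mul_of_nonneg_left q0 (w3_pow θ (len w))
        linarith
      have m2 := mul_le_mul_of_nonneg_left (w4_far A h hg hw (not_le.1 hk1).le)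
        (by positivity : 0 ≤ 2 * (K : ℝ) ^ 3 * A0)
      linarith
  have s1 := sum_le_sum lev
  rw [sum_add_distrib, sum_add_distrib, sum_const, card_range, nsmul_eq_mul, ← mul_sum,
    ← mul_sum] at s1
  have s2 := mul_le_mul_of_nonneg_left (w4_levels K k1) (by positivity : 0 ≤ C1 * A0)
  have p0 : 0 ≤ p := measureReal_nonneg.trans hp
  obtain ⟨E, hE⟩ : ∃ E, E = Real.exp (-g * k1) := ⟨_, rfl⟩
  have E0 : 0 ≤ E := by rw [hE]; positivity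
  rw [← hE] at s1 ⊢
  obtain ⟨x1, hx1⟩ : ∃ x, x = (k1 : ℝ) ^ 2 * A0 := ⟨_, rfl⟩
  obtain ⟨x2, hx2⟩ : ∃ x, x = l ^ 2 * A0 := ⟨_, rfl⟩
  obtain ⟨x3, hx3⟩ : ∃ x, x = (K : ℝ) ^ 4 * E * A0 := ⟨_, rfl⟩
  obtain ⟨x4, hx4⟩ : ∃ x, x = (L * M) ^ 2 * p := ⟨_, rfl⟩
  have x10 : 0 ≤ x1 := by rw [hx1]; positivity
  have x20 : 0 ≤ x2 := by rw [hx2]; positivity
  have x30 : 0 ≤ x3 := by rw [hx3]; positivity
  have x40 : 0 ≤ x4 := by rw [hx4]; positivity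
  have r0 : ((k1 : ℝ) ^ 2 + l ^ 2 + (K : ℝ) ^ 4 * E) * A0 + (L * M) ^ 2 * p =
      x1 + x2 + x3 + x4 := by rw [hx1, hx2, hx3, hx4]; ring
  rw [r0]
  rw [← hx2, ← hx4] at k5
  have r1 : C1 * A0 * (k1 : ℝ) ^ 2 = C1 * x1 := by rw [hx1]; ring
  have r2 : ((K + 1 : ℕ) : ℝ) * (3 * (K : ℝ) ^ 3 * A0 * E) ≤ 6 * x3 := by
    have t1 : ((K + 1 : ℕ) : ℝ) ≤ 2 * K := by push_cast; linarith
    have t2 := mul_le_mul_of_nonneg_right t1 (by positivity : 0 ≤ 3 * (K : ℝ) ^ 3 * A0 * E)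
    refine t2.trans (le_of_eq ?_)
    rw [hx3]; ring
  have r3 : C3 * (20 * d * x2) ≤ 20 * C3 * d ^ 2 * x2 := by
    have t1 : (d : ℝ) ≤ d ^ 2 := by nlinarith
    have t2 := mul_le_mul_of_nonneg_left t1 (by positivity : 0 ≤ 20 * C3 * x2)
    linarith
  obtain ⟨D, hD'⟩ : ∃ D, D = C3 * (d : ℝ) ^ 2 := ⟨_, rfl⟩
  have D0 : 0 ≤ D := by rw [hD']; positivity
  have r4 : 20 * C3 * d ^ 2 * x2 = 20 * (D * x2) := by rw [hD']; ring
  have r5 : C3 * (20 * d * x2 + 20 * d ^ 2 * x4) = C3 * (20 * d * x2) + 20 * (D * x4) := by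
    rw [hD']; ring
  have r6 : (C1 + 6 + 40 * C3 * d ^ 2) * (x1 + x2 + x3 + x4) =
      C1 * x1 + C1 * x2 + C1 * x3 + C1 * x4 + 6 * (x1 + x2 + x3 + x4) +
        40 * (D * x1 + D * x2 + D * x3 + D * x4) := by rw [hD']; ring
  have := mul_nonneg C10 x20
  have := mul_nonneg C10 x30
  have := mul_nonneg C10 x40
  have := mul_nonneg D0 x10
  have := mul_nonneg D0 x30
  linarith

end Vale.Agent.P161E
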