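import Vale.Agent.P161E.Sweep
import Vale.Agent.P161E.Innov

/-! From `DD = 0` to the factor map.
`exists_phi`: let `L` be the sigma-algebra generated by `ω ↦ (ω.1, UU θ ω)`.  For each `J : ℕ`, a bounded version
`Z` of `P[M | GG J 0]` is `L`-measurable (`GG_le_lab`) and equals `M = mag (Xc J 0) 1` a.e. (`ae_eq_of_dv`, `DD_zero`), so
`dv P L (sg σ₁) ≤ 1 - QQ` (`dv_le`, `err_Om`), which tends to `0` (`QQ_ge`, `af_tendsto`).  Hence `sg σ₁` is a.e. equal
to an `L`-measurable function `g`, which factors through the labels (`Measurable.exists_eq_measurable_comp`);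
take `φ = decide (0 < ·)`.
`exists_split`: `Measure.exists_measurable_map_eq` gives `s : unitInterval → (ℤ ⊕ ℤ → unitInterval)` with law `iid (ℤ ⊕ ℤ)`;
`κ U = (fun a => s (U a.1) (inl a.2), fun a => s (U a.1) (inr a.2))`.  The coordinates of `κ` are independent and
uniform (`iIndepFun_uncurry`, or `infinitePi_map_pi`, `infinitePi_map_curry_symm`); compare on rectangles of boxes.
`fiid`: `Φ U v = φ (pbT (lmul v) (κ U).1, pbT (lmul v) (κ U).2)`.  For every automorphism `g`, a.e.
`φ (pbT g ω.1, pbT g (UU θ ω)) = ω.2.1 (g 1)` (`PP_pb`, `UU_pb`).  Transfer the measurable statements along the measure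
preserving maps `law_lab` and `κ` (`ae_map_iff`, `Measure.map_congr`). -/

namespace Vale.Agent.P161E

open MeasureTheory ProbabilityTheory Filter

variable {d : ℕ} {θ : ℝ}

lemma exists_phi (h : Hyp d θ) : ∃ φ : T d × T d → Bool, Measurable φ ∧
    ∀ᵐ ω ∂PP d θ, φ (ω.1, UU θ ω) = ω.2.1 1 := by
  have hL : MeasurableSpace.comap (fun ω : Om d => (ω.1, UU θ ω)) inferInstance ≤
      (inferInstance : MeasurableSpace (Om d)) := (measurable_fst.prodMk measurable_UU).comap_le
  have hs : BM inferInstance fun ω : Om d => sg (ω.2.1 1) :=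
    (BM_fst (BM_sg_spin 1)).comp measurable_snd
  have h1 : ∀ J : ℕ, dv (PP d θ) (MeasurableSpace.comap (fun ω : Om d => (ω.1, UU θ ω))
      inferInstance) (fun ω => sg (ω.2.1 1)) ≤ 1 - qv (PP d θ) (af J (fun _ => 0) 1) := by
    intro J
    obtain ⟨Z, hZ, bZ, eZ⟩ := exists_condExp (P := PP d θ) (GG_le (θ := θ) (j := J) 0)
      (a := -1) (b := 1) (BM_magc (θ := θ) (j := J) (cut := fun _ => 0) 1).meas
      fun ω => abs_le.1 (abs_mag_le _)
    have e1 := ae_eq_of_dv (BM_magc 1) (DD_zero h J)
    refine (dv_le hL hs ⟨hZ.mono (GG_le_lab 0) le_rfl, 1, fun ω => abs_le.2 (bZ ω)⟩).trans ?_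
    refine le_trans (le_of_eq ?_) (sub_le_sub_left (QQ_ge h) 1)
    rw [← err_Om h]
    refine integral_congr_ae ?_
    filter_upwards [e1, eZ] with ω h1 h2
    rw [h1, h2]
  have h2 : Tendsto (fun J : ℕ => 1 - qv (PP d θ) (af J (fun _ => 0) 1)) atTop (nhds (1 - 1)) :=
    (af_tendsto 1).const_sub 1
  rw [sub_self] at h2
  have h3 := ae_eq_of_dv hs (ge_of_tendsto' h2 h1)
  obtain ⟨ψ, hψ, e⟩ := (stronglyMeasurable_condExp (μ := PP d θ)
    (m := MeasurableSpace.comap (fun ω : Om d => (ω.1, UU θ ω)) inferInstance)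
    (f := fun ω => sg (ω.2.1 1))).measurable.exists_eq_measurable_comp
  classical
  refine ⟨fun p => if 0 < ψ p then true else false,
    Measurable.ite (measurableSet_lt measurable_const hψ) measurable_const measurable_const, ?_⟩
  filter_upwards [h3] with ω hω
  rw [e, Function.comp_apply] at hω
  rw [← hω]
  cases ω.2.1 1 <;> simp [sg]

lemma split_wrap {α ι : Type} {f g : α → ι} (hf : Function.Injective f)
    (hg : Function.Injective g) (hfg : ∀ a b, f a ≠ g b) :
    MeasurePreserving (fun W : ι → unitInterval => (fun a => W (f a), fun a => W (g a)))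
      (iid ι) ((iid α).prod (iid α)) := by
  have m : ∀ f : α → ι, Measurable fun (W : ι → unitInterval) a => W (f a) := fun f =>
    measurable_pi_lambda _ fun _ => measurable_pi_apply _
  have h0 : iIndepFun (fun (i : ι) (τ : ι → unitInterval) => τ i) (iid ι) :=
    iIndepFun_infinitePi (P := fun _ : ι => (volume : Measure unitInterval))
      (X := fun _ x => x) fun _ => measurable_id
  have h1 := indep_iSup_of_disjoint (fun i => (measurable_pi_apply i).comap_le) h0.iIndep
    (S := Set.range f) (T := Set.range g) (Set.disjoint_left.2 (by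
      rintro _ ⟨a, rfl⟩ ⟨b, hb⟩
      exact hfg a b hb.symm))
  have key : ∀ f : α → ι, MeasurableSpace.comap (fun (W : ι → unitInterval) a => W (f a))
      inferInstance ≤ ⨆ i ∈ Set.range f,
        MeasurableSpace.comap (fun W : ι → unitInterval => W i) inferInstance := fun f => by
    refine Measurable.comap_le ?_
    refine @measurable_pi_lambda _ _ _ (_) _ _ fun a => ?_
    exact Measurable.mono (comap_measurable _) (le_iSup₂_of_le (f a) ⟨a, rfl⟩ le_rfl) le_rfl
  have h2 : IndepFun (fun (W : ι → unitInterval) a => W (f a)) (fun W a => W (g a)) (iid ι) := by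
    rw [IndepFun_iff_Indep]
    exact indep_of_indep_of_le_right (indep_of_indep_of_le_left h1 (key f)) (key g)
  refine ⟨(m f).prodMk (m g), ?_⟩
  rw [h2.map_prod_eq_prod_map_map (m f).aemeasurable (m g).aemeasurable]
  unfold iid
  rw [Measure.map_infinitePi_infinitePi_of_inj hf, Measure.map_infinitePi_infinitePi_of_inj hg]

lemma exists_split (d : ℕ) : ∃ κ : (V d → unitInterval) → T d × T d,
    MeasurePreserving κ (iid (V d)) ((iid (Ix d)).prod (iid (Ix d))) ∧
    ∀ (g : tree d ≃g tree d) (U : V d → unitInterval),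
      κ (fun v => U (g v)) = (pbT g (κ U).1, pbT g (κ U).2) := by
  obtain ⟨s, hs, e⟩ := (iid (ℤ × Bool)).exists_measurable_map_eq
  have m1 : MeasurePreserving (fun (U : V d → unitInterval) v => s (U v)) (iid (V d))
      (Measure.infinitePi fun _ : V d => iid (ℤ × Bool)) := by
    refine ⟨measurable_pi_lambda _ fun v => hs.comp (measurable_pi_apply v), ?_⟩
    rw [iid, Measure.infinitePi_map_pi _ fun _ => hs, e]
  have m2 : MeasurePreserving (MeasurableEquiv.curry (V d) (ℤ × Bool) unitInterval).symm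
      (Measure.infinitePi fun _ : V d => iid (ℤ × Bool)) (iid (V d × ℤ × Bool)) :=
    ⟨MeasurableEquiv.measurable _, Measure.infinitePi_map_curry_symm fun _ _ => volume⟩
  have m3 := split_wrap (α := Ix d) (ι := V d × ℤ × Bool) (f := fun a => (a.1, a.2, true))
    (g := fun a => (a.1, a.2, false))
    (fun a b h => by simp only [Prod.mk.injEq] at h; exact Prod.ext h.1 h.2.1)
    (fun a b h => by simp only [Prod.mk.injEq] at h; exact Prod.ext h.1 h.2.1)
    (fun a b h => by simp at h)
  exact ⟨_, m3.comp (m2.comp m1), fun g U => rfl⟩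

theorem fiid (h : Hyp d θ) : IsFIID (tree d) (ising d θ) := by
  obtain ⟨φ, hφ, e⟩ := exists_phi h
  obtain ⟨κ, hκ, eκ⟩ := exists_split d
  have m : ∀ g : tree d ≃g tree d, Measurable fun p : T d × T d => φ (pbT g p.1, pbT g p.2) :=
    fun g => hφ.comp (((measurable_pbT g).comp measurable_fst).prodMk
      ((measurable_pbT g).comp measurable_snd))
  have a1 : ∀ g : tree d ≃g tree d,
      ∀ᵐ ω ∂PP d θ, φ (pbT g ω.1, pbT g (UU θ ω)) = ω.2.1 (g 1) := fun g => by
    filter_upwards [(PP_pb h g).quasiMeasurePreserving.ae e] with ω hω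
    rw [UU_pb] at hω
    exact hω
  have a2 : ∀ g : tree d ≃g tree d, ∀ᵐ U ∂iid (V d), φ (pbT g (κ U).1, pbT g (κ U).2) =
      φ (pbT (lmul (g 1)) (κ U).1, pbT (lmul (g 1)) (κ U).2) := fun g => by
    refine hκ.quasiMeasurePreserving.ae (p := fun p => φ (pbT g p.1, pbT g p.2) =
      φ (pbT (lmul (g 1)) p.1, pbT (lmul (g 1)) p.2)) ?_
    rw [← (law_lab h).map_eq, ae_map_iff (law_lab h).measurable.aemeasurable
      (measurableSet_eq_fun (m g) (m _))]
    filter_upwards [a1 g, a1 (lmul (g 1))] with ω h1 h2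
    rw [h1, h2, lmul_apply, mul_one]
  have mΨ : Measurable fun (p : T d × T d) v => φ (pbT (lmul v) p.1, pbT (lmul v) p.2) :=
    measurable_pi_lambda _ fun v => m _
  refine ⟨(fun (p : T d × T d) v => φ (pbT (lmul v) p.1, pbT (lmul v) p.2)) ∘ κ,
    mΨ.comp hκ.measurable, ?_, fun g => ?_⟩
  · rw [← Measure.map_map mΨ hκ.measurable, hκ.map_eq, ← (law_lab h).map_eq,
      Measure.map_map mΨ (law_lab h).measurable]
    have a3 : ((fun (p : T d × T d) v => φ (pbT (lmul v) p.1, pbT (lmul v) p.2)) ∘
        fun ω : Om d => (ω.1, UU θ ω)) =ᵐ[PP d θ] fun ω => ω.2.1 := by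
      filter_upwards [ae_all_iff.2 fun v => a1 (lmul v)] with ω hω
      funext v
      simpa using hω v
    rw [Measure.map_congr a3]
    exact (measurePreserving_fst.comp measurePreserving_snd).map_eq
  · filter_upwards [ae_all_iff.2 fun v => a2 ((lmul v).trans g.symm)] with U hU
    funext v
    have h1 := hU v
    simp only [RelIso.trans_apply, lmul_apply, mul_one] at h1
    simp only [Function.comp_apply, eκ g.symm U]
    exact h1

end Vale.Agent.P161E
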